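/-
P162 O(d): common objects. See notes/P162_Od_helper2.md.
-/
import Vale.Agent.P162.Final

open scoped InnerProductSpace BigOperators
open Finset

namespace Vale.Agent.P162O
open Vale.Agent.P162

/-- Uniform average over a finite type. -/
noncomputable def Eu {α : Type*} [Fintype α] (f : α → ℝ) : ℝ :=
  (Fintype.card α : ℝ)⁻¹ * ∑ a, f a

section Eu
variable {α β : Type*} [Fintype α] [Fintype β]

theorem Eu_add (f g : α → ℝ) : Eu (fun a => f a + g a) = Eu f + Eu g := by
  simp [Eu, Finset.sum_add_distrib, mul_add]

theorem Eu_const [Nonempty α] (c : ℝ) : Eu (fun _ : α => c) = c := by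
  have h : (Fintype.card α : ℝ) ≠ 0 := by exact_mod_cast Fintype.card_ne_zero
  simp [Eu, Finset.card_univ]

theorem Eu_mul_left (c : ℝ) (f : α → ℝ) : Eu (fun a => c * f a) = c * Eu f := by
  simp only [Eu, ← Finset.mul_sum]
  ring

theorem Eu_mono {f g : α → ℝ} (h : ∀ a, f a ≤ g a) : Eu f ≤ Eu g := by
  unfold Eu
  exact mul_le_mul_of_nonneg_left (Finset.sum_le_sum fun a _ => h a) (by positivity)

theorem Eu_nonneg {f : α → ℝ} (h : ∀ a, 0 ≤ f a) : 0 ≤ Eu f := by
  unfold Eu
  exact mul_nonneg (by positivity) (Finset.sum_nonneg fun a _ => h a)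

theorem Eu_comm (f : α → β → ℝ) : Eu (fun a => Eu (fun b => f a b)) = Eu (fun b => Eu (fun a => f a b)) := by
  simp only [Eu, ← Finset.mul_sum]
  rw [Finset.sum_comm]
  ring

theorem Eu_equiv (e : α ≃ β) (f : β → ℝ) : Eu (fun a => f (e a)) = Eu f := by
  simp only [Eu]
  rw [Fintype.card_congr e, e.sum_comp f]

end Eu

/-- `n⁻¹ • (n * x) = x` in an algebra written with a natural cast. -/
private theorem Common_inv_smul_natCast_mul {A : Type*} [Ring A] [Algebra ℝ A] {n : ℕ} {x : A}
    (h : (n : ℝ) ≠ 0) : (n : ℝ)⁻¹ • ((n : A) * x) = x := by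
  have e : ((n : A) * x) = (n : ℝ) • x := by
    rw [Nat.cast_smul_eq_nsmul, nsmul_eq_mul]
  rw [e, smul_smul, inv_mul_cancel₀ h, one_smul]

variable {D : ℕ}

/-- Flip coordinate `k` (no effect if `k ≥ D`). -/
def bitFlip (k : ℕ) (x : Cube D) : Cube D := fun j => if (j : ℕ) = k then !(x j) else x j

/-- Clear coordinate `k`. -/
def bitClear (k : ℕ) (x : Cube D) : Cube D := fun j => if (j : ℕ) = k then false else x j

theorem bitFlip_bitFlip (k : ℕ) (x : Cube D) : bitFlip k (bitFlip k x) = x := by
  funext j
  by_cases h : (j : ℕ) = k <;> simp [bitFlip, h]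

theorem bitClear_bitFlip (k : ℕ) (x : Cube D) : bitClear k (bitFlip k x) = bitClear k x := by
  funext j
  by_cases h : (j : ℕ) = k <;> simp [bitClear, bitFlip, h]

/-- The layer on coordinate `k` with coins `c : Cube D → Bool` (coins at points with bit `k` set are unused). -/
def layFun (k : ℕ) (c : Cube D → Bool) (x : Cube D) : Cube D :=
  if c (bitClear k x) then bitFlip k x else x

theorem layFun_layFun (k : ℕ) (c : Cube D → Bool) (x : Cube D) : layFun k c (layFun k c x) = x := by
  unfold layFun
  by_cases h : c (bitClear k x) = true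
  · simp [h, bitClear_bitFlip, bitFlip_bitFlip]
  · simp [h]

/-- The layer as an involutive permutation. -/
def lay (k : ℕ) (c : Cube D → Bool) : Equiv.Perm (Cube D) where
  toFun := layFun k c
  invFun := layFun k c
  left_inv := layFun_layFun k c
  right_inv := layFun_layFun k c

@[simp] theorem lay_apply (k : ℕ) (c : Cube D → Bool) (x : Cube D) : lay k c x = layFun k c x := rfl

theorem lay_inv (k : ℕ) (c : Cube D → Bool) : (lay k c)⁻¹ = lay k c := rfl

theorem lay_lay (k : ℕ) (c : Cube D → Bool) (x : Cube D) : lay k c (lay k c x) = x :=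
  layFun_layFun k c x

/-- The layer does not change bits other than `k`. -/
theorem lay_bit_ne (k : ℕ) (c : Cube D → Bool) (x : Cube D) (j : Fin D) (hj : (j : ℕ) ≠ k) :
    lay k c x j = x j := by
  simp only [lay_apply, layFun]
  split_ifs
  · simp [bitFlip, hj]
  · rfl

/-- Layers belong to `Hk`. -/
theorem lay_mem_Hk (k : ℕ) (c : Cube D → Bool) : lay k c ∈ Hk D k :=
  fun x i hi => lay_bit_ne k c x i hi

theorem bitClear_layFun (k : ℕ) (c : Cube D → Bool) (x : Cube D) :
    bitClear k (layFun k c x) = bitClear k x := by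
  unfold layFun
  split_ifs
  · exact bitClear_bitFlip k x
  · rfl

/-- The composition of two layers is the layer of the sum of the coins. -/
theorem lay_mul_xor (k : ℕ) (c c' : Cube D → Bool) :
    lay k c * lay k c' = lay k (fun x => xor (c x) (c' x)) := by
  ext x i
  simp only [Equiv.Perm.mul_apply, lay_apply]
  have h := bitClear_layFun k c' x
  have key : layFun k c (layFun k c' x) = layFun k (fun x => xor (c x) (c' x)) x := by
    rw [layFun.eq_def k c (layFun k c' x), h]
    simp only [layFun]
    by_cases hc : c (bitClear k x) = true <;> by_cases hc' : c' (bitClear k x) = true <;>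
      simp [hc, hc', bitFlip_bitFlip]
  rw [key]

/-- Every element of `Hk D k` is a layer. -/
theorem exists_lay_eq (k : ℕ) {h : Equiv.Perm (Cube D)} (hh : h ∈ Hk D k) :
    ∃ c : Cube D → Bool, h = lay k c := by
  classical
  have hdich : ∀ x, h x = x ∨ h x = bitFlip k x := by
    intro x
    by_cases hb : ∀ i : Fin D, (i : ℕ) = k → h x i = x i
    · left
      funext i
      by_cases hi : (i : ℕ) = k
      · exact hb i hi
      · exact hh x i hi
    · right
      push Not at hb
      obtain ⟨i0, hi0, hne⟩ := hb
      funext i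
      by_cases hi : (i : ℕ) = k
      · have hii : i = i0 := Fin.ext (hi.trans hi0.symm)
        subst hii
        simp only [bitFlip, hi, if_true]
        revert hne
        cases h x i <;> cases x i <;> simp
      · simp only [bitFlip, hi, if_false]
        exact hh x i hi
  have hpair : ∀ x, h x = x ↔ h (bitFlip k x) = bitFlip k x := by
    intro x
    constructor
    · intro hx
      rcases hdich (bitFlip k x) with h1 | h1
      · exact h1
      · rw [bitFlip_bitFlip] at h1
        have : bitFlip k x = x := h.injective (h1.trans hx.symm)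
        rw [this]
        rw [this] at h1
        exact h1
    · intro hx
      rcases hdich x with h1 | h1
      · exact h1
      · have : x = bitFlip k x := h.injective (h1.trans hx.symm)
        rw [← this] at h1
        exact h1
  have hclear : ∀ x, (h x = x ↔ h (bitClear k x) = bitClear k x) := by
    intro x
    by_cases hx : ∀ i : Fin D, (i : ℕ) = k → x i = false
    · have : bitClear k x = x := by
        funext i
        by_cases hi : (i : ℕ) = k
        · simp [bitClear, hi, hx i hi]
        · simp [bitClear, hi]
      rw [this]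
    · push Not at hx
      obtain ⟨i0, hi0, hne⟩ := hx
      have : bitClear k x = bitFlip k x := by
        funext i
        by_cases hi : (i : ℕ) = k
        · have hii : i = i0 := Fin.ext (hi.trans hi0.symm)
          subst hii
          simp only [bitClear, bitFlip, hi, if_true]
          revert hne
          cases x i <;> simp
        · simp [bitClear, bitFlip, hi]
      rw [this]
      exact hpair x
  refine ⟨fun y => decide (h y ≠ y), ?_⟩
  ext x i
  simp only [lay_apply, layFun]
  by_cases hx : h x = x
  · have : h (bitClear k x) = bitClear k x := (hclear x).1 hx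
    simp [this, hx]
  · have h1 : h (bitClear k x) ≠ bitClear k x := fun h2 => hx ((hclear x).2 h2)
    have h2 : h x = bitFlip k x := (hdich x).resolve_left hx
    simp [h1, h2]

/-- The average over `Hk D k` is the average over coins. -/
theorem Qk_apply_eq_Eu {V : Type*} [NormedAddCommGroup V] [InnerProductSpace ℝ V]
    (π : Equiv.Perm (Cube D) →* (V →L[ℝ] V)) (k : ℕ) (f g : V) :
    ⟪Qk π k f, g⟫_ℝ = Eu (fun c : Cube D → Bool => ⟪π (lay k c) f, g⟫_ℝ) := by
  classical
  -- `R` is the average over coins
  let R : V →L[ℝ] V := ((Fintype.card (Cube D → Bool) : ℝ)⁻¹) • ∑ c : Cube D → Bool, π (lay k c)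
  have hcard : (Fintype.card (Cube D → Bool) : ℝ) ≠ 0 := by
    exact_mod_cast Fintype.card_ne_zero
  have hR1 : Qk π k * R = Qk π k := by
    show avgOn π (Hk D k) * R = _
    simp only [R, mul_smul_comm, Finset.mul_sum]
    have : ∀ c : Cube D → Bool, avgOn π (Hk D k) * π (lay k c) = avgOn π (Hk D k) :=
      fun c => avgOn_mul_right π (Hk D k) (lay_mem_Hk k c)
    simp only [this, Finset.sum_const, Finset.card_univ, nsmul_eq_mul]
    exact Common_inv_smul_natCast_mul hcard
  have hinv : ∀ h ∈ Hk D k, π h * R = R := by
    intro h hh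
    obtain ⟨c0, rfl⟩ := exists_lay_eq k hh
    simp only [R, mul_smul_comm, Finset.mul_sum, ← map_mul, lay_mul_xor]
    congr 1
    exact (Equiv.sum_comp (⟨fun c x => xor (c0 x) (c x), fun c x => xor (c0 x) (c x),
      fun c => by funext x; simp, fun c => by funext x; simp⟩ : (Cube D → Bool) ≃ (Cube D → Bool))
      (fun c => π (lay k c)))
  have hR2 : Qk π k * R = R := by
    show avgOn π (Hk D k) * R = R
    unfold avgOn
    rw [smul_mul_assoc, Finset.sum_mul]
    have : ∑ i ∈ mems (Hk D k), π i * R = ∑ _i ∈ mems (Hk D k), R :=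
      Finset.sum_congr rfl fun i hi => hinv i ((mem_mems _ _).1 hi)
    rw [this, Finset.sum_const, nsmul_eq_mul]
    have hpos := mems_card_pos (Hk D k)
    exact Common_inv_smul_natCast_mul hpos.ne'
  have hRQ : R = Qk π k := hR2.symm.trans hR1
  rw [← hRQ]
  simp only [R, Eu, smul_apply, _root_.sum_apply, inner_smul_left,
    sum_inner]
  simp

end Vale.Agent.P162O
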