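/-
P162 O(d), Part I: the scalar sequence Gf and the closure inequality.
Independent of everything else except Cube-free real analysis.
-/
import Vale.Agent.P162O.Common

open Finset

namespace Vale.Agent.P162O

/-- `w` -/
noncomputable def wC : ℝ := 1 / 10
/-- `ζ₀` -/
noncomputable def zeta0 : ℝ := 1000
/-- `β = 2^(-1/8)` -/
noncomputable def betaC : ℝ := (1 / 2 : ℝ) ^ ((1 : ℝ) / 8)
/-- `ζ_d = ζ₀ β^d` -/
noncomputable def zetaD (d : ℕ) : ℝ := zeta0 * betaC ^ d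

theorem betaC_pos : 0 < betaC := by
  unfold betaC; positivity

theorem betaC_pow_eight : betaC ^ 8 = 1 / 2 := by
  unfold betaC
  rw [← Real.rpow_natCast, ← Real.rpow_mul (by norm_num)]
  norm_num

theorem zetaD_pos (d : ℕ) : 0 < zetaD d := by
  unfold zetaD zeta0
  have := betaC_pos
  positivity

/-- `M_s²`: `M_0² = 1`, `M_s² = w² (s!)^(1/4) (s+1)^(-1/2)`. -/
noncomputable def Msq (s : ℕ) : ℝ :=
  if s = 0 then 1 else wC ^ 2 * ((s.factorial : ℝ) ^ ((1 : ℝ) / 4) * ((s : ℝ) + 1) ^ (-(1 : ℝ) / 2))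

/-- The level function: `G 0 = 1`, `G 1 = 0`, `G k = M_k ζ_d^k` (so about `(C k / 2^d)^(k/8)`). -/
noncomputable def Gf (d k : ℕ) : ℝ :=
  match k with
  | 0 => 1
  | 1 => 0
  | k + 2 => Real.sqrt (Msq (k + 2)) * zetaD d ^ (k + 2)

theorem Msq_pos (s : ℕ) : 0 < Msq s := by
  unfold Msq wC
  split_ifs
  · norm_num
  · positivity

theorem Msq_zero : Msq 0 = 1 := by simp [Msq]

theorem Gf_nonneg (d k : ℕ) : 0 ≤ Gf d k := by
  match k with
  | 0 => simp [Gf]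
  | 1 => simp [Gf]
  | k + 2 =>
    have := zetaD_pos d
    simp only [Gf]
    positivity

/-- fourth power of `Msq`, free of real exponents -/
theorem Msq_pow_four {s : ℕ} (hs : s ≠ 0) :
    Msq s ^ 4 = wC ^ 8 * (s.factorial : ℝ) / ((s : ℝ) + 1) ^ 2 := by
  have h1 : (0:ℝ) < s.factorial := by positivity
  have h2 : (0:ℝ) < (s:ℝ) + 1 := by positivity
  have hA : ((s.factorial : ℝ) ^ ((1 : ℝ) / 4)) ^ 4 = s.factorial := by
    rw [← Real.rpow_natCast, ← Real.rpow_mul h1.le]; norm_num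
  have hB : (((s : ℝ) + 1) ^ (-(1 : ℝ) / 2)) ^ 4 * ((s:ℝ)+1) ^ 2 = 1 := by
    rw [← Real.rpow_natCast, ← Real.rpow_mul h2.le, ← Real.rpow_natCast ((s:ℝ)+1) 2,
      ← Real.rpow_add h2]
    norm_num
  have hB' : (((s : ℝ) + 1) ^ (-(1 : ℝ) / 2)) ^ 4 = 1 / ((s:ℝ)+1) ^ 2 := by
    field_simp
    linarith
  simp only [Msq, hs, if_false]
  rw [mul_pow, mul_pow, hA, hB']
  field_simp

theorem Msq_one_pow_four : Msq 1 ^ 4 = wC ^ 8 / 4 := by
  rw [Msq_pow_four one_ne_zero]; norm_num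

/-- log-convexity of `M_s²` -/
theorem Msq_logconvex (s : ℕ) : Msq (s + 1) ^ 2 ≤ Msq s * Msq (s + 2) := by
  have h0 := Msq_pos s
  have h1 := Msq_pos (s + 1)
  have h2 := Msq_pos (s + 2)
  have key : (Msq (s + 1) ^ 2) ^ 4 ≤ (Msq s * Msq (s + 2)) ^ 4 := by
    rw [mul_pow, Msq_pow_four (by omega : s + 2 ≠ 0)]
    have e1 : (Msq (s + 1) ^ 2) ^ 4 = (Msq (s + 1) ^ 4) ^ 2 := by ring
    rw [e1, Msq_pow_four (by omega : s + 1 ≠ 0)]
    rcases Nat.eq_zero_or_pos s with rfl | hs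
    · rw [Msq_zero]
      norm_num [wC, Nat.factorial]
    · rw [Msq_pow_four (by omega : s ≠ 0)]
      have fs : ((s + 1).factorial : ℝ) = ((s:ℝ) + 1) * (s.factorial : ℝ) := by
        rw [Nat.factorial_succ]; push_cast; ring
      have fs2 : ((s + 2).factorial : ℝ) = ((s:ℝ) + 2) * (((s:ℝ) + 1) * (s.factorial : ℝ)) := by
        rw [Nat.factorial_succ]; push_cast; rw [fs]; ring
      rw [fs, fs2]
      push_cast
      have hf : (0:ℝ) < s.factorial := by positivity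
      have hs0 : (0:ℝ) ≤ (s:ℝ) := by positivity
      have hw : (0:ℝ) < wC ^ 8 := by unfold wC; positivity
      rw [div_pow, mul_pow, mul_pow]
      have e2 : ((s:ℝ) + 1 + 1) = (s:ℝ) + 2 := by ring
      have e3 : ((s:ℝ) + 2 + 1) = (s:ℝ) + 3 := by ring
      simp only [e2, e3]
      rw [div_le_iff₀ (by positivity)]
      have : wC ^ 8 * s.factorial / ((s:ℝ) + 1) ^ 2 *
            (wC ^ 8 * (((s:ℝ) + 2) * (((s:ℝ) + 1) * s.factorial)) / ((s:ℝ) + 3) ^ 2) *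
            ((((s:ℝ) + 2) ^ 2) ^ 2)
          = (wC ^ 8) ^ 2 * (s.factorial:ℝ) ^ 2 *
              (((s:ℝ) + 2) ^ 5 / (((s:ℝ) + 1) * ((s:ℝ) + 3) ^ 2)) := by
        field_simp
      rw [this]
      have hr : ((s:ℝ) + 1) ^ 2 ≤ ((s:ℝ) + 2) ^ 5 / (((s:ℝ) + 1) * ((s:ℝ) + 3) ^ 2) := by
        rw [le_div_iff₀ (by positivity)]
        have a1 : ((s:ℝ) + 1) * ((s:ℝ) + 3) ≤ ((s:ℝ) + 2) ^ 2 := by nlinarith
        have a2 : ((s:ℝ) + 1) ≤ (s:ℝ) + 2 := by linarith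
        have a3 : (((s:ℝ) + 1) * ((s:ℝ) + 3)) ^ 2 ≤ (((s:ℝ) + 2) ^ 2) ^ 2 :=
          pow_le_pow_left₀ (by positivity) a1 2
        calc ((s:ℝ) + 1) ^ 2 * (((s:ℝ) + 1) * ((s:ℝ) + 3) ^ 2)
            = ((s:ℝ) + 1) * (((s:ℝ) + 1) * ((s:ℝ) + 3)) ^ 2 := by ring
          _ ≤ ((s:ℝ) + 2) * (((s:ℝ) + 2) ^ 2) ^ 2 := by
              exact mul_le_mul a2 a3 (by positivity) (by positivity)
          _ = ((s:ℝ) + 2) ^ 5 := by ring
      calc (wC ^ 8) ^ 2 * (((s:ℝ) + 1) ^ 2 * (s.factorial:ℝ) ^ 2)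
          = (wC ^ 8) ^ 2 * (s.factorial:ℝ) ^ 2 * ((s:ℝ) + 1) ^ 2 := by ring
        _ ≤ _ := by
          apply mul_le_mul_of_nonneg_left hr (by positivity)
  exact le_of_pow_le_pow_left₀ (by norm_num) (by positivity) key

/-- `φ_r(s) = M_s² M_{r-s}²`. -/
noncomputable def phiR (r s : ℕ) : ℝ := Msq s * Msq (r - s)

/-- Expectation under `Bin(r,1/2)`. -/
noncomputable def Ebin (r : ℕ) (φ : ℕ → ℝ) : ℝ :=
  (2 : ℝ)⁻¹ ^ r * ∑ s ∈ range (r + 1), (r.choose s : ℝ) * φ s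

/-- `𝔟_r`. -/
noncomputable def bq (r : ℕ) : ℝ := Real.sqrt (Ebin r (phiR r))

theorem phiR_pos (r s : ℕ) : 0 < phiR r s := mul_pos (Msq_pos _) (Msq_pos _)

theorem phiR_nonneg (r s : ℕ) : 0 ≤ phiR r s := (phiR_pos r s).le

/-- convexity of `φ_r` -/
theorem phiR_convex (r s : ℕ) (hs : s + 2 ≤ r) :
    2 * phiR r (s + 1) ≤ phiR r s + phiR r (s + 2) := by
  obtain ⟨t, rfl⟩ : ∃ t, r = s + 2 + t := ⟨r - (s + 2), by omega⟩
  have e0 : s + 2 + t - s = t + 2 := by omega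
  have e1 : s + 2 + t - (s + 1) = t + 1 := by omega
  have e2 : s + 2 + t - (s + 2) = t := by omega
  unfold phiR
  rw [e0, e1, e2]
  have h1 := Msq_logconvex s
  have h2 := Msq_logconvex t
  have a0 := Msq_pos s
  have a1 := Msq_pos (s + 1)
  have a2 := Msq_pos (s + 2)
  have b0 := Msq_pos t
  have b1 := Msq_pos (t + 1)
  have b2 := Msq_pos (t + 2)
  -- `x = M_s M_{t+2}`, `y = M_{s+2} M_t`, `z = M_{s+1} M_{t+1}`, `z² ≤ x y`
  have hz : (Msq (s + 1) * Msq (t + 1)) ^ 2 ≤ (Msq s * Msq (t + 2)) * (Msq (s + 2) * Msq t) := by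
    calc (Msq (s + 1) * Msq (t + 1)) ^ 2 = Msq (s + 1) ^ 2 * Msq (t + 1) ^ 2 := by ring
      _ ≤ (Msq s * Msq (s + 2)) * (Msq t * Msq (t + 2)) :=
          mul_le_mul h1 h2 (by positivity) (by positivity)
      _ = _ := by ring
  set x := Msq s * Msq (t + 2)
  set y := Msq (s + 2) * Msq t
  set z := Msq (s + 1) * Msq (t + 1)
  have hx : 0 < x := by positivity
  have hy : 0 < y := by positivity
  have hz0 : 0 < z := by positivity
  nlinarith [sq_nonneg (x - y)]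

/-- `Gf` is dominated by `ζ^s M_s`. -/
theorem Gf_le_sqrt (d s : ℕ) : Gf d s ≤ Real.sqrt (Msq s) * zetaD d ^ s := by
  match s with
  | 0 => simp [Gf, Msq_zero]
  | 1 =>
    have := zetaD_pos d
    simp only [Gf]
    positivity
  | k + 2 => exact le_refl _

theorem Gf_mul_sq_le (d r s : ℕ) (hs : s ≤ r) :
    (Gf d s * Gf d (r - s)) ^ 2 ≤ (zetaD d ^ r) ^ 2 * phiR r s := by
  have hz := zetaD_pos d
  have h1 := Gf_le_sqrt d s
  have h2 := Gf_le_sqrt d (r - s)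
  have h3 : Gf d s * Gf d (r - s) ≤
      (Real.sqrt (Msq s) * zetaD d ^ s) * (Real.sqrt (Msq (r - s)) * zetaD d ^ (r - s)) :=
    mul_le_mul h1 h2 (Gf_nonneg _ _) (by positivity)
  have h4 : (Gf d s * Gf d (r - s)) ^ 2 ≤
      ((Real.sqrt (Msq s) * zetaD d ^ s) * (Real.sqrt (Msq (r - s)) * zetaD d ^ (r - s))) ^ 2 :=
    pow_le_pow_left₀ (mul_nonneg (Gf_nonneg _ _) (Gf_nonneg _ _)) h3 2
  refine h4.trans (le_of_eq ?_)
  have e : zetaD d ^ r = zetaD d ^ s * zetaD d ^ (r - s) := by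
    rw [← pow_add]; congr 1; omega
  unfold phiR
  rw [e]
  have a1 : Real.sqrt (Msq s) ^ 2 = Msq s := Real.sq_sqrt (Msq_pos s).le
  have a2 : Real.sqrt (Msq (r - s)) ^ 2 = Msq (r - s) := Real.sq_sqrt (Msq_pos _).le
  calc ((Real.sqrt (Msq s) * zetaD d ^ s) * (Real.sqrt (Msq (r - s)) * zetaD d ^ (r - s))) ^ 2
      = Real.sqrt (Msq s) ^ 2 * Real.sqrt (Msq (r - s)) ^ 2 *
          (zetaD d ^ s * zetaD d ^ (r - s)) ^ 2 := by ring
    _ = _ := by rw [a1, a2]; ring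

/-! ### Binomial averages -/

theorem Ebin_succ (r : ℕ) (φ : ℕ → ℝ) :
    Ebin (r + 1) φ = Ebin r (fun s => (φ s + φ (s + 1)) / 2) := by
  unfold Ebin
  have h : ∑ s ∈ range (r + 1 + 1), ((r + 1).choose s : ℝ) * φ s
      = ∑ s ∈ range (r + 1), (r.choose s : ℝ) * (φ s + φ (s + 1)) := by
    rw [Finset.sum_range_succ']
    simp only [Nat.choose_succ_succ, Nat.cast_add, add_mul, mul_add, Finset.sum_add_distrib]
    have h2 : ∑ s ∈ range (r + 1), (r.choose s : ℝ) * φ s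
        = ∑ s ∈ range r, (r.choose (s + 1) : ℝ) * φ (s + 1) + φ 0 := by
      rw [Finset.sum_range_succ']; simp
    have h3 : ∑ s ∈ range (r + 1), (r.choose (s + 1) : ℝ) * φ (s + 1)
        = ∑ s ∈ range r, (r.choose (s + 1) : ℝ) * φ (s + 1) := by
      rw [Finset.sum_range_succ]; simp
    rw [h2, h3]
    simp
    ring
  rw [h, pow_succ]
  have : ∑ s ∈ range (r + 1), (r.choose s : ℝ) * ((φ s + φ (s + 1)) / 2)
      = (∑ s ∈ range (r + 1), (r.choose s : ℝ) * (φ s + φ (s + 1))) / 2 := by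
    rw [Finset.sum_div]
    exact Finset.sum_congr rfl fun s _ => by ring
  rw [this]
  ring

theorem Ebin_mono_on (r : ℕ) {φ ψ : ℕ → ℝ} (h : ∀ s, s ≤ r → φ s ≤ ψ s) :
    Ebin r φ ≤ Ebin r ψ := by
  unfold Ebin
  apply mul_le_mul_of_nonneg_left _ (by positivity)
  apply Finset.sum_le_sum
  intro s hs
  exact mul_le_mul_of_nonneg_left (h s (by simpa [Nat.lt_succ_iff] using hs)) (by positivity)

/-- Convex order: `E_{Bin(r)} φ(·+1) ≤ E_{Bin(r+2)} φ` for `φ` convex on `0..r+2`. -/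
theorem Ebin_shift_le (r : ℕ) (φ : ℕ → ℝ)
    (hφ : ∀ s, s + 2 ≤ r + 2 → 2 * φ (s + 1) ≤ φ s + φ (s + 2)) :
    Ebin r (fun s => φ (s + 1)) ≤ Ebin (r + 2) φ := by
  rw [show r + 2 = (r + 1) + 1 from rfl, Ebin_succ, Ebin_succ]
  apply Ebin_mono_on
  intro s hs
  have := hφ s (by omega)
  show φ (s + 1) ≤ _
  simp only [add_assoc, one_add_one_eq_two] at *
  linarith

/-! ### The two estimates for `bq` -/

theorem betaC_le_one : betaC ≤ 1 := by
  have h : betaC ^ 8 ≤ 1 ^ 8 := by rw [betaC_pow_eight]; norm_num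
  exact le_of_pow_le_pow_left₀ (by norm_num) (by norm_num) h

theorem betaC_pow_eight_mul (r : ℕ) : betaC ^ (8 * r) = (2 : ℝ)⁻¹ ^ r := by
  rw [pow_mul, betaC_pow_eight]; norm_num

theorem betaC_four_le : betaC ^ 4 ≤ 70711 / 100000 := by
  have h : (betaC ^ 4) ^ 2 ≤ (70711 / 100000 : ℝ) ^ 2 := by
    have : (betaC ^ 4) ^ 2 = betaC ^ 8 := by ring
    rw [this, betaC_pow_eight]; norm_num
  exact le_of_pow_le_pow_left₀ (by norm_num) (by norm_num) h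

theorem betaC_ge : (10 / 11 : ℝ) ≤ betaC := by
  have h : (10 / 11 : ℝ) ^ 8 ≤ betaC ^ 8 := by rw [betaC_pow_eight]; norm_num
  exact le_of_pow_le_pow_left₀ (by norm_num) betaC_pos.le h

/-- Jensen for exponent two, for weights of total mass at most one. -/
theorem jensen2 {S : Finset ℕ} {ω z : ℕ → ℝ} (hω : ∀ s ∈ S, 0 ≤ ω s) (h1 : ∑ s ∈ S, ω s ≤ 1) :
    (∑ s ∈ S, ω s * z s) ^ 2 ≤ ∑ s ∈ S, ω s * z s ^ 2 := by
  have hc := Finset.sum_sq_le_sum_mul_sum_of_sq_le_mul S (r := fun s => ω s * z s) (f := ω)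
    (g := fun s => ω s * z s ^ 2) hω (fun s hs => mul_nonneg (hω s hs) (sq_nonneg _))
    (fun s _ => le_of_eq (by ring))
  have h0 : 0 ≤ ∑ s ∈ S, ω s * z s ^ 2 :=
    Finset.sum_nonneg fun s hs => mul_nonneg (hω s hs) (sq_nonneg _)
  nlinarith

/-- Jensen for exponent four. -/
theorem jensen4 {S : Finset ℕ} {ω z : ℕ → ℝ} (hω : ∀ s ∈ S, 0 ≤ ω s) (h1 : ∑ s ∈ S, ω s ≤ 1) :
    (∑ s ∈ S, ω s * z s) ^ 4 ≤ ∑ s ∈ S, ω s * z s ^ 4 := by
  have a := jensen2 (z := z) hω h1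
  have b := jensen2 (z := fun s => z s ^ 2) hω h1
  have c : ((∑ s ∈ S, ω s * z s) ^ 2) ^ 2 ≤ (∑ s ∈ S, ω s * z s ^ 2) ^ 2 :=
    pow_le_pow_left₀ (sq_nonneg _) a 2
  calc (∑ s ∈ S, ω s * z s) ^ 4 = ((∑ s ∈ S, ω s * z s) ^ 2) ^ 2 := by ring
    _ ≤ (∑ s ∈ S, ω s * z s ^ 2) ^ 2 := c
    _ ≤ ∑ s ∈ S, ω s * (z s ^ 2) ^ 2 := b
    _ = ∑ s ∈ S, ω s * z s ^ 4 := by
      apply Finset.sum_congr rfl; intro s _; ring

theorem sum_inv_sq_le (n : ℕ) :
    ∑ s ∈ range n, (1 : ℝ) / ((s : ℝ) + 2) ^ 2 ≤ 1 - 1 / ((n : ℝ) + 1) := by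
  induction n with
  | zero => norm_num
  | succ n ih =>
    rw [Finset.sum_range_succ]
    have h : (1 : ℝ) / ((n : ℝ) + 2) ^ 2 ≤ 1 / ((n : ℝ) + 1) - 1 / ((n : ℝ) + 1 + 1) := by
      have h1 : (0:ℝ) < (n:ℝ) + 1 := by positivity
      have h2 : (0:ℝ) < (n:ℝ) + 2 := by positivity
      have e : 1 / ((n : ℝ) + 1) - 1 / ((n : ℝ) + 1 + 1) = 1 / (((n:ℝ) + 1) * ((n:ℝ) + 2)) := by
        field_simp; ring
      rw [e]
      apply one_div_le_one_div_of_le (by positivity)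
      nlinarith
    push_cast
    linarith

/-- The convolution of `1/j²`. -/
theorem mid_sum_le (n : ℕ) :
    ∑ s ∈ range (n + 1), (1 : ℝ) / (((s : ℝ) + 2) * ((n : ℝ) + 2 - (s : ℝ))) ^ 2
      ≤ 4 / ((n : ℝ) + 4) ^ 2 := by
  have hN : (0:ℝ) < (n:ℝ) + 4 := by positivity
  have hterm : ∀ s ∈ range (n + 1),
      (1 : ℝ) / (((s : ℝ) + 2) * ((n : ℝ) + 2 - (s : ℝ))) ^ 2 ≤
        (2 * (1 / ((s : ℝ) + 2) ^ 2) + 2 * (1 / ((((n - s : ℕ) : ℝ)) + 2) ^ 2)) / ((n : ℝ) + 4) ^ 2 := by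
    intro s hs
    have hs' : s ≤ n := by simpa [Nat.lt_succ_iff] using hs
    have e : ((n - s : ℕ) : ℝ) = (n : ℝ) - s := by rw [Nat.cast_sub hs']
    rw [e]
    have hs0 : (0:ℝ) ≤ (s:ℝ) := by positivity
    have hsn : (s:ℝ) ≤ n := by exact_mod_cast hs'
    have hu : (0:ℝ) < (s:ℝ) + 2 := by positivity
    have hv : (0:ℝ) < (n:ℝ) + 2 - s := by linarith
    set u := (s:ℝ) + 2 with hu_def
    set v := (n:ℝ) + 2 - s with hv_def
    have e2 : (n:ℝ) + 4 = u + v := by rw [hu_def, hv_def]; ring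
    have e3 : (n:ℝ) - s + 2 = v := by rw [hv_def]; ring
    rw [e2, e3]
    rw [div_le_div_iff₀ (by positivity) (by positivity)]
    have : (2 * (1 / u ^ 2) + 2 * (1 / v ^ 2)) * (u * v) ^ 2 = 2 * (v ^ 2 + u ^ 2) := by
      field_simp
    rw [this]
    nlinarith [sq_nonneg (u - v)]
  refine (Finset.sum_le_sum hterm).trans ?_
  rw [← Finset.sum_div, Finset.sum_add_distrib, ← Finset.mul_sum, ← Finset.mul_sum]
  apply div_le_div_of_nonneg_right _ (by positivity)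
  have h1 := sum_inv_sq_le (n + 1)
  have h2 : ∑ s ∈ range (n + 1), (1 : ℝ) / (((n - s : ℕ) : ℝ) + 2) ^ 2
      = ∑ s ∈ range (n + 1), (1 : ℝ) / ((s : ℝ) + 2) ^ 2 := by
    have := Finset.sum_range_reflect (fun s : ℕ => (1 : ℝ) / ((s : ℝ) + 2) ^ 2) (n + 1)
    simpa using this
  rw [h2]
  have h3 : (0:ℝ) ≤ 1 / (((n + 1 : ℕ) : ℝ) + 1) := by positivity
  linarith

/-- the middle part of the expectation -/
theorem mid_bound (n : ℕ) :
    ((2 : ℝ)⁻¹ ^ (n + 2) * ∑ s ∈ range (n + 1), ((n + 2).choose (s + 1) : ℝ) *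
        (Msq (s + 1) * Msq (n + 1 - s))) ≤
      (141422 / 10000000 : ℝ) * Msq (n + 2) * betaC ^ (2 * (n + 2)) := by
  set T : ℝ := (2 : ℝ)⁻¹ ^ (n + 2) with hT
  have hTpos : 0 < T := by positivity
  have hM := Msq_pos (n + 2)
  have hb := betaC_pos
  -- rewrite as a weighted average
  have e0 : T * ∑ s ∈ range (n + 1), ((n + 2).choose (s + 1) : ℝ) * (Msq (s + 1) * Msq (n + 1 - s))
      = ∑ s ∈ range (n + 1), (T * ((n + 2).choose (s + 1) : ℝ)) * (Msq (s + 1) * Msq (n + 1 - s)) := by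
    rw [Finset.mul_sum]
    exact Finset.sum_congr rfl fun s _ => by ring
  rw [e0]
  have hω : ∀ s ∈ range (n + 1), 0 ≤ T * ((n + 2).choose (s + 1) : ℝ) := fun s _ => by positivity
  have hmass : ∑ s ∈ range (n + 1), T * ((n + 2).choose (s + 1) : ℝ) ≤ 1 := by
    rw [← Finset.mul_sum]
    have h2 : ∑ s ∈ range (n + 1), ((n + 2).choose (s + 1) : ℝ) ≤ 2 ^ (n + 2) := by
      have h3 := Nat.sum_range_choose (n + 2)
      have h4 : ∑ m ∈ range (n + 2 + 1), ((n + 2).choose m : ℝ) = 2 ^ (n + 2) := by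
        exact_mod_cast h3
      rw [← h4, Finset.sum_range_succ' _ (n + 1 + 1), Finset.sum_range_succ _ (n + 1)]
      have : (0:ℝ) ≤ ((n + 2).choose (n + 1 + 1) : ℝ) := by positivity
      have : (0:ℝ) ≤ ((n + 2).choose 0 : ℝ) := by positivity
      linarith
    calc T * ∑ s ∈ range (n + 1), ((n + 2).choose (s + 1) : ℝ)
        ≤ T * 2 ^ (n + 2) := mul_le_mul_of_nonneg_left h2 hTpos.le
      _ = 1 := by rw [hT, ← mul_pow]; norm_num
  have hJ := jensen4 (z := fun s => Msq (s + 1) * Msq (n + 1 - s)) hω hmass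
  -- fourth power of each term
  have hterm : ∀ s ∈ range (n + 1),
      (T * ((n + 2).choose (s + 1) : ℝ)) * (Msq (s + 1) * Msq (n + 1 - s)) ^ 4
        = T * wC ^ 16 * ((n + 2).factorial : ℝ) *
            (1 / (((s : ℝ) + 2) * ((n : ℝ) + 2 - (s : ℝ))) ^ 2) := by
    intro s hs
    have hs' : s ≤ n := by simpa [Nat.lt_succ_iff] using hs
    have e1 : n + 1 - s ≠ 0 := by omega
    rw [mul_pow, Msq_pow_four (by omega : s + 1 ≠ 0), Msq_pow_four e1]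
    have hc : ((n + 2).choose (s + 1) : ℝ) * ((s + 1).factorial : ℝ) * ((n + 1 - s).factorial : ℝ)
        = ((n + 2).factorial : ℝ) := by
      have := Nat.choose_mul_factorial_mul_factorial (by omega : s + 1 ≤ n + 2)
      rw [show n + 2 - (s + 1) = n + 1 - s by omega] at this
      exact_mod_cast this
    have e2 : ((n + 1 - s : ℕ) : ℝ) = (n : ℝ) + 1 - s := by
      rw [Nat.cast_sub (by omega)]; push_cast; ring
    rw [e2, ← hc]
    push_cast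
    have hsn : (s:ℝ) ≤ n := by exact_mod_cast hs'
    have hv : (0:ℝ) < (n:ℝ) + 2 - s := by linarith
    have hv' : (n:ℝ) + 1 - s + 1 = (n:ℝ) + 2 - s := by ring
    have hu' : (s:ℝ) + 1 + 1 = (s:ℝ) + 2 := by ring
    rw [hv', hu']
    have hu : (0:ℝ) < (s:ℝ) + 2 := by positivity
    field_simp
  rw [Finset.sum_congr rfl hterm, ← Finset.mul_sum] at hJ
  have hS := mid_sum_le n
  -- comparison in fourth powers
  have hM4 := Msq_pow_four (by omega : n + 2 ≠ 0)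
  have hM4' : Msq (n + 2) ^ 4 * ((n : ℝ) + 3) ^ 2 = wC ^ 8 * ((n + 2).factorial : ℝ) := by
    rw [hM4]; push_cast
    have : (n:ℝ) + 2 + 1 = (n:ℝ) + 3 := by ring
    rw [this]; field_simp
  have hbeta : (betaC ^ (2 * (n + 2))) ^ 4 = T := by
    rw [← pow_mul, show 2 * (n + 2) * 4 = 8 * (n + 2) by ring, betaC_pow_eight_mul]
  apply le_of_pow_le_pow_left₀ (by norm_num : (4:ℕ) ≠ 0) (by positivity)
  refine hJ.trans ?_
  have hfac : (0:ℝ) < ((n + 2).factorial : ℝ) := by positivity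
  have hw : (0:ℝ) < wC ^ 8 := by unfold wC; positivity
  calc T * wC ^ 16 * ((n + 2).factorial : ℝ) *
        ∑ s ∈ range (n + 1), (1 / (((s : ℝ) + 2) * ((n : ℝ) + 2 - (s : ℝ))) ^ 2)
      ≤ T * wC ^ 16 * ((n + 2).factorial : ℝ) * (4 / ((n : ℝ) + 4) ^ 2) :=
        mul_le_mul_of_nonneg_left hS (by positivity)
    _ = T * wC ^ 8 * (wC ^ 8 * ((n + 2).factorial : ℝ)) * (4 / ((n : ℝ) + 4) ^ 2) := by ring
    _ = T * wC ^ 8 * (Msq (n + 2) ^ 4 * ((n : ℝ) + 3) ^ 2) * (4 / ((n : ℝ) + 4) ^ 2) := by rw [hM4']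
    _ ≤ T * wC ^ 8 * (Msq (n + 2) ^ 4 * 4) := by
        have h34 : ((n : ℝ) + 3) ^ 2 * (4 / ((n : ℝ) + 4) ^ 2) ≤ 4 := by
          rw [mul_div_assoc', div_le_iff₀ (by positivity)]
          nlinarith [(by positivity : (0:ℝ) ≤ (n:ℝ))]
        calc T * wC ^ 8 * (Msq (n + 2) ^ 4 * ((n : ℝ) + 3) ^ 2) * (4 / ((n : ℝ) + 4) ^ 2)
            = T * wC ^ 8 * Msq (n + 2) ^ 4 * (((n : ℝ) + 3) ^ 2 * (4 / ((n : ℝ) + 4) ^ 2)) := by ring
          _ ≤ T * wC ^ 8 * Msq (n + 2) ^ 4 * 4 :=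
              mul_le_mul_of_nonneg_left h34 (by positivity)
          _ = _ := by ring
    _ ≤ (141422 / 10000000 * Msq (n + 2) * betaC ^ (2 * (n + 2))) ^ 4 := by
        rw [mul_pow, mul_pow, hbeta]
        have : wC ^ 8 * 4 ≤ (141422 / 10000000 : ℝ) ^ 4 := by norm_num [wC]
        have hh : 0 ≤ T * Msq (n + 2) ^ 4 := by positivity
        nlinarith [mul_le_mul_of_nonneg_left this hh]

/-- The expectation `E_{Bin(r)} φ_r` for `r ≥ 2`. -/
theorem Ebin_phiR_le (n : ℕ) :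
    Ebin (n + 2) (phiR (n + 2)) ≤ (17 / 20 : ℝ) ^ 2 * Msq (n + 2) * betaC ^ (2 * (n + 2)) := by
  have hM := Msq_pos (n + 2)
  have hb := betaC_pos
  have hb1 := betaC_le_one
  have hsplit : Ebin (n + 2) (phiR (n + 2)) =
      2 * (2 : ℝ)⁻¹ ^ (n + 2) * Msq (n + 2) +
        (2 : ℝ)⁻¹ ^ (n + 2) * ∑ s ∈ range (n + 1), ((n + 2).choose (s + 1) : ℝ) *
          (Msq (s + 1) * Msq (n + 1 - s)) := by
    unfold Ebin
    rw [Finset.sum_range_succ, Finset.sum_range_succ']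
    have hc : ∀ s ∈ range (n + 1), ((n + 2).choose (s + 1) : ℝ) * phiR (n + 2) (s + 1)
        = ((n + 2).choose (s + 1) : ℝ) * (Msq (s + 1) * Msq (n + 1 - s)) := by
      intro s _
      unfold phiR
      rw [show n + 2 - (s + 1) = n + 1 - s by omega]
    rw [Finset.sum_congr rfl hc]
    simp only [phiR, Nat.choose_self, Nat.choose_zero_right, Nat.sub_self, Nat.sub_zero, Msq_zero]
    push_cast
    ring
  rw [hsplit]
  have hmid := mid_bound n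
  have hend : 2 * (2 : ℝ)⁻¹ ^ (n + 2) ≤ betaC ^ 4 * betaC ^ (2 * (n + 2)) := by
    rw [← betaC_pow_eight_mul]
    have e : betaC ^ (8 * (n + 2)) = betaC ^ (6 * (n + 2)) * betaC ^ (2 * (n + 2)) := by
      rw [← pow_add]; congr 1; ring
    rw [e, ← mul_assoc]
    apply mul_le_mul_of_nonneg_right _ (by positivity)
    have h12 : betaC ^ (6 * (n + 2)) ≤ betaC ^ 12 :=
      pow_le_pow_of_le_one hb.le hb1 (by omega)
    have e2 : betaC ^ 12 = betaC ^ 8 * betaC ^ 4 := by ring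
    rw [e2, betaC_pow_eight] at h12
    linarith
  have hb4 := betaC_four_le
  have hp : 0 < betaC ^ (2 * (n + 2)) := by positivity
  calc 2 * (2 : ℝ)⁻¹ ^ (n + 2) * Msq (n + 2) +
        (2 : ℝ)⁻¹ ^ (n + 2) * ∑ s ∈ range (n + 1), ((n + 2).choose (s + 1) : ℝ) *
          (Msq (s + 1) * Msq (n + 1 - s))
      ≤ (betaC ^ 4 * betaC ^ (2 * (n + 2))) * Msq (n + 2) +
          141422 / 10000000 * Msq (n + 2) * betaC ^ (2 * (n + 2)) :=
        add_le_add (mul_le_mul_of_nonneg_right hend hM.le) hmid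
    _ = (betaC ^ 4 + 141422 / 10000000) * (Msq (n + 2) * betaC ^ (2 * (n + 2))) := by ring
    _ ≤ (17 / 20 : ℝ) ^ 2 * (Msq (n + 2) * betaC ^ (2 * (n + 2))) := by
        apply mul_le_mul_of_nonneg_right _ (by positivity)
        norm_num at hb4 ⊢
        linarith
    _ = _ := by ring

/-- The Hölder estimate for the expectation: `E_{Bin(r)} φ_r ≤ (2^(1-3r/4) + (3/2) w²) M_r² β^(2r)` (`r ≥ 2`).
End terms `s = 0, r`: `2·2^(-r) M_r²`. Middle terms `1 ≤ s ≤ r-1`: `C(r,s)(s!(r-s)!)^(1/4) = (r!)^(1/4) C(r,s)^(3/4)`; two Cauchy-Schwarz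
steps give `∑ C^(3/4) ψ ≤ (∑ C)^(3/4) (∑ ψ⁴)^(1/4)`, with `ψ_s = ((s+1)(r-s+1))^(-1/2)` and
`∑_{s=1}^{r-1} ((s+1)(r-s+1))^(-2) ≤ 4 (∑_{j≥2} 1/j²) / (r+2)² ≤ 4/(r+2)²`, using `1/((s+1)(r-s+1)) = (1/(s+1) + 1/(r-s+1))/(r+2)`.
So the middle contributes at most `√2 w² M_r² β^(2r)`, and `(17/20)² = .7225 ≥ 2^(-1/2) + 3/200` handles `r = 2`. -/
theorem bq_le_two (r : ℕ) (hr : 2 ≤ r) : bq r ≤ (17 / 20) * Real.sqrt (Msq r) * betaC ^ r := by
  obtain ⟨n, rfl⟩ : ∃ n, r = n + 2 := ⟨r - 2, by omega⟩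
  have hM := Msq_pos (n + 2)
  have hb := betaC_pos
  unfold bq
  apply Real.sqrt_le_iff.mpr
  refine ⟨by positivity, ?_⟩
  refine (Ebin_phiR_le n).trans (le_of_eq ?_)
  rw [mul_pow, mul_pow, Real.sq_sqrt hM.le, ← pow_mul]
  ring_nf

theorem bq_le_one (r : ℕ) (hr : 1 ≤ r) : bq r ≤ (11 / 10) * Real.sqrt (Msq r) * betaC ^ r := by
  have hb := betaC_pos
  rcases Nat.lt_or_ge r 2 with h | h
  · have hr1 : r = 1 := by omega
    subst hr1
    have hM := Msq_pos 1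
    have e : Ebin 1 (phiR 1) = Msq 1 := by
      unfold Ebin phiR
      simp [Finset.sum_range_succ, Msq_zero]
      ring
    unfold bq
    rw [e, pow_one]
    have hs := Real.sqrt_nonneg (Msq 1)
    have := betaC_ge
    nlinarith
  · have h2 := bq_le_two r h
    have hs := Real.sqrt_nonneg (Msq r)
    have hp : 0 < betaC ^ r := by positivity
    refine h2.trans ?_
    apply mul_le_mul_of_nonneg_right _ hp.le
    apply mul_le_mul_of_nonneg_right _ hs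
    norm_num

theorem bq_zero : bq 0 = 1 := by
  unfold bq Ebin phiR
  simp [Msq_zero]

end Vale.Agent.P162O
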