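/-
P162 O(d), Part I: Bonami's lemma on the cube, weighted form with doubled coordinates, Parseval.
Uses Vale.Agent.P162.sgn (sgn true = -1, sgn false = 1) and Eu.
-/
import Vale.Agent.P162O.Scalar

open Finset

namespace Vale.Agent.P162O
open Vale.Agent.P162

variable {I : Type} [Fintype I] [DecidableEq I]

/-- The character `χ_J`. -/
def chi (J : Finset I) (e : I → Bool) : ℝ := ∏ j ∈ J, sgn (e j)

/-- A polynomial in the signs with coefficients `u` on the sets in `𝒥`. -/
def polyF (𝒥 : Finset (Finset I)) (u : Finset I → ℝ) (e : I → Bool) : ℝ :=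
  ∑ J ∈ 𝒥, u J * chi J e

/-! ### Flips and averages -/

omit [Fintype I] in
/-- Flip one coordinate. -/
def bonamiFlip (a : I) (e : I → Bool) : I → Bool := Function.update e a (!e a)

omit [Fintype I] in
@[simp] lemma bonamiFlip_self (a : I) (e : I → Bool) : bonamiFlip a e a = !e a := by
  simp [bonamiFlip]

omit [Fintype I] in
lemma bonamiFlip_ne {a j : I} (h : j ≠ a) (e : I → Bool) : bonamiFlip a e j = e j := by
  simp [bonamiFlip, h]

omit [Fintype I] in
lemma bonamiFlip_flip (a : I) (e : I → Bool) : bonamiFlip a (bonamiFlip a e) = e := by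
  funext j
  by_cases h : j = a
  · subst h; simp
  · simp [bonamiFlip_ne h]

/-- The flip as an equivalence. -/
def bonamiFlipEquiv (a : I) : (I → Bool) ≃ (I → Bool) where
  toFun := bonamiFlip a
  invFun := bonamiFlip a
  left_inv := bonamiFlip_flip a
  right_inv := bonamiFlip_flip a

lemma bonami_Eu_flip (a : I) (f : (I → Bool) → ℝ) : Eu (fun e => f (bonamiFlip a e)) = Eu f :=
  Eu_equiv (bonamiFlipEquiv a) f

lemma bonami_Eu_sym (a : I) (f : (I → Bool) → ℝ) :
    Eu f = Eu (fun e => (f e + f (bonamiFlip a e)) / 2) := by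
  have h1 : Eu (fun e => (f e + f (bonamiFlip a e)) / 2)
      = (1 / 2) * (Eu f + Eu (fun e => f (bonamiFlip a e))) := by
    rw [← Eu_add, ← Eu_mul_left]
    congr 1
    funext e
    ring
  rw [h1, bonami_Eu_flip]
  ring

lemma bonami_Eu_neg (a : I) (G : (I → Bool) → ℝ) (h : ∀ e, G (bonamiFlip a e) = - G e) :
    Eu G = 0 := by
  rw [bonami_Eu_sym a G]
  have : (fun e => (G e + G (bonamiFlip a e)) / 2) = fun _ => (0 : ℝ) := by
    funext e
    rw [h]
    ring
  rw [this]
  exact Eu_const 0

lemma bonami_Eu_sum {ι : Type*} (s : Finset ι) (f : ι → (I → Bool) → ℝ) :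
    Eu (fun e => ∑ i ∈ s, f i e) = ∑ i ∈ s, Eu (f i) := by
  simp only [Eu]
  rw [Finset.sum_comm, Finset.mul_sum]

lemma bonami_Eu_cs (f g : (I → Bool) → ℝ) :
    Eu (fun e => f e * g e) ^ 2 ≤ Eu (fun e => f e ^ 2) * Eu (fun e => g e ^ 2) := by
  simp only [Eu]
  have h := Finset.sum_mul_sq_le_sq_mul_sq (Finset.univ : Finset (I → Bool)) f g
  have hc : (0 : ℝ) ≤ ((Fintype.card (I → Bool) : ℝ)⁻¹) ^ 2 := by positivity
  calc ((Fintype.card (I → Bool) : ℝ)⁻¹ * ∑ e, f e * g e) ^ 2
      = ((Fintype.card (I → Bool) : ℝ)⁻¹) ^ 2 * (∑ e, f e * g e) ^ 2 := by ring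
    _ ≤ ((Fintype.card (I → Bool) : ℝ)⁻¹) ^ 2 * ((∑ e, f e ^ 2) * ∑ e, g e ^ 2) :=
        mul_le_mul_of_nonneg_left h hc
    _ = _ := by ring

omit [Fintype I] in
lemma bonami_le_of_sq_le {x y : ℝ} (hy : 0 ≤ y) (h : x ^ 2 ≤ y ^ 2) : x ≤ y := by
  by_contra hc
  push Not at hc
  nlinarith

/-! ### Characters -/

lemma bonami_sgn_not (b : Bool) : sgn (!b) = - sgn b := by
  cases b <;> simp [sgn]

lemma bonami_sgn_sq (b : Bool) : sgn b * sgn b = 1 := by
  cases b <;> simp [sgn]

omit [Fintype I] in
lemma bonami_chi_mul_self (J : Finset I) (e : I → Bool) : chi J e * chi J e = 1 := by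
  unfold chi
  rw [← Finset.prod_mul_distrib]
  exact Finset.prod_eq_one fun j _ => bonami_sgn_sq (e j)

omit [Fintype I] in
lemma bonami_chi_congr_of_not_mem {J : Finset I} {a : I} (ha : a ∉ J) (e : I → Bool) :
    chi J (bonamiFlip a e) = chi J e := by
  unfold chi
  apply Finset.prod_congr rfl
  intro j hj
  have : j ≠ a := fun h => ha (h ▸ hj)
  rw [bonamiFlip_ne this]

omit [Fintype I] in
lemma bonami_chi_eq_sgn_mul {J : Finset I} {a : I} (ha : a ∈ J) (e : I → Bool) :
    chi J e = sgn (e a) * chi (J.erase a) e := by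
  unfold chi
  rw [Finset.mul_prod_erase J (fun j => sgn (e j)) ha]

omit [Fintype I] in
lemma bonami_chi_flip_mem {J : Finset I} {a : I} (ha : a ∈ J) (e : I → Bool) :
    chi J (bonamiFlip a e) = - chi J e := by
  rw [bonami_chi_eq_sgn_mul ha, bonami_chi_eq_sgn_mul ha e, bonami_chi_congr_of_not_mem (Finset.notMem_erase a J),
    bonamiFlip_self, bonami_sgn_not]
  ring

omit [Fintype I] in
lemma bonami_polyF_flip_of_forall {𝒥 : Finset (Finset I)} {a : I} (h : ∀ J ∈ 𝒥, a ∉ J)
    (u : Finset I → ℝ) (e : I → Bool) : polyF 𝒥 u (bonamiFlip a e) = polyF 𝒥 u e := by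
  unfold polyF
  apply Finset.sum_congr rfl
  intro J hJ
  rw [bonami_chi_congr_of_not_mem (h J hJ)]

/-- Orthogonality with a weight invariant under the relevant flips. -/
lemma bonami_orth (V : (I → Bool) → ℝ) {J J' : Finset I}
    (hV : ∀ j, (j ∈ J ∨ j ∈ J') → ∀ e, V (bonamiFlip j e) = V e) :
    Eu (fun e => V e * (chi J e * chi J' e)) = if J = J' then Eu V else 0 := by
  by_cases h : J = J'
  · subst h
    simp only [if_true, bonami_chi_mul_self, mul_one]
  · rw [if_neg h]
    have hex : ∃ j, (j ∈ J ∧ j ∉ J') ∨ (j ∈ J' ∧ j ∉ J) := by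
      by_contra hc
      push Not at hc
      apply h
      ext j
      constructor
      · intro hj
        exact (hc j).1 hj
      · intro hj
        exact (hc j).2 hj
    obtain ⟨j, hj⟩ := hex
    apply bonami_Eu_neg j
    intro e
    rcases hj with ⟨h1, h2⟩ | ⟨h1, h2⟩
    · rw [hV j (Or.inl h1) e, bonami_chi_flip_mem h1, bonami_chi_congr_of_not_mem h2]
      ring
    · rw [hV j (Or.inr h1) e, bonami_chi_flip_mem h1, bonami_chi_congr_of_not_mem h2]
      ring

/-- Parseval with an invariant weight. -/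
lemma bonami_parseval_weight (V : (I → Bool) → ℝ) (𝒥 : Finset (Finset I)) (u : Finset I → ℝ)
    (hV : ∀ J ∈ 𝒥, ∀ j ∈ J, ∀ e, V (bonamiFlip j e) = V e) :
    Eu (fun e => V e * polyF 𝒥 u e ^ 2) = Eu V * ∑ J ∈ 𝒥, u J ^ 2 := by
  have h1 : (fun e => V e * polyF 𝒥 u e ^ 2) =
      fun e => ∑ J ∈ 𝒥, ∑ J' ∈ 𝒥, u J * u J' * (V e * (chi J e * chi J' e)) := by
    funext e
    unfold polyF
    rw [sq, Finset.sum_mul_sum, Finset.mul_sum]
    apply Finset.sum_congr rfl
    intro J _
    rw [Finset.mul_sum]
    apply Finset.sum_congr rfl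
    intro J' _
    ring
  rw [h1, bonami_Eu_sum, Finset.mul_sum]
  apply Finset.sum_congr rfl
  intro J hJ
  have h2 : Eu (fun e => ∑ J' ∈ 𝒥, u J * u J' * (V e * (chi J e * chi J' e)))
      = ∑ J' ∈ 𝒥, u J * u J' * (if J = J' then Eu V else 0) := by
    rw [bonami_Eu_sum]
    apply Finset.sum_congr rfl
    intro J' hJ'
    rw [Eu_mul_left, bonami_orth V]
    intro j hj e
    rcases hj with hj | hj
    · exact hV J hJ j hj e
    · exact hV J' hJ' j hj e
  rw [h2]
  have h3 : ∀ J' ∈ 𝒥, u J * u J' * (if J = J' then Eu V else 0)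
      = if J = J' then u J * u J * Eu V else 0 := by
    intro J' _
    by_cases h : J = J'
    · subst h; simp
    · simp [h]
  rw [Finset.sum_congr rfl h3, Finset.sum_ite_eq, if_pos hJ]
  ring

/-- Parseval. -/
theorem parseval (𝒥 : Finset (Finset I)) (u : Finset I → ℝ) :
    Eu (fun e : I → Bool => polyF 𝒥 u e ^ 2) = ∑ J ∈ 𝒥, u J ^ 2 := by
  have h := bonami_parseval_weight (fun _ => (1 : ℝ)) 𝒥 u (fun _ _ _ _ _ => rfl)
  simp only [one_mul] at h
  rw [h, Eu_const, one_mul]

/-! ### Bonami -/

/-- Splitting off a coordinate. -/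
lemma bonami_polyF_split (𝒥 : Finset (Finset I)) (u : Finset I → ℝ) (a : I) (e : I → Bool) :
    polyF 𝒥 u e = polyF (𝒥.filter (fun J => a ∉ J)) u e +
      sgn (e a) * polyF ((𝒥.filter (fun J => a ∈ J)).image (fun J => J.erase a))
        (fun K => u (insert a K)) e := by
  unfold polyF
  have h := Finset.sum_filter_add_sum_filter_not 𝒥 (fun J => a ∉ J) (fun J => u J * chi J e)
  simp only [not_not] at h
  rw [← h]
  congr 1
  rw [Finset.sum_image]
  · rw [Finset.mul_sum]
    apply Finset.sum_congr rfl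
    intro J hJ
    have ha : a ∈ J := (Finset.mem_filter.1 hJ).2
    beta_reduce
    rw [Finset.insert_erase ha, bonami_chi_eq_sgn_mul ha]
    ring
  · intro J hJ J' hJ' hEq
    have ha : a ∈ J := (Finset.mem_filter.1 (Finset.mem_coe.1 hJ)).2
    have ha' : a ∈ J' := (Finset.mem_filter.1 (Finset.mem_coe.1 hJ')).2
    have := congrArg (insert a) hEq
    simpa [Finset.insert_erase ha, Finset.insert_erase ha'] using this

lemma bonami_aux (S : Finset I) : ∀ (q : ℕ) (𝒥 : Finset (Finset I)) (u : Finset I → ℝ),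
    (∀ J ∈ 𝒥, J ⊆ S ∧ J.card ≤ q) →
    Eu (fun e : I → Bool => polyF 𝒥 u e ^ 4) ≤
      9 ^ q * (Eu (fun e : I → Bool => polyF 𝒥 u e ^ 2)) ^ 2 := by
  induction S using Finset.induction_on with
  | empty =>
    intro q 𝒥 u h
    have hconst : ∀ e : I → Bool, polyF 𝒥 u e = ∑ J ∈ 𝒥, u J := by
      intro e
      unfold polyF
      apply Finset.sum_congr rfl
      intro J hJ
      have : J = ∅ := Finset.subset_empty.1 (h J hJ).1
      subst this
      simp [chi]
    simp only [hconst]
    rw [Eu_const, Eu_const]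
    set c := ∑ J ∈ 𝒥, u J
    have h9 : (1 : ℝ) ≤ 9 ^ q := one_le_pow₀ (by norm_num)
    have hc : 0 ≤ c ^ 4 := by positivity
    nlinarith
  | insert a S' ha IH =>
    intro q 𝒥 u h
    set 𝒥₀ := 𝒥.filter (fun J => a ∉ J) with h𝒥₀
    set 𝒥₁ := (𝒥.filter (fun J => a ∈ J)).image (fun J => J.erase a) with h𝒥₁
    set u₁ : Finset I → ℝ := fun K => u (insert a K) with hu₁
    have h0 : ∀ J ∈ 𝒥₀, a ∉ J := fun J hJ => (Finset.mem_filter.1 hJ).2
    have h1 : ∀ K ∈ 𝒥₁, a ∉ K := by
      intro K hK
      obtain ⟨J, _, rfl⟩ := Finset.mem_image.1 hK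
      exact Finset.notMem_erase a J
    set F₀ : (I → Bool) → ℝ := fun e => polyF 𝒥₀ u e with hF₀
    set F₁ : (I → Bool) → ℝ := fun e => polyF 𝒥₁ u₁ e with hF₁
    have hF : ∀ e, polyF 𝒥 u e = F₀ e + sgn (e a) * F₁ e := fun e => bonami_polyF_split 𝒥 u a e
    have hF₀f : ∀ e, F₀ (bonamiFlip a e) = F₀ e := fun e => bonami_polyF_flip_of_forall h0 u e
    have hF₁f : ∀ e, F₁ (bonamiFlip a e) = F₁ e := fun e => bonami_polyF_flip_of_forall h1 u₁ e
    have hsq : ∀ e : I → Bool, sgn (e a) ^ 2 = 1 := fun e => by rw [sq]; exact bonami_sgn_sq _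
    -- the two moments
    have hE2 : Eu (fun e => polyF 𝒥 u e ^ 2) = Eu (fun e => F₀ e ^ 2) + Eu (fun e => F₁ e ^ 2) := by
      rw [bonami_Eu_sym a, ← Eu_add]
      congr 1
      funext e
      rw [hF, hF (bonamiFlip a e), hF₀f, hF₁f, bonamiFlip_self, bonami_sgn_not]
      have := hsq e
      generalize sgn (e a) = s at *
      generalize F₀ e = x at *
      generalize F₁ e = y at *
      have : (x + s * y) ^ 2 + (x + -s * y) ^ 2 = 2 * x ^ 2 + 2 * s ^ 2 * y ^ 2 := by ring
      rw [this, ‹s ^ 2 = 1›]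
      ring
    have hE4 : Eu (fun e => polyF 𝒥 u e ^ 4) = Eu (fun e => F₀ e ^ 4)
        + 6 * Eu (fun e => F₀ e ^ 2 * F₁ e ^ 2) + Eu (fun e => F₁ e ^ 4) := by
      rw [bonami_Eu_sym a, ← Eu_mul_left, ← Eu_add, ← Eu_add]
      congr 1
      funext e
      rw [hF, hF (bonamiFlip a e), hF₀f, hF₁f, bonamiFlip_self, bonami_sgn_not]
      have hs := hsq e
      generalize sgn (e a) = s at *
      generalize F₀ e = x at *
      generalize F₁ e = y at *
      have : (x + s * y) ^ 4 + (x + -s * y) ^ 4
          = 2 * x ^ 4 + 12 * (s ^ 2) * x ^ 2 * y ^ 2 + 2 * (s ^ 2) ^ 2 * y ^ 4 := by ring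
      rw [this, hs]
      ring
    have hJ0 : ∀ J ∈ 𝒥₀, J ⊆ S' ∧ J.card ≤ q := by
      intro J hJ
      have hJ' := Finset.mem_filter.1 hJ
      refine ⟨?_, (h J hJ'.1).2⟩
      intro x hx
      rcases Finset.mem_insert.1 ((h J hJ'.1).1 hx) with rfl | hx'
      · exact absurd hx hJ'.2
      · exact hx'
    have hA := IH q 𝒥₀ u hJ0
    set a0 := Eu (fun e => F₀ e ^ 2) with ha0
    set b0 := Eu (fun e => F₁ e ^ 2) with hb0
    have ha0n : 0 ≤ a0 := Eu_nonneg fun e => by positivity
    have hb0n : 0 ≤ b0 := Eu_nonneg fun e => by positivity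
    rw [hE2, hE4]
    cases q with
    | zero =>
      have hemp : 𝒥.filter (fun J => a ∈ J) = ∅ := by
        apply Finset.filter_eq_empty_iff.2
        intro J hJ haJ
        have : J.card ≤ 0 := (h J hJ).2
        have : J = ∅ := Finset.card_eq_zero.1 (by omega)
        subst this
        exact absurd haJ (Finset.notMem_empty a)
      have hF₁0 : ∀ e, F₁ e = 0 := by
        intro e
        simp [hF₁, h𝒥₁, hemp, polyF]
      have hb00 : b0 = 0 := by
        rw [hb0]
        simp only [hF₁0]
        simp [Eu]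
      have hC : Eu (fun e => F₀ e ^ 2 * F₁ e ^ 2) = 0 := by
        simp only [hF₁0]
        simp [Eu]
      have hB : Eu (fun e => F₁ e ^ 4) = 0 := by
        simp only [hF₁0]
        simp [Eu]
      rw [hC, hB, hb00]
      simpa using hA
    | succ q' =>
      have hJ1 : ∀ K ∈ 𝒥₁, K ⊆ S' ∧ K.card ≤ q' := by
        intro K hK
        obtain ⟨J, hJ, rfl⟩ := Finset.mem_image.1 hK
        have hJ' := Finset.mem_filter.1 hJ
        constructor
        · intro x hx
          have hx' := Finset.mem_erase.1 hx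
          rcases Finset.mem_insert.1 ((h J hJ'.1).1 hx'.2) with hxa | hx''
          · exact absurd hxa hx'.1
          · exact hx''
        · have := (h J hJ'.1).2
          rw [Finset.card_erase_of_mem hJ'.2]
          omega
      have hB := IH q' 𝒥₁ u₁ hJ1
      set A := Eu (fun e => F₀ e ^ 4) with hAdef
      set B := Eu (fun e => F₁ e ^ 4) with hBdef
      set C := Eu (fun e => F₀ e ^ 2 * F₁ e ^ 2) with hCdef
      have hCS : C ^ 2 ≤ A * B := by
        have := bonami_Eu_cs (fun e => F₀ e ^ 2) (fun e => F₁ e ^ 2)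
        have e1 : (fun e => (F₀ e ^ 2) ^ 2) = fun e => F₀ e ^ 4 := by funext e; ring
        have e2 : (fun e => (F₁ e ^ 2) ^ 2) = fun e => F₁ e ^ 4 := by funext e; ring
        rw [e1, e2] at this
        exact this
      have hAn : 0 ≤ A := Eu_nonneg fun e => by positivity
      have hBn : 0 ≤ B := Eu_nonneg fun e => by positivity
      set X : ℝ := 9 ^ q' with hX
      have hXn : 0 ≤ X := by positivity
      have h9 : (9 : ℝ) ^ (q' + 1) = 9 * X := by rw [hX, pow_succ]; ring
      rw [h9] at hA ⊢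
      have hCle : C ≤ 3 * X * (a0 * b0) := by
        apply bonami_le_of_sq_le (by positivity)
        calc C ^ 2 ≤ A * B := hCS
          _ ≤ (9 * X * a0 ^ 2) * (X * b0 ^ 2) := mul_le_mul hA hB hBn (by positivity)
          _ = (3 * X * (a0 * b0)) ^ 2 := by ring
      have : 0 ≤ X * b0 ^ 2 := by positivity
      nlinarith [mul_nonneg hXn (mul_nonneg ha0n hb0n)]

/-- Bonami's lemma. -/
theorem bonami (q : ℕ) (𝒥 : Finset (Finset I)) (u : Finset I → ℝ) (h𝒥 : ∀ J ∈ 𝒥, J.card ≤ q) :
    Eu (fun e : I → Bool => polyF 𝒥 u e ^ 4) ≤ 9 ^ q * (Eu (fun e : I → Bool => polyF 𝒥 u e ^ 2)) ^ 2 :=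
  bonami_aux Finset.univ q 𝒥 u fun J hJ => ⟨Finset.subset_univ J, h𝒥 J hJ⟩

/-- Weighted form: CS + Bonami. -/
theorem bonami_weighted (q : ℕ) (𝒥 : Finset (Finset I)) (u : Finset I → ℝ) (h𝒥 : ∀ J ∈ 𝒥, J.card ≤ q)
    (W : (I → Bool) → ℝ) (hW : ∀ e, 0 ≤ W e) :
    Eu (fun e : I → Bool => W e * polyF 𝒥 u e ^ 2) ≤
      3 ^ q * Real.sqrt (Eu (fun e => W e ^ 2)) * Eu (fun e : I → Bool => polyF 𝒥 u e ^ 2) := by
  have hcs := bonami_Eu_cs W (fun e => polyF 𝒥 u e ^ 2)
  have e1 : (fun e => (polyF 𝒥 u e ^ 2) ^ 2) = fun e => polyF 𝒥 u e ^ 4 := by funext e; ring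
  rw [e1] at hcs
  have hb := bonami q 𝒥 u h𝒥
  set E2 := Eu (fun e : I → Bool => polyF 𝒥 u e ^ 2) with hE2
  have hE2n : 0 ≤ E2 := Eu_nonneg fun e => by positivity
  set W2 := Eu (fun e => W e ^ 2) with hW2
  have hW2n : 0 ≤ W2 := Eu_nonneg fun e => by positivity
  apply bonami_le_of_sq_le (by positivity)
  calc Eu (fun e : I → Bool => W e * polyF 𝒥 u e ^ 2) ^ 2
      ≤ W2 * Eu (fun e => polyF 𝒥 u e ^ 4) := hcs
    _ ≤ W2 * (9 ^ q * E2 ^ 2) := mul_le_mul_of_nonneg_left hb hW2n
    _ = (3 ^ q * Real.sqrt W2 * E2) ^ 2 := by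
      have h3 : (3 : ℝ) ^ q * 3 ^ q = 9 ^ q := by rw [← mul_pow]; norm_num
      have hs := Real.mul_self_sqrt hW2n
      calc W2 * (9 ^ q * E2 ^ 2)
          = (Real.sqrt W2 * Real.sqrt W2) * ((3 ^ q * 3 ^ q) * E2 ^ 2) := by rw [hs, h3]
        _ = _ := by ring

variable {Y : Type} [DecidableEq Y]

/-- Validity of the sides on the coordinates `T`: two coordinates of `T` on one switch are on opposite sides. -/
def ValOn (T : Finset I) (y : I → Y) (e : I → Bool) : Prop :=
  ∀ i ∈ T, ∀ j ∈ T, i ≠ j → y i = y j → e i ≠ e j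

instance (T : Finset I) (y : I → Y) (e : I → Bool) : Decidable (ValOn T y e) := by
  unfold ValOn; infer_instance

/-- `j` is a single of `y` on `T`. -/
def SingleOn (T : Finset I) (y : I → Y) (j : I) : Prop :=
  j ∈ T ∧ ∀ l ∈ T, y l = y j → l = j

/-- The number of false sides on `T`. -/
def falseCount (T : Finset I) (e : I → Bool) : ℕ := (T.filter (fun i => e i = false)).card

/-- Number of switches carrying exactly two coordinates of `T`: doubled coordinates counted by pairs. -/
def dblCount (T : Finset I) (y : I → Y) : ℕ :=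
  ((T.filter (fun i => ∃ j ∈ T, j ≠ i ∧ y j = y i)).card) / 2

/-- No three coordinates of `T` on a switch. -/
def NoTriple (T : Finset I) (y : I → Y) : Prop :=
  ∀ i ∈ T, (T.filter (fun l => y l = y i)).card ≤ 2

/-! ### Validity under flips and removal of a pair -/

omit [Fintype I] in
lemma bonami_valOn_flip_of_not_mem {T : Finset I} {a : I} (ha : a ∉ T) (y : I → Y) (e : I → Bool) :
    ValOn T y (bonamiFlip a e) ↔ ValOn T y e := by
  unfold ValOn
  have h : ∀ i ∈ T, bonamiFlip a e i = e i := fun i hi =>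
    bonamiFlip_ne (by rintro rfl; exact ha hi) e
  constructor
  · intro H i hi j hj hij hy
    have := H i hi j hj hij hy
    rwa [h i hi, h j hj] at this
  · intro H i hi j hj hij hy
    rw [h i hi, h j hj]
    exact H i hi j hj hij hy

omit [Fintype I] in
lemma bonami_valOn_flip_of_single {T : Finset I} {y : I → Y} {j : I} (hj : SingleOn T y j)
    (e : I → Bool) : ValOn T y (bonamiFlip j e) ↔ ValOn T y e := by
  unfold ValOn
  have key : ∀ e' e'' : I → Bool, (∀ i, i ≠ j → e' i = e'' i) →
      (∀ i ∈ T, ∀ l ∈ T, i ≠ l → y i = y l → e' i ≠ e' l) →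
      (∀ i ∈ T, ∀ l ∈ T, i ≠ l → y i = y l → e'' i ≠ e'' l) := by
    intro e' e'' he H i hi l hl hil hy
    have hi' : i ≠ j := by
      rintro rfl
      exact hil (hj.2 l hl hy.symm).symm
    have hl' : l ≠ j := by
      rintro rfl
      exact hil (hj.2 i hi hy)
    rw [← he i hi', ← he l hl']
    exact H i hi l hl hil hy
  exact ⟨key _ _ (fun i hi => bonamiFlip_ne hi e), key _ _ (fun i hi => (bonamiFlip_ne hi e).symm)⟩

omit [Fintype I] in
lemma bonami_falseCount_flip_of_not_mem {T : Finset I} {a : I} (ha : a ∉ T) (e : I → Bool) :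
    falseCount T (bonamiFlip a e) = falseCount T e := by
  unfold falseCount
  congr 1
  apply Finset.filter_congr
  intro i hi
  rw [bonamiFlip_ne (by rintro rfl; exact ha hi)]

omit [Fintype I] in
lemma bonami_valOn_false_of_three {T : Finset I} {y : I → Y} {a b c : I} (ha : a ∈ T) (hb : b ∈ T)
    (hc : c ∈ T) (hab : a ≠ b) (hac : a ≠ c) (hbc : b ≠ c) (h1 : y a = y b) (h2 : y a = y c)
    (e : I → Bool) : ¬ ValOn T y e := by
  intro H
  have h₁ := H a ha b hb hab h1
  have h₂ := H a ha c hc hac h2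
  have h₃ := H b hb c hc hbc (h1.symm.trans h2)
  revert h₁ h₂ h₃
  cases e a <;> cases e b <;> cases e c <;> simp

omit [Fintype I] in
lemma bonami_valOn_iff_erase {T : Finset I} {y : I → Y} {a b : I} (ha : a ∈ T) (hb : b ∈ T)
    (h3 : ∀ c ∈ T, y c = y a → c = a ∨ c = b) (hab : a ≠ b) (hy : y a = y b) (e : I → Bool) :
    ValOn T y e ↔ e a ≠ e b ∧ ValOn ((T.erase a).erase b) y e := by
  constructor
  · intro H
    refine ⟨H a ha b hb hab hy, ?_⟩
    intro i hi j hj hij hyij
    have hi' := Finset.mem_of_mem_erase (Finset.mem_of_mem_erase hi)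
    have hj' := Finset.mem_of_mem_erase (Finset.mem_of_mem_erase hj)
    exact H i hi' j hj' hij hyij
  · rintro ⟨hne, H⟩ i hi j hj hij hyij
    by_cases hia : i = a
    · subst hia
      rcases h3 j hj hyij.symm with h | h
      · exact absurd h.symm hij
      · subst h; exact hne
    by_cases hib : i = b
    · subst hib
      rcases h3 j hj (hyij.symm.trans hy.symm) with h | h
      · subst h; exact hne.symm
      · exact absurd h.symm hij
    by_cases hja : j = a
    · subst hja
      rcases h3 i hi hyij with h | h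
      · exact absurd h hia
      · exact absurd h hib
    by_cases hjb : j = b
    · subst hjb
      rcases h3 i hi (hyij.trans hy.symm) with h | h
      · exact absurd h hia
      · exact absurd h hib
    exact H i (Finset.mem_erase.2 ⟨hib, Finset.mem_erase.2 ⟨hia, hi⟩⟩) j
      (Finset.mem_erase.2 ⟨hjb, Finset.mem_erase.2 ⟨hja, hj⟩⟩) hij hyij

omit [Fintype I] in
lemma bonami_card_erase_pair {T : Finset I} {a b : I} (ha : a ∈ T) (hb : b ∈ T) (hab : a ≠ b) :
    T.card = ((T.erase a).erase b).card + 2 := by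
  have hb' : b ∈ T.erase a := Finset.mem_erase.2 ⟨hab.symm, hb⟩
  have h1 := Finset.card_erase_of_mem ha
  have h2 := Finset.card_erase_of_mem hb'
  have h3 : 0 < T.card := Finset.card_pos.2 ⟨a, ha⟩
  have h4 : 0 < (T.erase a).card := Finset.card_pos.2 ⟨b, hb'⟩
  omega

omit [Fintype I] in
lemma bonami_falseCount_erase_pair {T : Finset I} {a b : I} (ha : a ∈ T) (hb : b ∈ T) (hab : a ≠ b)
    (e : I → Bool) (hne : e a ≠ e b) :
    falseCount T e = falseCount ((T.erase a).erase b) e + 1 := by
  unfold falseCount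
  have hb' : b ∈ T.erase a := Finset.mem_erase.2 ⟨hab.symm, hb⟩
  have hT : T = insert a (insert b ((T.erase a).erase b)) := by
    rw [Finset.insert_erase hb', Finset.insert_erase ha]
  set T' := (T.erase a).erase b with hT'
  have hbT' : b ∉ T' := Finset.notMem_erase b _
  have haT' : a ∉ T' := fun h => Finset.notMem_erase a T (Finset.mem_of_mem_erase h)
  have hains : a ∉ insert b T' := by
    simp [hab, haT']
  conv_lhs => rw [hT]
  clear hT
  have hb2 : b ∉ Finset.filter (fun i => e i = false) T' :=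
    fun h => hbT' (Finset.mem_filter.1 h).1
  have ha2 : a ∉ Finset.filter (fun i => e i = false) T' :=
    fun h => haT' (Finset.mem_filter.1 h).1
  rw [Finset.filter_insert, Finset.filter_insert]
  cases hea : e a <;> cases heb : e b
  · exact absurd (hea.trans heb.symm) hne
  · simp only [if_true, if_false, Bool.true_eq_false]
    rw [Finset.card_insert_of_notMem ha2]
  · simp only [if_true, if_false, Bool.true_eq_false]
    rw [Finset.card_insert_of_notMem hb2]
  · exact absurd (hea.trans heb.symm) hne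

omit [Fintype I] in
lemma bonami_single_erase_pair {T : Finset I} {y : I → Y} {a b j : I} (hj : SingleOn T y j)
    (ha : a ∈ T) (hb : b ∈ T) (hab : a ≠ b) (hy : y a = y b) :
    SingleOn ((T.erase a).erase b) y j ∧ j ≠ a := by
  have hja : j ≠ a := by
    rintro rfl
    exact hab (hj.2 b hb hy.symm).symm
  have hjb : j ≠ b := by
    rintro rfl
    exact hab (hj.2 a ha hy)
  refine ⟨⟨Finset.mem_erase.2 ⟨hjb, Finset.mem_erase.2 ⟨hja, hj.1⟩⟩, ?_⟩, hja⟩
  intro l hl hyl
  exact hj.2 l (Finset.mem_of_mem_erase (Finset.mem_of_mem_erase hl)) hyl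

/-- Half lemma. -/
lemma bonami_half {a b : I} (hab : a ≠ b) (Ψ : (I → Bool) → ℝ)
    (hΨ : ∀ e, Ψ (bonamiFlip a e) = Ψ e) :
    Eu (fun e : I → Bool => if e a ≠ e b then Ψ e else 0) = (1 / 2) * Eu Ψ := by
  rw [bonami_Eu_sym a, ← Eu_mul_left]
  congr 1
  funext e
  rw [hΨ, bonamiFlip_self, bonamiFlip_ne hab.symm]
  cases hea : e a <;> cases heb : e b <;> simp <;> ring

/-! ### The binomial law of `falseCount` -/

lemma bonami_Ebin_succ (r : ℕ) (φ : ℕ → ℝ) :
    Ebin (r + 1) φ = (1 / 2) * (Ebin r (fun s => φ (s + 1)) + Ebin r φ) := by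
  unfold Ebin
  have h1 : ∑ s ∈ range (r + 1 + 1), ((r + 1).choose s : ℝ) * φ s
      = ∑ s ∈ range (r + 1), (r.choose s : ℝ) * φ (s + 1)
        + ∑ s ∈ range (r + 1), (r.choose s : ℝ) * φ s := by
    rw [Finset.sum_range_succ']
    have h2 : ∑ s ∈ range (r + 1), ((r + 1).choose (s + 1) : ℝ) * φ (s + 1)
        = ∑ s ∈ range (r + 1), (r.choose s : ℝ) * φ (s + 1)
          + ∑ s ∈ range (r + 1), (r.choose (s + 1) : ℝ) * φ (s + 1) := by
      rw [← Finset.sum_add_distrib]
      apply Finset.sum_congr rfl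
      intro s _
      rw [Nat.choose_succ_succ]
      push_cast
      ring
    have h3 : ∑ s ∈ range (r + 1), (r.choose s : ℝ) * φ s
        = ∑ s ∈ range (r + 1), (r.choose (s + 1) : ℝ) * φ (s + 1) + φ 0 := by
      rw [Finset.sum_range_succ' (fun s => (r.choose s : ℝ) * φ s) r,
        Finset.sum_range_succ (fun s => (r.choose (s + 1) : ℝ) * φ (s + 1)) r]
      simp
    rw [h2, h3]
    simp
    ring
  rw [h1, pow_succ]
  ring

omit [DecidableEq I] in
lemma bonami_falseCount_empty_aux [DecidableEq I] (e : I → Bool) : falseCount (∅ : Finset I) e = 0 := by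
  simp [falseCount]

lemma bonami_Eu_falseCount (T : Finset I) : ∀ φ : ℕ → ℝ,
    Eu (fun e : I → Bool => φ (falseCount T e)) = Ebin T.card φ := by
  induction T using Finset.induction_on with
  | empty =>
    intro φ
    simp only [bonami_falseCount_empty_aux]
    rw [Eu_const]
    simp [Ebin]
  | insert a T' ha IH =>
    intro φ
    rw [Finset.card_insert_of_notMem ha, bonami_Ebin_succ, ← IH, ← IH, ← Eu_add, ← Eu_mul_left,
      bonami_Eu_sym a]
    congr 1
    funext e
    have h1 : ∀ e' : I → Bool, falseCount (insert a T') e'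
        = falseCount T' e' + if e' a = false then 1 else 0 := by
      intro e'
      unfold falseCount
      rw [Finset.filter_insert]
      by_cases hh : e' a = false
      · simp only [hh, if_true]
        rw [Finset.card_insert_of_notMem]
        simp [ha]
      · simp [hh]
    rw [h1, h1, bonami_falseCount_flip_of_not_mem ha, bonamiFlip_self]
    cases e a <;> simp <;> ring

/-! ### Weighted Bonami with doubles -/

omit [Fintype I] in
lemma bonami_polyF_flip_of_single {T : Finset I} {y : I → Y} {𝒥 : Finset (Finset I)} {a b : I}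
    (h𝒥 : ∀ J ∈ 𝒥, ∀ j ∈ J, SingleOn T y j) (ha : a ∈ T) (hb : b ∈ T) (hab : a ≠ b)
    (hy : y a = y b) (u : Finset I → ℝ) (e : I → Bool) :
    polyF 𝒥 u (bonamiFlip a e) = polyF 𝒥 u e := by
  apply bonami_polyF_flip_of_forall
  intro J hJ haJ
  exact (bonami_single_erase_pair (h𝒥 J hJ a haJ) ha hb hab hy).2 rfl

theorem bonami_wb_doubles_aux (y : I → Y) (q : ℕ) (𝒥 : Finset (Finset I)) (u : Finset I → ℝ)
    (hq : ∀ J ∈ 𝒥, J.card ≤ q) : ∀ (n : ℕ) (T : Finset I), T.card = n →
    (∀ J ∈ 𝒥, ∀ j ∈ J, SingleOn T y j) →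
    ∀ (φ : ℕ → ℝ), (∀ s, s + 2 ≤ T.card → 2 * φ (s + 1) ≤ φ s + φ (s + 2)) →
    ∀ (w : ℕ → ℝ), (∀ s, 0 ≤ w s) → (∀ s, s ≤ T.card → w s ^ 2 ≤ φ s) →
    Eu (fun e : I → Bool => if ValOn T y e then w (falseCount T e) * polyF 𝒥 u e ^ 2 else 0) ≤
      3 ^ q * Real.sqrt (Ebin T.card φ) *
        Eu (fun e : I → Bool => if ValOn T y e then polyF 𝒥 u e ^ 2 else 0) := by
  intro n
  induction n using Nat.strong_induction_on with
  | _ n IH =>
    intro T hTn hS φ hφ w hw0 hw
    by_cases hd : ∃ a ∈ T, ∃ b ∈ T, a ≠ b ∧ y a = y b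
    · obtain ⟨a, ha, b, hb, hab, hy⟩ := hd
      by_cases h3 : ∃ c ∈ T, c ≠ a ∧ c ≠ b ∧ y c = y a
      · obtain ⟨c, hc, hca, hcb, hyc⟩ := h3
        have hV : ∀ e, ¬ ValOn T y e := fun e =>
          bonami_valOn_false_of_three ha hb hc hab hca.symm hcb.symm hy hyc.symm e
        simp only [hV, if_false]
        simp [Eu]
      · have h3' : ∀ c ∈ T, y c = y a → c = a ∨ c = b := by
          intro c hc hyc
          by_contra hcon
          push Not at hcon
          exact h3 ⟨c, hc, hcon.1, hcon.2, hyc⟩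
        set T' := (T.erase a).erase b with hT'
        have hcard := bonami_card_erase_pair ha hb hab
        rw [← hT'] at hcard
        have haT' : a ∉ T' := fun h => Finset.notMem_erase a T (Finset.mem_of_mem_erase h)
        have hS' : ∀ J ∈ 𝒥, ∀ j ∈ J, SingleOn T' y j := fun J hJ j hj =>
          (bonami_single_erase_pair (hS J hJ j hj) ha hb hab hy).1
        have hIH := IH T'.card (by omega) T' rfl hS' (fun s => φ (s + 1))
          (fun s hs => hφ (s + 1) (by omega)) (fun s => w (s + 1)) (fun s => hw0 _)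
          (fun s hs => hw (s + 1) (by omega))
        have hFf : ∀ e, polyF 𝒥 u (bonamiFlip a e) = polyF 𝒥 u e :=
          bonami_polyF_flip_of_single hS ha hb hab hy u
        -- the left side
        have hL : Eu (fun e : I → Bool => if ValOn T y e then w (falseCount T e) * polyF 𝒥 u e ^ 2 else 0)
            = (1 / 2) * Eu (fun e : I → Bool =>
                if ValOn T' y e then w (falseCount T' e + 1) * polyF 𝒥 u e ^ 2 else 0) := by
          rw [← bonami_half hab]
          · congr 1
            funext e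
            by_cases hne : e a ≠ e b
            · rw [if_pos hne]
              by_cases hv : ValOn T' y e
              · have hv' : ValOn T y e := (bonami_valOn_iff_erase ha hb h3' hab hy e).2 ⟨hne, hv⟩
                rw [if_pos hv', if_pos hv, bonami_falseCount_erase_pair ha hb hab e hne]
              · have hv' : ¬ ValOn T y e := fun h => hv ((bonami_valOn_iff_erase ha hb h3' hab hy e).1 h).2
                rw [if_neg hv', if_neg hv]
            · have hv' : ¬ ValOn T y e := fun h => hne ((bonami_valOn_iff_erase ha hb h3' hab hy e).1 h).1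
              rw [if_neg hv', if_neg hne]
          · intro e
            simp only [bonami_valOn_flip_of_not_mem haT', bonami_falseCount_flip_of_not_mem haT', hFf]
        have hR : Eu (fun e : I → Bool => if ValOn T y e then polyF 𝒥 u e ^ 2 else 0)
            = (1 / 2) * Eu (fun e : I → Bool => if ValOn T' y e then polyF 𝒥 u e ^ 2 else 0) := by
          rw [← bonami_half hab]
          · congr 1
            funext e
            by_cases hne : e a ≠ e b
            · rw [if_pos hne]
              by_cases hv : ValOn T' y e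
              · have hv' : ValOn T y e := (bonami_valOn_iff_erase ha hb h3' hab hy e).2 ⟨hne, hv⟩
                rw [if_pos hv', if_pos hv]
              · have hv' : ¬ ValOn T y e := fun h => hv ((bonami_valOn_iff_erase ha hb h3' hab hy e).1 h).2
                rw [if_neg hv', if_neg hv]
            · have hv' : ¬ ValOn T y e := fun h => hne ((bonami_valOn_iff_erase ha hb h3' hab hy e).1 h).1
              rw [if_neg hv', if_neg hne]
          · intro e
            simp only [bonami_valOn_flip_of_not_mem haT', hFf]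
        rw [hL, hR]
        set A := Eu (fun e : I → Bool => if ValOn T' y e then polyF 𝒥 u e ^ 2 else 0) with hA
        have hAn : 0 ≤ A := by
          apply Eu_nonneg
          intro e
          split_ifs <;> positivity
        have hEb : Ebin T'.card (fun s => φ (s + 1)) ≤ Ebin T.card φ := by
          rw [hcard]
          apply Ebin_shift_le
          intro s hs
          exact hφ s (by omega)
        have hsq : Real.sqrt (Ebin T'.card (fun s => φ (s + 1))) ≤ Real.sqrt (Ebin T.card φ) :=
          Real.sqrt_le_sqrt hEb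
        have h3p : (0 : ℝ) ≤ 3 ^ q := by positivity
        calc (1 / 2) * Eu (fun e : I → Bool =>
                if ValOn T' y e then w (falseCount T' e + 1) * polyF 𝒥 u e ^ 2 else 0)
            ≤ (1 / 2) * (3 ^ q * Real.sqrt (Ebin T'.card (fun s => φ (s + 1))) * A) := by
              apply mul_le_mul_of_nonneg_left hIH (by norm_num)
          _ ≤ (1 / 2) * (3 ^ q * Real.sqrt (Ebin T.card φ) * A) := by
              apply mul_le_mul_of_nonneg_left _ (by norm_num)
              apply mul_le_mul_of_nonneg_right _ hAn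
              exact mul_le_mul_of_nonneg_left hsq h3p
          _ = 3 ^ q * Real.sqrt (Ebin T.card φ) * ((1 / 2) * A) := by ring
    · -- no doubled coordinates
      have hV : ∀ e, ValOn T y e := by
        intro e i hi j hj hij hyij
        exact absurd ⟨i, hi, j, hj, hij, hyij⟩ hd
      simp only [hV, if_true]
      have hb := bonami_weighted q 𝒥 u hq (fun e => w (falseCount T e)) (fun e => hw0 _)
      refine hb.trans ?_
      have hE2n : 0 ≤ Eu (fun e : I → Bool => polyF 𝒥 u e ^ 2) := Eu_nonneg fun e => by positivity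
      apply mul_le_mul_of_nonneg_right _ hE2n
      apply mul_le_mul_of_nonneg_left _ (by positivity)
      apply Real.sqrt_le_sqrt
      rw [← bonami_Eu_falseCount T φ]
      apply Eu_mono
      intro e
      exact hw _ (Finset.card_filter_le _ _)

/-- WEIGHTED BONAMI WITH DOUBLES. `F` is a polynomial of degree `≤ q` whose characters use only singles of `y` on `T`,
`φ` is convex and dominates `w²`. -/
theorem wb_doubles (T : Finset I) (y : I → Y) (q : ℕ) (𝒥 : Finset (Finset I)) (u : Finset I → ℝ)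
    (h𝒥 : ∀ J ∈ 𝒥, J.card ≤ q ∧ ∀ j ∈ J, SingleOn T y j)
    (φ : ℕ → ℝ) (_hφ0 : ∀ s, 0 ≤ φ s) (hφ : ∀ s, s + 2 ≤ T.card → 2 * φ (s + 1) ≤ φ s + φ (s + 2))
    (w : ℕ → ℝ) (hw0 : ∀ s, 0 ≤ w s) (hw : ∀ s, s ≤ T.card → w s ^ 2 ≤ φ s) :
    Eu (fun e : I → Bool => if ValOn T y e then w (falseCount T e) * polyF 𝒥 u e ^ 2 else 0) ≤
      3 ^ q * Real.sqrt (Ebin T.card φ) *
        Eu (fun e : I → Bool => if ValOn T y e then polyF 𝒥 u e ^ 2 else 0) :=
  bonami_wb_doubles_aux y q 𝒥 u (fun J hJ => (h𝒥 J hJ).1) T.card T rfl (fun J hJ => (h𝒥 J hJ).2)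
    φ hφ w hw0 hw

/-- Parseval on the valid set (characters on singles). -/
theorem parseval_val (T : Finset I) (y : I → Y) (𝒥 : Finset (Finset I)) (u : Finset I → ℝ)
    (h𝒥 : ∀ J ∈ 𝒥, ∀ j ∈ J, SingleOn T y j) :
    Eu (fun e : I → Bool => if ValOn T y e then polyF 𝒥 u e ^ 2 else 0) =
      Eu (fun e : I → Bool => if ValOn T y e then (1 : ℝ) else 0) * ∑ J ∈ 𝒥, u J ^ 2 := by
  have h := bonami_parseval_weight (fun e : I → Bool => if ValOn T y e then (1 : ℝ) else 0) 𝒥 u
    (by
      intro J hJ j hj e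
      have := bonami_valOn_flip_of_single (h𝒥 J hJ j hj) e
      simp only [this])
  rw [← h]
  congr 1
  funext e
  split_ifs <;> simp

/-- The probability of validity. -/
theorem bonami_prob_val_aux (y : I → Y) : ∀ (n : ℕ) (T : Finset I), T.card = n → NoTriple T y →
    Eu (fun e : I → Bool => if ValOn T y e then (1 : ℝ) else 0) = (2 : ℝ)⁻¹ ^ dblCount T y := by
  intro n
  induction n using Nat.strong_induction_on with
  | _ n IH =>
    intro T hTn hN
    by_cases hd : ∃ a ∈ T, ∃ b ∈ T, a ≠ b ∧ y a = y b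
    · obtain ⟨a, ha, b, hb, hab, hy⟩ := hd
      have h3' : ∀ c ∈ T, y c = y a → c = a ∨ c = b := by
        intro c hc hyc
        by_contra hcon
        push Not at hcon
        have hle := hN a ha
        have h3 : 2 < (T.filter (fun l => y l = y a)).card := by
          rw [Finset.two_lt_card_iff]
          exact ⟨a, b, c, Finset.mem_filter.2 ⟨ha, rfl⟩, Finset.mem_filter.2 ⟨hb, hy.symm⟩,
            Finset.mem_filter.2 ⟨hc, hyc⟩, hab, fun h => hcon.1 h.symm, fun h => hcon.2 h.symm⟩
        omega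
      set T' := (T.erase a).erase b with hT'
      have hcard := bonami_card_erase_pair ha hb hab
      rw [← hT'] at hcard
      have haT' : a ∉ T' := fun h => Finset.notMem_erase a T (Finset.mem_of_mem_erase h)
      have hbT' : b ∉ T' := Finset.notMem_erase b _
      have hsub : T' ⊆ T := fun x hx => Finset.mem_of_mem_erase (Finset.mem_of_mem_erase hx)
      have hN' : NoTriple T' y := by
        intro i hi
        refine le_trans (Finset.card_le_card ?_) (hN i (hsub hi))
        intro l hl
        have := Finset.mem_filter.1 hl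
        exact Finset.mem_filter.2 ⟨hsub this.1, this.2⟩
      have hIH := IH T'.card (by omega) T' rfl hN'
      have hL : Eu (fun e : I → Bool => if ValOn T y e then (1 : ℝ) else 0)
          = (1 / 2) * Eu (fun e : I → Bool => if ValOn T' y e then (1 : ℝ) else 0) := by
        rw [← bonami_half hab]
        · congr 1
          funext e
          by_cases hne : e a ≠ e b
          · rw [if_pos hne]
            by_cases hv : ValOn T' y e
            · have hv' : ValOn T y e := (bonami_valOn_iff_erase ha hb h3' hab hy e).2 ⟨hne, hv⟩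
              rw [if_pos hv', if_pos hv]
            · have hv' : ¬ ValOn T y e := fun h => hv ((bonami_valOn_iff_erase ha hb h3' hab hy e).1 h).2
              rw [if_neg hv', if_neg hv]
          · have hv' : ¬ ValOn T y e := fun h => hne ((bonami_valOn_iff_erase ha hb h3' hab hy e).1 h).1
            rw [if_neg hv', if_neg hne]
        · intro e
          simp only [bonami_valOn_flip_of_not_mem haT']
      -- the count
      have hD : T.filter (fun i => ∃ j ∈ T, j ≠ i ∧ y j = y i)
          = insert a (insert b (T'.filter (fun i => ∃ j ∈ T', j ≠ i ∧ y j = y i))) := by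
        ext i
        simp only [Finset.mem_filter, Finset.mem_insert]
        constructor
        · rintro ⟨hi, j, hj, hji, hyj⟩
          by_cases hia : i = a
          · exact Or.inl hia
          by_cases hib : i = b
          · exact Or.inr (Or.inl hib)
          refine Or.inr (Or.inr ⟨Finset.mem_erase.2 ⟨hib, Finset.mem_erase.2 ⟨hia, hi⟩⟩, j, ?_, hji, hyj⟩)
          have hja : j ≠ a := by
            rintro rfl
            rcases h3' i hi hyj.symm with h | h
            · exact hia h
            · exact hib h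
          have hjb : j ≠ b := by
            rintro rfl
            rcases h3' i hi (hyj.symm.trans hy.symm) with h | h
            · exact hia h
            · exact hib h
          exact Finset.mem_erase.2 ⟨hjb, Finset.mem_erase.2 ⟨hja, hj⟩⟩
        · rintro (rfl | rfl | ⟨hi, j, hj, hji, hyj⟩)
          · exact ⟨ha, b, hb, hab.symm, hy.symm⟩
          · exact ⟨hb, a, ha, hab, hy⟩
          · exact ⟨hsub hi, j, hsub hj, hji, hyj⟩
      have hDc : (T.filter (fun i => ∃ j ∈ T, j ≠ i ∧ y j = y i)).card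
          = (T'.filter (fun i => ∃ j ∈ T', j ≠ i ∧ y j = y i)).card + 2 := by
        rw [hD, Finset.card_insert_of_notMem, Finset.card_insert_of_notMem]
        · intro h
          exact hbT' (Finset.mem_filter.1 h).1
        · intro h
          rcases Finset.mem_insert.1 h with h | h
          · exact hab h
          · exact haT' (Finset.mem_filter.1 h).1
      have hdb : dblCount T y = dblCount T' y + 1 := by
        unfold dblCount
        rw [hDc]
        omega
      rw [hL, hIH, hdb, pow_succ]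
      ring
    · have hV : ∀ e, ValOn T y e := by
        intro e i hi j hj hij hyij
        exact absurd ⟨i, hi, j, hj, hij, hyij⟩ hd
      simp only [hV, if_true]
      rw [Eu_const]
      have : dblCount T y = 0 := by
        unfold dblCount
        have : T.filter (fun i => ∃ j ∈ T, j ≠ i ∧ y j = y i) = ∅ := by
          apply Finset.filter_eq_empty_iff.2
          rintro i hi ⟨j, hj, hji, hyj⟩
          exact hd ⟨i, hi, j, hj, hji.symm, hyj.symm⟩
        rw [this]
        simp
      rw [this, pow_zero]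

/-- The probability of validity. -/
theorem prob_val (T : Finset I) (y : I → Y) (h : NoTriple T y) :
    Eu (fun e : I → Bool => if ValOn T y e then (1 : ℝ) else 0) = (2 : ℝ)⁻¹ ^ dblCount T y :=
  bonami_prob_val_aux y T.card T rfl h

theorem prob_val_zero (T : Finset I) (y : I → Y) (h : ¬ NoTriple T y) :
    Eu (fun e : I → Bool => if ValOn T y e then (1 : ℝ) else 0) = 0 := by
  unfold NoTriple at h
  push Not at h
  obtain ⟨i, hi, hc⟩ := h
  obtain ⟨a, b, c, ha, hb, hc', hab, hac, hbc⟩ := Finset.two_lt_card_iff.1 hc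
  have ha' := Finset.mem_filter.1 ha
  have hb' := Finset.mem_filter.1 hb
  have hc'' := Finset.mem_filter.1 hc'
  have hV : ∀ e, ¬ ValOn T y e := fun e =>
    bonami_valOn_false_of_three ha'.1 hb'.1 hc''.1 hab hac hbc (ha'.2.trans hb'.2.symm)
      (ha'.2.trans hc''.2.symm) e
  simp only [hV, if_false]
  simp [Eu]

end Vale.Agent.P162O
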