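/-
P162 O(d), Part II: colorings, the kernels of a list of layers, slice independence.
-/
import Vale.Agent.P162O.Common

open scoped BigOperators
open Finset

namespace Vale.Agent.P162O
open Vale.Agent.P162

variable {D : ℕ}

/-- Expectation over the law of the composition of the layers in the list `l`; the head of the list is applied first:
`O = lay b_s c_s * ... * lay b_1 c_1`. -/
noncomputable def Elaw : List ℕ → (Equiv.Perm (Cube D) → ℝ) → ℝ
  | [], f => f 1
  | b :: l, f => Eu fun c : Cube D → Bool => Elaw l (fun O => f (O * lay b c))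

theorem Elaw_mono (l : List ℕ) {f g : Equiv.Perm (Cube D) → ℝ} (h : ∀ O, f O ≤ g O) :
    Elaw l f ≤ Elaw l g := by
  induction l generalizing f g with
  | nil => exact h 1
  | cons b l ih => exact Eu_mono fun c => ih fun O => h _

theorem Elaw_nonneg (l : List ℕ) {f : Equiv.Perm (Cube D) → ℝ} (h : ∀ O, 0 ≤ f O) : 0 ≤ Elaw l f := by
  induction l generalizing f with
  | nil => exact h 1
  | cons b l ih => exact Eu_nonneg fun c => ih fun O => h _

theorem Elaw_const (l : List ℕ) (a : ℝ) : Elaw (D := D) l (fun _ => a) = a := by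
  induction l with
  | nil => rfl
  | cons b l ih =>
    simp only [Elaw, ih]
    exact Eu_const a

theorem Elaw_add (l : List ℕ) (f g : Equiv.Perm (Cube D) → ℝ) :
    Elaw l (fun O => f O + g O) = Elaw l f + Elaw l g := by
  induction l generalizing f g with
  | nil => rfl
  | cons b l ih =>
    simp only [Elaw]
    rw [← Eu_add]
    congr 1
    funext c
    exact ih _ _

theorem Elaw_mul_left (l : List ℕ) (a : ℝ) (f : Equiv.Perm (Cube D) → ℝ) :
    Elaw l (fun O => a * f O) = a * Elaw l f := by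
  induction l generalizing f with
  | nil => rfl
  | cons b l ih =>
    simp only [Elaw]
    rw [← Eu_mul_left]
    congr 1
    funext c
    exact ih _

theorem Elaw_mul_right (l : List ℕ) (a : ℝ) (f : Equiv.Perm (Cube D) → ℝ) :
    Elaw l (fun O => f O * a) = Elaw l f * a := by
  have h := Elaw_mul_left l a f
  rw [mul_comm a] at h
  rw [← h]
  congr 1
  funext O
  ring

theorem Elaw_sum {ι : Type*} (s : Finset ι) (l : List ℕ) (f : ι → Equiv.Perm (Cube D) → ℝ) :
    Elaw l (fun O => ∑ i ∈ s, f i O) = ∑ i ∈ s, Elaw l (f i) := by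
  classical
  induction s using Finset.induction_on with
  | empty =>
    simp only [Finset.sum_empty]
    exact Elaw_const l 0
  | insert a s ha ih =>
    simp only [Finset.sum_insert ha]
    rw [Elaw_add, ih]

theorem Elaw_Eu {α : Type*} [Fintype α] (l : List ℕ) (g : α → Equiv.Perm (Cube D) → ℝ) :
    Elaw l (fun O => Eu (fun a => g a O)) = Eu (fun a => Elaw l (g a)) := by
  unfold Eu
  rw [Elaw_mul_left, Elaw_sum]

theorem Elaw_comm (l l' : List ℕ) (f : Equiv.Perm (Cube D) → Equiv.Perm (Cube D) → ℝ) :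
    Elaw l (fun O => Elaw l' (fun O' => f O O')) = Elaw l' (fun O' => Elaw l (fun O => f O O')) := by
  induction l generalizing f with
  | nil => rfl
  | cons b l ih =>
    simp only [Elaw]
    rw [Elaw_Eu]
    congr 1
    funext c
    exact ih _

section Eusum
variable {α β : Type*} [Fintype α] [Fintype β]

theorem Eu_sum_comm (s : Finset β) (f : β → α → ℝ) :
    ∑ e ∈ s, Eu (f e) = Eu (fun a => ∑ e ∈ s, f e a) := by
  unfold Eu
  rw [← Finset.mul_sum, Finset.sum_comm]

theorem Eu_mul_Eu (f : α → ℝ) (g : β → ℝ) :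
    Eu f * Eu g = Eu (fun a => Eu (fun b => f a * g b)) := by
  have h : ∀ a, Eu (fun b => f a * g b) = f a * Eu g := fun a => Eu_mul_left (f a) g
  simp only [h]
  have h2 : Eu (fun a => f a * Eu g) = Eu f * Eu g := by
    have h3 := Eu_mul_left (Eu g) f
    rw [mul_comm (Eu g)] at h3
    rw [← h3]
    congr 1
    funext a
    ring
  exact h2.symm

theorem Eu_prod (f : α → β → ℝ) :
    Eu (fun p : α × β => f p.1 p.2) = Eu (fun a => Eu (fun b => f a b)) := by
  unfold Eu
  rw [Fintype.sum_prod_type, Fintype.card_prod, Nat.cast_mul, mul_inv, Finset.mul_sum, Finset.mul_sum]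
  refine Finset.sum_congr rfl fun a _ => ?_
  rw [mul_assoc]

end Eusum

section color
variable {𝔽 : Type} [Fintype 𝔽] [DecidableEq 𝔽] (z : 𝔽)

/-- Colorings of the positions. -/
abbrev Col (D : ℕ) (𝔽 : Type) := Cube D → 𝔽

/-- The kernel `K_l(a,e) = P(a ∘ O⁻¹ = e)`. -/
noncomputable def Kl (l : List ℕ) (a e : Col D 𝔽) : ℝ :=
  Elaw l (fun O => if a ∘ (O⁻¹ : Equiv.Perm (Cube D)) = e then 1 else 0)

/-- The Gram kernel `G_l(a,a') = P(a ∘ O₁⁻¹ = a' ∘ O₂⁻¹)`. -/
noncomputable def Gl (l : List ℕ) (a a' : Col D 𝔽) : ℝ :=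
  ∑ e : Col D 𝔽, Kl l a e * Kl l a' e

theorem Kl_nonneg (l : List ℕ) (a e : Col D 𝔽) : 0 ≤ Kl l a e := by
  unfold Kl
  refine Elaw_nonneg l fun O => ?_
  split_ifs <;> norm_num

theorem Kl_sum (l : List ℕ) (a : Col D 𝔽) : ∑ e : Col D 𝔽, Kl l a e = 1 := by
  unfold Kl
  rw [← Elaw_sum]
  have h : ∀ O : Equiv.Perm (Cube D),
      (∑ e : Col D 𝔽, if a ∘ (O⁻¹ : Equiv.Perm (Cube D)) = e then (1 : ℝ) else 0) = 1 := by
    intro O
    simp
  simp only [h]
  exact Elaw_const l 1

theorem Kl_nil (a e : Col D 𝔽) : Kl [] a e = if a = e then 1 else 0 := by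
  simp [Kl, Elaw]

theorem Kl_cons (b : ℕ) (l : List ℕ) (a e : Col D 𝔽) :
    Kl (b :: l) a e = Eu fun κ : Cube D → Bool => Kl l (a ∘ lay b κ) e := by
  unfold Kl
  simp only [Elaw]
  have h : ∀ (κ : Cube D → Bool) (O : Equiv.Perm (Cube D)),
      a ∘ ((O * lay b κ)⁻¹ : Equiv.Perm (Cube D)) = (a ∘ lay b κ) ∘ (O⁻¹ : Equiv.Perm (Cube D)) := by
    intro κ O
    rw [mul_inv_rev, lay_inv]
    rfl
  simp only [h]

theorem Gl_nonneg (l : List ℕ) (a a' : Col D 𝔽) : 0 ≤ Gl l a a' := by
  unfold Gl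
  exact Finset.sum_nonneg fun e _ => mul_nonneg (Kl_nonneg l a e) (Kl_nonneg l a' e)

theorem Gl_comm (l : List ℕ) (a a' : Col D 𝔽) : Gl l a a' = Gl l a' a := by
  unfold Gl
  exact Finset.sum_congr rfl fun e _ => mul_comm _ _

/-- PSD: `G(a,b) ≤ (G(a,a) + G(b,b))/2`. -/
theorem Gl_le_half (l : List ℕ) (a b : Col D 𝔽) : Gl l a b ≤ (Gl l a a + Gl l b b) / 2 := by
  unfold Gl
  rw [← Finset.sum_add_distrib, Finset.sum_div]
  refine Finset.sum_le_sum fun e _ => ?_
  nlinarith [sq_nonneg (Kl l a e - Kl l b e)]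

/-- CS. -/
theorem Gl_sq_le (l : List ℕ) (a b : Col D 𝔽) : Gl l a b ^ 2 ≤ Gl l a a * Gl l b b := by
  unfold Gl
  have h := Finset.sum_mul_sq_le_sq_mul_sq (univ : Finset (Col D 𝔽)) (fun e => Kl l a e) (fun e => Kl l b e)
  simpa only [pow_two] using h

/-- The double expectation form. -/
theorem Gl_eq_Elaw (l : List ℕ) (a a' : Col D 𝔽) :
    Gl l a a' = Elaw l (fun O₁ => Elaw l (fun O₂ =>
      if a ∘ (O₁⁻¹ : Equiv.Perm (Cube D)) = a' ∘ (O₂⁻¹ : Equiv.Perm (Cube D)) then 1 else 0)) := by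
  have h : ∀ (O₁ O₂ : Equiv.Perm (Cube D)),
      (if a ∘ (O₁⁻¹ : Equiv.Perm (Cube D)) = a' ∘ (O₂⁻¹ : Equiv.Perm (Cube D)) then (1 : ℝ) else 0) =
        ∑ e : Col D 𝔽, (if a ∘ (O₁⁻¹ : Equiv.Perm (Cube D)) = e then (1 : ℝ) else 0) *
          (if a' ∘ (O₂⁻¹ : Equiv.Perm (Cube D)) = e then (1 : ℝ) else 0) := by
    intro O₁ O₂
    rw [Finset.sum_eq_single (a ∘ (O₁⁻¹ : Equiv.Perm (Cube D)))]
    · rw [if_pos rfl, one_mul]
      by_cases hh : a ∘ (O₁⁻¹ : Equiv.Perm (Cube D)) = a' ∘ (O₂⁻¹ : Equiv.Perm (Cube D))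
      · rw [if_pos hh, if_pos hh.symm]
      · rw [if_neg hh, if_neg (Ne.symm hh)]
    · intro e _ he
      rw [if_neg (Ne.symm he), zero_mul]
    · intro hh
      exact absurd (Finset.mem_univ _) hh
  simp only [h]
  unfold Gl Kl
  have h2 : ∀ O₁ : Equiv.Perm (Cube D),
      Elaw l (fun O₂ => ∑ e : Col D 𝔽, (if a ∘ (O₁⁻¹ : Equiv.Perm (Cube D)) = e then (1 : ℝ) else 0) *
          (if a' ∘ (O₂⁻¹ : Equiv.Perm (Cube D)) = e then (1 : ℝ) else 0)) =
        ∑ e : Col D 𝔽, (if a ∘ (O₁⁻¹ : Equiv.Perm (Cube D)) = e then (1 : ℝ) else 0) *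
          Elaw l (fun O₂ => if a' ∘ (O₂⁻¹ : Equiv.Perm (Cube D)) = e then (1 : ℝ) else 0) := by
    intro O₁
    rw [Elaw_sum]
    exact Finset.sum_congr rfl fun e _ => Elaw_mul_left l _ _
  simp only [h2]
  rw [Elaw_sum]
  exact Finset.sum_congr rfl fun e _ => (Elaw_mul_right l _ _).symm

/-- One step expansion of `G`. -/
theorem Gl_cons (b : ℕ) (l : List ℕ) (a a' : Col D 𝔽) :
    Gl (b :: l) a a' = Eu fun κ : Cube D → Bool => Eu fun κ' : Cube D → Bool =>
      Gl l (a ∘ lay b κ) (a' ∘ lay b κ') := by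
  unfold Gl
  simp only [Kl_cons, Eu_mul_Eu]
  rw [Eu_sum_comm]
  congr 1
  funext κ
  rw [Eu_sum_comm]

/-- Restriction to the slice `x b = false`, zero elsewhere. -/
def res0 (b : ℕ) (a : Col D 𝔽) : Col D 𝔽 := fun x => if bitClear b x = x then a x else z

/-- The slice `x b = true` moved to the slice `x b = false`. -/
def res1 (b : ℕ) (a : Col D 𝔽) : Col D 𝔽 := fun x => if bitClear b x = x then a (bitFlip b x) else z

/-- Independence of coins on complementary sets (the mix trick). -/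
theorem Eu_indep {Z : Type} [Fintype Z] [DecidableEq Z] (p : Z → Prop) [DecidablePred p]
    (φ ψ : (Z → Bool) → ℝ)
    (hφ : ∀ c c', (∀ z, p z → c z = c' z) → φ c = φ c')
    (hψ : ∀ c c', (∀ z, ¬ p z → c z = c' z) → ψ c = ψ c') :
    Eu (fun c => φ c * ψ c) = Eu φ * Eu ψ := by
  let mix : (Z → Bool) → (Z → Bool) → (Z → Bool) := fun c c' z => if p z then c z else c' z
  let e : ((Z → Bool) × (Z → Bool)) ≃ ((Z → Bool) × (Z → Bool)) :=
    { toFun := fun q => (mix q.1 q.2, mix q.2 q.1)
      invFun := fun q => (mix q.1 q.2, mix q.2 q.1)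
      left_inv := by
        intro q
        ext z
        · by_cases h : p z <;> simp [mix, h]
        · by_cases h : p z <;> simp [mix, h]
      right_inv := by
        intro q
        ext z
        · by_cases h : p z <;> simp [mix, h]
        · by_cases h : p z <;> simp [mix, h] }
  rw [Eu_mul_Eu, ← Eu_prod (fun c c' => φ c * ψ c'),
    ← Eu_equiv e (fun q : (Z → Bool) × (Z → Bool) => φ q.1 * ψ q.2), Eu_prod (fun c c' => φ (e (c, c')).1 * ψ (e (c, c')).2)]
  congr 1
  funext c
  have h : ∀ c', φ (e (c, c')).1 * ψ (e (c, c')).2 = φ c * ψ c := by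
    intro c'
    have h1 : φ (e (c, c')).1 = φ c := by
      apply hφ
      intro z hz
      simp [e, mix, hz]
    have h2 : ψ (e (c, c')).2 = ψ c := by
      apply hψ
      intro z hz
      simp [e, mix, hz]
    rw [h1, h2]
  simp only [h]
  exact (Eu_const _).symm

/-! ### Slices -/

/-- The coloring is supported on the slice `x b = false`. -/
def SuppF (b : ℕ) (u : Col D 𝔽) : Prop := ∀ x, bitClear b x ≠ x → u x = z

theorem bitClear_eq_iff {b : ℕ} (hb : b < D) (x : Cube D) : bitClear b x = x ↔ x ⟨b, hb⟩ = false := by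
  constructor
  · intro h
    have := congr_fun h ⟨b, hb⟩
    simpa [bitClear] using this.symm
  · intro h
    funext j
    by_cases hj : (j : ℕ) = b
    · have : j = ⟨b, hb⟩ := Fin.ext hj
      subst this
      simp [bitClear, h]
    · simp [bitClear, hj]

theorem lay_slice {k b : ℕ} (hb : b < D) (hk : k ≠ b) (c : Cube D → Bool) (x : Cube D) :
    bitClear b (lay k c x) = lay k c x ↔ bitClear b x = x := by
  rw [bitClear_eq_iff hb, bitClear_eq_iff hb, lay_bit_ne k c x ⟨b, hb⟩ (Ne.symm hk)]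

theorem flip_slice {b : ℕ} (hb : b < D) (x : Cube D) :
    bitClear b (bitFlip b x) = bitFlip b x ↔ ¬ bitClear b x = x := by
  rw [bitClear_eq_iff hb, bitClear_eq_iff hb]
  simp [bitFlip]

theorem bitClear_slice {k b : ℕ} (hb : b < D) (hk : k ≠ b) (x : Cube D) :
    bitClear b (bitClear k x) = bitClear k x ↔ bitClear b x = x := by
  rw [bitClear_eq_iff hb, bitClear_eq_iff hb]
  simp [bitClear, Ne.symm hk]

theorem bitClear_bitFlip_comm {k b : ℕ} (hk : k ≠ b) (x : Cube D) :
    bitClear k (bitFlip b x) = bitFlip b (bitClear k x) := by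
  funext j
  by_cases h1 : (j : ℕ) = k
  · have h2 : (j : ℕ) ≠ b := fun h => hk (h1.symm.trans h)
    simp [bitClear, bitFlip, h1, hk]
  · by_cases h2 : (j : ℕ) = b
    · simp [bitClear, bitFlip, h2, Ne.symm hk]
    · simp [bitClear, bitFlip, h1, h2]

theorem bitFlip_bitFlip_comm (k b : ℕ) (x : Cube D) :
    bitFlip k (bitFlip b x) = bitFlip b (bitFlip k x) := by
  funext j
  simp only [bitFlip]
  split_ifs <;> rfl

/-- The layer with shifted coins. -/
theorem lay_flip {k b : ℕ} (hk : k ≠ b) (c : Cube D → Bool) (x : Cube D) :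
    bitFlip b (lay k (fun w => c (bitFlip b w)) x) = lay k c (bitFlip b x) := by
  simp only [lay_apply, layFun]
  rw [bitClear_bitFlip_comm hk]
  split_ifs
  · exact (bitFlip_bitFlip_comm k b x).symm
  · rfl

theorem res0_comp {k b : ℕ} (hb : b < D) (hk : k ≠ b) (c : Cube D → Bool) (a : Col D 𝔽) :
    res0 z b (a ∘ lay k c) = (res0 z b a) ∘ lay k c := by
  funext x
  simp only [res0, Function.comp]
  by_cases h : bitClear b x = x
  · rw [if_pos h, if_pos ((lay_slice hb hk c x).2 h)]
  · rw [if_neg h, if_neg (fun h' => h ((lay_slice hb hk c x).1 h'))]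

theorem res1_comp {k b : ℕ} (hb : b < D) (hk : k ≠ b) (c : Cube D → Bool) (a : Col D 𝔽) :
    res1 z b (a ∘ lay k c) = (res1 z b a) ∘ lay k (fun w => c (bitFlip b w)) := by
  funext x
  simp only [res1, Function.comp]
  by_cases h : bitClear b x = x
  · rw [if_pos h, if_pos ((lay_slice hb hk _ x).2 h), lay_flip hk]
  · rw [if_neg h, if_neg (fun h' => h ((lay_slice hb hk _ x).1 h'))]

theorem res0_comp_dep {k b : ℕ} (hb : b < D) (hk : k ≠ b) (a : Col D 𝔽) (c c' : Cube D → Bool)
    (h : ∀ w, bitClear b w = w → c w = c' w) :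
    (res0 z b a) ∘ lay k c = (res0 z b a) ∘ lay k c' := by
  funext x
  simp only [res0, Function.comp]
  by_cases hx : bitClear b x = x
  · have hc : c (bitClear k x) = c' (bitClear k x) := h _ ((bitClear_slice hb hk x).2 hx)
    have : lay k c x = lay k c' x := by
      simp only [lay_apply, layFun, hc]
    rw [this]
  · rw [if_neg (fun h' => hx ((lay_slice hb hk _ x).1 h')), if_neg (fun h' => hx ((lay_slice hb hk _ x).1 h'))]

theorem res1_comp_dep {k b : ℕ} (hb : b < D) (hk : k ≠ b) (a : Col D 𝔽) (c c' : Cube D → Bool)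
    (h : ∀ w, ¬ bitClear b w = w → c w = c' w) :
    (res1 z b a) ∘ lay k (fun w => c (bitFlip b w)) = (res1 z b a) ∘ lay k (fun w => c' (bitFlip b w)) := by
  funext x
  simp only [res1, Function.comp]
  by_cases hx : bitClear b x = x
  · have hc : c (bitFlip b (bitClear k x)) = c' (bitFlip b (bitClear k x)) := by
      apply h
      intro h'
      have h2 := (flip_slice hb (bitClear k x)).1 h'
      exact h2 ((bitClear_slice hb hk x).2 hx)
    have : lay k (fun w => c (bitFlip b w)) x = lay k (fun w => c' (bitFlip b w)) x := by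
      simp only [lay_apply, layFun, hc]
    rw [this]
  · rw [if_neg (fun h' => hx ((lay_slice hb hk _ x).1 h')), if_neg (fun h' => hx ((lay_slice hb hk _ x).1 h'))]

theorem eq_of_res {b : ℕ} (hb : b < D) {a e : Col D 𝔽} (h0 : res0 z b a = res0 z b e)
    (h1 : res1 z b a = res1 z b e) : a = e := by
  funext x
  by_cases hx : bitClear b x = x
  · have := congr_fun h0 x
    simpa [res0, hx] using this
  · have hy : bitClear b (bitFlip b x) = bitFlip b x := (flip_slice hb x).2 hx
    have := congr_fun h1 (bitFlip b x)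
    simpa [res1, hy, bitFlip_bitFlip] using this

/-- SLICE INDEPENDENCE for the kernel. `b < D`, `b ∉ l`, all layers in `l` distinct from `b`. -/
theorem Kl_slice (b : ℕ) (hb : b < D) (l : List ℕ) (hl : b ∉ l) (a e : Col D 𝔽) :
    Kl l a e = Kl l (res0 z b a) (res0 z b e) * Kl l (res1 z b a) (res1 z b e) := by
  induction l generalizing a with
  | nil =>
    simp only [Kl_nil]
    by_cases h : a = e
    · simp [h]
    · have : ¬ (res0 z b a = res0 z b e ∧ res1 z b a = res1 z b e) := fun h' =>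
        h (eq_of_res z hb h'.1 h'.2)
      by_cases h0 : res0 z b a = res0 z b e
      · have h1 : ¬ res1 z b a = res1 z b e := fun h1 => this ⟨h0, h1⟩
        simp [h, h1]
      · simp [h, h0]
  | cons k l ih =>
    have hk : k ≠ b := fun h => hl (by simp [h])
    have hl' : b ∉ l := fun h => hl (by simp [h])
    simp only [Kl_cons]
    have h1 : ∀ κ : Cube D → Bool, Kl l (a ∘ lay k κ) e =
        Kl l ((res0 z b a) ∘ lay k κ) (res0 z b e) *
          Kl l ((res1 z b a) ∘ lay k (fun w => κ (bitFlip b w))) (res1 z b e) := by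
      intro κ
      rw [ih hl' (a ∘ lay k κ), res0_comp z hb hk, res1_comp z hb hk]
    simp only [h1]
    rw [Eu_indep (fun w : Cube D => bitClear b w = w)
      (fun κ => Kl l ((res0 z b a) ∘ lay k κ) (res0 z b e))
      (fun κ => Kl l ((res1 z b a) ∘ lay k (fun w => κ (bitFlip b w))) (res1 z b e))]
    · congr 1
      let f : (Cube D → Bool) ≃ (Cube D → Bool) :=
        { toFun := fun κ w => κ (bitFlip b w)
          invFun := fun κ w => κ (bitFlip b w)
          left_inv := by
            intro κ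
            funext w
            simp [bitFlip_bitFlip]
          right_inv := by
            intro κ
            funext w
            simp [bitFlip_bitFlip] }
      exact Eu_equiv f (fun κ => Kl l ((res1 z b a) ∘ lay k κ) (res1 z b e))
    · intro c c' h
      rw [res0_comp_dep z hb hk a c c' h]
    · intro c c' h
      rw [res1_comp_dep z hb hk a c c' h]

theorem SuppF_res0 (b : ℕ) (a : Col D 𝔽) : SuppF z b (res0 z b a) := by
  intro x hx
  simp [res0, hx]

theorem SuppF_res1 (b : ℕ) (a : Col D 𝔽) : SuppF z b (res1 z b a) := by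
  intro x hx
  simp [res1, hx]

theorem SuppF_comp {k b : ℕ} (hb : b < D) (hk : k ≠ b) (c : Cube D → Bool) {u : Col D 𝔽}
    (hu : SuppF z b u) : SuppF z b (u ∘ lay k c) := by
  intro x hx
  exact hu _ (fun h' => hx ((lay_slice hb hk _ x).1 h'))

/-- The kernel vanishes when the target leaves the slice. -/
theorem Kl_eq_zero_of_supp (b : ℕ) (hb : b < D) (l : List ℕ) (hl : b ∉ l) {u e : Col D 𝔽}
    (hu : SuppF z b u) (he : ¬ SuppF z b e) : Kl l u e = 0 := by
  induction l generalizing u with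
  | nil =>
    rw [Kl_nil, if_neg]
    rintro rfl
    exact he hu
  | cons k l ih =>
    have hk : k ≠ b := fun h => hl (by simp [h])
    have hl' : b ∉ l := fun h => hl (by simp [h])
    rw [Kl_cons]
    have : ∀ κ : Cube D → Bool, Kl l (u ∘ lay k κ) e = 0 := fun κ =>
      ih hl' (SuppF_comp z hb hk κ hu)
    simp only [this]
    exact Eu_const 0

/-- Gluing two slices. -/
def glueC (b : ℕ) (e₀ e₁ : Col D 𝔽) : Col D 𝔽 :=
  fun x => if bitClear b x = x then e₀ x else e₁ (bitFlip b x)

theorem glueC_res (b : ℕ) (hb : b < D) (e : Col D 𝔽) : glueC b (res0 z b e) (res1 z b e) = e := by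
  funext x
  by_cases hx : bitClear b x = x
  · simp [glueC, res0, hx]
  · have hy : bitClear b (bitFlip b x) = bitFlip b x := (flip_slice hb x).2 hx
    simp [glueC, res1, hx, hy, bitFlip_bitFlip]

theorem res0_glueC (b : ℕ) {e₀ : Col D 𝔽} (h0 : SuppF z b e₀) (e₁ : Col D 𝔽) :
    res0 z b (glueC b e₀ e₁) = e₀ := by
  funext x
  by_cases hx : bitClear b x = x
  · simp [glueC, res0, hx]
  · simp [res0, hx, h0 x hx]

theorem res1_glueC (b : ℕ) (hb : b < D) (e₀ : Col D 𝔽) {e₁ : Col D 𝔽} (h1 : SuppF z b e₁) :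
    res1 z b (glueC b e₀ e₁) = e₁ := by
  funext x
  by_cases hx : bitClear b x = x
  · have hy : ¬ bitClear b (bitFlip b x) = bitFlip b x := fun h => (flip_slice hb x).1 h hx
    simp [glueC, res1, hx, hy, bitFlip_bitFlip]
  · simp [res1, hx, h1 x hx]

/-- Splitting the sum over colorings. -/
theorem sum_split (b : ℕ) (hb : b < D) (A B : Col D 𝔽 → ℝ) (hA : ∀ e, ¬ SuppF z b e → A e = 0)
    (hB : ∀ e, ¬ SuppF z b e → B e = 0) :
    ∑ e : Col D 𝔽, A (res0 z b e) * B (res1 z b e) = (∑ e, A e) * ∑ e, B e := by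
  classical
  rw [Finset.sum_mul_sum, ← Finset.sum_product']
  rw [← Finset.sum_filter_of_ne (p := fun q : Col D 𝔽 × Col D 𝔽 => SuppF z b q.1 ∧ SuppF z b q.2)]
  · refine Finset.sum_nbij' (fun e => (res0 z b e, res1 z b e)) (fun q => glueC b q.1 q.2) ?_ ?_ ?_ ?_ ?_
    · intro e _
      simp [SuppF_res0, SuppF_res1]
    · intro q _
      simp
    · intro e _
      exact glueC_res z b hb e
    · intro q hq
      have hq' := (Finset.mem_filter.mp hq).2
      ext1
      · exact res0_glueC z b hq'.1 _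
      · exact res1_glueC z b hb _ hq'.2
    · intro e _
      rfl
  · intro q _ hq
    constructor
    · by_contra h
      exact hq (by simp [hA _ h])
    · by_contra h
      exact hq (by simp [hB _ h])

/-- SLICE INDEPENDENCE for the Gram kernel. -/
theorem Gl_slice (b : ℕ) (hb : b < D) (l : List ℕ) (hl : b ∉ l) (a a' : Col D 𝔽) :
    Gl l a a' = Gl l (res0 z b a) (res0 z b a') * Gl l (res1 z b a) (res1 z b a') := by
  unfold Gl
  rw [← sum_split z b hb (fun e => Kl l (res0 z b a) e * Kl l (res0 z b a') e)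
    (fun e => Kl l (res1 z b a) e * Kl l (res1 z b a') e)]
  · refine Finset.sum_congr rfl fun e _ => ?_
    rw [Kl_slice z b hb l hl a e, Kl_slice z b hb l hl a' e]
    ring
  · intro e he
    simp [Kl_eq_zero_of_supp z b hb l hl (SuppF_res0 z b a) he]
  · intro e he
    simp [Kl_eq_zero_of_supp z b hb l hl (SuppF_res1 z b a) he]

/-- The probability that `a ∘ O⁻¹` is invariant under the flip of `b`. -/
theorem Elaw_flipInv (b : ℕ) (hb : b < D) (l : List ℕ) (hl : b ∉ l) (a : Col D 𝔽) :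
    Elaw l (fun O => if ∀ x, (a ∘ (O⁻¹ : Equiv.Perm (Cube D))) (bitFlip b x) = (a ∘ (O⁻¹ : Equiv.Perm (Cube D))) x
      then 1 else 0) = Gl l (res0 z b a) (res1 z b a) := by
  classical
  have h : ∀ O : Equiv.Perm (Cube D),
      (if ∀ x, (a ∘ (O⁻¹ : Equiv.Perm (Cube D))) (bitFlip b x) = (a ∘ (O⁻¹ : Equiv.Perm (Cube D))) x
        then (1 : ℝ) else 0) =
      ∑ e : Col D 𝔽, (if a ∘ (O⁻¹ : Equiv.Perm (Cube D)) = e then (1 : ℝ) else 0) *
        (if ∀ x, e (bitFlip b x) = e x then (1 : ℝ) else 0) := by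
    intro O
    rw [Finset.sum_eq_single (a ∘ (O⁻¹ : Equiv.Perm (Cube D)))]
    · rw [if_pos rfl, one_mul]
    · intro e _ he
      rw [if_neg (Ne.symm he), zero_mul]
    · intro hh
      exact absurd (Finset.mem_univ _) hh
  simp only [h]
  rw [Elaw_sum]
  have h2 : ∀ e : Col D 𝔽, Elaw l (fun O => (if a ∘ (O⁻¹ : Equiv.Perm (Cube D)) = e then (1 : ℝ) else 0) *
        (if ∀ x, e (bitFlip b x) = e x then (1 : ℝ) else 0)) =
      Kl l a e * (if ∀ x, e (bitFlip b x) = e x then (1 : ℝ) else 0) := fun e => Elaw_mul_right l _ _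
  simp only [h2]
  unfold Gl
  -- restrict both sums
  have h3 : ∑ e : Col D 𝔽, Kl l a e * (if ∀ x, e (bitFlip b x) = e x then (1 : ℝ) else 0) =
      ∑ e ∈ univ.filter (fun e : Col D 𝔽 => ∀ x, e (bitFlip b x) = e x), Kl l a e := by
    rw [Finset.sum_filter]
    refine Finset.sum_congr rfl fun e _ => ?_
    split_ifs <;> simp
  have h4 : ∑ e : Col D 𝔽, Kl l (res0 z b a) e * Kl l (res1 z b a) e =
      ∑ e ∈ univ.filter (fun e : Col D 𝔽 => SuppF z b e), Kl l (res0 z b a) e * Kl l (res1 z b a) e := by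
    symm
    apply Finset.sum_filter_of_ne
    intro e _ he
    by_contra h'
    exact he (by simp [Kl_eq_zero_of_supp z b hb l hl (SuppF_res0 z b a) h'])
  rw [h3, h4]
  refine Finset.sum_nbij' (fun e => res0 z b e) (fun e => glueC b e e) ?_ ?_ ?_ ?_ ?_
  · intro e _
    simp [SuppF_res0]
  · intro e he
    have hsupp := (Finset.mem_filter.mp he).2
    simp only [Finset.mem_filter, Finset.mem_univ, true_and]
    intro x
    by_cases hx : bitClear b x = x
    · have hy : ¬ bitClear b (bitFlip b x) = bitFlip b x := fun h => (flip_slice hb x).1 h hx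
      simp [glueC, hx, hy, bitFlip_bitFlip]
    · have hy : bitClear b (bitFlip b x) = bitFlip b x := (flip_slice hb x).2 hx
      simp [glueC, hx, hy]
  · intro e he
    have hinv := (Finset.mem_filter.mp he).2
    funext x
    by_cases hx : bitClear b x = x
    · simp [glueC, res0, hx]
    · have hy : bitClear b (bitFlip b x) = bitFlip b x := (flip_slice hb x).2 hx
      simp [glueC, res0, hx, hy, hinv x]
  · intro e he
    have hsupp := (Finset.mem_filter.mp he).2
    exact res0_glueC z b hsupp e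
  · intro e he
    have hinv := (Finset.mem_filter.mp he).2
    have hres : res1 z b e = res0 z b e := by
      funext x
      by_cases hx : bitClear b x = x
      · simp [res0, res1, hx, hinv x]
      · simp [res0, res1, hx]
    rw [Kl_slice z b hb l hl a e, hres]

/-- The weight of a coloring. -/
noncomputable def wtC (δ : Cube D → ℝ) (a : Col D 𝔽) : ℝ :=
  ∏ x ∈ univ.filter (fun x => a x ≠ z), δ x

/-- `Φ_l(δ)`. -/
noncomputable def PhiL (l : List ℕ) (δ : Cube D → ℝ) : ℝ :=
  ∑ a : Col D 𝔽, wtC z δ a * Gl l a a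

end color

end Vale.Agent.P162O
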