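/-
P162 O(d), Part II: the recursion for Φ and the exponential bound.

Proof of the recursion. Write `κ' = κ xor F` in the expansion of `G_{b::l}(a,a)`, reindex `a ↦ A = a ∘ lay b κ`.
`Φ_{b::l}(δ) = E_F ∑_A (E_κ wt_δ(A ∘ lay b κ)) G_l(A, A ∘ lay b F)`.
By slice independence, `G_l(A, A∘lay b F) = G_l(P, P^F) G_l(R, R^F)` with `P = res0 A`, `R = res1 A`, `P^F = mix F P R`, `R^F = mix F R P`.
Averaging over `κ` gives `wt_x P * wt_x R` as an upper bound, switch by switch. Then AM-GM for `G(R,R^F)` and the involution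
`(P,R) ↦ (P^F,R^F)`. For fixed `R,F,O₁,O₂`, with `π = O₂⁻¹ O₁`, the solutions `P` of `P ∘ π⁻¹ = mix F P R` are bounded by the colorings fixed by `π`
avoiding `F`. Finally average over `F`.
-/
import Vale.Agent.P162O.Color

open scoped BigOperators
open Finset

namespace Vale.Agent.P162O
open Vale.Agent.P162

set_option linter.unusedSectionVars false
set_option linter.unusedSimpArgs false

variable {D : ℕ} {𝔽 : Type} [Fintype 𝔽] [DecidableEq 𝔽] (z : 𝔽)

/-- Switch averages, on the slice `x b = false`; zero on the other slice. -/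
noncomputable def pairAvg (b : ℕ) (δ : Cube D → ℝ) (x : Cube D) : ℝ :=
  if bitClear b x = x then (δ x + δ (bitFlip b x)) / 2 else 0

/-! ### Elementary facts on slices -/

theorem PhiRec_slice_iff {b : ℕ} (hb : b < D) (y : Cube D) :
    bitClear b y = y ↔ y ⟨b, hb⟩ = false := by
  constructor
  · intro h
    have := congrFun h ⟨b, hb⟩
    simpa [bitClear] using this.symm
  · intro h
    funext j
    by_cases hj : (j : ℕ) = b
    · have : j = ⟨b, hb⟩ := Fin.ext hj
      subst this
      simp [bitClear, h]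
    · simp [bitClear, hj]

theorem PhiRec_bitClear_bitClear (b : ℕ) (y : Cube D) : bitClear b (bitClear b y) = bitClear b y := by
  funext j
  by_cases hj : (j : ℕ) = b <;> simp [bitClear, hj]

theorem PhiRec_flip_not_slice {b : ℕ} (hb : b < D) {y : Cube D} (h : bitClear b y = y) :
    bitClear b (bitFlip b y) ≠ bitFlip b y := by
  rw [bitClear_bitFlip, h]
  intro h2
  have := congrFun h2 ⟨b, hb⟩
  simp [bitFlip] at this

theorem PhiRec_flip_slice {b : ℕ} (hb : b < D) {y : Cube D} (h : bitClear b y ≠ y) :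
    bitClear b (bitFlip b y) = bitFlip b y := by
  rw [Ne, PhiRec_slice_iff hb] at h
  rw [PhiRec_slice_iff hb]
  simp only [Bool.not_eq_false] at h
  simp [bitFlip, h]

theorem PhiRec_prod_slice {b : ℕ} (hb : b < D) (g : Cube D → ℝ) :
    ∏ y, g y = ∏ y, (if bitClear b y = y then g y * g (bitFlip b y) else 1) := by
  rw [Finset.prod_ite, Finset.prod_const_one, mul_one, Finset.prod_mul_distrib,
    ← Finset.prod_filter_mul_prod_filter_not univ (fun y : Cube D => bitClear b y = y)]
  congr 1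
  refine Finset.prod_nbij' (fun y => bitFlip b y) (fun y => bitFlip b y) ?_ ?_ ?_ ?_ ?_
  · intro y hy
    simp only [mem_filter, mem_univ, true_and] at hy ⊢
    exact PhiRec_flip_slice hb hy
  · intro y hy
    simp only [mem_filter, mem_univ, true_and] at hy ⊢
    exact PhiRec_flip_not_slice hb hy
  · intro y _
    exact bitFlip_bitFlip b y
  · intro y _
    exact bitFlip_bitFlip b y
  · intro y _
    rw [bitFlip_bitFlip]

theorem PhiRec_sum_slice {b : ℕ} (hb : b < D) (g : Cube D → ℝ) :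
    ∑ y, g y = ∑ y, (if bitClear b y = y then g y + g (bitFlip b y) else 0) := by
  rw [Finset.sum_ite, Finset.sum_const_zero, add_zero, Finset.sum_add_distrib,
    ← Finset.sum_filter_add_sum_filter_not univ (fun y : Cube D => bitClear b y = y)]
  congr 1
  refine Finset.sum_nbij' (fun y => bitFlip b y) (fun y => bitFlip b y) ?_ ?_ ?_ ?_ ?_
  · intro y hy
    simp only [mem_filter, mem_univ, true_and] at hy ⊢
    exact PhiRec_flip_slice hb hy
  · intro y hy
    simp only [mem_filter, mem_univ, true_and] at hy ⊢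
    exact PhiRec_flip_not_slice hb hy
  · intro y _
    exact bitFlip_bitFlip b y
  · intro y _
    exact bitFlip_bitFlip b y
  · intro y _
    rw [bitFlip_bitFlip]

/-! ### Averages of products of independent coins -/

theorem PhiRec_Eu_sum {α ι : Type*} [Fintype α] (s : Finset ι) (f : α → ι → ℝ) :
    Eu (fun a => ∑ i ∈ s, f a i) = ∑ i ∈ s, Eu (fun a => f a i) := by
  simp only [Eu, ← Finset.mul_sum]
  rw [Finset.sum_comm]

theorem PhiRec_Eu_mul_right {α : Type*} [Fintype α] (c : ℝ) (f : α → ℝ) :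
    Eu (fun a => f a * c) = Eu f * c := by
  simp only [Eu, Finset.mul_sum, Finset.sum_mul, mul_assoc]

theorem PhiRec_Eu_prod {Z : Type} [Fintype Z] [DecidableEq Z] (h : Z → Bool → ℝ) :
    Eu (fun κ : Z → Bool => ∏ y, h y (κ y)) = ∏ y, ((h y true + h y false) / 2) := by
  have h1 : ∏ y, ∑ c : Bool, h y c = ∑ κ : Z → Bool, ∏ y, h y (κ y) := by
    rw [Finset.prod_univ_sum, Fintype.piFinset_univ]
  have h2 : (Fintype.card (Z → Bool) : ℝ) = 2 ^ Fintype.card Z := by
    simp
  unfold Eu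
  rw [← h1, h2, Finset.prod_div_distrib, Finset.prod_const, Finset.card_univ]
  simp only [Fintype.sum_bool]
  field_simp

/-- `Eu` commutes with `Elaw`. -/
theorem PhiRec_Eu_Elaw {α : Type*} [Fintype α] (l : List ℕ) (f : α → Equiv.Perm (Cube D) → ℝ) :
    Eu (fun a => Elaw l (fun O => f a O)) = Elaw l (fun O => Eu (fun a => f a O)) := by
  induction l generalizing f with
  | nil => rfl
  | cons b l ih =>
    simp only [Elaw]
    rw [Eu_comm]
    refine congrArg Eu (funext fun c => ?_)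
    exact ih (fun a O => f a (O * lay b c))

/-! ### The weight -/

theorem PhiRec_wt_eq (δ : Cube D → ℝ) (a : Col D 𝔽) :
    wtC z δ a = ∏ x, if a x ≠ z then δ x else 1 := by
  unfold wtC
  rw [Finset.prod_filter]

theorem PhiRec_wt_nonneg {δ : Cube D → ℝ} (h0 : ∀ x, 0 ≤ δ x) (a : Col D 𝔽) : 0 ≤ wtC z δ a :=
  Finset.prod_nonneg fun x _ => h0 x

/-- Pointwise mix. -/
def PhiRec_mix (F : Cube D → Bool) (P R : Col D 𝔽) : Col D 𝔽 := fun x => if F x then R x else P x

theorem PhiRec_mix_mix (F : Cube D → Bool) (P R : Col D 𝔽) :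
    PhiRec_mix F (PhiRec_mix F P R) (PhiRec_mix F R P) = P := by
  funext x
  by_cases h : F x = true <;> simp [PhiRec_mix, h]

theorem PhiRec_wt_mix (δ : Cube D → ℝ) (F : Cube D → Bool) (P R : Col D 𝔽) :
    wtC z δ (PhiRec_mix F P R) * wtC z δ (PhiRec_mix F R P) = wtC z δ P * wtC z δ R := by
  simp only [PhiRec_wt_eq, ← Finset.prod_mul_distrib]
  refine Finset.prod_congr rfl fun x _ => ?_
  by_cases h : F x = true
  · simp only [PhiRec_mix, h, if_true]
    ring
  · simp [PhiRec_mix, h]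

theorem PhiRec_res0_comp (b : ℕ) (F : Cube D → Bool) (A : Col D 𝔽) :
    res0 z b (A ∘ lay b F) = PhiRec_mix F (res0 z b A) (res1 z b A) := by
  funext x
  by_cases h : bitClear b x = x
  · by_cases hF : F x = true
    · simp [res0, res1, PhiRec_mix, h, hF, layFun]
    · simp [res0, res1, PhiRec_mix, h, hF, layFun]
  · simp [res0, res1, PhiRec_mix, h]

theorem PhiRec_res1_comp (b : ℕ) (F : Cube D → Bool) (A : Col D 𝔽) :
    res1 z b (A ∘ lay b F) = PhiRec_mix F (res1 z b A) (res0 z b A) := by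
  funext x
  by_cases h : bitClear b x = x
  · by_cases hF : F x = true
    · simp [res0, res1, PhiRec_mix, h, hF, layFun, bitClear_bitFlip, bitFlip_bitFlip]
    · simp [res0, res1, PhiRec_mix, h, hF, layFun, bitClear_bitFlip, bitFlip_bitFlip]
  · simp [res0, res1, PhiRec_mix, h]

theorem PhiRec_res_inj {b : ℕ} (hb : b < D) {A A' : Col D 𝔽} (h0 : res0 z b A = res0 z b A')
    (h1 : res1 z b A = res1 z b A') : A = A' := by
  funext y
  by_cases h : bitClear b y = y
  · have := congrFun h0 y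
    simpa [res0, h] using this
  · have h2 := PhiRec_flip_slice hb h
    have := congrFun h1 (bitFlip b y)
    simpa [res1, h2, bitFlip_bitFlip] using this

/-- The xor of coins. -/
def PhiRec_xorE (κ : Cube D → Bool) : (Cube D → Bool) ≃ (Cube D → Bool) where
  toFun F y := xor (κ y) (F y)
  invFun F y := xor (κ y) (F y)
  left_inv F := by
    funext y
    simp
  right_inv F := by
    funext y
    simp

theorem PhiRec_lay_xor (b : ℕ) (κ F : Cube D → Bool) (a : Col D 𝔽) :
    a ∘ lay b (PhiRec_xorE κ F) = (a ∘ lay b κ) ∘ lay b F := by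
  funext x
  simp only [Function.comp_apply, lay_apply, layFun, PhiRec_xorE, Equiv.coe_fn_mk]
  by_cases hF : F (bitClear b x) = true
  · by_cases hk : κ (bitClear b x) = true
    · simp [hF, hk, bitClear_bitFlip, bitFlip_bitFlip]
    · simp [hF, hk, bitClear_bitFlip, bitFlip_bitFlip]
  · by_cases hk : κ (bitClear b x) = true
    · simp [hF, hk]
    · simp [hF, hk]

/-- The composition with a layer as an equivalence of colorings. -/
def PhiRec_compE (b : ℕ) (κ : Cube D → Bool) : Col D 𝔽 ≃ Col D 𝔽 where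
  toFun A := A ∘ lay b κ
  invFun A := A ∘ lay b κ
  left_inv A := by
    funext x
    simp [lay_lay]
    rw [layFun_layFun]
  right_inv A := by
    funext x
    simp [lay_lay]
    rw [layFun_layFun]

/-! ### First reduction -/

theorem PhiRec_expand (b : ℕ) (l : List ℕ) (δ : Cube D → ℝ) :
    PhiL z (b :: l) δ = Eu fun F : Cube D → Bool => ∑ A : Col D 𝔽,
      Eu (fun κ : Cube D → Bool => wtC z δ (A ∘ lay b κ)) * Gl l A (A ∘ lay b F) := by
  have h1 : ∀ a : Col D 𝔽, Gl (b :: l) a a =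
      Eu fun κ : Cube D → Bool => Eu fun F : Cube D → Bool => Gl l (a ∘ lay b κ) ((a ∘ lay b κ) ∘ lay b F) := by
    intro a
    rw [Gl_cons]
    refine congrArg Eu (funext fun κ => ?_)
    rw [← Eu_equiv (PhiRec_xorE κ)]
    refine congrArg Eu (funext fun F => ?_)
    rw [PhiRec_lay_xor]
  unfold PhiL
  simp only [h1]
  calc ∑ a : Col D 𝔽, wtC z δ a * Eu (fun κ : Cube D → Bool => Eu fun F : Cube D → Bool =>
        Gl l (a ∘ lay b κ) ((a ∘ lay b κ) ∘ lay b F))
      = Eu (fun κ : Cube D → Bool => ∑ a : Col D 𝔽, Eu fun F : Cube D → Bool =>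
        wtC z δ a * Gl l (a ∘ lay b κ) ((a ∘ lay b κ) ∘ lay b F)) := by
        rw [PhiRec_Eu_sum]
        refine Finset.sum_congr rfl fun a _ => ?_
        rw [← Eu_mul_left]
        refine congrArg Eu (funext fun κ => ?_)
        rw [Eu_mul_left]
    _ = Eu (fun κ : Cube D → Bool => ∑ A : Col D 𝔽, Eu fun F : Cube D → Bool =>
        wtC z δ (A ∘ lay b κ) * Gl l A (A ∘ lay b F)) := by
        refine congrArg Eu (funext fun κ => ?_)
        rw [← Equiv.sum_comp (PhiRec_compE (𝔽 := 𝔽) b κ)]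
        refine Finset.sum_congr rfl fun A _ => ?_
        have h2 : (PhiRec_compE (𝔽 := 𝔽) b κ A) ∘ lay b κ = A := (PhiRec_compE (𝔽 := 𝔽) b κ).left_inv A
        rw [h2]
        rfl
    _ = Eu (fun F : Cube D → Bool => ∑ A : Col D 𝔽, Eu (fun κ : Cube D → Bool =>
        wtC z δ (A ∘ lay b κ)) * Gl l A (A ∘ lay b F)) := by
        rw [PhiRec_Eu_sum, PhiRec_Eu_sum]
        refine Finset.sum_congr rfl fun A _ => ?_
        rw [Eu_comm]
        refine congrArg Eu (funext fun F => ?_)
        rw [PhiRec_Eu_mul_right]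

/-- The average over `κ` of the weight: product over switches, `δ δ' ≤ x²`. -/
theorem PhiRec_W_le {b : ℕ} (hb : b < D) {δ : Cube D → ℝ} (h0 : ∀ x, 0 ≤ δ x) (A : Col D 𝔽) :
    Eu (fun κ : Cube D → Bool => wtC z δ (A ∘ lay b κ)) ≤
      wtC z (pairAvg b δ) (res0 z b A) * wtC z (pairAvg b δ) (res1 z b A) := by
  classical
  let h : Cube D → Bool → ℝ := fun y c => if bitClear b y = y then
      (if c then (if A (bitFlip b y) ≠ z then δ y else 1) * (if A y ≠ z then δ (bitFlip b y) else 1)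
       else (if A y ≠ z then δ y else 1) * (if A (bitFlip b y) ≠ z then δ (bitFlip b y) else 1)) else 1
  have h1 : ∀ κ : Cube D → Bool, wtC z δ (A ∘ lay b κ) = ∏ y, h y (κ y) := by
    intro κ
    rw [PhiRec_wt_eq, PhiRec_prod_slice hb]
    refine Finset.prod_congr rfl fun y _ => ?_
    by_cases hy : bitClear b y = y
    · by_cases hk : κ y = true
      · simp only [h, hy, if_true, Function.comp, lay_apply, layFun, bitClear_bitFlip, hk, bitFlip_bitFlip]
      · simp only [h, hy, if_true, Function.comp, lay_apply, layFun, bitClear_bitFlip, hk, bitFlip_bitFlip]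
        all_goals simp
    · simp [h, hy]
  simp only [h1]
  rw [PhiRec_Eu_prod, PhiRec_wt_eq, PhiRec_wt_eq, ← Finset.prod_mul_distrib]
  refine Finset.prod_le_prod (fun y _ => ?_) (fun y _ => ?_)
  · have h2 : ∀ c, 0 ≤ h y c := by
      intro c
      simp only [h]
      split_ifs <;> first | positivity | exact h0 _ | exact mul_nonneg (h0 _) (h0 _) | simp [h0]
    have := h2 true
    have := h2 false
    linarith
  · by_cases hy : bitClear b y = y
    · have hδ1 := h0 y
      have hδ2 := h0 (bitFlip b y)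
      by_cases ha : A y ≠ z <;> by_cases ha' : A (bitFlip b y) ≠ z
      · simp only [h, hy, res0, res1, pairAvg, if_true, ha, ha', Bool.false_eq_true, if_false, ne_eq, not_false_eq_true]
        nlinarith [sq_nonneg (δ y - δ (bitFlip b y))]
      · simp only [h, hy, res0, res1, pairAvg, if_true, ha, ha', Bool.false_eq_true, if_false, ne_eq, not_false_eq_true]
        linarith
      · simp only [h, hy, res0, res1, pairAvg, if_true, ha, ha', Bool.false_eq_true, if_false, ne_eq, not_false_eq_true]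
        linarith
      · simp only [h, hy, res0, res1, pairAvg, if_true, ha, ha', Bool.false_eq_true, if_false, ne_eq, not_false_eq_true]
        linarith
    · simp [h, hy, res0, res1]

/-- The double sum after the slice decomposition. -/
noncomputable def PhiRec_T (l : List ℕ) (x : Cube D → ℝ) (F : Cube D → Bool) : ℝ :=
  ∑ P : Col D 𝔽, ∑ R : Col D 𝔽, wtC z x P * wtC z x R *
    (Gl l P (PhiRec_mix F P R) * Gl l R (PhiRec_mix F R P))

theorem PhiRec_sumA_le {b : ℕ} (hb : b < D) {l : List ℕ} (hl : b ∉ l) {δ : Cube D → ℝ}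
    (h0 : ∀ x, 0 ≤ δ x) (hx0 : ∀ x, 0 ≤ pairAvg b δ x) (F : Cube D → Bool) :
    ∑ A : Col D 𝔽, Eu (fun κ : Cube D → Bool => wtC z δ (A ∘ lay b κ)) * Gl l A (A ∘ lay b F) ≤
      PhiRec_T z l (pairAvg b δ) F := by
  classical
  set x := pairAvg b δ with hx
  let f : Col D 𝔽 × Col D 𝔽 → ℝ := fun p => wtC z x p.1 * wtC z x p.2 *
    (Gl l p.1 (PhiRec_mix F p.1 p.2) * Gl l p.2 (PhiRec_mix F p.2 p.1))
  have hf0 : ∀ p, 0 ≤ f p := fun p =>
    mul_nonneg (mul_nonneg (PhiRec_wt_nonneg z hx0 _) (PhiRec_wt_nonneg z hx0 _))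
      (mul_nonneg (Gl_nonneg _ _ _) (Gl_nonneg _ _ _))
  let φ : Col D 𝔽 → Col D 𝔽 × Col D 𝔽 := fun A => (res0 z b A, res1 z b A)
  have hφ : Function.Injective φ := by
    intro A A' h
    have h1 : res0 z b A = res0 z b A' := congrArg Prod.fst h
    have h2 : res1 z b A = res1 z b A' := congrArg Prod.snd h
    exact PhiRec_res_inj z hb h1 h2
  calc ∑ A : Col D 𝔽, Eu (fun κ : Cube D → Bool => wtC z δ (A ∘ lay b κ)) * Gl l A (A ∘ lay b F)
      ≤ ∑ A : Col D 𝔽, f (φ A) := by
        refine Finset.sum_le_sum fun A _ => ?_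
        have h1 : Gl l A (A ∘ lay b F) =
            Gl l (res0 z b A) (PhiRec_mix F (res0 z b A) (res1 z b A)) *
              Gl l (res1 z b A) (PhiRec_mix F (res1 z b A) (res0 z b A)) := by
          rw [Gl_slice z b hb l hl, PhiRec_res0_comp, PhiRec_res1_comp]
        rw [h1]
        exact mul_le_mul_of_nonneg_right (PhiRec_W_le z hb h0 A)
          (mul_nonneg (Gl_nonneg _ _ _) (Gl_nonneg _ _ _))
    _ = ∑ p ∈ univ.image φ, f p := by
        rw [Finset.sum_image (fun a _ a' _ h => hφ h)]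
    _ ≤ ∑ p, f p := Finset.sum_le_sum_of_subset_of_nonneg (Finset.subset_univ _) (fun p _ _ => hf0 p)
    _ = PhiRec_T z l x F := by
        rw [Fintype.sum_prod_type]
        rfl

/-- The mix as an involution on pairs. -/
def PhiRec_mixE (F : Cube D → Bool) : Col D 𝔽 × Col D 𝔽 ≃ Col D 𝔽 × Col D 𝔽 where
  toFun p := (PhiRec_mix F p.1 p.2, PhiRec_mix F p.2 p.1)
  invFun p := (PhiRec_mix F p.1 p.2, PhiRec_mix F p.2 p.1)
  left_inv p := by
    ext1
    · exact PhiRec_mix_mix F p.1 p.2
    · exact PhiRec_mix_mix F p.2 p.1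
  right_inv p := by
    ext1
    · exact PhiRec_mix_mix F p.1 p.2
    · exact PhiRec_mix_mix F p.2 p.1

/-- AM-GM and the involution. -/
theorem PhiRec_T_le (l : List ℕ) {x : Cube D → ℝ} (hx0 : ∀ y, 0 ≤ x y) (F : Cube D → Bool) :
    PhiRec_T z l x F ≤ ∑ R : Col D 𝔽, wtC z x R * Gl l R R *
      ∑ P : Col D 𝔽, wtC z x P * Gl l P (PhiRec_mix F P R) := by
  classical
  let f₁ : Col D 𝔽 × Col D 𝔽 → ℝ := fun p => wtC z x p.1 * wtC z x p.2 *
    (Gl l p.1 (PhiRec_mix F p.1 p.2) * Gl l p.2 p.2)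
  let f₂ : Col D 𝔽 × Col D 𝔽 → ℝ := fun p => wtC z x p.1 * wtC z x p.2 *
    (Gl l p.1 (PhiRec_mix F p.1 p.2) * Gl l (PhiRec_mix F p.2 p.1) (PhiRec_mix F p.2 p.1))
  have h12 : ∑ p, f₂ p = ∑ p, f₁ p := by
    rw [← Equiv.sum_comp (PhiRec_mixE (𝔽 := 𝔽) F) f₂]
    refine Finset.sum_congr rfl fun p _ => ?_
    show wtC z x (PhiRec_mix F p.1 p.2) * wtC z x (PhiRec_mix F p.2 p.1) *
      (Gl l (PhiRec_mix F p.1 p.2) (PhiRec_mix F (PhiRec_mix F p.1 p.2) (PhiRec_mix F p.2 p.1)) *
        Gl l (PhiRec_mix F (PhiRec_mix F p.2 p.1) (PhiRec_mix F p.1 p.2))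
          (PhiRec_mix F (PhiRec_mix F p.2 p.1) (PhiRec_mix F p.1 p.2))) = f₁ p
    rw [PhiRec_wt_mix, PhiRec_mix_mix, PhiRec_mix_mix, Gl_comm]
  have h1 : PhiRec_T z l x F = ∑ p : Col D 𝔽 × Col D 𝔽, wtC z x p.1 * wtC z x p.2 *
      (Gl l p.1 (PhiRec_mix F p.1 p.2) * Gl l p.2 (PhiRec_mix F p.2 p.1)) := by
    rw [Fintype.sum_prod_type]
    rfl
  have h2 : ∑ p : Col D 𝔽 × Col D 𝔽, wtC z x p.1 * wtC z x p.2 *
      (Gl l p.1 (PhiRec_mix F p.1 p.2) * Gl l p.2 (PhiRec_mix F p.2 p.1)) ≤
      ∑ p, (f₁ p + f₂ p) / 2 := by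
    refine Finset.sum_le_sum fun p _ => ?_
    have h3 := Gl_le_half l p.2 (PhiRec_mix F p.2 p.1)
    have h4 : 0 ≤ wtC z x p.1 * wtC z x p.2 * Gl l p.1 (PhiRec_mix F p.1 p.2) :=
      mul_nonneg (mul_nonneg (PhiRec_wt_nonneg z hx0 _) (PhiRec_wt_nonneg z hx0 _)) (Gl_nonneg _ _ _)
    have h5 := mul_le_mul_of_nonneg_left h3 h4
    simp only [f₁, f₂]
    linarith
  have h3 : ∑ p, (f₁ p + f₂ p) / 2 = ∑ p, f₁ p := by
    rw [← Finset.sum_div, Finset.sum_add_distrib, h12]
    ring
  rw [h1]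
  refine h2.trans (le_of_eq ?_)
  rw [h3, Fintype.sum_prod_type_right]
  refine Finset.sum_congr rfl fun R _ => ?_
  rw [Finset.mul_sum]
  refine Finset.sum_congr rfl fun P _ => ?_
  simp only [f₁]
  ring

/-! ### Solutions of the fixed point equation -/

/-- The orbit of `w` meets `F`. -/
def PhiRec_meets (π : Equiv.Perm (Cube D)) (F : Cube D → Bool) (w : Cube D) : Prop :=
  ∃ m : ℕ, F ((π ^ (m + 1)) w) = true

theorem PhiRec_meets_of_mem {π : Equiv.Perm (Cube D)} {F : Cube D → Bool} {w : Cube D}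
    (h : F w = true) : PhiRec_meets π F w := by
  have hpos : 0 < orderOf π := orderOf_pos π
  refine ⟨orderOf π - 1, ?_⟩
  rw [Nat.sub_add_cancel hpos, pow_orderOf_eq_one]
  simpa using h

theorem PhiRec_meets_inv {π : Equiv.Perm (Cube D)} {F : Cube D → Bool} {w : Cube D} :
    PhiRec_meets π F (π⁻¹ w) ↔ PhiRec_meets π F w := by
  constructor
  · rintro ⟨m, hm⟩
    have h2 : (π ^ (m + 1)) (π⁻¹ w) = (π ^ m) w := by
      rw [pow_succ, Equiv.Perm.mul_apply]
      simp
    rw [h2] at hm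
    cases m with
    | zero => exact PhiRec_meets_of_mem (by simpa using hm)
    | succ m => exact ⟨m, hm⟩
  · rintro ⟨m, hm⟩
    refine ⟨m + 1, ?_⟩
    have h2 : (π ^ (m + 1 + 1)) (π⁻¹ w) = (π ^ (m + 1)) w := by
      rw [pow_succ π (m + 1), Equiv.Perm.mul_apply]
      simp
    rw [h2]
    exact hm

/-- The colorings fixed by `π`, avoiding `F`: weighted count. -/
noncomputable def PhiRec_ell (x : Cube D → ℝ) (F : Cube D → Bool) (π : Equiv.Perm (Cube D)) : ℝ :=
  ∑ c : Col D 𝔽, if (c ∘ (π⁻¹ : Equiv.Perm (Cube D)) = c ∧ ∀ w, F w = true → c w = z) then wtC z x c else 0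

/-- Solutions are determined on orbits meeting `F`. -/
theorem PhiRec_sol_agree {π : Equiv.Perm (Cube D)} {F : Cube D → Bool} {R P P' : Col D 𝔽}
    (hP : P ∘ (π⁻¹ : Equiv.Perm (Cube D)) = PhiRec_mix F P R)
    (hP' : P' ∘ (π⁻¹ : Equiv.Perm (Cube D)) = PhiRec_mix F P' R) (m : ℕ) :
    ∀ w, F ((π ^ (m + 1)) w) = true → P w = P' w := by
  have key : ∀ (Q : Col D 𝔽), Q ∘ (π⁻¹ : Equiv.Perm (Cube D)) = PhiRec_mix F Q R → ∀ w,
      Q w = if F (π w) then R (π w) else Q (π w) := by
    intro Q hQ w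
    have := congrFun hQ (π w)
    simpa [PhiRec_mix] using this
  induction m with
  | zero =>
    intro w hw
    have hw' : F (π w) = true := by simpa using hw
    rw [key P hP w, key P' hP' w]
    simp [hw']
  | succ m ih =>
    intro w hw
    by_cases h : F (π w) = true
    · rw [key P hP w, key P' hP' w]
      simp [h]
    · rw [key P hP w, key P' hP' w]
      simp only [h, if_false]
      apply ih
      have h2 : (π ^ (m + 1)) (π w) = (π ^ (m + 1 + 1)) w := by
        rw [pow_succ π (m + 1), Equiv.Perm.mul_apply]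
      rw [h2]
      exact hw

open Classical in
/-- Erase the orbits meeting `F`. -/
noncomputable def PhiRec_erase (π : Equiv.Perm (Cube D)) (F : Cube D → Bool) (P : Col D 𝔽) : Col D 𝔽 :=
  fun w => if PhiRec_meets π F w then z else P w

theorem PhiRec_sol_le (π : Equiv.Perm (Cube D)) (F : Cube D → Bool) (R : Col D 𝔽) {x : Cube D → ℝ}
    (hx0 : ∀ y, 0 ≤ x y) (hx1 : ∀ y, x y ≤ 1) :
    ∑ P : Col D 𝔽, wtC z x P * (if P ∘ (π⁻¹ : Equiv.Perm (Cube D)) = PhiRec_mix F P R then 1 else 0) ≤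
      PhiRec_ell z x F π := by
  classical
  let Sol : Finset (Col D 𝔽) := univ.filter fun P => P ∘ (π⁻¹ : Equiv.Perm (Cube D)) = PhiRec_mix F P R
  let C : Finset (Col D 𝔽) := univ.filter fun c =>
    c ∘ (π⁻¹ : Equiv.Perm (Cube D)) = c ∧ ∀ w, F w = true → c w = z
  have h1 : ∑ P : Col D 𝔽, wtC z x P * (if P ∘ (π⁻¹ : Equiv.Perm (Cube D)) = PhiRec_mix F P R then 1 else 0) =
      ∑ P ∈ Sol, wtC z x P := by
    rw [Finset.sum_filter]
    refine Finset.sum_congr rfl fun P _ => ?_
    split_ifs <;> simp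
  have h2 : PhiRec_ell z x F π = ∑ c ∈ C, wtC z x c := by
    rw [Finset.sum_filter]
    rfl
  rw [h1, h2]
  have hinj : Set.InjOn (PhiRec_erase z π F) (Sol : Set (Col D 𝔽)) := by
    intro P hP P' hP' h
    have hP1 : P ∘ (π⁻¹ : Equiv.Perm (Cube D)) = PhiRec_mix F P R := by
      simpa [Sol] using hP
    have hP2 : P' ∘ (π⁻¹ : Equiv.Perm (Cube D)) = PhiRec_mix F P' R := by
      simpa [Sol] using hP'
    funext w
    by_cases hw : PhiRec_meets π F w
    · obtain ⟨m, hm⟩ := hw
      exact PhiRec_sol_agree hP1 hP2 m w hm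
    · have := congrFun h w
      simpa [PhiRec_erase, hw] using this
  calc ∑ P ∈ Sol, wtC z x P ≤ ∑ P ∈ Sol, wtC z x (PhiRec_erase z π F P) := by
        refine Finset.sum_le_sum fun P _ => ?_
        rw [PhiRec_wt_eq, PhiRec_wt_eq]
        refine Finset.prod_le_prod (fun y _ => ?_) (fun y _ => ?_)
        · split_ifs
          · exact hx0 y
          · exact zero_le_one
        · by_cases hy : PhiRec_meets π F y
          · have : PhiRec_erase z π F P y = z := by simp [PhiRec_erase, hy]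
            rw [this]
            simp only [ne_eq, not_true_eq_false, if_false]
            split_ifs <;> first | exact hx1 y | exact le_rfl
          · have : PhiRec_erase z π F P y = P y := by simp [PhiRec_erase, hy]
            rw [this]
    _ = ∑ c ∈ Sol.image (PhiRec_erase z π F), wtC z x c := by
        rw [Finset.sum_image hinj]
    _ ≤ ∑ c ∈ C, wtC z x c := by
        refine Finset.sum_le_sum_of_subset_of_nonneg ?_ (fun c _ _ => PhiRec_wt_nonneg z hx0 c)
        intro c hc
        obtain ⟨P, hP, rfl⟩ := Finset.mem_image.mp hc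
        have hP1 : P ∘ (π⁻¹ : Equiv.Perm (Cube D)) = PhiRec_mix F P R := by
          simpa [Sol] using hP
        simp only [C, mem_filter, mem_univ, true_and]
        constructor
        · funext w
          show PhiRec_erase z π F P (π⁻¹ w) = PhiRec_erase z π F P w
          by_cases hw : PhiRec_meets π F w
          · have h3 : PhiRec_meets π F (π⁻¹ w) := PhiRec_meets_inv.mpr hw
            unfold PhiRec_erase
            rw [if_pos h3, if_pos hw]
          · have h3 : ¬ PhiRec_meets π F (π⁻¹ w) := fun h => hw (PhiRec_meets_inv.mp h)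
            have hFw : ¬ F w = true := fun h => hw (PhiRec_meets_of_mem h)
            have h4 := congrFun hP1 w
            simp only [Function.comp_apply, PhiRec_mix, hFw, if_false] at h4
            simp only [PhiRec_erase, hw, h3, if_false]
            exact h4
        · intro w hw
          simp [PhiRec_erase, PhiRec_meets_of_mem hw]

/-- Averaging the bound over `F`. -/
theorem PhiRec_Eu_ell (x : Cube D → ℝ) (π : Equiv.Perm (Cube D)) :
    Eu (fun F : Cube D → Bool => PhiRec_ell z x F π) =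
      ∑ c : Col D 𝔽, wtC z (fun y => x y / 2) c * (if c ∘ (π⁻¹ : Equiv.Perm (Cube D)) = c then 1 else 0) := by
  classical
  unfold PhiRec_ell
  rw [PhiRec_Eu_sum]
  refine Finset.sum_congr rfl fun c _ => ?_
  by_cases hc : c ∘ (π⁻¹ : Equiv.Perm (Cube D)) = c
  · simp only [hc, true_and, if_true, mul_one]
    have h1 : ∀ F : Cube D → Bool, (if ∀ w, F w = true → c w = z then wtC z x c else 0) =
        wtC z x c * ∏ w, (fun (w : Cube D) (b : Bool) => if c w ≠ z then (if b then (0 : ℝ) else 1) else 1) w (F w) := by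
      intro F
      by_cases hF : ∀ w, F w = true → c w = z
      · rw [if_pos hF]
        have : ∏ w, (fun (w : Cube D) (b : Bool) => if c w ≠ z then (if b then (0 : ℝ) else 1) else 1) w (F w) = 1 := by
          refine Finset.prod_eq_one fun w _ => ?_
          by_cases hw : F w = true
          · simp [hF w hw]
          · simp [hw]
        rw [this, mul_one]
      · rw [if_neg hF]
        push Not at hF
        obtain ⟨w, hw1, hw2⟩ := hF
        have : ∏ w, (fun (w : Cube D) (b : Bool) => if c w ≠ z then (if b then (0 : ℝ) else 1) else 1) w (F w) = 0 := by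
          refine Finset.prod_eq_zero (Finset.mem_univ w) ?_
          simp [hw1, hw2]
        rw [this, mul_zero]
    simp only [h1]
    rw [Eu_mul_left]
    have h2 := PhiRec_Eu_prod (fun (w : Cube D) (b : Bool) => if c w ≠ z then (if b then (0 : ℝ) else 1) else 1)
    rw [h2, PhiRec_wt_eq, PhiRec_wt_eq, ← Finset.prod_mul_distrib]
    refine Finset.prod_congr rfl fun y _ => ?_
    by_cases hy : c y ≠ z
    · simp only [hy, if_true, ne_eq, not_false_eq_true, Bool.false_eq_true, if_false]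
      ring
    · simp only [hy, if_false, Bool.false_eq_true, if_true]
      norm_num
  · have h3 : ∀ F : Cube D → Bool, (if (c ∘ (π⁻¹ : Equiv.Perm (Cube D)) = c ∧ ∀ w, F w = true → c w = z) then
        wtC z x c else 0) = 0 := fun F => if_neg (fun h => hc h.1)
    simp only [h3, if_neg hc, mul_zero]
    simp [Eu]

/-- THE RECURSION. -/
theorem PhiL_rec (b : ℕ) (hb : b < D) (l : List ℕ) (hl : b ∉ l) (δ : Cube D → ℝ)
    (h0 : ∀ x, 0 ≤ δ x) (h1 : ∀ x, δ x ≤ 1) :
    PhiL (𝔽 := 𝔽) z (b :: l) δ ≤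
      PhiL z l (pairAvg b δ) * PhiL z l (fun x => pairAvg b δ x / 2) := by
  classical
  have hx0 : ∀ y, 0 ≤ pairAvg b δ y := by
    intro y
    unfold pairAvg
    split_ifs
    · have := h0 y
      have := h0 (bitFlip b y)
      linarith
    · exact le_rfl
  have hx1 : ∀ y, pairAvg b δ y ≤ 1 := by
    intro y
    unfold pairAvg
    split_ifs
    · have := h1 y
      have := h1 (bitFlip b y)
      linarith
    · exact zero_le_one
  set x := pairAvg b δ with hx
  -- the bound `V`
  let V : (Cube D → Bool) → ℝ := fun F =>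
    Elaw l (fun O₁ => Elaw l (fun O₂ => PhiRec_ell z x F (O₂⁻¹ * O₁)))
  have hU : ∀ (F : Cube D → Bool) (R : Col D 𝔽),
      ∑ P : Col D 𝔽, wtC z x P * Gl l P (PhiRec_mix F P R) ≤ V F := by
    intro F R
    have h2 : ∑ P : Col D 𝔽, wtC z x P * Gl l P (PhiRec_mix F P R) =
        Elaw l (fun O₁ => Elaw l (fun O₂ => ∑ P : Col D 𝔽, wtC z x P *
          (if P ∘ (O₁⁻¹ : Equiv.Perm (Cube D)) = PhiRec_mix F P R ∘ (O₂⁻¹ : Equiv.Perm (Cube D)) then 1 else 0))) := by
      have h3 : ∀ O₁ : Equiv.Perm (Cube D), Elaw l (fun O₂ => ∑ P : Col D 𝔽, wtC z x P *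
          (if P ∘ (O₁⁻¹ : Equiv.Perm (Cube D)) = PhiRec_mix F P R ∘ (O₂⁻¹ : Equiv.Perm (Cube D)) then 1 else 0)) =
          ∑ P : Col D 𝔽, wtC z x P * Elaw l (fun O₂ =>
          (if P ∘ (O₁⁻¹ : Equiv.Perm (Cube D)) = PhiRec_mix F P R ∘ (O₂⁻¹ : Equiv.Perm (Cube D)) then 1 else 0)) := by
        intro O₁
        rw [Elaw_sum]
        refine Finset.sum_congr rfl fun P _ => ?_
        rw [Elaw_mul_left]
      simp only [h3]
      rw [Elaw_sum]
      refine Finset.sum_congr rfl fun P _ => ?_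
      rw [Elaw_mul_left, Gl_eq_Elaw]
    rw [h2]
    refine Elaw_mono l fun O₁ => Elaw_mono l fun O₂ => ?_
    refine le_trans (le_of_eq ?_) (PhiRec_sol_le z (O₂⁻¹ * O₁) F R hx0 hx1)
    refine Finset.sum_congr rfl fun P _ => ?_
    have h4 : (P ∘ (O₁⁻¹ : Equiv.Perm (Cube D)) = PhiRec_mix F P R ∘ (O₂⁻¹ : Equiv.Perm (Cube D))) ↔
        (P ∘ ((O₂⁻¹ * O₁)⁻¹ : Equiv.Perm (Cube D)) = PhiRec_mix F P R) := by
      constructor
      · intro h
        funext w
        have := congrFun h (O₂ w)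
        simpa using this
      · intro h
        funext w
        have := congrFun h (O₂⁻¹ w)
        simpa using this
    simp only [h4]
  have hV : Eu V = PhiL z l (fun y => x y / 2) := by
    simp only [V]
    rw [PhiRec_Eu_Elaw]
    have h2 : ∀ O₁ : Equiv.Perm (Cube D), Eu (fun F : Cube D → Bool =>
        Elaw l (fun O₂ => PhiRec_ell z x F (O₂⁻¹ * O₁))) =
        Elaw l (fun O₂ => Eu (fun F : Cube D → Bool => PhiRec_ell z x F (O₂⁻¹ * O₁))) := fun O₁ =>
      PhiRec_Eu_Elaw l _
    simp only [h2, PhiRec_Eu_ell]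
    unfold PhiL
    have h3 : ∀ c : Col D 𝔽, Gl l c c = Elaw l (fun O₁ => Elaw l (fun O₂ =>
        if c ∘ ((O₂⁻¹ * O₁)⁻¹ : Equiv.Perm (Cube D)) = c then 1 else 0)) := by
      intro c
      rw [Gl_eq_Elaw]
      refine congrArg _ (funext fun O₁ => congrArg _ (funext fun O₂ => ?_))
      have h4 : (c ∘ (O₁⁻¹ : Equiv.Perm (Cube D)) = c ∘ (O₂⁻¹ : Equiv.Perm (Cube D))) ↔
          (c ∘ ((O₂⁻¹ * O₁)⁻¹ : Equiv.Perm (Cube D)) = c) := by
        constructor
        · intro h
          funext w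
          have := congrFun h (O₂ w)
          simpa using this
        · intro h
          funext w
          have := congrFun h (O₂⁻¹ w)
          simpa using this
      simp only [h4]
    simp only [h3]
    have h5 : ∀ O₁ : Equiv.Perm (Cube D), Elaw l (fun O₂ => ∑ c : Col D 𝔽, wtC z (fun y => x y / 2) c *
        (if c ∘ ((O₂⁻¹ * O₁)⁻¹ : Equiv.Perm (Cube D)) = c then 1 else 0)) =
        ∑ c : Col D 𝔽, wtC z (fun y => x y / 2) c * Elaw l (fun O₂ =>
        (if c ∘ ((O₂⁻¹ * O₁)⁻¹ : Equiv.Perm (Cube D)) = c then 1 else 0)) := by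
      intro O₁
      rw [Elaw_sum]
      refine Finset.sum_congr rfl fun c _ => ?_
      rw [Elaw_mul_left]
    simp only [h5]
    rw [Elaw_sum]
    refine Finset.sum_congr rfl fun c _ => ?_
    rw [Elaw_mul_left]
  rw [PhiRec_expand]
  calc Eu (fun F : Cube D → Bool => ∑ A : Col D 𝔽,
        Eu (fun κ : Cube D → Bool => wtC z δ (A ∘ lay b κ)) * Gl l A (A ∘ lay b F))
      ≤ Eu (fun F : Cube D → Bool => PhiL z l x * V F) := by
        refine Eu_mono fun F => ?_
        refine (PhiRec_sumA_le z hb hl h0 hx0 F).trans ((PhiRec_T_le z l hx0 F).trans ?_)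
        unfold PhiL
        rw [Finset.sum_mul]
        refine Finset.sum_le_sum fun R _ => ?_
        exact mul_le_mul_of_nonneg_left (hU F R)
          (mul_nonneg (PhiRec_wt_nonneg z hx0 _) (Gl_nonneg _ _ _))
    _ = PhiL z l x * PhiL z l (fun y => x y / 2) := by
        rw [Eu_mul_left, hV]

/-- Base. -/
theorem PhiL_nil (δ : Cube D → ℝ) (h0 : ∀ x, 0 ≤ δ x) :
    PhiL (𝔽 := 𝔽) z [] δ ≤ Real.exp (((Fintype.card 𝔽 : ℝ) - 1) * ∑ x, δ x) := by
  classical
  have hG : ∀ a : Col D 𝔽, Gl [] a a = 1 := by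
    intro a
    rw [Gl_eq_Elaw]
    simp [Elaw]
  unfold PhiL
  simp only [hG, mul_one]
  simp only [PhiRec_wt_eq]
  have h1 : ∑ a : Col D 𝔽, ∏ x, (if a x ≠ z then δ x else 1) =
      ∏ x : Cube D, ∑ v : 𝔽, (if v ≠ z then δ x else 1) := by
    rw [Finset.prod_univ_sum, Fintype.piFinset_univ]
  rw [h1, Finset.mul_sum, Real.exp_sum]
  refine Finset.prod_le_prod (fun x _ => ?_) (fun x _ => ?_)
  · refine Finset.sum_nonneg fun v _ => ?_
    split_ifs
    · exact h0 x
    · exact zero_le_one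
  · have h2 : ∑ v : 𝔽, (if v ≠ z then δ x else 1) = 1 + ((Fintype.card 𝔽 : ℝ) - 1) * δ x := by
      have h3 : ∀ v : 𝔽, (if v ≠ z then δ x else 1) = δ x + (if v = z then 1 - δ x else 0) := by
        intro v
        by_cases hv : v = z <;> simp [hv]
      simp only [h3]
      rw [Finset.sum_add_distrib, Finset.sum_const, Finset.sum_ite_eq', if_pos (Finset.mem_univ z),
        Finset.card_univ, nsmul_eq_mul]
      ring
    rw [h2]
    have := Real.add_one_le_exp (((Fintype.card 𝔽 : ℝ) - 1) * δ x)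
    linarith

/-- The sum of the switch averages is half of the total. -/
theorem PhiRec_sum_pairAvg {b : ℕ} (hb : b < D) (δ : Cube D → ℝ) :
    ∑ x, pairAvg b δ x = (∑ x, δ x) / 2 := by
  rw [PhiRec_sum_slice hb δ, Finset.sum_div]
  refine Finset.sum_congr rfl fun y _ => ?_
  unfold pairAvg
  split_ifs
  · rfl
  · simp

/-- THE BOUND. -/
theorem PhiL_bound (l : List ℕ) (hl : l.Nodup) (hlD : ∀ b ∈ l, b < D) (δ : Cube D → ℝ)
    (h0 : ∀ x, 0 ≤ δ x) (h1 : ∀ x, δ x ≤ 1) :
    PhiL (𝔽 := 𝔽) z l δ ≤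
      Real.exp (((Fintype.card 𝔽 : ℝ) - 1) * (3 / 4 : ℝ) ^ l.length * ∑ x, δ x) := by
  induction l generalizing δ with
  | nil => simpa using PhiL_nil (𝔽 := 𝔽) z δ h0
  | cons b l ih =>
    have hb : b < D := hlD b (List.mem_cons_self)
    have hbl : b ∉ l := (List.nodup_cons.mp hl).1
    have hl' : l.Nodup := (List.nodup_cons.mp hl).2
    have hlD' : ∀ b ∈ l, b < D := fun c hc => hlD c (List.mem_cons_of_mem b hc)
    have hx0 : ∀ y, 0 ≤ pairAvg b δ y := by
      intro y
      unfold pairAvg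
      split_ifs
      · have := h0 y
        have := h0 (bitFlip b y)
        linarith
      · exact le_rfl
    have hx1 : ∀ y, pairAvg b δ y ≤ 1 := by
      intro y
      unfold pairAvg
      split_ifs
      · have := h1 y
        have := h1 (bitFlip b y)
        linarith
      · exact zero_le_one
    have hA := ih hl' hlD' (pairAvg b δ) hx0 hx1
    have hB := ih hl' hlD' (fun y => pairAvg b δ y / 2) (fun y => by have := hx0 y; linarith)
      (fun y => by have := hx0 y; have := hx1 y; linarith)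
    have hG : 0 ≤ PhiL (𝔽 := 𝔽) z l (pairAvg b δ) :=
      Finset.sum_nonneg fun a _ => mul_nonneg (PhiRec_wt_nonneg z hx0 _) (Gl_nonneg _ _ _)
    have hG2 : 0 ≤ PhiL (𝔽 := 𝔽) z l (fun y => pairAvg b δ y / 2) :=
      Finset.sum_nonneg fun a _ => mul_nonneg (PhiRec_wt_nonneg z (fun y => by have := hx0 y; linarith) _)
        (Gl_nonneg _ _ _)
    refine (PhiL_rec z b hb l hbl δ h0 h1).trans ?_
    refine (mul_le_mul hA hB hG2 (Real.exp_pos _).le).trans (le_of_eq ?_)
    rw [← Real.exp_add]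
    congr 1
    rw [← Finset.sum_div, PhiRec_sum_pairAvg hb, List.length_cons, pow_succ]
    ring

end Vale.Agent.P162O
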