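/-
P162 O(d), Part II: the abstract chain lemma (blocks and residue classes).
A Markov chain with independent coins: y_{i+1} = stp i c_i y_i. Potentials F i ≥ 1 with bounds on all exponential moments
given s steps of freedom. Then the expectation of ∏_{i<n} (F i y_i)^(1/20) is at most exp(30 A).
-/
import Vale.Agent.P162O.Common

open Finset

namespace Vale.Agent.P162O

set_option linter.unusedSectionVars false

variable {S C : Type} [Fintype C] [Nonempty C] (stp : ℕ → C → S → S)

/-- `s`-step expectation from level `a`: `E[Θ(y_{a+s}) | y_a = v]`. -/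
noncomputable def kstep (a : ℕ) (s : ℕ) (v : S) (Θ : S → ℝ) : ℝ :=
  match s with
  | 0 => Θ v
  | s + 1 => Eu fun c : C => kstep (a + 1) s (stp a c v) Θ

/-- `E[Θ(y_n) ∏_{i<n} Ψ i (y_i) | y_0 = u]`, integrating the top coin first. -/
noncomputable def chainE (Ψ : ℕ → S → ℝ) (u : S) : ℕ → (S → ℝ) → ℝ
  | 0, Θ => Θ u
  | n + 1, Θ => Eu fun c : C => chainE Ψ u n (fun v => Θ (stp n c v) * Ψ n v)

/-- The chain started from level `a`. -/
noncomputable def schCf (Ψ : ℕ → S → ℝ) (a : ℕ) (u : S) : ℕ → (S → ℝ) → ℝ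
  | 0, Θ => Θ u
  | n + 1, Θ => Eu fun c : C => schCf Ψ a u n (fun v => Θ (stp (a + n) c v) * Ψ (a + n) v)

theorem schCf_zero (Ψ : ℕ → S → ℝ) (a : ℕ) (u : S) (Θ : S → ℝ) : schCf stp Ψ a u 0 Θ = Θ u := rfl

theorem schCf_succ (Ψ : ℕ → S → ℝ) (a : ℕ) (u : S) (n : ℕ) (Θ : S → ℝ) :
    schCf stp Ψ a u (n + 1) Θ =
      Eu fun c : C => schCf stp Ψ a u n (fun v => Θ (stp (a + n) c v) * Ψ (a + n) v) := rfl

theorem sch_chainE_eq (Ψ : ℕ → S → ℝ) (u : S) (n : ℕ) (Θ : S → ℝ) :
    chainE stp Ψ u n Θ = schCf stp Ψ 0 u n Θ := by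
  induction n generalizing Θ with
  | zero => rfl
  | succ n ih =>
    rw [schCf_succ]
    simp only [chainE, ih, zero_add]

theorem sch_Eu_mul_right {α : Type*} [Fintype α] (f : α → ℝ) (c : ℝ) :
    Eu (fun a => f a * c) = Eu f * c := by
  have := Eu_mul_left c f
  simp only [mul_comm c] at this
  rw [this, mul_comm]

theorem sch_Eu_sum {α β : Type*} [Fintype α] [Fintype β] (f : β → α → ℝ) :
    Eu (fun a => ∑ b, f b a) = ∑ b, Eu (f b) := by
  simp only [Eu, Finset.mul_sum]
  rw [Finset.sum_comm]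

section basics
variable {stp}

theorem schCf_mono {Ψ : ℕ → S → ℝ} (hΨ : ∀ i v, 0 ≤ Ψ i v) (a : ℕ) (u : S) (n : ℕ) {Θ Θ' : S → ℝ}
    (h : ∀ v, Θ v ≤ Θ' v) : schCf stp Ψ a u n Θ ≤ schCf stp Ψ a u n Θ' := by
  induction n generalizing Θ Θ' with
  | zero => exact h u
  | succ n ih =>
    simp only [schCf_succ]
    apply Eu_mono
    intro c
    apply ih
    intro v
    exact mul_le_mul_of_nonneg_right (h _) (hΨ _ _)

theorem schCf_nonneg {Ψ : ℕ → S → ℝ} (hΨ : ∀ i v, 0 ≤ Ψ i v) (a : ℕ) (u : S) (n : ℕ) {Θ : S → ℝ}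
    (h : ∀ v, 0 ≤ Θ v) : 0 ≤ schCf stp Ψ a u n Θ := by
  induction n generalizing Θ with
  | zero => exact h u
  | succ n ih =>
    simp only [schCf_succ]
    apply Eu_nonneg
    intro c
    apply ih
    intro v
    exact mul_nonneg (h _) (hΨ _ _)

theorem schCf_const_mul (Ψ : ℕ → S → ℝ) (a : ℕ) (u : S) (n : ℕ) (c : ℝ) (Θ : S → ℝ) :
    schCf stp Ψ a u n (fun v => c * Θ v) = c * schCf stp Ψ a u n Θ := by
  induction n generalizing Θ with
  | zero => rfl
  | succ n ih =>
    simp only [schCf_succ]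
    have h1 : ∀ c' : C, (fun v => c * Θ (stp (a + n) c' v) * Ψ (a + n) v) =
        fun v => c * (Θ (stp (a + n) c' v) * Ψ (a + n) v) := by
      intro c'
      funext v
      ring
    simp only [h1, ih]
    exact Eu_mul_left c _

theorem schCf_Eu {β : Type*} [Fintype β] (Ψ : ℕ → S → ℝ) (a : ℕ) (u : S) (n : ℕ) (G : β → S → ℝ) :
    schCf stp Ψ a u n (fun v => Eu fun κ => G κ v) = Eu fun κ => schCf stp Ψ a u n (G κ) := by
  induction n generalizing G with
  | zero => rfl
  | succ n ih =>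
    simp only [schCf_succ]
    have h1 : ∀ c : C, (fun v => (Eu fun κ => G κ (stp (a + n) c v)) * Ψ (a + n) v) =
        fun v => Eu fun κ => G κ (stp (a + n) c v) * Ψ (a + n) v := by
      intro c
      funext v
      rw [sch_Eu_mul_right]
    simp only [h1, ih]
    exact Eu_comm _

theorem schCf_tower (Ψ : ℕ → S → ℝ) (a : ℕ) (u : S) (k m : ℕ) (Θ : S → ℝ) :
    schCf stp Ψ a u (k + m) Θ = schCf stp Ψ a u k (fun v => schCf stp Ψ (a + k) v m Θ) := by
  induction m generalizing Θ with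
  | zero => rfl
  | succ m ih =>
    rw [← add_assoc, schCf_succ]
    simp only [schCf_succ]
    rw [schCf_Eu]
    simp only [ih]
    simp only [add_assoc]

theorem schCf_congr {Ψ Ψ' : ℕ → S → ℝ} (a : ℕ) (u : S) (n : ℕ) (Θ : S → ℝ)
    (h : ∀ i, a ≤ i → i < a + n → ∀ w, Ψ i w = Ψ' i w) :
    schCf stp Ψ a u n Θ = schCf stp Ψ' a u n Θ := by
  induction n generalizing Θ with
  | zero => rfl
  | succ n ih =>
    simp only [schCf_succ]
    congr 1
    funext c
    have h2 : (fun v => Θ (stp (a + n) c v) * Ψ (a + n) v) =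
        fun v => Θ (stp (a + n) c v) * Ψ' (a + n) v := by
      funext v
      rw [h (a + n) (by omega) (by omega) v]
    rw [h2]
    exact ih _ fun i h1 h3 w => h i h1 (by omega) w

/-- Monotonicity in the length, if all potentials are at least one. -/
theorem schCf_mono_len {Ψ : ℕ → S → ℝ} (hΨ : ∀ i v, 1 ≤ Ψ i v) (a : ℕ) (u : S) {m m' : ℕ} (h : m ≤ m') :
    schCf stp Ψ a u m (fun _ => 1) ≤ schCf stp Ψ a u m' (fun _ => 1) := by
  have h0 : ∀ i v, 0 ≤ Ψ i v := fun i v => zero_le_one.trans (hΨ i v)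
  induction m', h using Nat.le_induction with
  | base => exact le_rfl
  | succ n _ ih =>
    refine ih.trans ?_
    rw [schCf_succ]
    calc schCf stp Ψ a u n (fun _ => 1) = Eu fun _ : C => schCf stp Ψ a u n (fun _ => 1) := (Eu_const _).symm
      _ ≤ _ := by
        apply Eu_mono
        intro c
        apply schCf_mono h0
        intro v
        simpa using hΨ _ _

/-- Levels with potential one can be dropped. -/
theorem schCf_drop {Ψ : ℕ → S → ℝ} (a : ℕ) (u : S) (m k : ℕ)
    (h : ∀ i, a + m ≤ i → i < a + m + k → ∀ w, Ψ i w = 1) :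
    schCf stp Ψ a u (m + k) (fun _ => 1) = schCf stp Ψ a u m (fun _ => 1) := by
  induction k with
  | zero => rfl
  | succ k ih =>
    rw [← add_assoc, schCf_succ]
    have h2 : ∀ v, Ψ (a + (m + k)) v = 1 := fun v => h _ (by omega) (by omega) v
    simp only [h2, mul_one]
    rw [Eu_const]
    exact ih fun i h1 h3 w => h i h1 (by omega) w

/-- Comparison with constants. -/
theorem schCf_le_const {Ψ G : ℕ → S → ℝ} (hΨ : ∀ i v, 0 ≤ Ψ i v) (hG : ∀ i v, 0 ≤ G i v) {c : ℕ → ℝ}
    (hc : ∀ i, 0 ≤ c i) (h : ∀ i v, Ψ i v ≤ c i * G i v) (a : ℕ) (u : S) (n : ℕ) {Θ : S → ℝ}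
    (hΘ : ∀ v, 0 ≤ Θ v) :
    schCf stp Ψ a u n Θ ≤ (∏ j ∈ range n, c (a + j)) * schCf stp G a u n Θ := by
  induction n generalizing Θ with
  | zero => simp [schCf_zero]
  | succ n ih =>
    simp only [schCf_succ]
    rw [← Eu_mul_left]
    apply Eu_mono
    intro κ
    have hP : 0 ≤ ∏ j ∈ range n, c (a + j) := Finset.prod_nonneg fun j _ => hc _
    refine (ih (fun v => mul_nonneg (hΘ _) (hΨ _ _))).trans ?_
    rw [Finset.prod_range_succ, mul_assoc]
    apply mul_le_mul_of_nonneg_left _ hP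
    rw [← schCf_const_mul]
    apply schCf_mono hG
    intro v
    have := h (a + n) v
    have h3 := hΘ (stp (a + n) κ v)
    nlinarith [mul_le_mul_of_nonneg_left this h3]

end basics

/-- The `s`-step expectation, integrating the top coin first. -/
theorem kstep_succ_top (a s : ℕ) (v : S) (Θ : S → ℝ) :
    kstep stp a (s + 1) v Θ = Eu fun κ : C => kstep stp a s v (fun w => Θ (stp (a + s) κ w)) := by
  induction s generalizing a v with
  | zero =>
    simp [kstep]
  | succ s ih =>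
    rw [kstep]
    simp only [ih]
    rw [Eu_comm]
    congr 1
    funext κ
    rw [kstep]
    congr 1
    funext c
    have : a + 1 + s = a + (s + 1) := by omega
    rw [this]

/-- A stretch of levels with potential one above the first one. -/
theorem schCf_gap (Ψ : ℕ → S → ℝ) (b : ℕ) (w : S) (s : ℕ) (Θ : S → ℝ)
    (h : ∀ i, b < i → i < b + (s + 1) → ∀ x, Ψ i x = 1) :
    schCf stp Ψ b w (s + 1) Θ = Ψ b w * kstep stp b (s + 1) w Θ := by
  induction s generalizing Θ with
  | zero =>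
    rw [schCf_succ]
    simp only [schCf_zero, add_zero]
    rw [sch_Eu_mul_right, mul_comm]
    simp [kstep]
  | succ s ih =>
    rw [schCf_succ]
    have h2 : ∀ x, Ψ (b + (s + 1)) x = 1 := fun x => h _ (by omega) (by omega) x
    simp only [h2, mul_one]
    simp only [fun Θ' => ih Θ' (fun i h1 h3 x => h i h1 (by omega) x)]
    rw [Eu_mul_left, kstep_succ_top]

section sparse

variable (F : ℕ → S → ℝ) (A : ℝ)
  (H1 : ∀ (i s r : ℕ) (v : S), s ≤ i →
      kstep stp (i - s) s v (fun y => F i y ^ r) ≤ Real.exp (2 ^ r * A * (3 / 4 : ℝ) ^ s))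

include H1 in
/-- The sparse lemma. -/
theorem sch_sparse (hF1 : ∀ i v, 1 ≤ F i v) (hA : 0 ≤ A) {T : ℕ → Prop} (r s a : ℕ) (hs : 1 ≤ s)
    (hgap : ∀ t t', T t → T t' → t' < t → t' + s ≤ t) (hstart : ∀ t, T t → a + s ≤ t)
    (Ψ : ℕ → S → ℝ) (hΨT : ∀ i w, T i → Ψ i w = F i w ^ r) (hΨN : ∀ i w, ¬ T i → Ψ i w = 1) (m : ℕ) (v : S) :
    schCf stp Ψ a v m (fun _ => 1) ≤ Real.exp ((m : ℝ) * (2 ^ r * A * (3 / 4 : ℝ) ^ s)) := by
  have hK0 : 0 ≤ (2 : ℝ) ^ r * A * (3 / 4 : ℝ) ^ s := by positivity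
  set K0 : ℝ := (2 : ℝ) ^ r * A * (3 / 4 : ℝ) ^ s with hK
  have hΨ0 : ∀ i w, 0 ≤ Ψ i w := by
    intro i w
    by_cases hi : T i
    · rw [hΨT i w hi]
      exact pow_nonneg (zero_le_one.trans (hF1 i w)) r
    · rw [hΨN i w hi]
      exact zero_le_one
  induction m using Nat.strong_induction_on with
  | _ m ih =>
    cases m with
    | zero =>
      rw [schCf_zero]
      simp
    | succ m' =>
      by_cases ht : T (a + m')
      · -- a level of `T`
        obtain ⟨k, hk⟩ : ∃ k, m' = k + s := by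
          have := hstart _ ht
          exact ⟨m' - s, by omega⟩
        have hstep : schCf stp Ψ a v (m' + 1) (fun _ => 1) =
            schCf stp Ψ a v m' (fun w => F (a + m') w ^ r) := by
          rw [schCf_succ]
          simp only [one_mul, hΨT _ _ ht]
          exact Eu_const _
        rw [hstep]
        obtain ⟨s', rfl⟩ : ∃ s', s = s' + 1 := ⟨s - 1, by omega⟩
        have htower := schCf_tower (stp := stp) Ψ a v k (s' + 1) (fun w => F (a + m') w ^ r)
        rw [← hk] at htower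
        rw [htower]
        have hin : ∀ w, schCf stp Ψ (a + k) w (s' + 1) (fun y => F (a + m') y ^ r) ≤
            Real.exp K0 * Ψ (a + k) w := by
          intro w
          rw [schCf_gap]
          · have h1 := H1 (a + m') (s' + 1) r w (by omega)
            have h2 : a + m' - (s' + 1) = a + k := by omega
            rw [h2] at h1
            rw [mul_comm]
            exact mul_le_mul_of_nonneg_right h1 (hΨ0 _ _)
          · intro i h1 h3 x
            apply hΨN
            intro hTi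
            have := hgap (a + m') i ht hTi (by omega)
            omega
        refine (schCf_mono hΨ0 a v k hin).trans ?_
        rw [schCf_const_mul]
        have h5 : schCf stp Ψ a v k (fun w => Ψ (a + k) w) = schCf stp Ψ a v (k + 1) (fun _ => 1) := by
          rw [schCf_succ]
          simp only [one_mul]
          exact (Eu_const _).symm
        rw [h5]
        have h6 := ih (k + 1) (by omega)
        calc Real.exp K0 * schCf stp Ψ a v (k + 1) (fun _ => 1)
            ≤ Real.exp K0 * Real.exp (((k + 1 : ℕ) : ℝ) * K0) :=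
              mul_le_mul_of_nonneg_left h6 (Real.exp_pos _).le
          _ = Real.exp (K0 + ((k + 1 : ℕ) : ℝ) * K0) := (Real.exp_add _ _).symm
          _ ≤ _ := by
            apply Real.exp_le_exp.mpr
            have h7 : ((k + 2 : ℕ) : ℝ) ≤ ((m' + 1 : ℕ) : ℝ) := by
              exact_mod_cast (by omega : k + 2 ≤ m' + 1)
            have h8 : ((k + 2 : ℕ) : ℝ) = ((k + 1 : ℕ) : ℝ) + 1 := by push_cast; ring
            nlinarith
      · -- a level outside `T`
        have hstep : schCf stp Ψ a v (m' + 1) (fun _ => 1) = schCf stp Ψ a v m' (fun _ => 1) := by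
          rw [schCf_succ]
          simp only [hΨN _ _ ht, one_mul]
          exact Eu_const _
        rw [hstep]
        refine (ih m' (by omega)).trans ?_
        apply Real.exp_le_exp.mpr
        have h7 : ((m' : ℕ) : ℝ) ≤ ((m' + 1 : ℕ) : ℝ) := by exact_mod_cast (by omega : m' ≤ m' + 1)
        exact mul_le_mul_of_nonneg_right h7 hK0

end sparse

/-- Pointwise AM-GM. -/
theorem sch_prod_le {ι : Type*} [Fintype ι] [Nonempty ι] (x : ι → ℝ) (hx : ∀ c, 0 ≤ x c) :
    ∏ c, x c ≤ (Fintype.card ι : ℝ)⁻¹ * ∑ c, x c ^ Fintype.card ι := by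
  have hs : Fintype.card ι ≠ 0 := Fintype.card_ne_zero
  have hs' : (0 : ℝ) < (Fintype.card ι : ℝ) := by exact_mod_cast Nat.pos_of_ne_zero hs
  have h := Real.geom_mean_le_arith_mean_weighted (univ : Finset ι) (fun _ => (Fintype.card ι : ℝ)⁻¹)
    (fun c => x c ^ Fintype.card ι) (fun _ _ => by positivity)
    (by rw [Finset.sum_const, Finset.card_univ, nsmul_eq_mul]; exact mul_inv_cancel₀ hs'.ne')
    (fun c _ => pow_nonneg (hx c) _)
  simp only [Real.pow_rpow_inv_natCast (hx _) hs] at h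
  rw [Finset.mul_sum]
  exact h

section amgm
variable {stp}

/-- AM-GM through a chain. -/
theorem schCf_amgm {ι : Type*} [Fintype ι] [Nonempty ι] (Ψ : ι → ℕ → S → ℝ) (hΨ : ∀ c i v, 0 ≤ Ψ c i v)
    (a : ℕ) (v : S) (n : ℕ) (Θ : ι → S → ℝ) (hΘ : ∀ c w, 0 ≤ Θ c w) :
    schCf stp (fun i w => ∏ c, Ψ c i w) a v n (fun w => ∏ c, Θ c w) ≤
      (Fintype.card ι : ℝ)⁻¹ *
        ∑ c, schCf stp (fun i w => Ψ c i w ^ Fintype.card ι) a v n (fun w => Θ c w ^ Fintype.card ι) := by
  induction n generalizing Θ with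
  | zero =>
    simp only [schCf_zero]
    exact sch_prod_le _ fun c => hΘ c v
  | succ n ih =>
    simp only [schCf_succ]
    have h1 : ∀ κ : C, (fun w => (∏ c, Θ c (stp (a + n) κ w)) * ∏ c, Ψ c (a + n) w) =
        fun w => ∏ c, (Θ c (stp (a + n) κ w) * Ψ c (a + n) w) := by
      intro κ
      funext w
      rw [Finset.prod_mul_distrib]
    simp only [h1]
    have h2 : ∀ κ : C, schCf stp (fun i w => ∏ c, Ψ c i w) a v n
        (fun w => ∏ c, (Θ c (stp (a + n) κ w) * Ψ c (a + n) w)) ≤ _ :=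
      fun κ => ih (fun c w => Θ c (stp (a + n) κ w) * Ψ c (a + n) w)
        (fun c w => mul_nonneg (hΘ _ _) (hΨ _ _ _))
    refine (Eu_mono h2).trans (le_of_eq ?_)
    rw [Eu_mul_left, sch_Eu_sum]
    simp only [mul_pow]

end amgm

section blocks

variable (F : ℕ → S → ℝ) (A : ℝ)
  (H1 : ∀ (i s r : ℕ) (v : S), s ≤ i →
      kstep stp (i - s) s v (fun y => F i y ^ r) ≤ Real.exp (2 ^ r * A * (3 / 4 : ℝ) ^ s))

/-- Block potential. -/
noncomputable def schBlk (R i : ℕ) (w : S) : ℝ :=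
  if 2 ^ R ≤ i ∧ i < 2 ^ (R + 1) then F i w ^ ((1 : ℝ) / 10) else 1

/-- Parity potential. -/
noncomputable def schPar (par i : ℕ) (w : S) : ℝ :=
  if 8 ≤ Nat.log 2 i ∧ Nat.log 2 i % 2 = par then F i w ^ ((1 : ℝ) / 10) else 1

theorem sch_rpow_pow {x : ℝ} (hx : 0 ≤ x) (R : ℕ) : (x ^ ((1 : ℝ) / 10)) ^ (10 * R) = x ^ R := by
  rw [← Real.rpow_natCast, ← Real.rpow_mul hx]
  have : (1 : ℝ) / 10 * ((10 * R : ℕ) : ℝ) = (R : ℝ) := by
    push_cast
    ring
  rw [this, Real.rpow_natCast]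

theorem sch_pow_ge : ∀ R : ℕ, 7 ≤ R → 10 * (R + 1) ≤ 2 ^ R := by
  intro R hR
  induction R, hR using Nat.le_induction with
  | base => norm_num
  | succ n hn ih =>
    rw [pow_succ]
    omega

variable {F A}

include H1 in
/-- One block, from a little before its start. -/
theorem sch_block (hF1 : ∀ i v, 1 ≤ F i v) (hA : 0 ≤ A) (R : ℕ) (hR : 8 ≤ R) (v : S) :
    schCf stp (schBlk F R) (2 ^ R - 10 * R) v (2 ^ (R + 1) - (2 ^ R - 10 * R)) (fun _ => 1) ≤
      Real.exp (2 * A * (1 / 4 : ℝ) ^ R) := by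
  set s : ℕ := 10 * R with hs
  have hs1 : 1 ≤ s := by omega
  have hsle : s ≤ 2 ^ R := by
    obtain ⟨k, rfl⟩ : ∃ k, R = k + 1 := ⟨R - 1, by omega⟩
    have h1 := sch_pow_ge k (by omega)
    rw [pow_succ]
    omega
  set a : ℕ := 2 ^ R - s with ha
  have has : a + s = 2 ^ R := by omega
  set m : ℕ := 2 ^ (R + 1) - a with hm
  have : Nonempty (Fin s) := ⟨⟨0, by omega⟩⟩
  -- residue classes
  let T : Fin s → ℕ → Prop := fun c i => 2 ^ R ≤ i ∧ i < 2 ^ (R + 1) ∧ i % s = c
  let Ψ : Fin s → ℕ → S → ℝ := fun c i w =>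
    if 2 ^ R ≤ i ∧ i < 2 ^ (R + 1) ∧ i % s = c then F i w ^ ((1 : ℝ) / 10) else 1
  have hF0 : ∀ i w, 0 ≤ F i w := fun i w => zero_le_one.trans (hF1 i w)
  have hΨ1 : ∀ c i w, 1 ≤ Ψ c i w := by
    intro c i w
    simp only [Ψ]
    split_ifs
    · exact Real.one_le_rpow (hF1 i w) (by norm_num)
    · exact le_rfl
  have hΨ0 : ∀ c i w, 0 ≤ Ψ c i w := fun c i w => zero_le_one.trans (hΨ1 c i w)
  have hprod : (schBlk F R : ℕ → S → ℝ) = fun i w => ∏ c, Ψ c i w := by
    funext i w
    simp only [schBlk, Ψ]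
    by_cases hi : 2 ^ R ≤ i ∧ i < 2 ^ (R + 1)
    · rw [if_pos hi]
      rw [Finset.prod_eq_single (⟨i % s, Nat.mod_lt _ (by omega)⟩ : Fin s)]
      · rw [if_pos ⟨hi.1, hi.2, rfl⟩]
      · intro c _ hc
        rw [if_neg]
        rintro ⟨_, _, h3⟩
        apply hc
        apply Fin.ext
        exact h3.symm
      · intro h
        exact absurd (Finset.mem_univ _) h
    · rw [if_neg hi]
      symm
      apply Finset.prod_eq_one
      intro c _
      rw [if_neg]
      rintro ⟨h1, h2, _⟩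
      exact hi ⟨h1, h2⟩
  have hone : (fun _ : S => (1 : ℝ)) = fun _ => ∏ _c : Fin s, (1 : ℝ) := by
    funext _
    simp
  rw [hprod, hone]
  refine (schCf_amgm Ψ hΨ0 a v m (fun _ _ => 1) (fun _ _ => zero_le_one)).trans ?_
  rw [Fintype.card_fin]
  -- each class
  have hclass : ∀ c : Fin s, schCf stp (fun i w => Ψ c i w ^ s) a v m (fun _ => (1 : ℝ) ^ s) ≤
      Real.exp ((m : ℝ) * (2 ^ R * A * (3 / 4 : ℝ) ^ s)) := by
    intro c
    simp only [one_pow]
    apply sch_sparse stp F A H1 hF1 hA R s a hs1 (T := T c)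
    · -- gaps
      intro t t' ht ht' hlt
      have h1 : t' % s = t % s := ht'.2.2.trans ht.2.2.symm
      have h2 : s ∣ t - t' := (Nat.modEq_iff_dvd' hlt.le).1 h1
      have h3 := Nat.le_of_dvd (by omega) h2
      omega
    · intro t ht
      have := ht.1
      omega
    · intro i w hi
      show Ψ c i w ^ s = F i w ^ R
      simp only [Ψ]
      rw [if_pos hi]
      exact sch_rpow_pow (hF0 i w) R
    · intro i w hi
      show Ψ c i w ^ s = 1
      simp only [Ψ]
      rw [if_neg hi, one_pow]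
  have hbound : (m : ℝ) * (2 ^ R * A * (3 / 4 : ℝ) ^ s) ≤ 2 * A * (1 / 4 : ℝ) ^ R := by
    have hmle : (m : ℝ) ≤ 2 ^ (R + 1) := by
      have : m ≤ 2 ^ (R + 1) := by omega
      exact_mod_cast this
    have h34 : (3 / 4 : ℝ) ^ s = ((3 / 4 : ℝ) ^ 10) ^ R := by
      rw [hs, pow_mul]
    have h4 : (2 : ℝ) ^ (R + 1) * 2 ^ R * ((3 / 4 : ℝ) ^ 10) ^ R = 2 * (4 * (3 / 4 : ℝ) ^ 10) ^ R := by
      rw [mul_pow, pow_succ]
      have : (4 : ℝ) ^ R = 2 ^ R * 2 ^ R := by
        rw [← mul_pow]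
        norm_num
      rw [this]
      ring
    have h5 : (4 * (3 / 4 : ℝ) ^ 10) ^ R ≤ (1 / 4 : ℝ) ^ R :=
      pow_le_pow_left₀ (by positivity) (by norm_num) R
    have h6 : 0 ≤ (2 : ℝ) ^ R * A * (3 / 4 : ℝ) ^ s := by positivity
    calc (m : ℝ) * (2 ^ R * A * (3 / 4 : ℝ) ^ s) ≤ 2 ^ (R + 1) * (2 ^ R * A * (3 / 4 : ℝ) ^ s) :=
          mul_le_mul_of_nonneg_right hmle h6
      _ = A * ((2 : ℝ) ^ (R + 1) * 2 ^ R * ((3 / 4 : ℝ) ^ 10) ^ R) := by rw [h34]; ring
      _ = A * (2 * (4 * (3 / 4 : ℝ) ^ 10) ^ R) := by rw [h4]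
      _ ≤ A * (2 * (1 / 4 : ℝ) ^ R) := by
          apply mul_le_mul_of_nonneg_left _ hA
          linarith
      _ = 2 * A * (1 / 4 : ℝ) ^ R := by ring
  have hs0 : (0 : ℝ) < (s : ℝ) := by exact_mod_cast (by omega : 0 < s)
  calc (s : ℝ)⁻¹ * ∑ c : Fin s, schCf stp (fun i w => Ψ c i w ^ s) a v m (fun _ => (1 : ℝ) ^ s)
      ≤ (s : ℝ)⁻¹ * ∑ _c : Fin s, Real.exp ((m : ℝ) * (2 ^ R * A * (3 / 4 : ℝ) ^ s)) := by
        apply mul_le_mul_of_nonneg_left _ (by positivity)
        exact Finset.sum_le_sum fun c _ => hclass c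
    _ = Real.exp ((m : ℝ) * (2 ^ R * A * (3 / 4 : ℝ) ^ s)) := by
        rw [Finset.sum_const, Finset.card_univ, Fintype.card_fin, nsmul_eq_mul]
        field_simp
    _ ≤ _ := Real.exp_le_exp.mpr hbound

include H1 in
/-- All blocks of one parity. -/
theorem sch_par_bound (hF1 : ∀ i v, 1 ≤ F i v) (hA : 0 ≤ A) (par : ℕ) (R : ℕ) (u : S) :
    schCf stp (schPar F par) 0 u (2 ^ R) (fun _ => 1) ≤ Real.exp (A * (1 - (1 / 2 : ℝ) ^ R)) := by
  have hΨ1 : ∀ i w, 1 ≤ schPar F par i w := by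
    intro i w
    simp only [schPar]
    split_ifs
    · exact Real.one_le_rpow (hF1 i w) (by norm_num)
    · exact le_rfl
  have hΨ0 : ∀ i w, 0 ≤ schPar F par i w := fun i w => zero_le_one.trans (hΨ1 i w)
  induction R with
  | zero =>
    have h0 : ∀ w, schPar F par 0 w = 1 := by
      intro w
      simp [schPar]
    simp only [pow_zero, sub_self, mul_zero, Real.exp_zero]
    change schCf stp (schPar F par) 0 u (0 + 1) (fun _ => 1) ≤ 1
    rw [schCf_succ]
    simp only [schCf_zero, add_zero, h0, mul_one]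
    rw [Eu_const]
  | succ R ih =>
    have hmono : Real.exp (A * (1 - (1 / 2 : ℝ) ^ R)) ≤ Real.exp (A * (1 - (1 / 2 : ℝ) ^ (R + 1))) := by
      apply Real.exp_le_exp.mpr
      apply mul_le_mul_of_nonneg_left _ hA
      have : (1 / 2 : ℝ) ^ (R + 1) ≤ (1 / 2 : ℝ) ^ R := by
        rw [pow_succ]
        have : (0 : ℝ) ≤ (1 / 2 : ℝ) ^ R := by positivity
        linarith
      linarith
    have hpowR : 0 < 2 ^ R := by positivity
    by_cases hcase : 8 ≤ R ∧ R % 2 = par
    · obtain ⟨hR, hpar⟩ := hcase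
      set a : ℕ := 2 ^ R - 10 * R with ha
      set m : ℕ := 2 ^ (R + 1) - a with hm
      obtain ⟨k, hk⟩ : ∃ k, R = k + 1 := ⟨R - 1, by omega⟩
      have h1 := sch_pow_ge k (by omega)
      have h2R : 2 ^ R = 2 * 2 ^ k := by rw [hk, pow_succ]; ring
      have h2R1 : 2 ^ (R + 1) = 2 * 2 ^ R := by rw [pow_succ]; ring
      have hak : 2 ^ k ≤ a := by omega
      have haR : a ≤ 2 ^ R := by omega
      have ham : a + m = 2 ^ (R + 1) := by omega
      rw [← ham, schCf_tower, zero_add]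
      have hin : ∀ v, schCf stp (schPar F par) a v m (fun _ => 1) ≤ Real.exp (2 * A * (1 / 4 : ℝ) ^ R) := by
        intro v
        refine le_trans (le_of_eq ?_) (sch_block (stp := stp) H1 hF1 hA R hR v)
        apply schCf_congr
        intro i hi1 hi2 w
        have hi2' : i < 2 ^ (R + 1) := by omega
        simp only [schPar, schBlk]
        by_cases hi3 : 2 ^ R ≤ i
        · have hlog : Nat.log 2 i = R := Nat.log_eq_of_pow_le_of_lt_pow hi3 hi2'
          rw [hlog, if_pos ⟨hR, hpar⟩, if_pos ⟨hi3, hi2'⟩]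
        · have hlog : Nat.log 2 i = k := by
            apply Nat.log_eq_of_pow_le_of_lt_pow
            · omega
            · rw [← hk]
              omega
          rw [hlog, if_neg, if_neg]
          · rintro ⟨h3, _⟩
            exact hi3 h3
          · rintro ⟨_, h3⟩
            omega
      refine (schCf_mono hΨ0 0 u a hin).trans ?_
      have hconst : schCf stp (schPar F par) 0 u a (fun _ => Real.exp (2 * A * (1 / 4 : ℝ) ^ R)) =
          Real.exp (2 * A * (1 / 4 : ℝ) ^ R) * schCf stp (schPar F par) 0 u a (fun _ => 1) := by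
        have := schCf_const_mul (stp := stp) (schPar F par) 0 u a (Real.exp (2 * A * (1 / 4 : ℝ) ^ R)) (fun _ => 1)
        simpa using this
      rw [hconst]
      have h3 := (schCf_mono_len (stp := stp) hΨ1 0 u haR).trans ih
      calc Real.exp (2 * A * (1 / 4 : ℝ) ^ R) * schCf stp (schPar F par) 0 u a (fun _ => 1)
          ≤ Real.exp (2 * A * (1 / 4 : ℝ) ^ R) * Real.exp (A * (1 - (1 / 2 : ℝ) ^ R)) :=
            mul_le_mul_of_nonneg_left h3 (Real.exp_pos _).le
        _ = Real.exp (2 * A * (1 / 4 : ℝ) ^ R + A * (1 - (1 / 2 : ℝ) ^ R)) := (Real.exp_add _ _).symm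
        _ ≤ _ := by
          apply Real.exp_le_exp.mpr
          have hx : (1 / 4 : ℝ) ^ R = ((1 / 2 : ℝ) ^ R) ^ 2 := by
            rw [← pow_mul, mul_comm, pow_mul]
            norm_num
          have hx2 : (1 / 2 : ℝ) ^ (R + 1) = (1 / 2 : ℝ) ^ R * (1 / 2) := pow_succ _ _
          have hx3 : (1 / 2 : ℝ) ^ R ≤ 1 / 4 := by
            have : (1 / 2 : ℝ) ^ R ≤ (1 / 2 : ℝ) ^ 2 := pow_le_pow_of_le_one (by norm_num) (by norm_num) (by omega)
            norm_num at this ⊢
            linarith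
          have hx4 : 0 ≤ (1 / 2 : ℝ) ^ R := by positivity
          rw [hx, hx2]
          have : A * (2 * ((1 / 2 : ℝ) ^ R) ^ 2) ≤ A * ((1 / 2 : ℝ) ^ R * (1 / 2)) := by
            apply mul_le_mul_of_nonneg_left _ hA
            nlinarith
          nlinarith
    · -- the block has potential one
      have h2R1 : 2 ^ (R + 1) = 2 ^ R + 2 ^ R := by rw [pow_succ]; ring
      rw [h2R1, schCf_drop]
      · exact ih.trans hmono
      · intro i h1 h2 w
        have h3 : 2 ^ R ≤ i := by omega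
        have h4 : i < 2 ^ (R + 1) := by omega
        have hlog : Nat.log 2 i = R := Nat.log_eq_of_pow_le_of_lt_pow h3 h4
        simp only [schPar]
        rw [hlog, if_neg hcase]

end blocks

/-- THE SCHEME. `A ≥ 0`; `H1` is the exponential moment bound with `s` free steps. -/
theorem scheme_bound (F : ℕ → S → ℝ) (hF1 : ∀ i v, 1 ≤ F i v) (A : ℝ) (hA : 0 ≤ A)
    (H1 : ∀ (i s r : ℕ) (v : S), s ≤ i →
      kstep stp (i - s) s v (fun y => F i y ^ r) ≤ Real.exp (2 ^ r * A * (3 / 4 : ℝ) ^ s))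
    (n : ℕ) (u : S) :
    chainE stp (fun i v => F i v ^ ((1 : ℝ) / 20)) u n (fun _ => 1) ≤ Real.exp (30 * A) := by
  rw [sch_chainE_eq]
  have hF0 : ∀ i w, 0 ≤ F i w := fun i w => zero_le_one.trans (hF1 i w)
  -- the crude bound
  have hFle : ∀ i v, F i v ≤ Real.exp (2 * A) := by
    intro i v
    have := H1 i 0 1 v (Nat.zero_le _)
    simpa [kstep] using this
  -- potentials by parity
  let P : Bool → ℕ → S → ℝ := fun b i w =>
    if 8 ≤ Nat.log 2 i ∧ Nat.log 2 i % 2 = b.toNat then F i w ^ ((1 : ℝ) / 20) else 1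
  have hP1 : ∀ b i w, 1 ≤ P b i w := by
    intro b i w
    simp only [P]
    split_ifs
    · exact Real.one_le_rpow (hF1 i w) (by norm_num)
    · exact le_rfl
  have hP0 : ∀ b i w, 0 ≤ P b i w := fun b i w => zero_le_one.trans (hP1 b i w)
  let c : ℕ → ℝ := fun i => if i < 256 then Real.exp (A / 10) else 1
  have hc0 : ∀ i, 0 ≤ c i := by
    intro i
    simp only [c]
    split_ifs
    · exact (Real.exp_pos _).le
    · exact zero_le_one
  have hle : ∀ i v, F i v ^ ((1 : ℝ) / 20) ≤ c i * ∏ b, P b i v := by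
    intro i v
    simp only [Fintype.prod_bool]
    by_cases hi : i < 256
    · have hlog : Nat.log 2 i < 8 := Nat.log_lt_of_lt_pow' (by norm_num) (by norm_num; exact hi)
      have h1 : ∀ b, P b i v = 1 := by
        intro b
        simp only [P]
        rw [if_neg]
        rintro ⟨h, _⟩
        omega
      simp only [h1, c, if_pos hi, mul_one]
      have h2 := Real.rpow_le_rpow (hF0 i v) (hFle i v) (by norm_num : (0 : ℝ) ≤ 1 / 20)
      refine h2.trans (le_of_eq ?_)
      rw [← Real.exp_mul]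
      congr 1
      ring
    · have hlog : 8 ≤ Nat.log 2 i := by
        apply Nat.le_log_of_pow_le (by norm_num)
        norm_num
        omega
      simp only [c, if_neg hi, one_mul, P]
      rcases Nat.mod_two_eq_zero_or_one (Nat.log 2 i) with h | h
      · rw [if_neg (by simp [h]), if_pos ⟨hlog, by simp [h]⟩]
        simp
      · rw [if_pos ⟨hlog, by simp [h]⟩, if_neg (by simp [h])]
        simp
  have hΨ0 : ∀ i v, 0 ≤ F i v ^ ((1 : ℝ) / 20) := fun i v => Real.rpow_nonneg (hF0 i v) _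
  have hG0 : ∀ i v, 0 ≤ ∏ b, P b i v := fun i v => Finset.prod_nonneg fun b _ => hP0 b i v
  have h1 := schCf_le_const (stp := stp) hΨ0 hG0 hc0 hle 0 u n (Θ := fun _ => 1) (fun _ => zero_le_one)
  -- the constant
  have hprod : ∀ n : ℕ, ∏ j ∈ range n, c (0 + j) ≤ Real.exp ((min n 256 : ℕ) * (A / 10)) := by
    intro n
    induction n with
    | zero => simp
    | succ n ih =>
      rw [Finset.prod_range_succ]
      by_cases hn : n < 256
      · have h2 : c (0 + n) = Real.exp (A / 10) := by simp [c, hn]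
        rw [h2]
        have h3 : min (n + 1) 256 = min n 256 + 1 := by omega
        rw [h3]
        have h4 : (((min n 256 + 1 : ℕ) : ℝ)) * (A / 10) = ((min n 256 : ℕ) : ℝ) * (A / 10) + A / 10 := by
          push_cast
          ring
        rw [h4, Real.exp_add]
        exact mul_le_mul_of_nonneg_right ih (Real.exp_pos _).le
      · have h2 : c (0 + n) = 1 := by simp [c, hn]
        rw [h2, mul_one]
        have h3 : min (n + 1) 256 = min n 256 := by omega
        rw [h3]
        exact ih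
  have hprod2 : ∏ j ∈ range n, c (0 + j) ≤ Real.exp (256 * (A / 10)) := by
    refine (hprod n).trans (Real.exp_le_exp.mpr ?_)
    apply mul_le_mul_of_nonneg_right _ (by positivity)
    have : min n 256 ≤ 256 := min_le_right _ _
    exact_mod_cast this
  -- AM-GM
  have h2 := schCf_amgm (stp := stp) P hP0 0 u n (fun _ _ => 1) (fun _ _ => zero_le_one)
  have hcard : Fintype.card Bool = 2 := rfl
  rw [hcard] at h2
  have hone : (fun _ : S => ∏ _c : Bool, (1 : ℝ)) = fun _ => 1 := by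
    funext _
    simp
  rw [hone] at h2
  simp only [one_pow] at h2
  have hpar : ∀ b : Bool, schCf stp (fun i w => P b i w ^ 2) 0 u n (fun _ => 1) ≤ Real.exp A := by
    intro b
    have hP2 : (fun i w => P b i w ^ 2) = schPar F b.toNat := by
      funext i w
      simp only [P, schPar]
      split_ifs
      · rw [← Real.rpow_natCast, ← Real.rpow_mul (hF0 i w)]
        norm_num
      · norm_num
    rw [hP2]
    have hΨ1 : ∀ i w, 1 ≤ schPar F b.toNat i w := by
      intro i w
      rw [← hP2]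
      exact one_le_pow₀ (hP1 b i w)
    have hlt : n ≤ 2 ^ n := Nat.lt_two_pow_self.le
    refine (schCf_mono_len (stp := stp) hΨ1 0 u hlt).trans ?_
    refine (sch_par_bound (stp := stp) H1 hF1 hA b.toNat n u).trans (Real.exp_le_exp.mpr ?_)
    have : (0 : ℝ) ≤ (1 / 2 : ℝ) ^ n := by positivity
    nlinarith
  have h3 : schCf stp (fun i w => ∏ b, P b i w) 0 u n (fun _ => 1) ≤ Real.exp A := by
    refine h2.trans ?_
    simp only [Fintype.sum_bool]
    have h4 := hpar true
    have h5 := hpar false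
    push_cast
    linarith
  have h6 : 0 ≤ schCf stp (fun i w => ∏ b, P b i w) 0 u n (fun _ => 1) :=
    schCf_nonneg hG0 0 u n (fun _ => zero_le_one)
  calc schCf stp (fun i v => F i v ^ ((1 : ℝ) / 20)) 0 u n (fun _ => 1)
      ≤ (∏ j ∈ range n, c (0 + j)) * schCf stp (fun i w => ∏ b, P b i w) 0 u n (fun _ => 1) := h1
    _ ≤ Real.exp (256 * (A / 10)) * Real.exp A :=
        mul_le_mul hprod2 h3 h6 (Real.exp_pos _).le
    _ = Real.exp (256 * (A / 10) + A) := (Real.exp_add _ _).symm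
    _ ≤ Real.exp (30 * A) := by
        apply Real.exp_le_exp.mpr
        nlinarith

end Vale.Agent.P162O
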