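/-
P162 O(d), Part II: closed sets of tokens, cycle counts, and the node bound.
-/
import Vale.Agent.P162O.PhiRec
import Vale.Agent.P162O.Scheme

open scoped BigOperators
open Finset

namespace Vale.Agent.P162O
open Vale.Agent.P162

variable {D : ℕ} {I : Type} [Fintype I] [DecidableEq I]

/-- `A` is closed for the pairing of `u` on coordinate `i`: every token of `A` has its partner position occupied by a token of `A`. -/
def Closed (i : ℕ) (u : I → Cube D) (A : Finset I) : Prop :=
  ∀ a ∈ A, ∃ b ∈ A, u b = bitFlip i (u a)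

open Classical in
/-- Number of sets closed for both tuples. -/
noncomputable def Fc (i : ℕ) (x y : I → Cube D) : ℕ :=
  (univ.filter (fun A : Finset I => Closed i x A ∧ Closed i y A)).card

/-- `x,y` agree on coordinate `i`. -/
def BitAgree (i : ℕ) (x y : I → Cube D) : Prop := ∀ (a : I) (j : Fin D), (j : ℕ) = i → x a j = y a j

open Classical in
/-- The potential. -/
noncomputable def Ghat (i : ℕ) (x y : I → Cube D) : ℝ :=
  if BitAgree i x y ∧ Function.Injective y then (Fc i x y : ℝ) else 1

theorem Closed_empty (i : ℕ) (u : I → Cube D) : Closed i u ∅ := by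
  intro a ha
  exact absurd ha (Finset.notMem_empty a)

theorem Fc_pos (i : ℕ) (x y : I → Cube D) : 1 ≤ Fc i x y := by
  classical
  unfold Fc
  refine Finset.card_pos.mpr ⟨∅, ?_⟩
  simp only [Finset.mem_filter, Finset.mem_univ, true_and]
  exact ⟨Closed_empty i x, Closed_empty i y⟩

theorem Ghat_one_le (i : ℕ) (x y : I → Cube D) : 1 ≤ Ghat i x y := by
  unfold Ghat
  split_ifs
  · exact_mod_cast Fc_pos i x y
  · exact le_rfl

/-- One layer on tokens. -/
def stpT (i : ℕ) (c : Cube D → Bool) (y : I → Cube D) : I → Cube D := fun a => lay i c (y a)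

/-- The `s`-step expectation is a law expectation. -/
theorem kstep_eq_Elaw (s a : ℕ) (v : I → Cube D) (Θ : (I → Cube D) → ℝ) :
    kstep (stpT (D := D) (I := I)) a s v Θ =
      Elaw (List.range' a s) (fun O => Θ (fun t => O (v t))) := by
  induction s generalizing a v with
  | zero => rfl
  | succ s ih =>
    rw [List.range'_succ]
    simp only [kstep, Elaw, ih]
    rfl

/-- Congruence of `Elaw`, for functions agreeing on all permutations preserving bit `i`. -/
theorem Elaw_congr_bit (i : ℕ) (l : List ℕ) (hl : i ∉ l) {f g : Equiv.Perm (Cube D) → ℝ}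
    (H : ∀ O : Equiv.Perm (Cube D), (∀ (p : Cube D) (j : Fin D), (j : ℕ) = i → O p j = p j) → f O = g O) :
    Elaw l f = Elaw l g := by
  induction l generalizing f g with
  | nil =>
    exact H 1 fun _ _ _ => rfl
  | cons b l ih =>
    have hb : i ≠ b := fun h => hl (by simp [h])
    have hl' : i ∉ l := fun h => hl (List.mem_cons_of_mem _ h)
    simp only [Elaw]
    congr 1
    funext c
    refine ih hl' fun O hO => H _ fun p j hj => ?_
    show O (lay b c p) j = p j
    rw [hO _ j hj]
    exact lay_bit_ne b c p j (by omega)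

section color

/-- Colours: subsets of `Fin r`. -/
abbrev FrT (r : ℕ) : Type := Fin r → Bool

/-- The zero colour. -/
def zeroC (r : ℕ) : FrT r := fun _ => false

variable {r : ℕ}

/-- The level sets of a token colouring. -/
def lev (c : I → FrT r) (j : Fin r) : Finset I := univ.filter (fun a => c a j = true)

theorem mem_lev (c : I → FrT r) (j : Fin r) (a : I) : a ∈ lev c j ↔ c a j = true := by
  simp [lev]

/-- The colouring of positions by a colouring of tokens placed by `u`. -/
noncomputable def pushC (u : I → Cube D) (c : I → FrT r) : Col D (FrT r) :=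
  fun p j => decide (∃ a, u a = p ∧ c a j = true)

theorem pushC_true (u : I → Cube D) (c : I → FrT r) (p : Cube D) (j : Fin r) :
    pushC u c p j = true ↔ ∃ a, u a = p ∧ c a j = true := by
  simp [pushC]

theorem pushC_inj {u : I → Cube D} (hu : Function.Injective u) (c : I → FrT r) (a : I) :
    pushC u c (u a) = c a := by
  funext j
  rw [Bool.eq_iff_iff, pushC_true]
  constructor
  · rintro ⟨b, hb, hc⟩
    rw [hu hb] at hc
    exact hc
  · intro h
    exact ⟨a, rfl, h⟩

theorem pushC_ne_zero {u : I → Cube D} {c : I → FrT r} {p : Cube D} (h : pushC u c p ≠ zeroC r) :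
    ∃ a, u a = p := by
  by_contra hno
  apply h
  funext j
  rw [Bool.eq_iff_iff, pushC_true]
  constructor
  · rintro ⟨a, ha, _⟩
    exact absurd ⟨a, ha⟩ hno
  · intro hf
    simp [zeroC] at hf

theorem pushC_comp (O : Equiv.Perm (Cube D)) (v : I → Cube D) (c : I → FrT r) :
    pushC (fun t => O (v t)) c = pushC v c ∘ (O⁻¹ : Equiv.Perm (Cube D)) := by
  funext p j
  rw [Bool.eq_iff_iff, pushC_true, Function.comp, pushC_true]
  constructor
  · rintro ⟨a, ha, hc⟩
    refine ⟨a, ?_, hc⟩
    rw [← ha]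
    exact (O.symm_apply_apply _).symm
  · rintro ⟨a, ha, hc⟩
    refine ⟨a, ?_, hc⟩
    rw [ha]
    exact O.apply_symm_apply _

/-- All level sets closed iff the position colouring is invariant under the flip. -/
theorem colClosed_iff (i : ℕ) (u : I → Cube D) (c : I → FrT r) :
    (∀ j, Closed i u (lev c j)) ↔ ∀ p, pushC u c (bitFlip i p) = pushC u c p := by
  constructor
  · intro h p
    funext j
    rw [Bool.eq_iff_iff, pushC_true, pushC_true]
    constructor
    · rintro ⟨a, ha, hc⟩
      obtain ⟨b, hb, hub⟩ := h j a ((mem_lev c j a).2 hc)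
      refine ⟨b, ?_, (mem_lev c j b).1 hb⟩
      rw [hub, ha, bitFlip_bitFlip]
    · rintro ⟨a, ha, hc⟩
      obtain ⟨b, hb, hub⟩ := h j a ((mem_lev c j a).2 hc)
      refine ⟨b, ?_, (mem_lev c j b).1 hb⟩
      rw [hub, ha]
  · intro h j a ha
    have h1 : pushC u c (u a) j = true := (pushC_true u c _ j).2 ⟨a, rfl, (mem_lev c j a).1 ha⟩
    rw [← h (u a)] at h1
    obtain ⟨b, hb, hc⟩ := (pushC_true u c _ j).1 h1
    exact ⟨b, (mem_lev c j b).2 hc, hb⟩

open Classical in
/-- The power of the count of closed sets counts colourings. -/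
theorem Fc_pow (i : ℕ) (x y : I → Cube D) (r : ℕ) :
    (Fc i x y : ℝ) ^ r = ∑ c : I → FrT r,
      (if ∀ j, Closed i x (lev c j) then (1 : ℝ) else 0) * (if ∀ j, Closed i y (lev c j) then (1 : ℝ) else 0) := by
  have h1 : ∀ c : I → FrT r,
      (if ∀ j, Closed i x (lev c j) then (1 : ℝ) else 0) * (if ∀ j, Closed i y (lev c j) then (1 : ℝ) else 0) =
        if (∀ j, Closed i x (lev c j) ∧ Closed i y (lev c j)) then (1 : ℝ) else 0 := by
    intro c
    by_cases h2 : ∀ j, Closed i x (lev c j)
    · by_cases h3 : ∀ j, Closed i y (lev c j)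
      · rw [if_pos h2, if_pos h3, if_pos fun j => ⟨h2 j, h3 j⟩, one_mul]
      · have h5 : ¬ ∀ j, Closed i x (lev c j) ∧ Closed i y (lev c j) := fun h => h3 fun j => (h j).2
        rw [if_neg h3, if_neg h5, mul_zero]
    · have h5 : ¬ ∀ j, Closed i x (lev c j) ∧ Closed i y (lev c j) := fun h => h2 fun j => (h j).1
      rw [if_neg h2, if_neg h5, zero_mul]
  simp only [h1]
  rw [Finset.sum_boole]
  have h4 : Fc i x y ^ r = (univ.filter (fun c : I → FrT r =>
      ∀ j, Closed i x (lev c j) ∧ Closed i y (lev c j))).card := by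
    unfold Fc
    rw [← Fintype.card_piFinset_const]
    refine Finset.card_nbij' (fun A a j => decide (a ∈ A j)) (fun c j => lev c j) ?_ ?_ ?_ ?_
    · intro A hA
      simp only [Fintype.coe_piFinset, Set.mem_pi, Set.mem_univ, Finset.mem_coe, Finset.mem_filter,
        Finset.mem_univ, true_and, forall_true_left] at hA
      simp only [Finset.coe_filter, Finset.mem_univ, true_and, Set.mem_ofPred_eq]
      intro j
      have : lev (fun a j => decide (a ∈ A j)) j = A j := by
        ext a
        simp [mem_lev]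
      rw [this]
      exact hA j
    · intro c hc
      simp only [Finset.coe_filter, Finset.mem_univ, true_and, Set.mem_ofPred_eq] at hc
      simp only [Fintype.coe_piFinset, Set.mem_pi, Set.mem_univ, Finset.mem_coe, Finset.mem_filter,
        Finset.mem_univ, true_and, forall_true_left]
      exact hc
    · intro A _
      funext j
      ext a
      simp [mem_lev]
    · intro c _
      funext a j
      rw [Bool.eq_iff_iff]
      simp [mem_lev]
  rw [← h4]
  push_cast
  rfl


theorem Elaw_closed (i : ℕ) (hi : i < D) (l : List ℕ) (hl : i ∉ l) (v : I → Cube D) (c : I → FrT r)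
    [∀ O : Equiv.Perm (Cube D), Decidable (∀ j, Closed i (fun t => O (v t)) (lev c j))] :
    Elaw l (fun O : Equiv.Perm (Cube D) => if ∀ j, Closed i (fun t => O (v t)) (lev c j) then (1 : ℝ) else 0) =
      Gl l (res0 (zeroC r) i (pushC v c)) (res1 (zeroC r) i (pushC v c)) := by
  rw [← Elaw_flipInv (zeroC r) i hi l hl (pushC v c)]
  congr 1
  funext O
  refine if_congr ?_ rfl rfl
  rw [colClosed_iff, pushC_comp]

theorem col_one_dir {i : ℕ} (hi : i < D) {x : I → Cube D} (hx : Function.Injective x) (β : Bool)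
    {c c' : I → FrT r} (hc : ∀ j, Closed i x (lev c j)) (hc' : ∀ j, Closed i x (lev c' j))
    (h : ∀ a, x a ⟨i, hi⟩ = β → c a = c' a) (a : I) (j : Fin r) (hj : c a j = true) : c' a j = true := by
  by_cases hb : x a ⟨i, hi⟩ = β
  · rw [← h a hb]
    exact hj
  · obtain ⟨b, hb1, hb2⟩ := hc j a ((mem_lev c j a).2 hj)
    have hbβ : x b ⟨i, hi⟩ = β := by
      rw [hb2]
      simp only [bitFlip, if_true]
      cases hh : x a ⟨i, hi⟩ <;> cases β <;> simp_all
    have h1 : c' b j = true := by
      rw [← h b hbβ]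
      exact (mem_lev c j b).1 hb1
    obtain ⟨a', ha1, ha2⟩ := hc' j b ((mem_lev c' j b).2 h1)
    have h2 : a' = a := hx (by rw [ha2, hb2, bitFlip_bitFlip])
    rw [← h2]
    exact (mem_lev c' j a').1 ha1

theorem col_eq_of_side {i : ℕ} (hi : i < D) {x : I → Cube D} (hx : Function.Injective x) (β : Bool)
    {c c' : I → FrT r} (hc : ∀ j, Closed i x (lev c j)) (hc' : ∀ j, Closed i x (lev c' j))
    (h : ∀ a, x a ⟨i, hi⟩ = β → c a = c' a) : c = c' := by
  funext a j
  rw [Bool.eq_iff_iff]
  exact ⟨col_one_dir hi hx β hc hc' h a j,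
    col_one_dir hi hx β hc' hc (fun a ha => (h a ha).symm) a j⟩

theorem res0_push_inj {i : ℕ} (hi : i < D) {x v : I → Cube D} (hx : Function.Injective x)
    (hv : Function.Injective v) (hxv : BitAgree i x v) {c c' : I → FrT r}
    (hc : ∀ j, Closed i x (lev c j)) (hc' : ∀ j, Closed i x (lev c' j))
    (h : res0 (zeroC r) i (pushC v c) = res0 (zeroC r) i (pushC v c')) : c = c' := by
  refine col_eq_of_side hi hx false hc hc' fun a ha => ?_
  have h1 : v a ⟨i, hi⟩ = false := by rw [← hxv a ⟨i, hi⟩ rfl]; exact ha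
  have h2 : bitClear i (v a) = v a := (bitClear_eq_iff hi _).2 h1
  have h3 := congrFun h (v a)
  simp only [res0, if_pos h2, pushC_inj hv] at h3
  exact h3

theorem res1_push_inj {i : ℕ} (hi : i < D) {x v : I → Cube D} (hx : Function.Injective x)
    (hv : Function.Injective v) (hxv : BitAgree i x v) {c c' : I → FrT r}
    (hc : ∀ j, Closed i x (lev c j)) (hc' : ∀ j, Closed i x (lev c' j))
    (h : res1 (zeroC r) i (pushC v c) = res1 (zeroC r) i (pushC v c')) : c = c' := by
  refine col_eq_of_side hi hx true hc hc' fun a ha => ?_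
  have h1 : v a ⟨i, hi⟩ = true := by rw [← hxv a ⟨i, hi⟩ rfl]; exact ha
  have h2 : bitClear i (bitFlip i (v a)) = bitFlip i (v a) := by
    rw [flip_slice hi, bitClear_eq_iff hi, h1]
    simp
  have h3 := congrFun h (bitFlip i (v a))
  simp only [res1, if_pos h2, bitFlip_bitFlip, pushC_inj hv] at h3
  exact h3

open Classical in
/-- Positions occupied on the false slice. -/
noncomputable def dlt0 (i : ℕ) (v : I → Cube D) (p : Cube D) : ℝ :=
  if (∃ a, v a = p) ∧ bitClear i p = p then 1 else 0

open Classical in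
/-- Positions (on the false slice) whose partner is occupied on the true slice. -/
noncomputable def dlt1 (i : ℕ) (v : I → Cube D) (p : Cube D) : ℝ :=
  if (∃ a, v a = bitFlip i p) ∧ bitClear i p = p then 1 else 0

theorem dlt0_nonneg (i : ℕ) (v : I → Cube D) (p : Cube D) : 0 ≤ dlt0 i v p := by
  unfold dlt0; split_ifs <;> norm_num

theorem dlt1_nonneg (i : ℕ) (v : I → Cube D) (p : Cube D) : 0 ≤ dlt1 i v p := by
  unfold dlt1; split_ifs <;> norm_num

theorem dlt0_le_one (i : ℕ) (v : I → Cube D) (p : Cube D) : dlt0 i v p ≤ 1 := by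
  unfold dlt0; split_ifs <;> norm_num

theorem dlt1_le_one (i : ℕ) (v : I → Cube D) (p : Cube D) : dlt1 i v p ≤ 1 := by
  unfold dlt1; split_ifs <;> norm_num

theorem wtC_nonneg {𝔽 : Type} [DecidableEq 𝔽] (z : 𝔽) (δ : Cube D → ℝ) (hδ : ∀ p, 0 ≤ δ p) (a : Col D 𝔽) :
    0 ≤ wtC z δ a := by
  unfold wtC
  exact Finset.prod_nonneg fun p _ => hδ p

theorem wt0_res0 (i : ℕ) (v : I → Cube D) (c : I → FrT r) :
    wtC (zeroC r) (dlt0 i v) (res0 (zeroC r) i (pushC v c)) = 1 := by
  unfold wtC
  refine Finset.prod_eq_one fun p hp => ?_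
  have hp' : res0 (zeroC r) i (pushC v c) p ≠ zeroC r := (Finset.mem_filter.mp hp).2
  by_cases h : bitClear i p = p
  · have h2 : pushC v c p ≠ zeroC r := by
      intro h3
      apply hp'
      simp only [res0, if_pos h, h3]
    unfold dlt0
    rw [if_pos ⟨pushC_ne_zero h2, h⟩]
  · exact absurd (by simp only [res0, if_neg h]) hp'

theorem wt1_res1 (i : ℕ) (v : I → Cube D) (c : I → FrT r) :
    wtC (zeroC r) (dlt1 i v) (res1 (zeroC r) i (pushC v c)) = 1 := by
  unfold wtC
  refine Finset.prod_eq_one fun p hp => ?_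
  have hp' : res1 (zeroC r) i (pushC v c) p ≠ zeroC r := (Finset.mem_filter.mp hp).2
  by_cases h : bitClear i p = p
  · have h2 : pushC v c (bitFlip i p) ≠ zeroC r := by
      intro h3
      apply hp'
      simp only [res1, if_pos h, h3]
    unfold dlt1
    rw [if_pos ⟨pushC_ne_zero h2, h⟩]
  · exact absurd (by simp only [res1, if_neg h]) hp'

/-- Sum of diagonal terms along an injective family. -/
theorem sum_Gl_le_PhiL {𝔽 : Type} [Fintype 𝔽] [DecidableEq 𝔽] (z : 𝔽) (l : List ℕ) {κ : Type} [DecidableEq κ]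
    (s : Finset κ) (g : κ → Col D 𝔽) (hinj : Set.InjOn g s) (δ : Cube D → ℝ) (hδ : ∀ p, 0 ≤ δ p)
    (hw : ∀ c ∈ s, wtC z δ (g c) = 1) :
    ∑ c ∈ s, Gl l (g c) (g c) ≤ PhiL z l δ := by
  unfold PhiL
  calc ∑ c ∈ s, Gl l (g c) (g c) = ∑ c ∈ s, wtC z δ (g c) * Gl l (g c) (g c) := by
        refine Finset.sum_congr rfl fun c hc => ?_
        rw [hw c hc, one_mul]
    _ = ∑ e ∈ s.image g, wtC z δ e * Gl l e e := by
        rw [Finset.sum_image hinj]
    _ ≤ ∑ e : Col D 𝔽, wtC z δ e * Gl l e e := by
        refine Finset.sum_le_sum_of_subset_of_nonneg (Finset.subset_univ _) fun e _ _ => ?_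
        exact mul_nonneg (wtC_nonneg z δ hδ e) (Gl_nonneg l e e)

/-- The total mass of the two position sets. -/
theorem sum_dlt_le (i : ℕ) (hi : i < D) (v : I → Cube D) :
    ∑ p, dlt0 i v p + ∑ p, dlt1 i v p ≤ (Fintype.card I : ℝ) := by
  classical
  have h0 : ∑ p, dlt0 i v p ≤ ((univ.filter (fun a => bitClear i (v a) = v a)).card : ℝ) := by
    unfold dlt0
    rw [Finset.sum_boole]
    have hsub : univ.filter (fun p : Cube D => (∃ a, v a = p) ∧ bitClear i p = p) ⊆
        (univ.filter (fun a => bitClear i (v a) = v a)).image v := by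
      intro p hp
      obtain ⟨⟨a, ha⟩, h2⟩ := (Finset.mem_filter.mp hp).2
      refine Finset.mem_image.mpr ⟨a, Finset.mem_filter.mpr ⟨Finset.mem_univ _, ?_⟩, ha⟩
      rw [ha]
      exact h2
    exact_mod_cast (Finset.card_le_card hsub).trans Finset.card_image_le
  have h1 : ∑ p, dlt1 i v p ≤ ((univ.filter (fun a => ¬ bitClear i (v a) = v a)).card : ℝ) := by
    unfold dlt1
    rw [Finset.sum_boole]
    have hsub : univ.filter (fun p : Cube D => (∃ a, v a = bitFlip i p) ∧ bitClear i p = p) ⊆
        (univ.filter (fun a => ¬ bitClear i (v a) = v a)).image (fun a => bitFlip i (v a)) := by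
      intro p hp
      obtain ⟨⟨a, ha⟩, h2⟩ := (Finset.mem_filter.mp hp).2
      refine Finset.mem_image.mpr ⟨a, Finset.mem_filter.mpr ⟨Finset.mem_univ _, ?_⟩, ?_⟩
      · rw [ha, flip_slice hi]
        exact not_not.mpr h2
      · show bitFlip i (v a) = p
        rw [ha, bitFlip_bitFlip]
    exact_mod_cast (Finset.card_le_card hsub).trans Finset.card_image_le
  have h2 : ((univ.filter (fun a => bitClear i (v a) = v a)).card : ℝ) +
      ((univ.filter (fun a => ¬ bitClear i (v a) = v a)).card : ℝ) = (Fintype.card I : ℝ) := by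
    exact_mod_cast Finset.card_filter_add_card_filter_not (s := (univ : Finset I)) (fun a => bitClear i (v a) = v a)
  linarith

end color

/-- THE NODE BOUND: for `x` injective, exponential moments of the potential with `s` free steps below level `i`. -/
theorem node_bound (i s r : ℕ) (hi : i < D) (hs : s ≤ i) (x : I → Cube D) (hx : Function.Injective x)
    (v : I → Cube D) :
    kstep (stpT (D := D) (I := I)) (i - s) s v (fun y => Ghat i x y ^ r) ≤
      Real.exp (2 ^ r * ((Fintype.card I : ℝ) / 2) * (3 / 4 : ℝ) ^ s) := by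
  classical
  rw [kstep_eq_Elaw]
  have hmem : ∀ b ∈ List.range' (i - s) s, b < i := by
    intro b hb
    have := List.mem_range'_1.mp hb
    omega
  obtain ⟨l, hl⟩ : ∃ l, l = List.range' (i - s) s := ⟨_, rfl⟩
  rw [← hl] at hmem ⊢
  have hil : i ∉ l := fun h => lt_irrefl _ (hmem i h)
  have hnodup : l.Nodup := by rw [hl]; exact List.nodup_range'
  have hlen : l.length = s := by rw [hl]; exact List.length_range'
  have hexp : (0 : ℝ) ≤ 2 ^ r * ((Fintype.card I : ℝ) / 2) * (3 / 4 : ℝ) ^ s := by positivity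
  by_cases hv : BitAgree i x v ∧ Function.Injective v
  · obtain ⟨hxv, hvinj⟩ := hv
    have hG : Elaw l (fun O : Equiv.Perm (Cube D) => Ghat i x (fun t => O (v t)) ^ r) =
        Elaw l (fun O : Equiv.Perm (Cube D) => ∑ c : I → FrT r,
          (if ∀ j, Closed i x (lev c j) then (1 : ℝ) else 0) *
            (if ∀ j, Closed i (fun t => O (v t)) (lev c j) then (1 : ℝ) else 0)) := by
      refine Elaw_congr_bit i l hil fun O hO => ?_
      have h1 : BitAgree i x (fun t => O (v t)) := by
        intro a j hj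
        rw [hxv a j hj]
        exact (hO _ j hj).symm
      have h2 : Function.Injective (fun t => O (v t)) := fun a b h => hvinj (O.injective h)
      unfold Ghat
      rw [if_pos ⟨h1, h2⟩, Fc_pow]
    rw [hG, Elaw_sum]
    have hG2 : ∀ c : I → FrT r, Elaw l (fun O : Equiv.Perm (Cube D) =>
          (if ∀ j, Closed i x (lev c j) then (1 : ℝ) else 0) *
            (if ∀ j, Closed i (fun t => O (v t)) (lev c j) then (1 : ℝ) else 0)) =
        (if ∀ j, Closed i x (lev c j) then (1 : ℝ) else 0) *
          Gl l (res0 (zeroC r) i (pushC v c)) (res1 (zeroC r) i (pushC v c)) := by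
      intro c
      rw [Elaw_mul_left, Elaw_closed i hi l hil v c]
    simp only [hG2]
    -- the sum over the closed colourings
    obtain ⟨Cx, hCx⟩ : ∃ Cx, Cx = univ.filter (fun c : I → FrT r => ∀ j, Closed i x (lev c j)) := ⟨_, rfl⟩
    have hT : ∑ c : I → FrT r, (if ∀ j, Closed i x (lev c j) then (1 : ℝ) else 0) *
          Gl l (res0 (zeroC r) i (pushC v c)) (res1 (zeroC r) i (pushC v c)) =
        ∑ c ∈ Cx, Gl l (res0 (zeroC r) i (pushC v c)) (res1 (zeroC r) i (pushC v c)) := by
      rw [hCx, Finset.sum_filter]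
      refine Finset.sum_congr rfl fun c _ => ?_
      split_ifs <;> simp
    rw [hT]
    have hCxmem : ∀ c ∈ Cx, ∀ j, Closed i x (lev c j) := by
      intro c hc
      rw [hCx] at hc
      exact (Finset.mem_filter.mp hc).2
    -- Cauchy-Schwarz
    have hCS := Finset.sum_sq_le_sum_mul_sum_of_sq_le_mul Cx
      (r := fun c => Gl l (res0 (zeroC r) i (pushC v c)) (res1 (zeroC r) i (pushC v c)))
      (f := fun c => Gl l (res0 (zeroC r) i (pushC v c)) (res0 (zeroC r) i (pushC v c)))
      (g := fun c => Gl l (res1 (zeroC r) i (pushC v c)) (res1 (zeroC r) i (pushC v c)))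
      (fun c _ => Gl_nonneg l _ _) (fun c _ => Gl_nonneg l _ _) (fun c _ => Gl_sq_le l _ _)
    have hΦ0 := sum_Gl_le_PhiL (zeroC r) l Cx (fun c => res0 (zeroC r) i (pushC v c))
      (fun c hc c' hc' h => res0_push_inj hi hx hvinj hxv (hCxmem c hc) (hCxmem c' hc') h)
      (dlt0 i v) (dlt0_nonneg i v) (fun c _ => wt0_res0 i v c)
    have hΦ1 := sum_Gl_le_PhiL (zeroC r) l Cx (fun c => res1 (zeroC r) i (pushC v c))
      (fun c hc c' hc' h => res1_push_inj hi hx hvinj hxv (hCxmem c hc) (hCxmem c' hc') h)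
      (dlt1 i v) (dlt1_nonneg i v) (fun c _ => wt1_res1 i v c)
    have hlD : ∀ b ∈ l, b < D := fun b hb => (hmem b hb).trans hi
    have hB0 := PhiL_bound (zeroC r) l hnodup hlD (dlt0 i v) (dlt0_nonneg i v) (dlt0_le_one i v)
    have hB1 := PhiL_bound (zeroC r) l hnodup hlD (dlt1 i v) (dlt1_nonneg i v) (dlt1_le_one i v)
    rw [hlen] at hB0 hB1
    have hcard : ((Fintype.card (FrT r) : ℝ) - 1) ≤ 2 ^ r := by
      have : Fintype.card (FrT r) = 2 ^ r := by simp [FrT]
      rw [this]
      push_cast
      linarith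
    have hcard0 : (0 : ℝ) ≤ (Fintype.card (FrT r) : ℝ) - 1 := by
      have : 1 ≤ Fintype.card (FrT r) := Fintype.card_pos
      have h' : (1 : ℝ) ≤ (Fintype.card (FrT r) : ℝ) := by exact_mod_cast this
      linarith
    have hsum := sum_dlt_le i hi v
    have hsum0 : 0 ≤ ∑ p, dlt0 i v p := Finset.sum_nonneg fun p _ => dlt0_nonneg i v p
    have hsum1 : 0 ≤ ∑ p, dlt1 i v p := Finset.sum_nonneg fun p _ => dlt1_nonneg i v p
    set E : ℝ := ((Fintype.card (FrT r) : ℝ) - 1) * (3 / 4 : ℝ) ^ s with hE
    have hE0 : 0 ≤ E := by positivity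
    have hsq : (∑ c ∈ Cx, Gl l (res0 (zeroC r) i (pushC v c)) (res1 (zeroC r) i (pushC v c))) ^ 2 ≤
        Real.exp (E * Fintype.card I) := by
      refine hCS.trans ?_
      have hf0 : 0 ≤ ∑ c ∈ Cx, Gl l (res0 (zeroC r) i (pushC v c)) (res0 (zeroC r) i (pushC v c)) :=
        Finset.sum_nonneg fun c _ => Gl_nonneg l _ _
      have hg0 : 0 ≤ ∑ c ∈ Cx, Gl l (res1 (zeroC r) i (pushC v c)) (res1 (zeroC r) i (pushC v c)) :=
        Finset.sum_nonneg fun c _ => Gl_nonneg l _ _
      calc _ ≤ Real.exp (E * ∑ p, dlt0 i v p) * Real.exp (E * ∑ p, dlt1 i v p) :=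
            mul_le_mul (hΦ0.trans hB0) (hΦ1.trans hB1) hg0 (Real.exp_nonneg _)
        _ = Real.exp (E * (∑ p, dlt0 i v p + ∑ p, dlt1 i v p)) := by
            rw [← Real.exp_add]
            congr 1
            ring
        _ ≤ Real.exp (E * Fintype.card I) :=
            Real.exp_le_exp.mpr (mul_le_mul_of_nonneg_left hsum hE0)
    have hle : ∑ c ∈ Cx, Gl l (res0 (zeroC r) i (pushC v c)) (res1 (zeroC r) i (pushC v c)) ≤
        Real.exp (E * (Fintype.card I) / 2) := by
      have h2 : Real.exp (E * Fintype.card I) = Real.exp (E * (Fintype.card I) / 2) ^ 2 := by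
        rw [← Real.exp_nat_mul]
        congr 1
        push_cast
        ring
      rw [h2] at hsq
      exact (abs_le_of_sq_le_sq' hsq (Real.exp_nonneg _)).2
    refine hle.trans (Real.exp_le_exp.mpr ?_)
    have h34 : (0 : ℝ) ≤ (3 / 4 : ℝ) ^ s := by positivity
    have hk : (0 : ℝ) ≤ (Fintype.card I : ℝ) / 2 := by positivity
    rw [hE]
    calc ((Fintype.card (FrT r) : ℝ) - 1) * (3 / 4 : ℝ) ^ s * (Fintype.card I : ℝ) / 2
        = ((Fintype.card (FrT r) : ℝ) - 1) * ((Fintype.card I : ℝ) / 2) * (3 / 4 : ℝ) ^ s := by ring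
      _ ≤ _ := by
        exact mul_le_mul_of_nonneg_right (mul_le_mul_of_nonneg_right hcard hk) h34
  · have h1 : Elaw l (fun O : Equiv.Perm (Cube D) => Ghat i x (fun t => O (v t)) ^ r) =
        Elaw l (fun _ : Equiv.Perm (Cube D) => (1 : ℝ)) := by
      refine Elaw_congr_bit i l hil fun O hO => ?_
      have h2 : ¬ (BitAgree i x (fun t => O (v t)) ∧ Function.Injective (fun t => O (v t))) := by
        rintro ⟨h3, h4⟩
        apply hv
        constructor
        · intro a j hj
          rw [h3 a j hj]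
          exact hO _ j hj
        · intro a b hab
          exact h4 (by simp only [hab])
      unfold Ghat
      rw [if_neg h2, one_pow]
    rw [h1, Elaw_const]
    exact Real.one_le_exp hexp

end Vale.Agent.P162O
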