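/-
P162 O(d), Part II: the Rényi bound for the network.
-/
import Vale.Agent.P162O.Node

open scoped BigOperators
open Finset

namespace Vale.Agent.P162O
open Vale.Agent.P162

set_option linter.unusedSectionVars false

variable {D : ℕ} {I : Type} [Fintype I] [DecidableEq I]

/-- `P i x y = P(Π_i ∘ x = y)`, `Π_{i+1} = lay i c' * Π_i * lay i c`. -/
noncomputable def Pn : ℕ → (I → Cube D) → (I → Cube D) → ℝ
  | 0, x, y => if x = y then 1 else 0
  | i + 1, x, y => Eu fun c : Cube D → Bool => Eu fun c' : Cube D → Bool =>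
      Pn i (stpT i c x) (stpT i c' y)

theorem Pn_nonneg (i : ℕ) (x y : I → Cube D) : 0 ≤ Pn i x y := by
  induction i generalizing x y with
  | zero =>
    simp only [Pn]
    split_ifs <;> norm_num
  | succ i ih =>
    simp only [Pn]
    exact Eu_nonneg fun c => Eu_nonneg fun c' => ih _ _

theorem exists_ne_of_Eu_ne {α : Type*} [Fintype α] {f : α → ℝ} (h : Eu f ≠ 0) : ∃ a, f a ≠ 0 := by
  by_contra hc
  push Not at hc
  apply h
  simp [Eu, hc]

/-- Support: `P i x y ≠ 0` implies `x,y` agree on all coordinates `≥ i`. -/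
theorem Pn_support (i : ℕ) (x y : I → Cube D) (h : Pn i x y ≠ 0) (a : I) (j : Fin D) (hj : i ≤ (j : ℕ)) :
    x a j = y a j := by
  induction i generalizing x y with
  | zero =>
    simp only [Pn] at h
    have hxy : x = y := by
      by_contra hne
      simp [hne] at h
    rw [hxy]
  | succ i ih =>
    simp only [Pn] at h
    obtain ⟨c, hc⟩ := exists_ne_of_Eu_ne h
    obtain ⟨c', hc'⟩ := exists_ne_of_Eu_ne hc
    have h1 := ih _ _ hc' (by omega)
    have hji : (j : ℕ) ≠ i := by omega
    simp only [stpT] at h1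
    rwa [lay_bit_ne i c _ j hji, lay_bit_ne i c' _ j hji] at h1

theorem stpT_injective (i : ℕ) (c : Cube D → Bool) {x : I → Cube D} (hx : Function.Injective x) :
    Function.Injective (stpT i c x) := by
  intro a b hab
  exact hx ((lay i c).injective hab)

theorem of_stpT_injective (i : ℕ) (c : Cube D → Bool) {x : I → Cube D}
    (hx : Function.Injective (stpT i c x)) : Function.Injective x := by
  intro a b hab
  apply hx
  simp only [stpT, hab]

/-- Support: injective. -/
theorem Pn_inj (i : ℕ) (x y : I → Cube D) (hx : Function.Injective x) (h : Pn i x y ≠ 0) :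
    Function.Injective y := by
  induction i generalizing x y with
  | zero =>
    simp only [Pn] at h
    have hxy : x = y := by
      by_contra hne
      simp [hne] at h
    rwa [← hxy]
  | succ i ih =>
    simp only [Pn] at h
    obtain ⟨c, hc⟩ := exists_ne_of_Eu_ne h
    obtain ⟨c', hc'⟩ := exists_ne_of_Eu_ne hc
    exact of_stpT_injective i c' (ih _ _ (stpT_injective i c hx) hc')

/-- `D_i`. -/
noncomputable def Dn (i : ℕ) (x y : I → Cube D) : ℝ :=
  (2 : ℝ) ^ (i * Fintype.card I) * Pn i x y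

/-- `W_i = D_i^{1+α}`, `α = 1/20`. -/
noncomputable def Wn (i : ℕ) (x y : I → Cube D) : ℝ :=
  Dn i x y ^ ((21 : ℝ) / 20)

theorem Dn_nonneg (i : ℕ) (x y : I → Cube D) : 0 ≤ Dn i x y :=
  mul_nonneg (by positivity) (Pn_nonneg i x y)

theorem Wn_nonneg (i : ℕ) (x y : I → Cube D) : 0 ≤ Wn i x y :=
  Real.rpow_nonneg (Dn_nonneg i x y) _

/-! ### Step 1 -/

section step1

theorem lay_bit_eq (i : ℕ) (hi : i < D) (c : Cube D → Bool) (z : Cube D) :
    lay i c z ⟨i, hi⟩ = xor (c (bitClear i z)) (z ⟨i, hi⟩) := by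
  simp only [lay_apply, layFun]
  cases h : c (bitClear i z)
  · simp
  · simp [bitFlip]

theorem ind_bool_eq (p q : Bool) : (if p = q then (1 : ℝ) else 0) = (1 + sgn p * sgn q) / 2 := by
  cases p <;> cases q <;> norm_num [sgn]

theorem bitClear_eq_cases (i : ℕ) (hi : i < D) {u v : Cube D} (h : bitClear i u = bitClear i v) :
    u = v ∨ u = bitFlip i v := by
  by_cases h0 : u ⟨i, hi⟩ = v ⟨i, hi⟩
  · left
    funext j
    by_cases hj : (j : ℕ) = i
    · have : j = ⟨i, hi⟩ := Fin.ext hj
      rw [this, h0]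
    · have := congrFun h j
      simpa [bitClear, hj] using this
  · right
    funext j
    by_cases hj : (j : ℕ) = i
    · have hje : j = ⟨i, hi⟩ := Fin.ext hj
      subst hje
      simp only [bitFlip, if_true]
      cases hu : u ⟨i, hi⟩ <;> cases hv : v ⟨i, hi⟩ <;> simp_all
    · have := congrFun h j
      simpa [bitClear, bitFlip, hj] using this

/-- Flip one coin. -/
def coinFlip (z : Cube D) : Equiv.Perm (Cube D → Bool) where
  toFun c := Function.update c z (!c z)
  invFun c := Function.update c z (!c z)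
  left_inv c := by
    funext w
    by_cases hw : w = z
    · subst hw; simp
    · simp [Function.update_of_ne hw]
  right_inv c := by
    funext w
    by_cases hw : w = z
    · subst hw; simp
    · simp [Function.update_of_ne hw]

/-- The product of coin signs over a nonclosed set averages to zero. -/
theorem Eu_coin_prod_zero (i : ℕ) (hi : i < D) (x : I → Cube D) (hx : Function.Injective x) (A : Finset I)
    (hA : ¬ Closed i x A) :
    Eu (fun c : Cube D → Bool => ∏ a ∈ A, sgn (c (bitClear i (x a)))) = 0 := by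
  unfold Closed at hA
  push Not at hA
  obtain ⟨a, ha, hb⟩ := hA
  set z := bitClear i (x a) with hz
  have hflip : ∀ c : Cube D → Bool, (∏ b ∈ A, sgn ((coinFlip z c) (bitClear i (x b)))) =
      - ∏ b ∈ A, sgn (c (bitClear i (x b))) := by
    intro c
    rw [← Finset.mul_prod_erase A _ ha, ← Finset.mul_prod_erase A (fun b => sgn (c (bitClear i (x b)))) ha]
    have h1 : (∏ b ∈ A.erase a, sgn ((coinFlip z c) (bitClear i (x b)))) =
        ∏ b ∈ A.erase a, sgn (c (bitClear i (x b))) := by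
      refine Finset.prod_congr rfl fun b hbm => ?_
      have hba : b ≠ a := Finset.ne_of_mem_erase hbm
      have hbA : b ∈ A := Finset.mem_of_mem_erase hbm
      have hne : bitClear i (x b) ≠ z := by
        intro he
        rcases bitClear_eq_cases i hi he with h2 | h2
        · exact hba (hx h2)
        · exact hb b hbA h2
      simp only [coinFlip, Equiv.coe_fn_mk]
      rw [Function.update_of_ne hne]
    rw [h1]
    have h2 : (coinFlip z c) (bitClear i (x a)) = !c z := by
      simp only [coinFlip, Equiv.coe_fn_mk, ← hz, Function.update_self]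
    rw [h2, ← hz]
    cases c z <;> simp [sgn]
  have h3 := Eu_equiv (coinFlip z) (fun c : Cube D → Bool => ∏ b ∈ A, sgn (c (bitClear i (x b))))
  simp only [hflip] at h3
  have h4 : Eu (fun c : Cube D → Bool => - ∏ b ∈ A, sgn (c (bitClear i (x b)))) =
      - Eu (fun c : Cube D → Bool => ∏ b ∈ A, sgn (c (bitClear i (x b)))) := by
    have := Eu_mul_left (-1 : ℝ) (fun c : Cube D → Bool => ∏ b ∈ A, sgn (c (bitClear i (x b))))
    simpa using this
  rw [h4] at h3
  linarith

theorem abs_prod_sgn_le {J : Type*} (A : Finset J) (f : J → Bool) : |∏ a ∈ A, sgn (f a)| ≤ 1 := by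
  rw [Finset.abs_prod]
  simp [abs_sgn]

theorem abs_Eu_le_one {α : Type*} [Fintype α] [Nonempty α] {f : α → ℝ} (h : ∀ a, |f a| ≤ 1) :
    |Eu f| ≤ 1 := by
  rw [abs_le]
  constructor
  · have : Eu (fun _ : α => (-1 : ℝ)) ≤ Eu f := Eu_mono fun a => (abs_le.mp (h a)).1
    rwa [Eu_const] at this
  · have : Eu f ≤ Eu (fun _ : α => (1 : ℝ)) := Eu_mono fun a => (abs_le.mp (h a)).2
    rwa [Eu_const] at this

end step1

open Classical in
/-- STEP 1: the validity probability is bounded by the number of closed sets. -/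
theorem valid_prob_le (i : ℕ) (hi : i < D) (x y : I → Cube D) (hx : Function.Injective x)
    (hy : Function.Injective y) :
    (2 : ℝ) ^ Fintype.card I * Eu (fun c : Cube D → Bool => Eu fun c' : Cube D → Bool =>
        if BitAgree i (stpT i c x) (stpT i c' y) then (1 : ℝ) else 0) ≤ (Fc i x y : ℝ) := by
  -- the sign of a token
  let eps : I → ℝ := fun a => sgn (x a ⟨i, hi⟩) * sgn (y a ⟨i, hi⟩)
  have hexp : ∀ c c' : Cube D → Bool,
      (2 : ℝ) ^ Fintype.card I * (if BitAgree i (stpT i c x) (stpT i c' y) then (1 : ℝ) else 0) =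
        ∑ A : Finset I, (∏ a ∈ A, sgn (c (bitClear i (x a)))) * (∏ a ∈ A, eps a) *
          (∏ a ∈ A, sgn (c' (bitClear i (y a)))) := by
    intro c c'
    have h1 : (if BitAgree i (stpT i c x) (stpT i c' y) then (1 : ℝ) else 0) =
        ∏ a : I, (if lay i c (x a) ⟨i, hi⟩ = lay i c' (y a) ⟨i, hi⟩ then (1 : ℝ) else 0) := by
      rw [Finset.prod_ite_zero]
      have h2 : BitAgree i (stpT i c x) (stpT i c' y) ↔
          ∀ a ∈ (univ : Finset I), lay i c (x a) ⟨i, hi⟩ = lay i c' (y a) ⟨i, hi⟩ := by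
        constructor
        · intro h a _
          exact h a ⟨i, hi⟩ rfl
        · intro h a j hj
          have : j = ⟨i, hi⟩ := Fin.ext hj
          rw [this]
          exact h a (mem_univ a)
      by_cases h3 : BitAgree i (stpT i c x) (stpT i c' y)
      · rw [if_pos h3, if_pos (h2.mp h3)]
        simp
      · rw [if_neg h3, if_neg (fun h => h3 (h2.mpr h))]
    rw [h1]
    have h4 : ∀ a : I, (if lay i c (x a) ⟨i, hi⟩ = lay i c' (y a) ⟨i, hi⟩ then (1 : ℝ) else 0) =
        (1 + sgn (c (bitClear i (x a))) * eps a * sgn (c' (bitClear i (y a)))) / 2 := by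
      intro a
      rw [ind_bool_eq, lay_bit_eq i hi, lay_bit_eq i hi, sgn_xor, sgn_xor]
      simp only [eps]
      ring
    simp only [h4]
    rw [Finset.prod_div_distrib, Finset.prod_one_add, Finset.powerset_univ]
    have h5 : (∏ _a : I, (2 : ℝ)) = 2 ^ Fintype.card I := by
      simp [Finset.card_univ]
    rw [h5, mul_div_cancel₀ _ (by positivity)]
    refine Finset.sum_congr rfl fun A _ => ?_
    rw [Finset.prod_mul_distrib, Finset.prod_mul_distrib]
  have hE : (2 : ℝ) ^ Fintype.card I * Eu (fun c : Cube D → Bool => Eu fun c' : Cube D → Bool =>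
        if BitAgree i (stpT i c x) (stpT i c' y) then (1 : ℝ) else 0) =
      ∑ A : Finset I, Eu (fun c : Cube D → Bool => Eu fun c' : Cube D → Bool =>
        (∏ a ∈ A, sgn (c (bitClear i (x a)))) * (∏ a ∈ A, eps a) *
          (∏ a ∈ A, sgn (c' (bitClear i (y a))))) := by
    have e1 : (2 : ℝ) ^ Fintype.card I * Eu (fun c : Cube D → Bool => Eu fun c' : Cube D → Bool =>
        if BitAgree i (stpT i c x) (stpT i c' y) then (1 : ℝ) else 0) =
        Eu (fun c : Cube D → Bool => Eu fun c' : Cube D → Bool =>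
          (2 : ℝ) ^ Fintype.card I * if BitAgree i (stpT i c x) (stpT i c' y) then (1 : ℝ) else 0) := by
      rw [← Eu_mul_left]
      refine congrArg _ (funext fun c => ?_)
      rw [Eu_mul_left]
    rw [e1]
    simp only [hexp]
    have e2 : ∀ c : Cube D → Bool, Eu (fun c' : Cube D → Bool => ∑ A : Finset I,
        (∏ a ∈ A, sgn (c (bitClear i (x a)))) * (∏ a ∈ A, eps a) * (∏ a ∈ A, sgn (c' (bitClear i (y a))))) =
        ∑ A : Finset I, Eu (fun c' : Cube D → Bool =>
        (∏ a ∈ A, sgn (c (bitClear i (x a)))) * (∏ a ∈ A, eps a) * (∏ a ∈ A, sgn (c' (bitClear i (y a))))) :=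
      fun c => (Eu_sum_comm _ _).symm
    simp only [e2]
    exact (Eu_sum_comm _ _).symm
  rw [hE]
  have hterm : ∀ A : Finset I, Eu (fun c : Cube D → Bool => Eu fun c' : Cube D → Bool =>
        (∏ a ∈ A, sgn (c (bitClear i (x a)))) * (∏ a ∈ A, eps a) *
          (∏ a ∈ A, sgn (c' (bitClear i (y a))))) ≤
      if Closed i x A ∧ Closed i y A then (1 : ℝ) else 0 := by
    intro A
    have hsep : Eu (fun c : Cube D → Bool => Eu fun c' : Cube D → Bool =>
        (∏ a ∈ A, sgn (c (bitClear i (x a)))) * (∏ a ∈ A, eps a) *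
          (∏ a ∈ A, sgn (c' (bitClear i (y a))))) =
        Eu (fun c : Cube D → Bool => ∏ a ∈ A, sgn (c (bitClear i (x a)))) * (∏ a ∈ A, eps a) *
          Eu (fun c' : Cube D → Bool => ∏ a ∈ A, sgn (c' (bitClear i (y a)))) := by
      have : ∀ c : Cube D → Bool, Eu (fun c' : Cube D → Bool =>
          (∏ a ∈ A, sgn (c (bitClear i (x a)))) * (∏ a ∈ A, eps a) *
            (∏ a ∈ A, sgn (c' (bitClear i (y a))))) =
          ((∏ a ∈ A, sgn (c (bitClear i (x a)))) * (∏ a ∈ A, eps a)) *
            Eu (fun c' : Cube D → Bool => ∏ a ∈ A, sgn (c' (bitClear i (y a)))) := fun c =>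
        Eu_mul_left _ _
      simp only [this]
      have h6 := Eu_mul_left ((∏ a ∈ A, eps a) *
          Eu (fun c' : Cube D → Bool => ∏ a ∈ A, sgn (c' (bitClear i (y a)))))
        (fun c : Cube D → Bool => ∏ a ∈ A, sgn (c (bitClear i (x a))))
      calc _ = Eu (fun c : Cube D → Bool => ((∏ a ∈ A, eps a) *
            Eu (fun c' : Cube D → Bool => ∏ a ∈ A, sgn (c' (bitClear i (y a))))) *
              ∏ a ∈ A, sgn (c (bitClear i (x a)))) := by
            refine congrArg _ (funext fun c => ?_)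
            ring
        _ = _ := by rw [h6]; ring
    rw [hsep]
    by_cases hc : Closed i x A ∧ Closed i y A
    · rw [if_pos hc]
      have h7 : |Eu (fun c : Cube D → Bool => ∏ a ∈ A, sgn (c (bitClear i (x a))))| ≤ 1 :=
        abs_Eu_le_one fun c => abs_prod_sgn_le A _
      have h8 : |Eu (fun c' : Cube D → Bool => ∏ a ∈ A, sgn (c' (bitClear i (y a))))| ≤ 1 :=
        abs_Eu_le_one fun c => abs_prod_sgn_le A _
      have h9 : |∏ a ∈ A, eps a| ≤ 1 := by
        rw [Finset.abs_prod]
        refine Finset.prod_le_one (fun a _ => abs_nonneg _) fun a _ => ?_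
        simp [eps, abs_mul, abs_sgn]
      calc _ ≤ |Eu (fun c : Cube D → Bool => ∏ a ∈ A, sgn (c (bitClear i (x a)))) * (∏ a ∈ A, eps a) *
            Eu (fun c' : Cube D → Bool => ∏ a ∈ A, sgn (c' (bitClear i (y a))))| := le_abs_self _
        _ ≤ 1 := by
          rw [abs_mul, abs_mul]
          calc _ ≤ (1 : ℝ) * 1 * 1 := by gcongr
            _ = 1 := by norm_num
    · rw [if_neg hc]
      by_cases hcx : Closed i x A
      · have hcy : ¬ Closed i y A := fun h => hc ⟨hcx, h⟩
        rw [Eu_coin_prod_zero i hi y hy A hcy]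
        simp
      · rw [Eu_coin_prod_zero i hi x hx A hcx]
        simp
  calc _ ≤ ∑ A : Finset I, (if Closed i x A ∧ Closed i y A then (1 : ℝ) else 0) :=
        Finset.sum_le_sum fun A _ => hterm A
    _ = (Fc i x y : ℝ) := by
        unfold Fc
        rw [Finset.sum_boole]

/-! ### Closed sets and layers -/

theorem lay_bitFlip (i : ℕ) (c : Cube D → Bool) (z : Cube D) :
    lay i c (bitFlip i z) = bitFlip i (lay i c z) := by
  simp only [lay_apply, layFun, bitClear_bitFlip]
  split_ifs <;> rfl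

theorem closed_stpT (i : ℕ) (c : Cube D → Bool) (x : I → Cube D) (A : Finset I) :
    Closed i (stpT i c x) A ↔ Closed i x A := by
  unfold Closed
  simp only [stpT, ← lay_bitFlip]
  constructor
  · intro h a ha
    obtain ⟨b, hb, hab⟩ := h a ha
    exact ⟨b, hb, (lay i c).injective hab⟩
  · intro h a ha
    obtain ⟨b, hb, hab⟩ := h a ha
    exact ⟨b, hb, by rw [hab]⟩

/-- Closed sets do not see the layer on the same coordinate. -/
theorem Fc_stpT (i : ℕ) (c c' : Cube D → Bool) (x y : I → Cube D) :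
    Fc i (stpT i c x) (stpT i c' y) = Fc i x y := by
  classical
  unfold Fc
  simp only [closed_stpT]

/-- Power mean on the valid set: `(E Z)^{1+α} ≤ p^α E[Z^{1+α}]`, for `Z ≥ 0` vanishing off the event of probability `p`. -/
theorem holder_event {Ω : Type} [Fintype Ω] [Nonempty Ω] (Z : Ω → ℝ) (hZ : ∀ ω, 0 ≤ Z ω) (A : Ω → Prop) [DecidablePred A]
    (hA : ∀ ω, ¬ A ω → Z ω = 0) :
    Eu Z ^ ((21 : ℝ) / 20) ≤ Eu (fun ω => if A ω then (1 : ℝ) else 0) ^ ((1 : ℝ) / 20) *
      Eu (fun ω => Z ω ^ ((21 : ℝ) / 20)) := by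
  have hN : (0 : ℝ) < (Fintype.card Ω : ℝ) := by exact_mod_cast Fintype.card_pos
  set N : ℝ := (Fintype.card Ω : ℝ) with hNdef
  set ind : Ω → ℝ := fun ω => if A ω then (1 : ℝ) else 0 with hind
  have hind0 : ∀ ω, 0 ≤ ind ω := fun ω => by
    simp only [hind]
    split_ifs <;> norm_num
  set S0 : ℝ := ∑ ω, Z ω with hS0
  set S1 : ℝ := ∑ ω, Z ω ^ ((21 : ℝ) / 20) with hS1
  set S2 : ℝ := ∑ ω, ind ω with hS2
  have hS0n : 0 ≤ S0 := Finset.sum_nonneg fun ω _ => hZ ω
  have hS1n : 0 ≤ S1 := Finset.sum_nonneg fun ω _ => Real.rpow_nonneg (hZ ω) _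
  have hS2n : 0 ≤ S2 := Finset.sum_nonneg fun ω _ => hind0 ω
  have hc : ((21 : ℝ) / 20).HolderConjugate 21 := by
    rw [Real.holderConjugate_iff]
    constructor <;> norm_num
  have hH := Real.inner_le_Lp_mul_Lq (univ : Finset Ω) Z ind hc
  have e1 : ∑ ω, Z ω * ind ω = S0 := by
    refine Finset.sum_congr rfl fun ω _ => ?_
    by_cases h : A ω
    · simp [hind, h]
    · simp [hind, h, hA ω h]
  have e2 : ∑ ω, |Z ω| ^ ((21 : ℝ) / 20) = S1 :=
    Finset.sum_congr rfl fun ω _ => by rw [abs_of_nonneg (hZ ω)]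
  have e3 : ∑ ω, |ind ω| ^ (21 : ℝ) = S2 := by
    refine Finset.sum_congr rfl fun ω _ => ?_
    by_cases h : A ω
    · simp [hind, h]
    · simp [hind, h]
  rw [e1, e2, e3] at hH
  have hp : (0 : ℝ) ≤ (21 : ℝ) / 20 := by norm_num
  have h2 : S0 ^ ((21 : ℝ) / 20) ≤ S1 * S2 ^ ((1 : ℝ) / 20) := by
    calc S0 ^ ((21 : ℝ) / 20) ≤ (S1 ^ (1 / ((21 : ℝ) / 20)) * S2 ^ (1 / (21 : ℝ))) ^ ((21 : ℝ) / 20) :=
          Real.rpow_le_rpow hS0n hH hp
      _ = S1 * S2 ^ ((1 : ℝ) / 20) := by
          rw [Real.mul_rpow (Real.rpow_nonneg hS1n _) (Real.rpow_nonneg hS2n _),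
            ← Real.rpow_mul hS1n, ← Real.rpow_mul hS2n]
          norm_num
  have hNi : (0 : ℝ) ≤ N⁻¹ := by positivity
  have e4 : Eu Z = N⁻¹ * S0 := rfl
  have e5 : Eu ind = N⁻¹ * S2 := rfl
  have e6 : Eu (fun ω => Z ω ^ ((21 : ℝ) / 20)) = N⁻¹ * S1 := rfl
  rw [e4, e5, e6, Real.mul_rpow hNi hS0n, Real.mul_rpow hNi hS2n]
  have e7 : (N⁻¹) ^ ((21 : ℝ) / 20) = (N⁻¹) ^ ((1 : ℝ) / 20) * N⁻¹ := by
    have hNip : (0 : ℝ) < N⁻¹ := by positivity
    rw [show ((21 : ℝ) / 20) = (1 : ℝ) / 20 + 1 by norm_num, Real.rpow_add hNip, Real.rpow_one]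
  rw [e7]
  have hpos : 0 ≤ (N⁻¹) ^ ((1 : ℝ) / 20) * N⁻¹ := mul_nonneg (Real.rpow_nonneg hNi _) hNi
  calc (N⁻¹) ^ ((1 : ℝ) / 20) * N⁻¹ * S0 ^ ((21 : ℝ) / 20)
      ≤ (N⁻¹) ^ ((1 : ℝ) / 20) * N⁻¹ * (S1 * S2 ^ ((1 : ℝ) / 20)) :=
        mul_le_mul_of_nonneg_left h2 hpos
    _ = _ := by ring

theorem Ghat_nonneg (i : ℕ) (x y : I → Cube D) : 0 ≤ Ghat i x y :=
  le_trans zero_le_one (Ghat_one_le i x y)

/-- STEP 2: the one step inequality. -/
theorem W_step (i : ℕ) (hi : i < D) (x y : I → Cube D) (hx : Function.Injective x) :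
    Wn (i + 1) x y ≤ (2 : ℝ) ^ Fintype.card I * Eu (fun c : Cube D → Bool => Eu fun c' : Cube D → Bool =>
      Ghat i (stpT i c x) (stpT i c' y) ^ ((1 : ℝ) / 20) * Wn i (stpT i c x) (stpT i c' y)) := by
  classical
  have hp : ((21 : ℝ) / 20) ≠ 0 := by norm_num
  have hRHS : 0 ≤ (2 : ℝ) ^ Fintype.card I * Eu (fun c : Cube D → Bool => Eu fun c' : Cube D → Bool =>
      Ghat i (stpT i c x) (stpT i c' y) ^ ((1 : ℝ) / 20) * Wn i (stpT i c x) (stpT i c' y)) :=
    mul_nonneg (by positivity) (Eu_nonneg fun c => Eu_nonneg fun c' =>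
      mul_nonneg (Real.rpow_nonneg (Ghat_nonneg _ _ _) _) (Wn_nonneg _ _ _))
  by_cases hy : Function.Injective y
  swap
  · have h0 : Pn (i + 1) x y = 0 := by
      by_contra h
      exact hy (Pn_inj _ _ _ hx h)
    have : Wn (i + 1) x y = 0 := by
      simp [Wn, Dn, h0, Real.zero_rpow hp]
    rw [this]
    exact hRHS
  -- the probability space of pairs of coins
  let Z : (Cube D → Bool) × (Cube D → Bool) → ℝ := fun ω => Dn i (stpT i ω.1 x) (stpT i ω.2 y)
  let A : (Cube D → Bool) × (Cube D → Bool) → Prop := fun ω => BitAgree i (stpT i ω.1 x) (stpT i ω.2 y)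
  have : DecidablePred A := fun ω => Classical.propDecidable _
  have hZ : ∀ ω, 0 ≤ Z ω := fun ω => Dn_nonneg _ _ _
  have hnz : ∀ ω, Z ω ≠ 0 → Pn i (stpT i ω.1 x) (stpT i ω.2 y) ≠ 0 := by
    intro ω h h0
    apply h
    simp [Z, Dn, h0]
  have hA : ∀ ω, ¬ A ω → Z ω = 0 := by
    intro ω hω
    by_contra h
    apply hω
    intro a j hj
    exact Pn_support i _ _ (hnz ω h) a j (by omega)
  have hH := holder_event Z hZ A hA
  have hk : (0 : ℝ) < (2 : ℝ) ^ Fintype.card I := by positivity
  have hD : Dn (i + 1) x y = (2 : ℝ) ^ Fintype.card I * Eu Z := by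
    have e1 : Eu Z = Eu (fun c : Cube D → Bool => Eu fun c' : Cube D → Bool =>
        Dn i (stpT i c x) (stpT i c' y)) :=
      Eu_prod (fun c c' : Cube D → Bool => Dn i (stpT i c x) (stpT i c' y))
    rw [e1]
    simp only [Dn, Pn, Eu_mul_left]
    rw [show (i + 1) * Fintype.card I = Fintype.card I + i * Fintype.card I by ring, pow_add]
    ring
  set q : ℝ := Eu (fun ω => if A ω then (1 : ℝ) else 0) with hq
  have hq0 : 0 ≤ q := Eu_nonneg fun ω => by split_ifs <;> norm_num
  have hval : (2 : ℝ) ^ Fintype.card I * q ≤ (Fc i x y : ℝ) := by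
    have e0 := Eu_prod (fun c c' : Cube D → Bool => if BitAgree i (stpT i c x) (stpT i c' y) then (1 : ℝ) else 0)
    have e1 : q = Eu (fun c : Cube D → Bool => Eu fun c' : Cube D → Bool =>
        if BitAgree i (stpT i c x) (stpT i c' y) then (1 : ℝ) else 0) := by
      rw [← e0, hq]
      refine congrArg _ (funext fun ω => ?_)
      by_cases h : BitAgree i (stpT i ω.1 x) (stpT i ω.2 y)
      · have h' : A ω := h
        rw [if_pos h, if_pos h']
      · have h' : ¬ A ω := h
        rw [if_neg h, if_neg h']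
    rw [e1]
    exact valid_prob_le i hi x y hx hy
  have hE0 : 0 ≤ Eu Z := Eu_nonneg hZ
  have hEp : 0 ≤ Eu (fun ω => Z ω ^ ((21 : ℝ) / 20)) := Eu_nonneg fun ω => Real.rpow_nonneg (hZ ω) _
  have hFc0 : (0 : ℝ) ≤ (Fc i x y : ℝ) := Nat.cast_nonneg _
  have h1 : Wn (i + 1) x y ≤ (2 : ℝ) ^ Fintype.card I *
      ((Fc i x y : ℝ) ^ ((1 : ℝ) / 20) * Eu (fun ω => Z ω ^ ((21 : ℝ) / 20))) := by
    unfold Wn
    rw [hD, Real.mul_rpow hk.le hE0]
    have e2 : ((2 : ℝ) ^ Fintype.card I) ^ ((21 : ℝ) / 20) =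
        (2 : ℝ) ^ Fintype.card I * ((2 : ℝ) ^ Fintype.card I) ^ ((1 : ℝ) / 20) := by
      rw [show ((21 : ℝ) / 20) = 1 + (1 : ℝ) / 20 by norm_num, Real.rpow_add hk, Real.rpow_one]
    rw [e2, mul_assoc]
    refine mul_le_mul_of_nonneg_left ?_ hk.le
    calc ((2 : ℝ) ^ Fintype.card I) ^ ((1 : ℝ) / 20) * Eu Z ^ ((21 : ℝ) / 20)
        ≤ ((2 : ℝ) ^ Fintype.card I) ^ ((1 : ℝ) / 20) *
            (q ^ ((1 : ℝ) / 20) * Eu (fun ω => Z ω ^ ((21 : ℝ) / 20))) :=
          mul_le_mul_of_nonneg_left hH (Real.rpow_nonneg hk.le _)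
      _ = ((2 : ℝ) ^ Fintype.card I * q) ^ ((1 : ℝ) / 20) * Eu (fun ω => Z ω ^ ((21 : ℝ) / 20)) := by
          rw [Real.mul_rpow hk.le hq0]
          ring
      _ ≤ _ := by
          refine mul_le_mul_of_nonneg_right ?_ hEp
          exact Real.rpow_le_rpow (mul_nonneg hk.le hq0) hval (by norm_num)
  refine h1.trans ?_
  refine mul_le_mul_of_nonneg_left ?_ hk.le
  rw [← Eu_mul_left]
  have e3 : Eu (fun c : Cube D → Bool => Eu fun c' : Cube D → Bool =>
      Ghat i (stpT i c x) (stpT i c' y) ^ ((1 : ℝ) / 20) * Wn i (stpT i c x) (stpT i c' y)) =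
      Eu (fun ω : (Cube D → Bool) × (Cube D → Bool) =>
        Ghat i (stpT i ω.1 x) (stpT i ω.2 y) ^ ((1 : ℝ) / 20) * Wn i (stpT i ω.1 x) (stpT i ω.2 y)) :=
    (Eu_prod (fun c c' : Cube D → Bool =>
      Ghat i (stpT i c x) (stpT i c' y) ^ ((1 : ℝ) / 20) * Wn i (stpT i c x) (stpT i c' y))).symm
  rw [e3]
  refine Eu_mono fun ω => ?_
  by_cases hz : Z ω = 0
  · have : Wn i (stpT i ω.1 x) (stpT i ω.2 y) = 0 := by
      show Z ω ^ ((21 : ℝ) / 20) = 0
      rw [hz, Real.zero_rpow hp]
    rw [this, show Z ω ^ ((21 : ℝ) / 20) = 0 by rw [hz, Real.zero_rpow hp]]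
    simp
  · have hP := hnz ω hz
    have hagree : BitAgree i (stpT i ω.1 x) (stpT i ω.2 y) := by
      intro a j hj
      exact Pn_support i _ _ hP a j (by omega)
    have hinj : Function.Injective (stpT i ω.2 y) := Pn_inj i _ _ (stpT_injective i ω.1 hx) hP
    have hG : Ghat i (stpT i ω.1 x) (stpT i ω.2 y) = (Fc i x y : ℝ) := by
      unfold Ghat
      rw [if_pos ⟨hagree, hinj⟩, Fc_stpT]
    rw [hG]
    exact le_of_eq rfl

/-- The nested expectation (input coins and output coins). -/
noncomputable def Eseq : ℕ → (I → Cube D) → ((I → Cube D) → ℝ) → ℝ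
  | 0, x, Θ => Θ x
  | n + 1, x, Θ => Eu fun c : Cube D → Bool => Eu fun c' : Cube D → Bool =>
      Eseq n (stpT n c x) (fun u => Θ (stpT n c' u) * Ghat n (stpT n c x) u ^ ((1 : ℝ) / 20))

/-- A layer on tokens as a permutation of tuples. -/
def stpTE (i : ℕ) (c : Cube D → Bool) : Equiv.Perm (I → Cube D) where
  toFun := stpT i c
  invFun := stpT i c
  left_inv y := by
    funext a
    exact lay_lay i c (y a)
  right_inv y := by
    funext a
    exact lay_lay i c (y a)

/-- STEP 3. -/
theorem sum_W_le (n : ℕ) (hn : n ≤ D) (x : I → Cube D) (hx : Function.Injective x) (Θ : (I → Cube D) → ℝ)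
    (hΘ : ∀ u, 0 ≤ Θ u) :
    ∑ y : I → Cube D, Θ y * Wn n x y ≤ (2 : ℝ) ^ (n * Fintype.card I) * Eseq n x Θ := by
  induction n generalizing x Θ with
  | zero =>
    simp only [Eseq, zero_mul, pow_zero, one_mul]
    rw [Finset.sum_eq_single x]
    · simp [Wn, Dn, Pn]
    · intro y _ hy
      have : Pn 0 x y = 0 := by
        simp only [Pn]
        rw [if_neg (Ne.symm hy)]
      simp [Wn, Dn, this, Real.zero_rpow (by norm_num : ((21 : ℝ) / 20) ≠ 0)]
    · simp
  | succ n ih =>
    have hnD : n < D := by omega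
    have hk : (0 : ℝ) ≤ (2 : ℝ) ^ Fintype.card I := by positivity
    have h1 : ∀ y, Θ y * Wn (n + 1) x y ≤ Θ y * ((2 : ℝ) ^ Fintype.card I *
        Eu (fun c : Cube D → Bool => Eu fun c' : Cube D → Bool =>
          Ghat n (stpT n c x) (stpT n c' y) ^ ((1 : ℝ) / 20) * Wn n (stpT n c x) (stpT n c' y))) :=
      fun y => mul_le_mul_of_nonneg_left (W_step n hnD x y hx) (hΘ y)
    refine (Finset.sum_le_sum fun y _ => h1 y).trans ?_
    -- move the sum inside
    have h2 : ∑ y : I → Cube D, Θ y * ((2 : ℝ) ^ Fintype.card I *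
        Eu (fun c : Cube D → Bool => Eu fun c' : Cube D → Bool =>
          Ghat n (stpT n c x) (stpT n c' y) ^ ((1 : ℝ) / 20) * Wn n (stpT n c x) (stpT n c' y))) =
        (2 : ℝ) ^ Fintype.card I * Eu (fun c : Cube D → Bool => Eu fun c' : Cube D → Bool =>
          ∑ y : I → Cube D, Θ y * (Ghat n (stpT n c x) (stpT n c' y) ^ ((1 : ℝ) / 20) *
            Wn n (stpT n c x) (stpT n c' y))) := by
      have e1 : ∀ y : I → Cube D, Θ y * ((2 : ℝ) ^ Fintype.card I *
          Eu (fun c : Cube D → Bool => Eu fun c' : Cube D → Bool =>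
            Ghat n (stpT n c x) (stpT n c' y) ^ ((1 : ℝ) / 20) * Wn n (stpT n c x) (stpT n c' y))) =
          (2 : ℝ) ^ Fintype.card I * Eu (fun c : Cube D → Bool => Eu fun c' : Cube D → Bool =>
            Θ y * (Ghat n (stpT n c x) (stpT n c' y) ^ ((1 : ℝ) / 20) *
              Wn n (stpT n c x) (stpT n c' y))) := by
        intro y
        rw [mul_left_comm]
        congr 1
        rw [← Eu_mul_left]
        refine congrArg _ (funext fun c => ?_)
        rw [← Eu_mul_left]
      simp only [e1]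
      rw [← Finset.mul_sum]
      congr 1
      rw [Eu_sum_comm]
      refine congrArg _ (funext fun c => ?_)
      rw [Eu_sum_comm]
    rw [h2]
    have h3 : ∀ c c' : Cube D → Bool,
        ∑ y : I → Cube D, Θ y * (Ghat n (stpT n c x) (stpT n c' y) ^ ((1 : ℝ) / 20) *
            Wn n (stpT n c x) (stpT n c' y)) ≤
          (2 : ℝ) ^ (n * Fintype.card I) * Eseq n (stpT n c x)
            (fun u => Θ (stpT n c' u) * Ghat n (stpT n c x) u ^ ((1 : ℝ) / 20)) := by
      intro c c'
      have hb := ih (by omega) (stpT n c x) (stpT_injective n c hx)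
        (fun u => Θ (stpT n c' u) * Ghat n (stpT n c x) u ^ ((1 : ℝ) / 20))
        (fun u => mul_nonneg (hΘ _) (Real.rpow_nonneg (Ghat_nonneg _ _ _) _))
      refine le_trans (le_of_eq ?_) hb
      have e3 := Equiv.sum_comp (stpTE n c') (fun u : I → Cube D =>
        Θ (stpT n c' u) * Ghat n (stpT n c x) u ^ ((1 : ℝ) / 20) * Wn n (stpT n c x) u)
      rw [← e3]
      refine Finset.sum_congr rfl fun y _ => ?_
      have e4 : stpT n c' ((stpTE n c') y) = y := (stpTE n c').left_inv y
      have e5 : (stpTE n c') y = stpT n c' y := rfl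
      rw [e4, e5]
      ring
    calc (2 : ℝ) ^ Fintype.card I * Eu (fun c : Cube D → Bool => Eu fun c' : Cube D → Bool =>
          ∑ y : I → Cube D, Θ y * (Ghat n (stpT n c x) (stpT n c' y) ^ ((1 : ℝ) / 20) *
            Wn n (stpT n c x) (stpT n c' y)))
        ≤ (2 : ℝ) ^ Fintype.card I * Eu (fun c : Cube D → Bool => Eu fun c' : Cube D → Bool =>
          (2 : ℝ) ^ (n * Fintype.card I) * Eseq n (stpT n c x)
            (fun u => Θ (stpT n c' u) * Ghat n (stpT n c x) u ^ ((1 : ℝ) / 20))) :=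
          mul_le_mul_of_nonneg_left (Eu_mono fun c => Eu_mono fun c' => h3 c c') hk
      _ = (2 : ℝ) ^ ((n + 1) * Fintype.card I) * Eseq (n + 1) x Θ := by
          simp only [Eseq, Eu_mul_left]
          rw [show (n + 1) * Fintype.card I = Fintype.card I + n * Fintype.card I by ring, pow_add]
          ring

/-- The input tuples along a list of input coins (head = top coin): the tuple at level `i`. -/
def inAt : List (Cube D → Bool) → (I → Cube D) → ℕ → (I → Cube D)
  | [], x, _ => x
  | c :: l, x, i => if i = l.length + 1 then x else inAt l (stpT l.length c x) i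

/-- Average over lists of length `n` (head = top coin). -/
noncomputable def lavg : (n : ℕ) → (List (Cube D → Bool) → ℝ) → ℝ
  | 0, f => f []
  | n + 1, f => Eu fun c : Cube D → Bool => lavg n (fun l => f (c :: l))

theorem lavg_congr (n : ℕ) {f g : List (Cube D → Bool) → ℝ} (h : ∀ l, l.length = n → f l = g l) :
    lavg n f = lavg n g := by
  induction n generalizing f g with
  | zero => exact h [] rfl
  | succ n ih =>
    simp only [lavg]
    refine congrArg _ (funext fun c => ?_)
    exact ih fun l hl => h (c :: l) (by simp [hl])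

theorem lavg_mono (n : ℕ) {f g : List (Cube D → Bool) → ℝ} (h : ∀ l, l.length = n → f l ≤ g l) :
    lavg n f ≤ lavg n g := by
  induction n generalizing f g with
  | zero => exact h [] rfl
  | succ n ih =>
    simp only [lavg]
    exact Eu_mono fun c => ih fun l hl => h (c :: l) (by simp [hl])

theorem lavg_const (n : ℕ) (a : ℝ) : lavg (D := D) n (fun _ => a) = a := by
  induction n with
  | zero => rfl
  | succ n ih =>
    simp only [lavg, ih]
    exact Eu_const a

theorem lavg_Eu {α : Type*} [Fintype α] (n : ℕ) (f : List (Cube D → Bool) → α → ℝ) :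
    lavg n (fun l => Eu (f l)) = Eu (fun b => lavg n (fun l => f l b)) := by
  induction n generalizing f with
  | zero => rfl
  | succ n ih =>
    simp only [lavg]
    have : ∀ c : Cube D → Bool, lavg n (fun l => Eu (f (c :: l))) =
        Eu (fun b => lavg n (fun l => f (c :: l) b)) := fun c => ih _
    simp only [this]
    exact Eu_comm _

theorem inAt_length (l : List (Cube D → Bool)) (y : I → Cube D) : inAt l y l.length = y := by
  cases l with
  | nil => rfl
  | cons c l => simp [inAt]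

theorem inAt_cons_le (c : Cube D → Bool) (l : List (Cube D → Bool)) (x : I → Cube D) {i : ℕ}
    (hi : i ≤ l.length) : inAt (c :: l) x i = inAt l (stpT l.length c x) i := by
  simp only [inAt]
  rw [if_neg (by omega)]

theorem inAt_injective (l : List (Cube D → Bool)) {x : I → Cube D} (hx : Function.Injective x) (i : ℕ) :
    Function.Injective (inAt l x i) := by
  induction l generalizing x with
  | nil => exact hx
  | cons c l ih =>
    simp only [inAt]
    split_ifs
    · exact hx
    · exact ih (stpT_injective _ c hx)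

theorem renyi_chainE_congr {S C : Type} [Fintype C] [Nonempty C] (stp : ℕ → C → S → S) {Ψ Ψ' : ℕ → S → ℝ}
    (u : S) (n : ℕ) (h : ∀ i, i < n → ∀ v, Ψ i v = Ψ' i v) (Θ : S → ℝ) :
    chainE stp Ψ u n Θ = chainE stp Ψ' u n Θ := by
  induction n generalizing Θ with
  | zero => rfl
  | succ n ih =>
    simp only [chainE]
    refine congrArg _ (funext fun c => ?_)
    rw [ih (fun i hi => h i (by omega))]
    refine congrArg _ (funext fun v => ?_)
    rw [h n (Nat.lt_succ_self n)]

/-- `Eseq` is an average of chain expectations for fixed input coins. -/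
theorem Eseq_eq (n : ℕ) (x : I → Cube D) (Θ : (I → Cube D) → ℝ) :
    Eseq n x Θ = lavg n (fun l => chainE (stpT (D := D) (I := I))
      (fun i v => Ghat i (inAt l x i) v ^ ((1 : ℝ) / 20)) (inAt l x 0) n Θ) := by
  induction n generalizing x Θ with
  | zero => rfl
  | succ n ih =>
    simp only [Eseq, lavg]
    refine congrArg _ (funext fun c => ?_)
    simp only [ih]
    -- the inner expectation
    rw [← lavg_Eu]
    refine lavg_congr n fun l hl => ?_
    simp only [chainE]
    refine congrArg _ (funext fun c' => ?_)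
    have h0 : inAt (c :: l) x 0 = inAt l (stpT n c x) 0 := by
      rw [inAt_cons_le c l x (Nat.zero_le _), hl]
    rw [h0]
    have hΨ : chainE (stpT (D := D) (I := I))
        (fun i v => Ghat i (inAt l (stpT n c x) i) v ^ ((1 : ℝ) / 20)) (inAt l (stpT n c x) 0) n
        (fun u => Θ (stpT n c' u) * Ghat n (stpT n c x) u ^ ((1 : ℝ) / 20)) =
      chainE (stpT (D := D) (I := I))
        (fun i v => Ghat i (inAt (c :: l) x i) v ^ ((1 : ℝ) / 20)) (inAt l (stpT n c x) 0) n
        (fun u => Θ (stpT n c' u) * Ghat n (stpT n c x) u ^ ((1 : ℝ) / 20)) :=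
      renyi_chainE_congr _ _ n (fun i hi v => by rw [inAt_cons_le c l x (by omega), hl]) _
    rw [hΨ]
    refine congrArg _ (funext fun v => ?_)
    have h1 : inAt (c :: l) x n = stpT n c x := by
      rw [inAt_cons_le c l x (by omega), hl]
      have := inAt_length l (stpT n c x)
      rwa [hl] at this
    rw [h1]

/-- The Rényi constant. -/
noncomputable def Cren : ℝ := 15

theorem kstep_one {S C : Type} [Fintype C] [Nonempty C] (stp : ℕ → C → S → S) (a s : ℕ) (v : S) :
    kstep stp a s v (fun _ => 1) = 1 := by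
  induction s generalizing a v with
  | zero => rfl
  | succ s ih =>
    simp only [kstep, ih]
    exact Eu_const 1

/-- The chain bound for fixed input coins. -/
theorem chain_bound (l : List (Cube D → Bool)) (x : I → Cube D) (hx : Function.Injective x) (u : I → Cube D) :
    chainE (stpT (D := D) (I := I)) (fun i v => Ghat i (inAt l x i) v ^ ((1 : ℝ) / 20)) u D (fun _ => 1) ≤
      Real.exp (Cren * Fintype.card I) := by
  let F : ℕ → (I → Cube D) → ℝ := fun i v => if i < D then Ghat i (inAt l x i) v else 1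
  have hF1 : ∀ i v, 1 ≤ F i v := by
    intro i v
    simp only [F]
    split_ifs
    · exact Ghat_one_le _ _ _
    · exact le_rfl
  have hA : (0 : ℝ) ≤ (Fintype.card I : ℝ) / 2 := by positivity
  have H1 : ∀ (i s r : ℕ) (v : I → Cube D), s ≤ i →
      kstep (stpT (D := D) (I := I)) (i - s) s v (fun y => F i y ^ r) ≤
        Real.exp (2 ^ r * ((Fintype.card I : ℝ) / 2) * (3 / 4 : ℝ) ^ s) := by
    intro i s r v hs
    by_cases hi : i < D
    · simp only [F, if_pos hi]
      exact node_bound i s r hi hs (inAt l x i) (inAt_injective l hx i) v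
    · simp only [F, if_neg hi, one_pow]
      rw [kstep_one]
      exact Real.one_le_exp (by positivity)
  have hb := scheme_bound (stpT (D := D) (I := I)) F hF1 _ hA H1 D u
  have he : chainE (stpT (D := D) (I := I)) (fun i v => Ghat i (inAt l x i) v ^ ((1 : ℝ) / 20)) u D (fun _ => 1) =
      chainE (stpT (D := D) (I := I)) (fun i v => F i v ^ ((1 : ℝ) / 20)) u D (fun _ => 1) :=
    renyi_chainE_congr _ _ D (fun i hi v => by simp only [F, if_pos hi]) _
  rw [he]
  refine hb.trans (le_of_eq ?_)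
  unfold Cren
  congr 1
  ring

/-- T2: THE RÉNYI BOUND. -/
theorem renyi (x : I → Cube D) (hx : Function.Injective x) :
    ∑ y : I → Cube D, Pn D x y * ((2 : ℝ) ^ (D * Fintype.card I) * Pn D x y) ^ ((1 : ℝ) / 20) ≤
      Real.exp (Cren * Fintype.card I) := by
  have hN : (0 : ℝ) < (2 : ℝ) ^ (D * Fintype.card I) := by positivity
  have h1 : ∀ y : I → Cube D, Pn D x y * ((2 : ℝ) ^ (D * Fintype.card I) * Pn D x y) ^ ((1 : ℝ) / 20) =
      ((2 : ℝ) ^ (D * Fintype.card I))⁻¹ * ((1 : ℝ) * Wn D x y) := by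
    intro y
    unfold Wn Dn
    have hP := Pn_nonneg D x y
    by_cases h0 : Pn D x y = 0
    · simp [h0, Real.zero_rpow (by norm_num : ((21 : ℝ) / 20) ≠ 0)]
    · have hpos : 0 < (2 : ℝ) ^ (D * Fintype.card I) * Pn D x y := mul_pos hN (lt_of_le_of_ne hP (Ne.symm h0))
      rw [show ((21 : ℝ) / 20) = 1 + (1 : ℝ) / 20 by norm_num, Real.rpow_add hpos, Real.rpow_one]
      field_simp
  simp only [h1]
  rw [← Finset.mul_sum]
  have h2 := sum_W_le D le_rfl x hx (fun _ => 1) (fun _ => zero_le_one)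
  have h3 : ((2 : ℝ) ^ (D * Fintype.card I))⁻¹ * ∑ y : I → Cube D, (1 : ℝ) * Wn D x y ≤
      Eseq D x (fun _ => 1) := by
    rw [inv_mul_le_iff₀ hN]
    exact h2
  refine h3.trans ?_
  rw [Eseq_eq]
  have h4 := lavg_mono (D := D) D (f := fun l => chainE (stpT (D := D) (I := I))
      (fun i v => Ghat i (inAt l x i) v ^ ((1 : ℝ) / 20)) (inAt l x 0) D (fun _ => 1))
      (g := fun _ => Real.exp (Cren * Fintype.card I)) (fun l _ => chain_bound l x hx _)
  rwa [lavg_const] at h4

end Vale.Agent.P162O
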