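/-
P162 O(d), Part I: functions on tuples, the tuple representation on a subset of coordinates, coordinate averages.
-/
import Vale.Agent.P162O.Bonami

open scoped InnerProductSpace BigOperators
open Finset

namespace Vale.Agent.P162O
open Vale.Agent.P162

section
variable {I X : Type} [Fintype I] [DecidableEq I] [Fintype X] [DecidableEq X]

/-- ℓ² of all tuples. -/
abbrev TV (I X : Type) [Fintype I] [DecidableEq I] [Fintype X] := EuclideanSpace ℝ (I → X)

/-- `g` acting on the coordinates in `S`. -/
def actOn (S : Finset I) (g : Equiv.Perm X) : Equiv.Perm (I → X) where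
  toFun x i := if i ∈ S then g (x i) else x i
  invFun x i := if i ∈ S then g⁻¹ (x i) else x i
  left_inv x := by
    funext i
    by_cases h : i ∈ S <;> simp [h]
  right_inv x := by
    funext i
    by_cases h : i ∈ S <;> simp [h]

@[simp] theorem actOn_apply (S : Finset I) (g : Equiv.Perm X) (x : I → X) (i : I) :
    actOn S g x i = if i ∈ S then g (x i) else x i := rfl

@[simp] theorem actOn_symm_apply (S : Finset I) (g : Equiv.Perm X) (x : I → X) (i : I) :
    (actOn S g).symm x i = if i ∈ S then g⁻¹ (x i) else x i := rfl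

theorem actOn_mul (S : Finset I) (a b : Equiv.Perm X) : actOn S (a * b) = actOn S a * actOn S b := by
  ext x i
  by_cases h : i ∈ S <;> simp [h]

theorem actOn_one (S : Finset I) : actOn S (1 : Equiv.Perm X) = 1 := by
  ext x i
  by_cases h : i ∈ S <;> simp [h]

theorem Tuple_congr_apply (S : Finset I) (g : Equiv.Perm X) (f : TV I X) (x : I → X) :
    (LinearIsometryEquiv.piLpCongrLeft 2 ℝ ℝ (actOn S g : (I → X) ≃ (I → X)) f : TV I X) x =
      f ((actOn S g).symm x) := by
  simp [LinearIsometryEquiv.piLpCongrLeft_apply, Equiv.piCongrLeft']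

/-- The tuple representation on the coordinates in `S`: `(tupRep S g f) x = f (g⁻¹ on S)`. -/
noncomputable def tupRep (S : Finset I) : Equiv.Perm X →* (TV I X →L[ℝ] TV I X) where
  toFun g := ((LinearIsometryEquiv.piLpCongrLeft 2 ℝ ℝ (actOn S g : (I → X) ≃ (I → X)) :
    TV I X ≃ₗᵢ[ℝ] TV I X) : TV I X →L[ℝ] TV I X)
  map_one' := by
    ext f x
    show (LinearIsometryEquiv.piLpCongrLeft 2 ℝ ℝ (actOn S (1 : Equiv.Perm X) : (I → X) ≃ (I → X)) f : TV I X) x = f x
    rw [Tuple_congr_apply, actOn_one]
    rfl
  map_mul' := by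
    intro a b
    ext f x
    show (LinearIsometryEquiv.piLpCongrLeft 2 ℝ ℝ (actOn S (a * b) : (I → X) ≃ (I → X)) f : TV I X) x =
      (LinearIsometryEquiv.piLpCongrLeft 2 ℝ ℝ (actOn S a : (I → X) ≃ (I → X))
        (LinearIsometryEquiv.piLpCongrLeft 2 ℝ ℝ (actOn S b : (I → X) ≃ (I → X)) f : TV I X) : TV I X) x
    rw [Tuple_congr_apply, Tuple_congr_apply, Tuple_congr_apply, actOn_mul]
    rfl

@[simp] theorem tupRep_apply (S : Finset I) (g : Equiv.Perm X) (f : TV I X) (x : I → X) :
    tupRep S g f x = f ((actOn S g).symm x) :=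
  Tuple_congr_apply S g f x

theorem tupRep_orth (S : Finset I) : IsOrth (tupRep (X := X) S) := by
  intro g u v
  exact (LinearIsometryEquiv.piLpCongrLeft 2 ℝ ℝ (actOn S g : (I → X) ≃ (I → X)) :
    TV I X ≃ₗᵢ[ℝ] TV I X).inner_map_map u v

/-- `f` vanishes on tuples that are not injective on `S`. -/
def InjOnS (S : Finset I) (f : TV I X) : Prop :=
  ∀ x : I → X, ¬ Set.InjOn x (S : Set I) → f x = 0

/-- The tuples agreeing with `x` off `Q`. -/
def piF {α : Type} [Fintype α] [DecidableEq α] (Q : Finset I) (x : I → α) : Finset (I → α) :=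
  Fintype.piFinset (fun i => if i ∈ Q then (univ : Finset α) else {x i})

theorem mem_piF {α : Type} [Fintype α] [DecidableEq α] (Q : Finset I) (x w : I → α) :
    w ∈ piF Q x ↔ ∀ i, i ∉ Q → w i = x i := by
  simp only [piF, Fintype.mem_piFinset]
  constructor
  · intro h i hi
    have := h i
    simpa [hi] using this
  · intro h i
    by_cases hi : i ∈ Q
    · simp [hi]
    · simpa [hi] using h i hi

theorem Tuple_piF_symm {α : Type} [Fintype α] [DecidableEq α] (Q : Finset I) (x w : I → α) :
    w ∈ piF Q x ↔ x ∈ piF Q w := by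
  simp only [mem_piF]
  exact ⟨fun h i hi => (h i hi).symm, fun h i hi => (h i hi).symm⟩

theorem Tuple_piF_self {α : Type} [Fintype α] [DecidableEq α] (Q : Finset I) (x : I → α) :
    x ∈ piF Q x := by
  simp [mem_piF]

theorem Tuple_card_piF {α : Type} [Fintype α] [DecidableEq α] (Q : Finset I) (x : I → α) :
    (piF Q x).card = Fintype.card α ^ Q.card := by
  unfold piF
  rw [Fintype.card_piFinset]
  have h : ∀ i : I, (if i ∈ Q then (univ : Finset α) else {x i}).card =
      if i ∈ Q then Fintype.card α else 1 := by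
    intro i
    split_ifs <;> simp
  simp only [h]
  rw [Finset.prod_ite]
  simp

theorem Tuple_piF_congr {α : Type} [Fintype α] [DecidableEq α] (Q : Finset I) {x x' : I → α}
    (h : ∀ i, i ∉ Q → x i = x' i) : piF Q x = piF Q x' := by
  ext w
  simp only [mem_piF]
  exact ⟨fun hw i hi => (hw i hi).trans (h i hi), fun hw i hi => (hw i hi).trans (h i hi).symm⟩

/-- The average of `f` over the coordinates in `Q`. -/
noncomputable def avgFun (Q : Finset I) (f : (I → X) → ℝ) (x : I → X) : ℝ :=
  ((Fintype.card X : ℝ) ^ Q.card)⁻¹ * ∑ w ∈ piF Q x, f w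

/-- The average over the coordinates in `Q`, as an operator. -/
noncomputable def avgC (Q : Finset I) : TV I X →L[ℝ] TV I X :=
  LinearMap.toContinuousLinearMap
    { toFun := fun f => WithLp.toLp 2 (avgFun Q (fun x => f x))
      map_add' := by
        intro f g
        ext x
        simp [avgFun, Finset.sum_add_distrib, mul_add]
      map_smul' := by
        intro c f
        ext x
        simp only [avgFun, PiLp.smul_apply, smul_eq_mul, RingHom.id_apply]
        rw [← Finset.mul_sum]
        ring }

@[simp] theorem avgC_apply (Q : Finset I) (f : TV I X) (x : I → X) :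
    avgC Q f x = avgFun Q (fun x => f x) x := rfl

/-- Contraction. -/
theorem avgC_norm_le (Q : Finset I) (f : TV I X) : ‖avgC Q f‖ ≤ ‖f‖ := by
  classical
  rcases isEmpty_or_nonempty X with hX | hX
  · -- no tuples unless `I` is empty, and then the average is the identity on the point
    have hsq : ‖avgC Q f‖ ^ 2 ≤ ‖f‖ ^ 2 := by
      rw [EuclideanSpace.norm_sq_eq, EuclideanSpace.norm_sq_eq]
      rcases isEmpty_or_nonempty I with hI | hI
      · have hQ : Q = ∅ := by
          ext i
          exact (hI.false i).elim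
        subst hQ
        refine Finset.sum_le_sum fun x _ => ?_
        have : avgC (∅ : Finset I) f x = f x := by
          simp only [avgC_apply, avgFun]
          have hs : piF (∅ : Finset I) x = {x} := by
            ext w
            simp only [mem_piF, Finset.mem_singleton]
            constructor
            · intro h
              funext i
              exact h i (by simp)
            · rintro rfl i _
              rfl
          rw [hs]
          simp
        rw [this]
      · have : IsEmpty (I → X) := by
          obtain ⟨i⟩ := hI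
          exact ⟨fun x => hX.false (x i)⟩
        simp
    exact abs_le_of_sq_le_sq' hsq (norm_nonneg _) |>.2
  have hcard : (0 : ℝ) < (Fintype.card X : ℝ) ^ Q.card := by
    have : (0 : ℝ) < (Fintype.card X : ℝ) := by exact_mod_cast Fintype.card_pos
    positivity
  have hsq : ‖avgC Q f‖ ^ 2 ≤ ‖f‖ ^ 2 := by
    rw [EuclideanSpace.norm_sq_eq, EuclideanSpace.norm_sq_eq]
    simp only [Real.norm_eq_abs, sq_abs]
    have hpt : ∀ x : I → X, (avgC Q f x) ^ 2 ≤
        ((Fintype.card X : ℝ) ^ Q.card)⁻¹ * ∑ w ∈ piF Q x, (f w) ^ 2 := by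
      intro x
      simp only [avgC_apply, avgFun]
      have hcs : (∑ w ∈ piF Q x, f w) ^ 2 ≤ ((piF Q x).card : ℝ) * ∑ w ∈ piF Q x, (f w) ^ 2 :=
        sq_sum_le_card_mul_sum_sq
      have hc : ((piF Q x).card : ℝ) = (Fintype.card X : ℝ) ^ Q.card := by
        rw [Tuple_card_piF]
        push_cast
        rfl
      rw [hc] at hcs
      rw [mul_pow]
      have hne : (Fintype.card X : ℝ) ^ Q.card ≠ 0 := hcard.ne'
      have : ((Fintype.card X : ℝ) ^ Q.card)⁻¹ ^ 2 * (∑ w ∈ piF Q x, f w) ^ 2 ≤
          ((Fintype.card X : ℝ) ^ Q.card)⁻¹ ^ 2 * ((Fintype.card X : ℝ) ^ Q.card * ∑ w ∈ piF Q x, (f w) ^ 2) := by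
        exact mul_le_mul_of_nonneg_left hcs (by positivity)
      refine this.trans (le_of_eq ?_)
      field_simp
    have hswap : ∑ x : I → X, ∑ w ∈ piF Q x, (f w) ^ 2 =
        ∑ w : I → X, ∑ x ∈ piF Q w, (f w) ^ 2 := by
      refine Finset.sum_comm' ?_
      intro x w
      simp only [Finset.mem_univ, and_true, true_and]
      exact Tuple_piF_symm Q x w
    calc ∑ x, (avgC Q f x) ^ 2 ≤ ∑ x, ((Fintype.card X : ℝ) ^ Q.card)⁻¹ * ∑ w ∈ piF Q x, (f w) ^ 2 :=
          Finset.sum_le_sum fun x _ => hpt x
      _ = ((Fintype.card X : ℝ) ^ Q.card)⁻¹ * ∑ x, ∑ w ∈ piF Q x, (f w) ^ 2 := by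
          rw [Finset.mul_sum]
      _ = ((Fintype.card X : ℝ) ^ Q.card)⁻¹ * ∑ w, ∑ x ∈ piF Q w, (f w) ^ 2 := by rw [hswap]
      _ = ∑ w, (f w) ^ 2 := by
          rw [Finset.mul_sum]
          refine Finset.sum_congr rfl fun w _ => ?_
          rw [Finset.sum_const, Tuple_card_piF, nsmul_eq_mul]
          push_cast
          have hne : (Fintype.card X : ℝ) ^ Q.card ≠ 0 := hcard.ne'
          field_simp
  exact (abs_le_of_sq_le_sq' hsq (norm_nonneg _)).2

theorem avgC_empty (f : TV I X) : avgC ∅ f = f := by
  ext x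
  simp only [avgC_apply, avgFun]
  have hs : piF (∅ : Finset I) x = {x} := by
    ext w
    simp only [mem_piF, Finset.mem_singleton]
    constructor
    · intro h
      funext i
      exact h i (by simp)
    · rintro rfl i _
      rfl
  rw [hs]
  simp

/-- Composition for disjoint sets. -/
theorem avgC_avgC (Q Q' : Finset I) (h : Disjoint Q Q') (f : TV I X) :
    avgC Q (avgC Q' f) = avgC (Q ∪ Q') f := by
  ext x
  simp only [avgC_apply, avgFun]
  rw [← Finset.mul_sum]
  rw [← mul_assoc, Finset.card_union_of_disjoint h, pow_add, mul_inv]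
  congr 1
  have key : ∑ w ∈ piF Q x, ∑ v ∈ piF Q' w, f v =
      ∑ v ∈ piF (Q ∪ Q') x, ∑ w ∈ ({fun i => if i ∈ Q then v i else x i} : Finset (I → X)), f v := by
    refine Finset.sum_comm' ?_
    intro w v
    simp only [mem_piF, Finset.mem_singleton, Finset.mem_union, not_or, and_imp]
    constructor
    · rintro ⟨hw, hv⟩
      constructor
      · funext i
        by_cases hi : i ∈ Q
        · have hi' : i ∉ Q' := Finset.disjoint_left.1 h hi
          simp [hi, hv i hi']
        · simp [hi, hw i hi]
      · intro i hi hi'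
        rw [hv i hi', hw i hi]
    · rintro ⟨rfl, hv⟩
      constructor
      · intro i hi
        simp [hi]
      · intro i hi'
        by_cases hi : i ∈ Q
        · simp [hi]
        · simp [hi, hv i hi hi']
  rw [key]
  simp

/-- The average over `Q` does not see the coordinates in `Q`. -/
theorem avgC_apply_congr (Q : Finset I) (f : TV I X) {x x' : I → X} (h : ∀ i, i ∉ Q → x i = x' i) :
    avgC Q f x = avgC Q f x' := by
  simp only [avgC_apply, avgFun]
  rw [Tuple_piF_congr Q h]

/-- `avgC Q` commutes with the action on any `S`. -/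
theorem avgC_tupRep (Q S : Finset I) (g : Equiv.Perm X) (f : TV I X) :
    avgC Q (tupRep S g f) = tupRep S g (avgC Q f) := by
  ext x
  simp only [tupRep_apply, avgC_apply, avgFun]
  congr 1
  refine Finset.sum_equiv (actOn S g).symm ?_ ?_
  · intro w
    simp only [mem_piF, actOn_symm_apply]
    constructor
    · intro hw i hi
      rw [hw i hi]
    · intro hw i hi
      have := hw i hi
      by_cases hS : i ∈ S
      · simp only [hS, if_true] at this
        exact g⁻¹.injective this
      · simpa [hS] using this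
  · intro w _
    rfl

/-- The action on `S` and the action on `S ∖ Q` coincide on the range of `avgC Q`. -/
theorem tupRep_avgC_sdiff (Q S : Finset I) (g : Equiv.Perm X) (f : TV I X) :
    tupRep (S \ Q) g (avgC Q f) = tupRep S g (avgC Q f) := by
  ext x
  simp only [tupRep_apply]
  refine avgC_apply_congr Q f ?_
  intro i hi
  simp [hi]

theorem tupRep_disjoint_comm (S S' : Finset I) (h : Disjoint S S') (g g' : Equiv.Perm X) :
    Commute (tupRep S g) (tupRep (X := X) S' g') := by
  show tupRep S g * tupRep (X := X) S' g' = tupRep S' g' * tupRep S g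
  ext f x
  show tupRep S g (tupRep S' g' f) x = tupRep S' g' (tupRep S g f) x
  simp only [tupRep_apply]
  have e : (actOn S' g').symm ((actOn S g).symm x) = (actOn S g).symm ((actOn S' g').symm x) := by
    funext i
    simp only [actOn_symm_apply]
    by_cases hi : i ∈ S
    · have hi' : i ∉ S' := Finset.disjoint_left.1 h hi
      simp [hi, hi']
    · simp [hi]
  rw [e]

theorem InjOnS.tupRep {S S' : Finset I} {f : TV I X} (hf : InjOnS S f) (g : Equiv.Perm X)
    (h : S ⊆ S' ∨ Disjoint S S') :
    InjOnS S (tupRep S' g f) := by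
  intro x hx
  rw [tupRep_apply]
  refine hf _ ?_
  intro hinj
  apply hx
  intro i hi j hj hij
  apply hinj hi hj
  simp only [actOn_symm_apply]
  rcases h with h | h
  · simp [h hi, h hj, hij]
  · have hi' : i ∉ S' := Finset.disjoint_left.1 h hi
    have hj' : j ∉ S' := Finset.disjoint_left.1 h hj
    simp [hi', hj', hij]

theorem InjOnS.avgC {S Q : Finset I} {f : TV I X} (hf : InjOnS S f) :
    InjOnS (S \ Q) (avgC Q f) := by
  intro x hx
  simp only [avgC_apply, avgFun]
  have h0 : ∑ w ∈ piF Q x, f w = 0 := by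
    refine Finset.sum_eq_zero fun w hw => hf w ?_
    intro hinj
    apply hx
    intro i hi j hj hij
    have hiS := Finset.mem_coe.1 hi
    have hjS := Finset.mem_coe.1 hj
    simp only [Finset.mem_sdiff] at hiS hjS
    apply hinj (Finset.mem_coe.2 hiS.1) (Finset.mem_coe.2 hjS.1)
    rw [(mem_piF Q x w).1 hw i hiS.2, (mem_piF Q x w).1 hw j hjS.2, hij]
  rw [h0, mul_zero]

end

section net
variable {D : ℕ} {V W : Type*} [NormedAddCommGroup V] [InnerProductSpace ℝ V]
  [NormedAddCommGroup W] [InnerProductSpace ℝ W]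

/-- Functoriality of the network: an intertwiner commutes with the network. -/
theorem net_intertwine (π : Equiv.Perm (Cube D) →* (V →L[ℝ] V)) (ρ : Equiv.Perm (Cube D) →* (W →L[ℝ] W))
    (T : V →L[ℝ] W) (hT : ∀ g f, T (π g f) = ρ g (T f)) (f : V) :
    T (net π f) = net ρ (T f) := by
  have havg : ∀ (H : Subgroup (Equiv.Perm (Cube D))) (u : V), T (avgOn π H u) = avgOn ρ H (T u) := by
    intro H u
    simp only [avgOn, smul_apply, _root_.sum_apply, map_smul, map_sum, hT]
  have key : ∀ k (u : V), T (netP π k u) = netP ρ k (T u) := by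
    intro k
    induction k with
    | zero => intro u; rfl
    | succ k ih =>
      intro u
      show T ((netP π k) (Qk π k u)) = (netP ρ k) (Qk ρ k (T u))
      rw [ih, havg]
  exact key D f

end net

end Vale.Agent.P162O
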