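/-
P162 O(d), Part I: the core estimates on the signed sums: Lemma K and the admissibility structure.
Setting: Y finite, m = |Y|, I finite, k = |I|. Positions Y × Bool written as (y,e). A layer-invariant function that
vanishes on non-injective tuples has the form u(y,e) = 1[Val y e] g(y).
-/
import Vale.Agent.P162O.Tuple

open scoped InnerProductSpace BigOperators
open Finset

namespace Vale.Agent.P162O
open Vale.Agent.P162

variable {I Y : Type} [Fintype I] [DecidableEq I] [Fintype Y] [DecidableEq Y]

/-- `u(y,e) = 1[Val y e] g(y)`. -/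
def uFun (g : (I → Y) → ℝ) (y : I → Y) (e : I → Bool) : ℝ :=
  if ValOn univ y e then g y else 0

/-- `C_Q u (y,e) = ∑_{b ∈ F_Q y} ∑_{ε ∈ F_Q e} ∏_{i∈Q} σ(ε i) u(b,ε)`. -/
def CQ (Q : Finset I) (g : (I → Y) → ℝ) (y : I → Y) (e : I → Bool) : ℝ :=
  ∑ b ∈ piF Q y, ∑ ε ∈ piF Q e, (∏ i ∈ Q, sgn (ε i)) * uFun g b ε

/-- The attached coordinates. -/
def attJ (Q : Finset I) (b : I → Y) : Finset I :=
  univ.filter (fun j => j ∉ Q ∧ ∃ i ∈ Q, b i = b j)

/-- Every coordinate of `Q` has exactly one companion on its switch. -/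
def Adm (Q : Finset I) (b : I → Y) : Prop :=
  ∀ i ∈ Q, (univ.filter (fun l => b l = b i)).card = 2

instance (Q : Finset I) (b : I → Y) : Decidable (Adm Q b) := by
  unfold Adm; infer_instance

/-- `p`: the number of switches with both coordinates in `Q` (when `Adm`). -/
def pairsP (Q : Finset I) (b : I → Y) : ℕ := (Q.card - (attJ Q b).card) / 2

omit [Fintype Y] in
theorem mem_attJ {Q : Finset I} {b : I → Y} {j : I} :
    j ∈ attJ Q b ↔ j ∉ Q ∧ ∃ i ∈ Q, b i = b j := by
  simp [attJ]

omit [Fintype Y] in
/-- A fibre of size two: `i` has a unique companion. -/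
theorem fiber_two_partner {b : I → Y} {i : I}
    (h : (univ.filter (fun l => b l = b i)).card = 2) :
    ∃ j, j ≠ i ∧ b j = b i ∧ ∀ l, b l = b i → l = i ∨ l = j := by
  obtain ⟨x, y, hxy, hs⟩ := Finset.card_eq_two.mp h
  have hi : i ∈ univ.filter (fun l => b l = b i) := by simp
  rw [hs] at hi
  simp only [mem_insert, mem_singleton] at hi
  have hmem : ∀ l, b l = b i ↔ l = x ∨ l = y := by
    intro l
    have : l ∈ univ.filter (fun l => b l = b i) ↔ l ∈ ({x, y} : Finset I) := by rw [hs]
    simpa using this
  rcases hi with rfl | rfl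
  · exact ⟨y, hxy.symm, (hmem y).mpr (Or.inr rfl), fun l hl => (hmem l).mp hl⟩
  · exact ⟨x, hxy, (hmem x).mpr (Or.inl rfl), fun l hl => by
      rcases (hmem l).mp hl with h | h
      · exact Or.inr h
      · exact Or.inl h⟩

omit [Fintype Y] in
theorem fiber_two_of_partner {b : I → Y} {i j : I} (hj : j ≠ i) (hb : b j = b i)
    (hu : ∀ l, b l = b i → l = i ∨ l = j) :
    (univ.filter (fun l => b l = b i)).card = 2 := by
  apply Finset.card_eq_two.mpr
  refine ⟨i, j, hj.symm, ?_⟩
  ext l
  simp only [mem_filter, mem_univ, true_and, mem_insert, mem_singleton]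
  constructor
  · exact hu l
  · rintro (rfl | rfl)
    · rfl
    · exact hb

omit [DecidableEq I] [Fintype Y] in
theorem Adm.mono {Q Q' : Finset I} {b : I → Y} (h : Adm Q' b) (hs : Q ⊆ Q') : Adm Q b :=
  fun i hi => h i (hs hi)

/-- `i₀` on the switch of a coordinate of `Q`. -/
theorem attJ_insert_of_mem {Q : Finset I} {b : I → Y} {i₀ i : I} (hi₀ : i₀ ∉ Q) (hi : i ∈ Q)
    (hb : b i = b i₀) (hu : ∀ l, b l = b i₀ → l = i₀ ∨ l = i) :
    i₀ ∈ attJ Q b ∧ attJ (insert i₀ Q) b = (attJ Q b).erase i₀ := by
  refine ⟨mem_attJ.mpr ⟨hi₀, i, hi, hb⟩, ?_⟩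
  ext j
  simp only [mem_attJ, mem_erase, mem_insert, not_or]
  constructor
  · rintro ⟨⟨h1, h2⟩, i', hi', hb'⟩
    refine ⟨h1, h2, ?_⟩
    rcases hi' with rfl | hi'
    · rcases hu j hb'.symm with h | h
      · exact absurd h h1
      · exact absurd (h ▸ hi) h2
    · exact ⟨i', hi', hb'⟩
  · rintro ⟨h1, h2, i', hi', hb'⟩
    exact ⟨⟨h1, h2⟩, i', Or.inr hi', hb'⟩

/-- `i₀` has a unique companion `j` outside `Q`. -/
theorem attJ_insert_of_not_mem {Q : Finset I} {b : I → Y} {i₀ j : I} (hi₀ : i₀ ∉ Q) (hjQ : j ∉ Q)
    (hji : j ≠ i₀) (hb : b j = b i₀) (hu : ∀ l, b l = b i₀ → l = i₀ ∨ l = j) :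
    i₀ ∉ attJ Q b ∧ j ∉ attJ Q b ∧ attJ (insert i₀ Q) b = insert j (attJ Q b) := by
  refine ⟨?_, ?_, ?_⟩
  · rw [mem_attJ]
    rintro ⟨_, i', hi', hb'⟩
    rcases hu i' hb' with h | h
    · exact hi₀ (h ▸ hi')
    · exact hjQ (h ▸ hi')
  · rw [mem_attJ]
    rintro ⟨_, i', hi', hb'⟩
    rcases hu i' (hb'.trans hb) with h | h
    · exact hi₀ (h ▸ hi')
    · exact hjQ (h ▸ hi')
  · ext l
    simp only [mem_attJ, mem_insert, not_or]
    constructor
    · rintro ⟨⟨h1, h2⟩, i', hi', hb'⟩
      rcases hi' with rfl | hi'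
      · rcases hu l hb'.symm with h | h
        · exact absurd h h1
        · exact Or.inl h
      · exact Or.inr ⟨h2, i', hi', hb'⟩
    · rintro (rfl | ⟨h2, i', hi', hb'⟩)
      · exact ⟨⟨hji, hjQ⟩, i₀, Or.inl rfl, hb.symm⟩
      · refine ⟨⟨?_, h2⟩, i', Or.inr hi', hb'⟩
        rintro rfl
        rcases hu i' hb' with h | h
        · exact hi₀ (h ▸ hi')
        · exact hjQ (h ▸ hi')

/-- Parity structure under `Adm`. -/
theorem adm_exists_card {Q : Finset I} {b : I → Y} (h : Adm Q b) :
    ∃ p, Q.card = (attJ Q b).card + 2 * p := by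
  induction Q using Finset.induction_on with
  | empty => exact ⟨0, by simp [attJ]⟩
  | insert i₀ Q hi₀ ih =>
    obtain ⟨p, hp⟩ := ih (h.mono (subset_insert _ _))
    obtain ⟨j, hji, hb, hu⟩ := fiber_two_partner (h i₀ (mem_insert_self _ _))
    by_cases hjQ : j ∈ Q
    · obtain ⟨h1, h2⟩ := attJ_insert_of_mem hi₀ hjQ hb hu
      refine ⟨p + 1, ?_⟩
      rw [h2, card_insert_of_notMem hi₀, card_erase_of_mem h1]
      have : 0 < (attJ Q b).card := card_pos.mpr ⟨_, h1⟩
      omega
    · obtain ⟨_, h1, h2⟩ := attJ_insert_of_not_mem hi₀ hjQ hji hb hu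
      refine ⟨p, ?_⟩
      rw [h2, card_insert_of_notMem hi₀, card_insert_of_notMem h1]
      omega

theorem adm_card {Q : Finset I} {b : I → Y} (h : Adm Q b) :
    Q.card = (attJ Q b).card + 2 * pairsP Q b := by
  obtain ⟨p, hp⟩ := adm_exists_card h
  unfold pairsP
  omega

/-- Under `Adm`, the attached coordinates are singles of `b` on `Qᶜ`, and `q = |J| + 2p`. -/
theorem adm_attJ_single {Q : Finset I} {b : I → Y} (h : Adm Q b) (j : I) (hj : j ∈ attJ Q b) :
    SingleOn Qᶜ b j := by
  obtain ⟨hjQ, i, hi, hb⟩ := mem_attJ.mp hj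
  refine ⟨by simpa using hjQ, ?_⟩
  intro l hl hlb
  obtain ⟨j', _, _, hu⟩ := fiber_two_partner (h i hi)
  have hlQ : l ∉ Q := by simpa using hl
  rcases hu l (hlb.trans hb.symm) with h1 | h1
  · exact absurd (h1 ▸ hi) hlQ
  · rcases hu j hb.symm with h2 | h2
    · exact absurd (h2 ▸ hi) hjQ
    · exact h1.trans h2.symm

/-- The number of companions structure: under `Adm` and `NoTriple`, dblCount relations. -/
theorem adm_dbl {Q : Finset I} {b : I → Y} (h : Adm Q b) (hb : NoTriple univ b) :
    dblCount univ b = dblCount Qᶜ b + (attJ Q b).card + pairsP Q b := by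
  have hcard := adm_card h
  set Dall := (univ : Finset I).filter (fun i => ∃ j ∈ (univ : Finset I), j ≠ i ∧ b j = b i) with hDall
  set Dc := (Qᶜ).filter (fun i => ∃ j ∈ Qᶜ, j ≠ i ∧ b j = b i) with hDc
  have hsplit : Dall = Dc ∪ (Q ∪ attJ Q b) := by
    ext i
    simp only [hDall, hDc, mem_filter, mem_univ, true_and, mem_union, mem_compl, mem_attJ]
    constructor
    · rintro ⟨j, hji, hbj⟩
      by_cases hiQ : i ∈ Q
      · exact Or.inr (Or.inl hiQ)
      · by_cases hjQ : j ∈ Q
        · exact Or.inr (Or.inr ⟨hiQ, j, hjQ, hbj⟩)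
        · exact Or.inl ⟨hiQ, j, hjQ, hji, hbj⟩
    · rintro (⟨_, j, _, hji, hbj⟩ | hiQ | ⟨hiQ, i', hi', hbi⟩)
      · exact ⟨j, hji, hbj⟩
      · obtain ⟨j, hji, hbj, _⟩ := fiber_two_partner (h i hiQ)
        exact ⟨j, hji, hbj⟩
      · refine ⟨i', ?_, hbi⟩
        rintro rfl
        exact hiQ hi'
  have hd1 : Disjoint Q (attJ Q b) := by
    rw [Finset.disjoint_left]
    intro i hi hi'
    exact (mem_attJ.mp hi').1 hi
  have hd2 : Disjoint Dc (Q ∪ attJ Q b) := by
    rw [Finset.disjoint_left]
    intro i hi hi'
    simp only [hDc, mem_filter, mem_compl] at hi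
    rcases mem_union.mp hi' with h1 | h1
    · exact hi.1 h1
    · obtain ⟨hiQ, i', hi', hbi⟩ := mem_attJ.mp h1
      obtain ⟨j, hjQ, hji, hbj⟩ := hi.2
      obtain ⟨j', _, _, hu⟩ := fiber_two_partner (h i' hi')
      rcases hu i hbi.symm with h2 | h2
      · exact hi.1 (h2 ▸ hi')
      · rcases hu j (hbj.trans hbi.symm) with h3 | h3
        · exact hjQ (h3 ▸ hi')
        · exact hji (h3.trans h2.symm)
  have hc : Dall.card = Dc.card + (Q.card + (attJ Q b).card) := by
    rw [hsplit, card_union_of_disjoint hd2, card_union_of_disjoint hd1]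
  unfold dblCount
  rw [← hDall, ← hDc, hc]
  omega

omit [Fintype Y] [DecidableEq Y] in
/-- Validity after updating a coordinate. -/
theorem valOn_update_iff {Q : Finset I} {b : I → Y} {i₀ : I} (hi₀ : i₀ ∉ Q) (e : I → Bool) (a : Bool) :
    ValOn Qᶜ b (Function.update e i₀ a) ↔
      ValOn (insert i₀ Q)ᶜ b e ∧ ∀ l, l ∉ Q → l ≠ i₀ → b l = b i₀ → a ≠ e l := by
  constructor
  · intro h
    refine ⟨?_, ?_⟩
    · intro i hi j hj hij hb
      simp only [mem_compl, mem_insert, not_or] at hi hj
      have := h i (by simpa using hi.2) j (by simpa using hj.2) hij hb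
      rwa [Function.update_of_ne hi.1, Function.update_of_ne hj.1] at this
    · intro l hl hli hb
      have := h i₀ (by simpa using hi₀) l (by simpa using hl) hli.symm hb.symm
      rwa [Function.update_self, Function.update_of_ne hli] at this
  · rintro ⟨h1, h2⟩ i hi j hj hij hb
    simp only [mem_compl] at hi hj
    by_cases hii : i = i₀
    · subst hii
      have hji : j ≠ i := hij.symm
      rw [Function.update_self, Function.update_of_ne hji]
      exact h2 j hj hji hb.symm
    · by_cases hjj : j = i₀
      · subst hjj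
        rw [Function.update_self, Function.update_of_ne hii]
        exact (h2 i hi hii hb).symm
      · rw [Function.update_of_ne hii, Function.update_of_ne hjj]
        exact h1 i (by simp [hi, hii]) j (by simp [hj, hjj]) hij hb

omit [Fintype I] [DecidableEq Y] [Fintype Y] in
theorem chi_update_of_not_mem {J : Finset I} {i₀ : I} (h : i₀ ∉ J) (e : I → Bool) (a : Bool) :
    chi J (Function.update e i₀ a) = chi J e := by
  unfold chi
  apply Finset.prod_congr rfl
  intro j hj
  rw [Function.update_of_ne]
  rintro rfl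
  exact h hj

theorem chi_update_of_mem {J : Finset I} {i₀ : I} (h : i₀ ∈ J) (e : I → Bool) (a : Bool) :
    chi J (Function.update e i₀ a) = sgn a * chi (J.erase i₀) e := by
  rw [← chi_update_of_not_mem (notMem_erase i₀ J) e a]
  unfold chi
  rw [← Finset.mul_prod_erase J _ h, Function.update_self]

omit [Fintype I] [DecidableEq Y] [Fintype Y] in
theorem chi_insert {J : Finset I} {j : I} (h : j ∉ J) (e : I → Bool) :
    chi (insert j J) e = sgn (e j) * chi J e := by
  unfold chi
  rw [Finset.prod_insert h]

/-- The signed kernel. -/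
noncomputable def kerK (Q : Finset I) (b : I → Y) (e : I → Bool) : ℝ :=
  ∑ ε ∈ piF Q e, (∏ i ∈ Q, sgn (ε i)) * (if ValOn univ b ε then (1 : ℝ) else 0)

omit [Fintype Y] in
/-- The recursion for the kernel. -/
theorem kerK_insert {Q : Finset I} {i₀ : I} (hi₀ : i₀ ∉ Q) (b : I → Y) (e : I → Bool) :
    kerK (insert i₀ Q) b e = ∑ a : Bool, sgn a * kerK Q b (Function.update e i₀ a) := by
  unfold kerK
  rw [← Finset.sum_fiberwise (piF (insert i₀ Q) e) (fun ε => ε i₀)]
  apply Finset.sum_congr rfl
  intro a _
  have hset : (piF (insert i₀ Q) e).filter (fun ε => ε i₀ = a) = piF Q (Function.update e i₀ a) := by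
    ext w
    simp only [mem_filter, mem_piF]
    constructor
    · rintro ⟨h1, h2⟩ i hi
      by_cases hii : i = i₀
      · subst hii
        rw [Function.update_self, h2]
      · rw [Function.update_of_ne hii]
        exact h1 i (by simp [hii, hi])
    · intro h
      refine ⟨?_, ?_⟩
      · intro i hi
        simp only [mem_insert, not_or] at hi
        rw [h i hi.2, Function.update_of_ne hi.1]
      · rw [h i₀ hi₀, Function.update_self]
  rw [hset, Finset.mul_sum]
  apply Finset.sum_congr rfl
  intro w hw
  rw [Finset.prod_insert hi₀]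
  have : w i₀ = a := by
    rw [mem_piF] at hw
    rw [hw i₀ hi₀, Function.update_self]
  rw [this]
  ring

/-- LEMMA K, with `kerK`. -/
theorem kerK_formula (Q : Finset I) (b : I → Y) :
    ∃ c : ℝ, |c| ≤ 2 ^ pairsP Q b ∧ (c ≠ 0 → Adm Q b) ∧
      ∀ e : I → Bool, kerK Q b e =
        c * (if ValOn Qᶜ b e then (1 : ℝ) else 0) * chi (attJ Q b) e := by
  classical
  induction Q using Finset.induction_on with
  | empty =>
    refine ⟨1, by simp [pairsP, attJ], fun _ i hi => absurd hi (by simp), ?_⟩
    intro e
    have hp : piF (∅ : Finset I) e = {e} := by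
      ext w
      simp only [mem_piF, mem_singleton, notMem_empty, not_false_eq_true, forall_true_left]
      exact ⟨fun h => funext h, fun h => by simp [h]⟩
    rw [kerK, hp, Finset.sum_singleton]
    simp [attJ, chi]
  | insert i₀ Q hi₀ ih =>
    obtain ⟨c, hc, hadm, hK⟩ := ih
    -- zero case
    have hzero : (∀ e, kerK (insert i₀ Q) b e = 0) →
        ∃ c' : ℝ, |c'| ≤ 2 ^ pairsP (insert i₀ Q) b ∧ (c' ≠ 0 → Adm (insert i₀ Q) b) ∧
          ∀ e : I → Bool, kerK (insert i₀ Q) b e =
            c' * (if ValOn (insert i₀ Q)ᶜ b e then (1 : ℝ) else 0) * chi (attJ (insert i₀ Q) b) e := by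
      intro h
      refine ⟨0, by simp, fun h' => absurd rfl h', fun e => by simp [h e]⟩
    by_cases hc0 : c = 0
    · apply hzero
      intro e
      rw [kerK_insert hi₀]
      apply Finset.sum_eq_zero
      intro a _
      rw [hK, hc0]
      ring
    have hA : Adm Q b := hadm hc0
    have hp := adm_card hA
    by_cases hpart : ∃ i ∈ Q, b i = b i₀
    · -- `i₀` attached to a coordinate of `Q`
      obtain ⟨i, hi, hbi⟩ := hpart
      obtain ⟨j, hji, hbj, hu'⟩ := fiber_two_partner (hA i hi)
      have hi₀i : i₀ ≠ i := fun h => hi₀ (h ▸ hi)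
      have hi₀j : i₀ = j := by
        rcases hu' i₀ hbi.symm with h | h
        · exact absurd h hi₀i
        · exact h
      subst hi₀j
      have hu : ∀ l, b l = b i₀ → l = i₀ ∨ l = i := by
        intro l hl
        rcases hu' l (hl.trans hbi.symm) with h | h
        · exact Or.inr h
        · exact Or.inl h
      obtain ⟨hJ, hJ'⟩ := attJ_insert_of_mem hi₀ hi hbi hu
      have hA' : Adm (insert i₀ Q) b := by
        intro l hl
        rcases mem_insert.mp hl with rfl | hl
        · rw [← hbi]
          exact hA i hi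
        · exact hA l hl
      have hp' := adm_card hA'
      have hpP : pairsP (insert i₀ Q) b = pairsP Q b + 1 := by
        have h1 : (attJ (insert i₀ Q) b).card = (attJ Q b).card - 1 := by
          rw [hJ', card_erase_of_mem hJ]
        have h2 : 0 < (attJ Q b).card := card_pos.mpr ⟨_, hJ⟩
        rw [card_insert_of_notMem hi₀] at hp'
        omega
      refine ⟨2 * c, ?_, fun _ => hA', ?_⟩
      · rw [hpP, pow_succ, abs_mul]
        simp only [Nat.abs_ofNat]
        linarith
      · intro e
        rw [kerK_insert hi₀, hJ']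
        have hval : ∀ a : Bool, ValOn Qᶜ b (Function.update e i₀ a) ↔ ValOn (insert i₀ Q)ᶜ b e := by
          intro a
          rw [valOn_update_iff hi₀]
          constructor
          · exact fun h => h.1
          · refine fun h => ⟨h, ?_⟩
            intro l hl hli hbl
            rcases hu l hbl with h' | h'
            · exact absurd h' hli
            · exact absurd (h' ▸ hi) hl
        have hterm : ∀ a : Bool, sgn a * kerK Q b (Function.update e i₀ a) =
            c * (if ValOn (insert i₀ Q)ᶜ b e then (1 : ℝ) else 0) * chi ((attJ Q b).erase i₀) e := by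
          intro a
          rw [hK, chi_update_of_mem hJ]
          simp only [hval a]
          have := sgn_mul_self a
          calc sgn a * (c * (if ValOn (insert i₀ Q)ᶜ b e then (1 : ℝ) else 0) *
                (sgn a * chi ((attJ Q b).erase i₀) e))
              = (sgn a * sgn a) * (c * (if ValOn (insert i₀ Q)ᶜ b e then (1 : ℝ) else 0) *
                chi ((attJ Q b).erase i₀) e) := by ring
            _ = _ := by rw [this, one_mul]
        simp only [hterm]
        simp only [Finset.sum_const, Finset.card_univ, Fintype.card_bool, nsmul_eq_mul]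
        push_cast
        ring
    · -- no coordinate of `Q` on the switch of `i₀`
      have hnotJ : i₀ ∉ attJ Q b := by
        rw [mem_attJ]
        rintro ⟨_, i, hi, hb⟩
        exact hpart ⟨i, hi, hb⟩
      have hnotQ : ∀ l, l ≠ i₀ → b l = b i₀ → l ∉ Q := by
        intro l _ hb hl
        exact hpart ⟨l, hl, hb⟩
      have hterm : ∀ e (a : Bool), sgn a * kerK Q b (Function.update e i₀ a) =
          c * chi (attJ Q b) e * (sgn a * (if ValOn Qᶜ b (Function.update e i₀ a) then (1 : ℝ) else 0)) := by
        intro e a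
        rw [hK, chi_update_of_not_mem hnotJ]
        ring
      by_cases hex : ∃ j, j ≠ i₀ ∧ b j = b i₀
      · obtain ⟨j, hji, hbj⟩ := hex
        by_cases hex2 : ∃ j', j' ≠ i₀ ∧ j' ≠ j ∧ b j' = b i₀
        · -- three coordinates on the switch
          obtain ⟨j', hj'i, hj'j, hbj'⟩ := hex2
          apply hzero
          intro e
          rw [kerK_insert hi₀]
          apply Finset.sum_eq_zero
          intro a _
          rw [hterm]
          have hnv : ¬ ValOn Qᶜ b (Function.update e i₀ a) := by
            rw [valOn_update_iff hi₀]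
            rintro ⟨h1, h2⟩
            have h3 := h2 j (hnotQ j hji hbj) hji hbj
            have h4 := h2 j' (hnotQ j' hj'i hbj') hj'i hbj'
            have h5 := h1 j (by simp [hji, hnotQ j hji hbj]) j' (by simp [hj'i, hnotQ j' hj'i hbj'])
              hj'j.symm (hbj.trans hbj'.symm)
            revert h3 h4 h5
            cases a <;> cases e j <;> cases e j' <;> simp
          simp [hnv]
        · -- exactly one companion, outside `Q`
          have hu : ∀ l, b l = b i₀ → l = i₀ ∨ l = j := by
            intro l hl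
            by_contra hcon
            push Not at hcon
            exact hex2 ⟨l, hcon.1, hcon.2, hl⟩
          have hjQ := hnotQ j hji hbj
          obtain ⟨_, h1, h2⟩ := attJ_insert_of_not_mem hi₀ hjQ hji hbj hu
          have hA' : Adm (insert i₀ Q) b := by
            intro l hl
            rcases mem_insert.mp hl with rfl | hl
            · exact fiber_two_of_partner hji hbj hu
            · exact hA l hl
          have hp' := adm_card hA'
          have hpP : pairsP (insert i₀ Q) b = pairsP Q b := by
            rw [h2, card_insert_of_notMem hi₀, card_insert_of_notMem h1] at hp'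
            omega
          refine ⟨-c, ?_, fun _ => hA', ?_⟩
          · rw [hpP, abs_neg]
            exact hc
          · intro e
            rw [kerK_insert hi₀, h2, chi_insert h1]
            simp only [hterm]
            simp only [valOn_update_iff hi₀]
            rw [Fintype.sum_bool]
            by_cases hv : ValOn (insert i₀ Q)ᶜ b e
            · have hcond : ∀ a : Bool, (∀ l, l ∉ Q → l ≠ i₀ → b l = b i₀ → a ≠ e l) ↔ a ≠ e j := by
                intro a
                constructor
                · intro h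
                  exact h j hjQ hji hbj
                · intro h l hl hli hbl
                  rcases hu l hbl with h' | h'
                  · exact absurd h' hli
                  · rw [h']
                    exact h
              simp only [hv, true_and, hcond, if_true]
              cases hej : e j <;> simp [sgn]
            · simp only [hv, false_and, if_false, mul_zero, zero_mul, add_zero]
      · -- no companion: the sum vanishes
        push Not at hex
        apply hzero
        intro e
        rw [kerK_insert hi₀]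
        simp only [hterm]
        have hval : ∀ a : Bool, ValOn Qᶜ b (Function.update e i₀ a) ↔ ValOn (insert i₀ Q)ᶜ b e := by
          intro a
          rw [valOn_update_iff hi₀]
          constructor
          · exact fun h => h.1
          · refine fun h => ⟨h, ?_⟩
            intro l _ hli hbl
            exact absurd hbl (hex l hli)
        simp only [hval]
        rw [Fintype.sum_bool]
        by_cases hv : ValOn (insert i₀ Q)ᶜ b e <;> simp only [hv, if_true, if_false] <;> simp [sgn]

/-- LEMMA K. -/
theorem lemmaK (Q : Finset I) (b : I → Y) :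
    ∃ c : ℝ, |c| ≤ 2 ^ pairsP Q b ∧ (c ≠ 0 → Adm Q b) ∧
      ∀ e : I → Bool, ∑ ε ∈ piF Q e, (∏ i ∈ Q, sgn (ε i)) * (if ValOn univ b ε then (1 : ℝ) else 0) =
        c * (if ValOn Qᶜ b e then (1 : ℝ) else 0) * chi (attJ Q b) e :=
  kerK_formula Q b

/-- The counting number `𝒩(t,p) = (t+2p)! m^p / (2^p p!)`. -/
noncomputable def Ncount (m : ℝ) (t p : ℕ) : ℝ :=
  ((t + 2 * p).factorial : ℝ) * m ^ p / (2 ^ p * (p.factorial : ℝ))

end Vale.Agent.P162O
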