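/-
P162 O(d), Part I: counting lemmas for the core estimates (Lemma N, Lemma Q, closing inequality).
-/
import Vale.Agent.P162O.FourierA

open scoped InnerProductSpace BigOperators
open Finset

namespace Vale.Agent.P162O
open Vale.Agent.P162

set_option linter.unusedSectionVars false

section closure

theorem count_closure_term (m : ℝ) (hm : 1 ≤ m) (k d t p : ℕ) (hd : 2 * d ≤ k) (hdm : (d : ℝ) ≤ m)
    (s : ℝ) (hs0 : 0 ≤ s) (hs : s ^ 2 = 8 * (k : ℝ) / m) :
    ((2 * d).choose t : ℝ) * (d.choose p : ℝ) * ((2 * m) ^ (t + 2 * p))⁻¹ * (2 ^ p * Ncount m t p) ≤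
      ((t + 2 * p).choose t : ℝ) * (s / 4) ^ (t + 2 * p) := by
  have hm0 : 0 < m := by linarith
  have hd0 : (0:ℝ) ≤ d := by positivity
  set x : ℝ := (d : ℝ) / m with hx
  have hx0 : 0 ≤ x := by positivity
  have hx1 : x ≤ 1 := by rw [hx, div_le_one hm0]; exact hdm
  have hdk : (2:ℝ) * d ≤ k := by exact_mod_cast hd
  have hx2 : x ≤ (s / 4) ^ 2 := by
    have : (s / 4) ^ 2 = (8 * (k:ℝ) / m) / 16 := by rw [← hs]; ring
    rw [this, hx, le_div_iff₀ (by norm_num), div_mul_eq_mul_div, div_le_div_iff_of_pos_right hm0]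
    linarith
  have hx3 : x ≤ s / 4 := by
    apply le_of_pow_le_pow_left₀ (by norm_num : (2:ℕ) ≠ 0) (by positivity)
    refine le_trans ?_ hx2
    nlinarith
  have c1 : ((2 * d).choose t : ℝ) ≤ (2 * (d:ℝ)) ^ t / (t.factorial : ℝ) := by
    have := Nat.choose_le_pow_div (α := ℝ) t (2 * d)
    simpa using this
  have c2 : (d.choose p : ℝ) ≤ (d:ℝ) ^ p / (p.factorial : ℝ) := Nat.choose_le_pow_div p d
  have c3 : ((t + 2 * p).choose t : ℝ) * (t.factorial : ℝ) * ((2 * p).factorial : ℝ)
      = ((t + 2 * p).factorial : ℝ) := by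
    have := Nat.choose_mul_factorial_mul_factorial (by omega : t ≤ t + 2 * p)
    rw [show t + 2 * p - t = 2 * p by omega] at this
    exact_mod_cast this
  have c4 : ((2 * p).choose p : ℝ) * (p.factorial : ℝ) * (p.factorial : ℝ)
      = ((2 * p).factorial : ℝ) := by
    have := Nat.choose_mul_factorial_mul_factorial (by omega : p ≤ 2 * p)
    rw [show 2 * p - p = p by omega] at this
    exact_mod_cast this
  have c5 : ((2 * p).choose p : ℝ) ≤ 4 ^ p := by
    have := Nat.choose_le_two_pow (2 * p) p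
    have h : ((2 * p).choose p : ℝ) ≤ ((2 ^ (2 * p) : ℕ) : ℝ) := by exact_mod_cast this
    refine h.trans (le_of_eq ?_)
    push_cast
    rw [pow_mul]
    norm_num
  have ht : (0:ℝ) < t.factorial := by positivity
  have hp : (0:ℝ) < p.factorial := by positivity
  have e0 : (2 ^ p * Ncount m t p) = ((t + 2 * p).factorial : ℝ) * m ^ p / (p.factorial : ℝ) := by
    unfold Ncount
    field_simp
  rw [e0, ← c3, ← c4]
  set cq : ℝ := ((t + 2 * p).choose t : ℝ) with hcq
  set cp : ℝ := ((2 * p).choose p : ℝ) with hcp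
  have hcq0 : 0 ≤ cq := by positivity
  have hcp0 : 0 ≤ cp := by positivity
  have hmp : 0 < m ^ p := by positivity
  have hinv : 0 ≤ ((2 * m) ^ (t + 2 * p))⁻¹ := by positivity
  calc ((2 * d).choose t : ℝ) * (d.choose p : ℝ) * ((2 * m) ^ (t + 2 * p))⁻¹ *
        (cq * (t.factorial : ℝ) * (cp * (p.factorial : ℝ) * (p.factorial : ℝ)) * m ^ p / (p.factorial : ℝ))
      ≤ ((2 * (d:ℝ)) ^ t / (t.factorial : ℝ)) * ((d:ℝ) ^ p / (p.factorial : ℝ)) *
          ((2 * m) ^ (t + 2 * p))⁻¹ *
        (cq * (t.factorial : ℝ) * (cp * (p.factorial : ℝ) * (p.factorial : ℝ)) * m ^ p / (p.factorial : ℝ)) := by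
        apply mul_le_mul_of_nonneg_right _ (by positivity)
        apply mul_le_mul_of_nonneg_right _ hinv
        exact mul_le_mul c1 c2 (by positivity) (by positivity)
    _ = cq * cp * ((2 * (d:ℝ)) ^ t * (d:ℝ) ^ p * m ^ p * ((2 * m) ^ (t + 2 * p))⁻¹) := by
        field_simp
    _ ≤ cq * 4 ^ p * ((2 * (d:ℝ)) ^ t * (d:ℝ) ^ p * m ^ p * ((2 * m) ^ (t + 2 * p))⁻¹) := by
        apply mul_le_mul_of_nonneg_right _ (by positivity)
        exact mul_le_mul_of_nonneg_left c5 hcq0
    _ = cq * (x ^ t * x ^ p) := by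
        have e1 : (2 * m) ^ (t + 2 * p) = 2 ^ t * m ^ t * (4 ^ p * (m ^ p) ^ 2) := by
          rw [pow_add, mul_pow 2 m t, pow_mul, show (2 * m) ^ 2 = 4 * m ^ 2 by ring, mul_pow,
            ← pow_mul, ← pow_mul, mul_comm 2 p]
        rw [hx, div_pow, div_pow, e1, mul_pow 2 (d:ℝ) t]
        field_simp
    _ ≤ cq * ((s / 4) ^ t * ((s / 4) ^ 2) ^ p) := by
        apply mul_le_mul_of_nonneg_left _ hcq0
        exact mul_le_mul (pow_le_pow_left₀ hx0 hx3 t) (pow_le_pow_left₀ hx0 hx2 p)
          (by positivity) (by positivity)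
    _ = cq * (s / 4) ^ (t + 2 * p) := by rw [pow_add, pow_mul]

/-- The weight inequality closing lemma D. `d` is the number of doubles; `d ≤ k/2`, `d ≤ m`. -/
theorem count_closure (m : ℝ) (hm : 1 ≤ m) (k d q : ℕ) (hd : 2 * d ≤ k) (hdm : (d : ℝ) ≤ m) :
    ∑ t ∈ range (q + 1), (if (q - t) % 2 = 0 then
        ((2 * d).choose t : ℝ) * (d.choose ((q - t) / 2) : ℝ) * ((2 * m) ^ q)⁻¹ *
          (2 ^ ((q - t) / 2) * Ncount m t ((q - t) / 2)) else 0) ≤
      Real.sqrt (8 * (k : ℝ) / m) ^ q := by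
  have hm0 : 0 < m := by linarith
  set s := Real.sqrt (8 * (k : ℝ) / m) with hs_def
  have hs0 : 0 ≤ s := Real.sqrt_nonneg _
  have hs : s ^ 2 = 8 * (k : ℝ) / m := Real.sq_sqrt (by positivity)
  have hterm : ∀ t ∈ range (q + 1), (if (q - t) % 2 = 0 then
        ((2 * d).choose t : ℝ) * (d.choose ((q - t) / 2) : ℝ) * ((2 * m) ^ q)⁻¹ *
          (2 ^ ((q - t) / 2) * Ncount m t ((q - t) / 2)) else 0) ≤
      (q.choose t : ℝ) * (s / 4) ^ q := by
    intro t ht
    have htq : t ≤ q := by simpa [Nat.lt_succ_iff] using ht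
    split_ifs with h
    · obtain ⟨p, hp⟩ : ∃ p, q = t + 2 * p := ⟨(q - t) / 2, by omega⟩
      subst hp
      have e : (t + 2 * p - t) / 2 = p := by omega
      rw [e]
      exact count_closure_term m hm k d t p hd hdm s hs0 hs
    · positivity
  refine (Finset.sum_le_sum hterm).trans ?_
  rw [← Finset.sum_mul]
  have hsum : ∑ t ∈ range (q + 1), (q.choose t : ℝ) = 2 ^ q := by
    exact_mod_cast Nat.sum_range_choose q
  rw [hsum, ← mul_pow]
  apply pow_le_pow_left₀ (by positivity)
  linarith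

end closure

variable {I Y : Type} [Fintype I] [DecidableEq I] [Fintype Y] [DecidableEq Y]

section fibres

/-- three distinct points in a fibre of size at most two -/
theorem no_three_of_card_le {b : I → Y} {i j l : I}
    (hc : (univ.filter (fun x => b x = b i)).card ≤ 2)
    (hij : j ≠ i) (hil : l ≠ i) (hjl : j ≠ l) (h1 : b j = b i) (h2 : b l = b i) : False := by
  have hsub : ({i, j, l} : Finset I) ⊆ univ.filter (fun x => b x = b i) := by
    intro x hx
    simp only [mem_insert, mem_singleton] at hx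
    rcases hx with rfl | rfl | rfl
    · simp
    · simp [h1]
    · simp [h2]
  have hcard : ({i, j, l} : Finset I).card = 3 := by
    rw [Finset.card_eq_three]
    exact ⟨i, j, l, hij.symm, hil.symm, hjl, rfl⟩
  have := Finset.card_le_card hsub
  omega

theorem exists_partner {b : I → Y} {i : I} (hc : (univ.filter (fun x => b x = b i)).card = 2) :
    ∃ l, l ≠ i ∧ b l = b i := by
  have h1 : 1 < (univ.filter (fun x => b x = b i)).card := by omega
  obtain ⟨l, hl, hne⟩ := Finset.exists_mem_ne h1 i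
  exact ⟨l, hne, by simpa using hl⟩

/-- the fibre inside `Q` -/
def fibQ (Q : Finset I) (b : I → Y) (v : Y) : Finset I := Q.filter (fun i => b i = v)

theorem mem_fibQ {Q : Finset I} {b : I → Y} {v : Y} {i : I} :
    i ∈ fibQ Q b v ↔ i ∈ Q ∧ b i = v := by
  simp [fibQ]

/-- the functions with fibres of size one over `L` and size zero or two elsewhere -/
def SS (y : I → Y) (Q : Finset I) (L : Finset Y) : Finset (I → Y) :=
  (piF Q y).filter (fun b => (∀ v ∈ L, (fibQ Q b v).card = 1) ∧
     (∀ v, v ∉ L → (fibQ Q b v).card = 0 ∨ (fibQ Q b v).card = 2))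

theorem mem_SS {y : I → Y} {Q : Finset I} {L : Finset Y} {b : I → Y} :
    b ∈ SS y Q L ↔ (∀ i, i ∉ Q → b i = y i) ∧ (∀ v ∈ L, (fibQ Q b v).card = 1) ∧
      (∀ v, v ∉ L → (fibQ Q b v).card = 0 ∨ (fibQ Q b v).card = 2) := by
  simp only [SS, mem_filter, mem_piF]

theorem fibQ_erase_update (Q : Finset I) (b : I → Y) (i₀ : I) (z : Y) (u : Y) :
    fibQ (Q.erase i₀) (Function.update b i₀ z) u = (fibQ Q b u).erase i₀ := by
  ext i
  simp only [fibQ, mem_filter, mem_erase]
  constructor
  · rintro ⟨⟨h1, h2⟩, h3⟩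
    rw [Function.update_of_ne h1] at h3
    exact ⟨h1, h2, h3⟩
  · rintro ⟨h1, h2, h3⟩
    refine ⟨⟨h1, h2⟩, ?_⟩
    rw [Function.update_of_ne h1]; exact h3

theorem SS_step_in {y : I → Y} {Q : Finset I} {L : Finset Y} {b : I → Y} {i₀ : I}
    (hb : b ∈ SS y Q L) (hi : i₀ ∈ Q) (hv : b i₀ ∈ L) :
    Function.update b i₀ (y i₀) ∈ SS y (Q.erase i₀) (L.erase (b i₀)) := by
  rw [mem_SS] at hb ⊢
  obtain ⟨h1, h2, h3⟩ := hb
  refine ⟨?_, ?_, ?_⟩
  · intro i hi'
    by_cases h : i = i₀
    · subst h; simp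
    · rw [Function.update_of_ne h]
      apply h1
      intro hiQ
      exact hi' (mem_erase.mpr ⟨h, hiQ⟩)
  · intro u hu
    obtain ⟨hne, huL⟩ := mem_erase.mp hu
    rw [fibQ_erase_update, Finset.erase_eq_of_notMem]
    · exact h2 u huL
    · intro hmem
      exact hne (mem_fibQ.mp hmem).2.symm
  · intro u hu
    rw [fibQ_erase_update]
    by_cases huv : u = b i₀
    · left
      have hmem : i₀ ∈ fibQ Q b u := mem_fibQ.mpr ⟨hi, huv.symm⟩
      rw [Finset.card_erase_of_mem hmem, h2 u (huv ▸ hv)]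
    · have huL : u ∉ L := fun h => hu (mem_erase.mpr ⟨huv, h⟩)
      rw [Finset.erase_eq_of_notMem]
      · exact h3 u huL
      · intro hmem
        exact huv (mem_fibQ.mp hmem).2.symm

theorem SS_step_out {y : I → Y} {Q : Finset I} {L : Finset Y} {b : I → Y} {i₀ : I}
    (hb : b ∈ SS y Q L) (hi : i₀ ∈ Q) (hv : b i₀ ∉ L) :
    ∃ i₁ ∈ Q.erase i₀, b i₁ = b i₀ ∧
      Function.update (Function.update b i₀ (y i₀)) i₁ (y i₁) ∈ SS y ((Q.erase i₀).erase i₁) L := by
  have hb' := hb
  rw [mem_SS] at hb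
  obtain ⟨h1, h2, h3⟩ := hb
  have hmem0 : i₀ ∈ fibQ Q b (b i₀) := mem_fibQ.mpr ⟨hi, rfl⟩
  have hcard : (fibQ Q b (b i₀)).card = 2 := by
    rcases h3 _ hv with h | h
    · have : 0 < (fibQ Q b (b i₀)).card := Finset.card_pos.mpr ⟨_, hmem0⟩
      omega
    · exact h
  obtain ⟨i₁, hi₁, hne⟩ := Finset.exists_mem_ne (by omega : 1 < (fibQ Q b (b i₀)).card) i₀
  obtain ⟨hi₁Q, hi₁v⟩ := mem_fibQ.mp hi₁
  refine ⟨i₁, mem_erase.mpr ⟨hne, hi₁Q⟩, hi₁v, ?_⟩
  rw [mem_SS]
  have hfib : ∀ u, fibQ ((Q.erase i₀).erase i₁)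
      (Function.update (Function.update b i₀ (y i₀)) i₁ (y i₁)) u
      = ((fibQ Q b u).erase i₀).erase i₁ := by
    intro u
    rw [fibQ_erase_update, fibQ_erase_update]
  have hsame : ∀ u, u ≠ b i₀ → ((fibQ Q b u).erase i₀).erase i₁ = fibQ Q b u := by
    intro u hu
    rw [Finset.erase_eq_of_notMem, Finset.erase_eq_of_notMem]
    · intro h; exact hu (mem_fibQ.mp h).2.symm
    · intro h
      have h' := (mem_erase.mp h).2
      exact hu (by rw [← (mem_fibQ.mp h').2, hi₁v])
  refine ⟨?_, ?_, ?_⟩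
  · intro i hi'
    by_cases h : i = i₁
    · subst h; simp
    · rw [Function.update_of_ne h]
      by_cases h' : i = i₀
      · subst h'; simp
      · rw [Function.update_of_ne h']
        apply h1
        intro hiQ
        exact hi' (mem_erase.mpr ⟨h, mem_erase.mpr ⟨h', hiQ⟩⟩)
  · intro u hu
    have hne' : u ≠ b i₀ := fun h => hv (h ▸ hu)
    rw [hfib, hsame u hne']
    exact h2 u hu
  · intro u hu
    rw [hfib]
    by_cases huv : u = b i₀
    · left
      subst huv
      have hm1 : i₁ ∈ (fibQ Q b (b i₀)).erase i₀ := mem_erase.mpr ⟨hne, hi₁⟩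
      rw [Finset.card_erase_of_mem hm1, Finset.card_erase_of_mem hmem0, hcard]
    · rw [hsame u huv]
      exact h3 u hu

theorem SS_eq_update_in {y : I → Y} {b : I → Y} {i₀ : I} :
    b = Function.update (Function.update b i₀ (y i₀)) i₀ (b i₀) := by
  simp

theorem SS_eq_update_out {y : I → Y} {b : I → Y} {i₀ i₁ : I} (hne : i₁ ≠ i₀)
    (h : b i₁ = b i₀) :
    b = Function.update (Function.update (Function.update (Function.update b i₀ (y i₀)) i₁ (y i₁))
        i₀ (b i₀)) i₁ (b i₀) := by
  funext i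
  by_cases h1 : i = i₁
  · subst h1; simp [h]
  · rw [Function.update_of_ne h1]
    by_cases h0 : i = i₀
    · subst h0; simp
    · rw [Function.update_of_ne h0, Function.update_of_ne h1, Function.update_of_ne h0]

theorem SS_eq_empty_of_lt (y : I → Y) {Q : Finset I} {L : Finset Y} (h : Q.card < L.card) :
    SS y Q L = ∅ := by
  apply Finset.eq_empty_of_forall_notMem
  intro b hb
  rw [mem_SS] at hb
  obtain ⟨_, h2, _⟩ := hb
  have hsub : L ⊆ Q.image b := by
    intro v hv
    have : 0 < (fibQ Q b v).card := by rw [h2 v hv]; norm_num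
    obtain ⟨i, hi⟩ := Finset.card_pos.mp this
    obtain ⟨hiQ, hiv⟩ := mem_fibQ.mp hi
    exact mem_image.mpr ⟨i, hiQ, hiv⟩
  have h3 := Finset.card_le_card hsub
  have h4 := Finset.card_image_le (s := Q) (f := b)
  omega

theorem Ncount_nonneg (m : ℝ) (hm : 0 ≤ m) (t p : ℕ) : 0 ≤ Ncount m t p := by
  unfold Ncount; positivity

/-- the recursion for `𝒩` in the generic case -/
theorem Ncount_rec_11 (m : ℝ) (t p : ℕ) :
    ((t : ℝ) + 1) * Ncount m t (p + 1) + m * (((t : ℝ) + 2 * p + 2) * Ncount m (t + 1) p) =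
      Ncount m (t + 1) (p + 1) := by
  unfold Ncount
  have e1 : t + 2 * (p + 1) = (t + 2 * p + 1) + 1 := by ring
  have e2 : t + 1 + 2 * p = t + 2 * p + 1 := by ring
  have e3 : t + 1 + 2 * (p + 1) = (t + 2 * p + 1) + 1 + 1 := by ring
  rw [e1, e2, e3, Nat.factorial_succ ((t + 2 * p + 1) + 1), Nat.factorial_succ (t + 2 * p + 1),
    Nat.factorial_succ p, pow_succ, pow_succ]
  have hp : (0:ℝ) < p.factorial := by positivity
  have hp1 : (0:ℝ) < (p:ℝ) + 1 := by positivity
  push_cast
  field_simp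
  ring

theorem Ncount_rec_10 (m : ℝ) (t : ℕ) :
    ((t : ℝ) + 1) * Ncount m t 0 = Ncount m (t + 1) 0 := by
  unfold Ncount
  simp only [Nat.mul_zero, Nat.add_zero, pow_zero, Nat.factorial_zero, Nat.cast_one, mul_one, div_one]
  rw [Nat.factorial_succ]
  push_cast
  ring

theorem Ncount_rec_01 (m : ℝ) (p : ℕ) :
    m * (((2 : ℝ) * p + 1) * Ncount m 0 p) = Ncount m 0 (p + 1) := by
  unfold Ncount
  have e1 : 0 + 2 * (p + 1) = (2 * p + 1) + 1 := by ring
  have e2 : 0 + 2 * p = 2 * p := by ring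
  rw [e1, e2, Nat.factorial_succ (2 * p + 1), Nat.factorial_succ (2 * p),
    Nat.factorial_succ p, pow_succ, pow_succ]
  have hp : (0:ℝ) < p.factorial := by positivity
  have hp1 : (0:ℝ) < (p:ℝ) + 1 := by positivity
  push_cast
  field_simp
  ring

/-- The covering of `SS` used in the recursion. -/
theorem SS_card_le (y : I → Y) (Q : Finset I) (L : Finset Y) (i₀ : I) (hi : i₀ ∈ Q) :
    (SS y Q L).card ≤ ∑ v ∈ L, (SS y (Q.erase i₀) (L.erase v)).card +
      ∑ _v : Y, ∑ i₁ ∈ Q.erase i₀, (SS y ((Q.erase i₀).erase i₁) L).card := by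
  have hsub : SS y Q L ⊆
      (L.biUnion fun v => (SS y (Q.erase i₀) (L.erase v)).image (fun b' => Function.update b' i₀ v)) ∪
      ((univ : Finset Y).biUnion fun v => (Q.erase i₀).biUnion fun i₁ =>
        (SS y ((Q.erase i₀).erase i₁) L).image
          (fun b'' => Function.update (Function.update b'' i₀ v) i₁ v)) := by
    intro b hb
    by_cases hv : b i₀ ∈ L
    · apply mem_union_left
      refine mem_biUnion.mpr ⟨b i₀, hv, mem_image.mpr ⟨_, SS_step_in hb hi hv, ?_⟩⟩
      exact (SS_eq_update_in (y := y)).symm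
    · apply mem_union_right
      obtain ⟨i₁, hi₁, hEq, hmem⟩ := SS_step_out hb hi hv
      refine mem_biUnion.mpr ⟨b i₀, mem_univ _, mem_biUnion.mpr ⟨i₁, hi₁,
        mem_image.mpr ⟨_, hmem, ?_⟩⟩⟩
      exact (SS_eq_update_out (y := y) (mem_erase.mp hi₁).1 hEq).symm
  refine (Finset.card_le_card hsub).trans ((Finset.card_union_le _ _).trans ?_)
  apply add_le_add
  · refine Finset.card_biUnion_le.trans (Finset.sum_le_sum fun v _ => Finset.card_image_le)
  · refine Finset.card_biUnion_le.trans (Finset.sum_le_sum fun v _ => ?_)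
    refine Finset.card_biUnion_le.trans (Finset.sum_le_sum fun i₁ _ => Finset.card_image_le)

/-- The main count of `SS`. -/
theorem SS_card (y : I → Y) : ∀ n : ℕ, ∀ (Q : Finset I) (L : Finset Y) (p : ℕ),
    Q.card = n → n = L.card + 2 * p →
      ((SS y Q L).card : ℝ) ≤ Ncount (Fintype.card Y) L.card p := by
  intro n
  induction n using Nat.strong_induction_on with
  | _ n ih =>
    intro Q L p hQ hn
    have hm0 : (0:ℝ) ≤ (Fintype.card Y : ℝ) := by positivity
    rcases Q.eq_empty_or_nonempty with rfl | ⟨i₀, hi₀⟩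
    · -- base
      have hn0 : n = 0 := by simpa using hQ.symm
      have hL : L.card = 0 := by omega
      have hp : p = 0 := by omega
      subst hp
      rw [hL]
      have hsub : SS y ∅ L ⊆ {y} := by
        intro b hb
        rw [mem_SS] at hb
        rw [mem_singleton]
        funext i
        exact hb.1 i (by simp)
      have hc : (SS y ∅ L).card ≤ 1 := by
        simpa using Finset.card_le_card hsub
      have hc' : ((SS y ∅ L).card : ℝ) ≤ 1 := by exact_mod_cast hc
      refine hc'.trans (le_of_eq ?_)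
      simp [Ncount]
    · have hcov := SS_card_le y Q L i₀ hi₀
      have hQ1 : (Q.erase i₀).card = n - 1 := by rw [Finset.card_erase_of_mem hi₀, hQ]
      have hn1 : 0 < n := by rw [← hQ]; exact Finset.card_pos.mpr ⟨i₀, hi₀⟩
      -- first sum
      have hfirst : ∀ v ∈ L, ∀ t', L.card = t' + 1 →
          ((SS y (Q.erase i₀) (L.erase v)).card : ℝ) ≤ Ncount (Fintype.card Y) t' p := by
        intro v hv t' ht'
        have hcardL : (L.erase v).card = t' := by rw [Finset.card_erase_of_mem hv]; omega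
        have := ih (n - 1) (by omega) (Q.erase i₀) (L.erase v) p hQ1 (by omega)
        rwa [hcardL] at this
      -- second sum
      have hsecond : ∀ i₁ ∈ Q.erase i₀, ∀ p', p = p' + 1 →
          ((SS y ((Q.erase i₀).erase i₁) L).card : ℝ) ≤ Ncount (Fintype.card Y) L.card p' := by
        intro i₁ hi₁ p' hp'
        have hQ2 : ((Q.erase i₀).erase i₁).card = n - 2 := by
          rw [Finset.card_erase_of_mem hi₁, hQ1]; omega
        exact ih (n - 2) (by omega) _ L p' hQ2 (by omega)
      have hsecond0 : ∀ i₁ ∈ Q.erase i₀, p = 0 → (SS y ((Q.erase i₀).erase i₁) L).card = 0 := by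
        intro i₁ hi₁ hp0
        have hQ2 : ((Q.erase i₀).erase i₁).card = n - 2 := by
          rw [Finset.card_erase_of_mem hi₁, hQ1]; omega
        have hpos : 0 < (Q.erase i₀).card := Finset.card_pos.mpr ⟨i₁, hi₁⟩
        rw [SS_eq_empty_of_lt y (by omega)]
        rfl
      have hcov' : ((SS y Q L).card : ℝ) ≤ ∑ v ∈ L, ((SS y (Q.erase i₀) (L.erase v)).card : ℝ) +
          ∑ _v : Y, ∑ i₁ ∈ Q.erase i₀, ((SS y ((Q.erase i₀).erase i₁) L).card : ℝ) := by
        exact_mod_cast hcov
      refine hcov'.trans ?_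
      rw [Finset.sum_const, nsmul_eq_mul, Finset.card_univ]
      rcases Nat.eq_zero_or_pos L.card with ht | ht
      · rcases Nat.eq_zero_or_pos p with hp | hp
        · omega
        · obtain ⟨p', rfl⟩ : ∃ p', p = p' + 1 := ⟨p - 1, by omega⟩
          have hL0 : L = ∅ := Finset.card_eq_zero.mp ht
          rw [ht, ← Ncount_rec_01]
          have h2 : ∑ i₁ ∈ Q.erase i₀, ((SS y ((Q.erase i₀).erase i₁) L).card : ℝ) ≤
              ((2 : ℝ) * p' + 1) * Ncount (Fintype.card Y) 0 p' := by
            have h3 := Finset.sum_le_sum (fun i₁ hi₁ => hsecond i₁ hi₁ p' rfl)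
            rw [Finset.sum_const, nsmul_eq_mul, hQ1, ht] at h3
            refine h3.trans (le_of_eq ?_)
            have : n - 1 = 2 * p' + 1 := by omega
            rw [this]; push_cast; ring
          rw [hL0]
          simp only [Finset.sum_empty, zero_add]
          rw [hL0] at h2
          exact mul_le_mul_of_nonneg_left h2 hm0
      · obtain ⟨t', ht'⟩ : ∃ t', L.card = t' + 1 := ⟨L.card - 1, by omega⟩
        have h1 : ∑ v ∈ L, ((SS y (Q.erase i₀) (L.erase v)).card : ℝ) ≤
            ((t' : ℝ) + 1) * Ncount (Fintype.card Y) t' p := by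
          have h3 := Finset.sum_le_sum (fun v hv => hfirst v hv t' ht')
          rw [Finset.sum_const, nsmul_eq_mul, ht'] at h3
          refine h3.trans (le_of_eq ?_)
          push_cast; ring
        rcases Nat.eq_zero_or_pos p with hp | hp
        · subst hp
          have h2 : ∑ i₁ ∈ Q.erase i₀, ((SS y ((Q.erase i₀).erase i₁) L).card : ℝ) = 0 := by
            apply Finset.sum_eq_zero
            intro i₁ hi₁
            rw [hsecond0 i₁ hi₁ rfl]; simp
          rw [h2, ht', ← Ncount_rec_10]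
          simpa using h1
        · obtain ⟨p', rfl⟩ : ∃ p', p = p' + 1 := ⟨p - 1, by omega⟩
          have h2 : ∑ i₁ ∈ Q.erase i₀, ((SS y ((Q.erase i₀).erase i₁) L).card : ℝ) ≤
              ((t' : ℝ) + 2 * p' + 2) * Ncount (Fintype.card Y) (t' + 1) p' := by
            have h3 := Finset.sum_le_sum (fun i₁ hi₁ => hsecond i₁ hi₁ p' rfl)
            rw [Finset.sum_const, nsmul_eq_mul, hQ1, ht'] at h3
            refine h3.trans (le_of_eq ?_)
            have : n - 1 = t' + 2 * p' + 2 := by omega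
            rw [this]; push_cast; ring
          rw [ht', ← Ncount_rec_11]
          exact add_le_add h1 (mul_le_mul_of_nonneg_left h2 hm0)

end fibres

/-- LEMMA N: the number of `b ∈ F_Q y` with prescribed attached set `J` and `Adm`. -/
theorem count_b (Q : Finset I) (y : I → Y) (J : Finset I) (p : ℕ) (hJ : Q.card = J.card + 2 * p) :
    (((piF Q y).filter (fun b => attJ Q b = J ∧ Adm Q b)).card : ℝ) ≤
      Ncount (Fintype.card Y) J.card p := by
  have hm0 : (0:ℝ) ≤ (Fintype.card Y : ℝ) := by positivity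
  by_cases hne : ((piF Q y).filter (fun b => attJ Q b = J ∧ Adm Q b)).Nonempty
  · -- `y` is injective on `J`
    obtain ⟨b₀, hb₀⟩ := hne
    have hmemJ : ∀ {b : I → Y}, (∀ i, i ∉ Q → b i = y i) → attJ Q b = J → ∀ j ∈ J,
        j ∉ Q ∧ ∃ i ∈ Q, b i = y j := by
      intro b hbQ hbJ j hj
      rw [← hbJ] at hj
      simp only [attJ, mem_filter, mem_univ, true_and] at hj
      obtain ⟨hjQ, i, hi, hij⟩ := hj
      exact ⟨hjQ, i, hi, by rw [hij, hbQ j hjQ]⟩
    have hinj : Set.InjOn y (J : Set I) := by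
      obtain ⟨h1, h2, h3⟩ := by simpa only [mem_filter, mem_piF] using hb₀
      intro j hj j' hj' hEq
      by_contra hne
      obtain ⟨hjQ, i, hi, hij⟩ := hmemJ h1 h2 j hj
      obtain ⟨hjQ', _, _, _⟩ := hmemJ h1 h2 j' hj'
      exact no_three_of_card_le (b := b₀) (i := i) (j := j) (l := j')
        (le_of_eq (h3 i hi)) (fun h => hjQ (h ▸ hi)) (fun h => hjQ' (h ▸ hi)) hne
        (by rw [h1 j hjQ, hij]) (by rw [h1 j' hjQ', hij, hEq])
    have hcardL : (J.image y).card = J.card := Finset.card_image_of_injOn hinj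
    have hsub : (piF Q y).filter (fun b => attJ Q b = J ∧ Adm Q b) ⊆ SS y Q (J.image y) := by
      intro b hb
      obtain ⟨h1, h2, h3⟩ := by simpa only [mem_filter, mem_piF] using hb
      rw [mem_SS]
      refine ⟨h1, ?_, ?_⟩
      · intro v hv
        obtain ⟨j, hj, rfl⟩ := mem_image.mp hv
        obtain ⟨hjQ, i, hi, hij⟩ := hmemJ h1 h2 j hj
        apply Finset.card_eq_one.mpr
        refine ⟨i, ?_⟩
        apply Finset.eq_singleton_iff_unique_mem.mpr
        refine ⟨mem_fibQ.mpr ⟨hi, hij⟩, ?_⟩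
        intro i' hi'
        obtain ⟨hi'Q, hi'v⟩ := mem_fibQ.mp hi'
        by_contra hne
        exact no_three_of_card_le (b := b) (i := i) (j := i') (l := j)
          (le_of_eq (h3 i hi)) hne (fun h => hjQ (h ▸ hi)) (fun h => hjQ (h ▸ hi'Q))
          (by rw [hi'v, hij]) (by rw [h1 j hjQ, hij])
      · intro v hv
        rcases (fibQ Q b v).eq_empty_or_nonempty with he | ⟨i, hi⟩
        · left; rw [he]; rfl
        · right
          obtain ⟨hiQ, hiv⟩ := mem_fibQ.mp hi
          have hc := h3 i hiQ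
          obtain ⟨l, hl, hlb⟩ := exists_partner hc
          have hlQ : l ∈ Q := by
            by_contra hlQ
            apply hv
            have hlJ : l ∈ J := by
              rw [← h2]
              simp only [attJ, mem_filter, mem_univ, true_and]
              exact ⟨hlQ, i, hiQ, hlb.symm⟩
            exact mem_image.mpr ⟨l, hlJ, by rw [← h1 l hlQ, hlb, hiv]⟩
          have hlfib : l ∈ fibQ Q b v := mem_fibQ.mpr ⟨hlQ, by rw [hlb, hiv]⟩
          have hle : (fibQ Q b v).card ≤ 2 := by
            rw [← hc]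
            apply Finset.card_le_card
            intro x hx
            obtain ⟨_, hxv⟩ := mem_fibQ.mp hx
            simp [hxv, hiv]
          have hge : 2 ≤ (fibQ Q b v).card := by
            have : ({i, l} : Finset I) ⊆ fibQ Q b v := by
              intro x hx
              simp only [mem_insert, mem_singleton] at hx
              rcases hx with rfl | rfl
              · exact hi
              · exact hlfib
            have h2c := Finset.card_le_card this
            rwa [Finset.card_pair hl.symm] at h2c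
          omega
    have h1 := Finset.card_le_card hsub
    have h2 := SS_card y Q.card Q (J.image y) p rfl (by rw [hcardL]; exact hJ)
    rw [hcardL] at h2
    exact le_trans (by exact_mod_cast h1) h2
  · rw [Finset.not_nonempty_iff_eq_empty.mp hne]
    simpa using Ncount_nonneg _ hm0 _ _

section countQ

/-- The internal pairs of `Q`, read on the switches. -/
def pairImg (Q : Finset I) (b : I → Y) : Finset Y :=
  (Q.filter (fun i => ∃ l ∈ Q, l ≠ i ∧ b l = b i)).image b

/-- The doubled coordinates. -/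
def dblSet (b : I → Y) : Finset I := (univ : Finset I).filter (fun i => ∃ j ∈ (univ : Finset I), j ≠ i ∧ b j = b i)

theorem fiber_two_count {α : Type} [DecidableEq α] (S : Finset α) (V : Finset Y) (f : α → Y)
    (hmap : ∀ x ∈ S, f x ∈ V) (h2 : ∀ v ∈ V, (S.filter (fun x => f x = v)).card = 2) :
    S.card = 2 * V.card := by
  rw [Finset.card_eq_sum_card_fiberwise hmap, Finset.sum_congr rfl h2]
  simp [mul_comm]

theorem dblSet_card (b : I → Y) (hb : NoTriple univ b) :
    (dblSet b).card = 2 * ((dblSet b).image b).card := by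
  apply fiber_two_count _ _ b (fun x hx => mem_image_of_mem b hx)
  intro v hv
  obtain ⟨i, hi, rfl⟩ := mem_image.mp hv
  obtain ⟨j, _, hji, hbj⟩ := (mem_filter.mp hi).2
  have hjD : j ∈ dblSet b := mem_filter.mpr ⟨mem_univ _, i, mem_univ _, hji.symm, hbj.symm⟩
  have hle : ((dblSet b).filter (fun x => b x = b i)).card ≤ 2 := by
    refine le_trans (Finset.card_le_card ?_) (hb i (mem_univ _))
    intro x hx
    simp only [mem_filter, mem_univ, true_and] at hx ⊢
    exact hx.2
  have hge : 2 ≤ ((dblSet b).filter (fun x => b x = b i)).card := by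
    have : ({i, j} : Finset I) ⊆ (dblSet b).filter (fun x => b x = b i) := by
      intro x hx
      simp only [mem_insert, mem_singleton] at hx
      rcases hx with rfl | rfl
      · exact mem_filter.mpr ⟨hi, rfl⟩
      · exact mem_filter.mpr ⟨hjD, hbj⟩
    have h2c := Finset.card_le_card this
    rwa [Finset.card_pair hji.symm] at h2c
  omega

theorem dblCount_univ (b : I → Y) (hb : NoTriple univ b) :
    dblCount univ b = ((dblSet b).image b).card := by
  have h := dblSet_card b hb
  show (dblSet b).card / 2 = _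
  omega

theorem dblSet_card' (b : I → Y) (hb : NoTriple univ b) :
    (dblSet b).card = 2 * dblCount univ b := by
  rw [dblCount_univ b hb]; exact dblSet_card b hb

/-- the number of internal pairs -/
theorem pairImg_card {Q : Finset I} {b : I → Y} (hA : Adm Q b) :
    Q.card = (attJ Q b).card + 2 * (pairImg Q b).card := by
  -- `Q₁`: with internal partner; `Q₂`: without
  set Q₁ := Q.filter (fun i => ∃ l ∈ Q, l ≠ i ∧ b l = b i) with hQ₁
  set Q₂ := Q.filter (fun i => ¬ ∃ l ∈ Q, l ≠ i ∧ b l = b i) with hQ₂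
  have hsplit : Q.card = Q₁.card + Q₂.card := (Finset.card_filter_add_card_filter_not _).symm
  have hQ₂inj : Set.InjOn b (Q₂ : Set I) := by
    intro i hi i' hi' hEq
    by_contra hne
    have hi1 : i ∈ Q₂ := hi
    have hi2 : i' ∈ Q₂ := hi'
    exact (mem_filter.mp hi1).2 ⟨i', (mem_filter.mp hi2).1, fun h => hne h.symm, hEq.symm⟩
  have hJinj : Set.InjOn b (attJ Q b : Set I) := by
    intro j hj j' hj' hEq
    by_contra hne
    have hj1 : j ∈ attJ Q b := hj
    have hj2 : j' ∈ attJ Q b := hj'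
    simp only [attJ, mem_filter, mem_univ, true_and] at hj1 hj2
    obtain ⟨hjQ, i, hi, hij⟩ := hj1
    obtain ⟨hjQ', _, _, _⟩ := hj2
    exact no_three_of_card_le (b := b) (i := i) (j := j) (l := j') (le_of_eq (hA i hi))
      (fun h => hjQ (h ▸ hi)) (fun h => hjQ' (h ▸ hi)) hne hij.symm (by rw [← hEq, hij])
  have himg : Q₂.image b = (attJ Q b).image b := by
    ext v
    simp only [mem_image]
    constructor
    · rintro ⟨i, hi, rfl⟩
      obtain ⟨hiQ, hno⟩ := mem_filter.mp hi
      obtain ⟨l, hl, hbl⟩ := exists_partner (hA i hiQ)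
      have hlQ : l ∉ Q := fun h => hno ⟨l, h, hl, hbl⟩
      refine ⟨l, ?_, hbl⟩
      simp only [attJ, mem_filter, mem_univ, true_and]
      exact ⟨hlQ, i, hiQ, hbl.symm⟩
    · rintro ⟨j, hj, rfl⟩
      simp only [attJ, mem_filter, mem_univ, true_and] at hj
      obtain ⟨hjQ, i, hi, hij⟩ := hj
      refine ⟨i, mem_filter.mpr ⟨hi, ?_⟩, hij⟩
      rintro ⟨l, hl, hli, hbl⟩
      exact no_three_of_card_le (b := b) (i := i) (j := l) (l := j) (le_of_eq (hA i hi))
        hli (fun h => hjQ (h ▸ hi)) (fun h => hjQ (h ▸ hl)) hbl hij.symm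
  have hcard₂ : Q₂.card = (attJ Q b).card := by
    rw [← Finset.card_image_of_injOn hQ₂inj, himg, Finset.card_image_of_injOn hJinj]
  have hcard₁ : Q₁.card = 2 * (pairImg Q b).card := by
    apply fiber_two_count _ _ b (fun x hx => mem_image_of_mem b hx)
    intro v hv
    obtain ⟨i, hi, rfl⟩ := mem_image.mp hv
    obtain ⟨hiQ, l, hlQ, hli, hbl⟩ := mem_filter.mp hi
    have hlQ₁ : l ∈ Q₁ := mem_filter.mpr ⟨hlQ, i, hiQ, hli.symm, hbl.symm⟩
    have hle : (Q₁.filter (fun x => b x = b i)).card ≤ 2 := by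
      rw [← hA i hiQ]
      apply Finset.card_le_card
      intro x hx
      simp only [mem_filter, mem_univ, true_and] at hx ⊢
      exact hx.2
    have hge : 2 ≤ (Q₁.filter (fun x => b x = b i)).card := by
      have : ({i, l} : Finset I) ⊆ Q₁.filter (fun x => b x = b i) := by
        intro x hx
        simp only [mem_insert, mem_singleton] at hx
        rcases hx with rfl | rfl
        · exact mem_filter.mpr ⟨hi, rfl⟩
        · exact mem_filter.mpr ⟨hlQ₁, hbl⟩
      have h2c := Finset.card_le_card this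
      rwa [Finset.card_pair hli.symm] at h2c
    omega
  omega

/-- `Q` is recovered from its attached set and its internal pairs. -/
theorem Q_subset_of_same {Q Q' : Finset I} {b : I → Y} (hb : NoTriple univ b)
    (hA : Adm Q b) (hJ : attJ Q b = attJ Q' b) (hP : pairImg Q b = pairImg Q' b) : Q ⊆ Q' := by
  intro i hi
  by_cases hint : ∃ l ∈ Q, l ≠ i ∧ b l = b i
  · have hv : b i ∈ pairImg Q' b := by
      rw [← hP]
      exact mem_image_of_mem b (mem_filter.mpr ⟨hi, hint⟩)
    obtain ⟨i', hi', hbi'⟩ := mem_image.mp hv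
    obtain ⟨hi'Q, l', hl'Q, hl'i', hbl'⟩ := mem_filter.mp hi'
    by_contra hiQ'
    exact no_three_of_card_le (b := b) (i := i) (j := i') (l := l') (hb i (mem_univ _))
      (fun h => hiQ' (h ▸ hi'Q)) (fun h => hiQ' (h ▸ hl'Q)) hl'i'.symm hbi' (by rw [hbl', hbi'])
  · obtain ⟨l, hl, hbl⟩ := exists_partner (hA i hi)
    have hlQ : l ∉ Q := fun h => hint ⟨l, h, hl, hbl⟩
    have hlJ : l ∈ attJ Q b := by
      simp only [attJ, mem_filter, mem_univ, true_and]
      exact ⟨hlQ, i, hi, hbl.symm⟩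
    rw [hJ] at hlJ
    simp only [attJ, mem_filter, mem_univ, true_and] at hlJ
    obtain ⟨hlQ', i', hi', hbi'⟩ := hlJ
    by_contra hiQ'
    exact no_three_of_card_le (b := b) (i := i) (j := i') (l := l) (hb i (mem_univ _))
      (fun h => hiQ' (h ▸ hi')) hl (fun h => hlQ' (h ▸ hi')) (by rw [hbi', hbl]) hbl

/-- LEMMA Q: the number of `Q` of size `t + 2p` with `Adm Q b` and `|J| = t`. -/
theorem count_Q (b : I → Y) (hb : NoTriple univ b) (t p : ℕ) :
    ((((univ : Finset (Finset I)).filter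
        (fun Q => Q.card = t + 2 * p ∧ Adm Q b ∧ (attJ Q b).card = t)).card : ℕ) : ℝ) ≤
      ((2 * dblCount univ b).choose t : ℝ) * ((dblCount univ b).choose p : ℝ) := by
  have hmap : ∀ Q ∈ (univ : Finset (Finset I)).filter
        (fun Q => Q.card = t + 2 * p ∧ Adm Q b ∧ (attJ Q b).card = t),
      (attJ Q b, pairImg Q b) ∈ powersetCard t (dblSet b) ×ˢ powersetCard p ((dblSet b).image b) := by
    intro Q hQ
    obtain ⟨h1, h2, h3⟩ := (mem_filter.mp hQ).2
    rw [mem_product, mem_powersetCard, mem_powersetCard]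
    refine ⟨⟨?_, h3⟩, ?_, ?_⟩
    · intro j hj
      simp only [attJ, mem_filter, mem_univ, true_and] at hj
      obtain ⟨hjQ, i, hi, hij⟩ := hj
      exact mem_filter.mpr ⟨mem_univ _, i, mem_univ _, fun h => hjQ (h ▸ hi), hij⟩
    · intro v hv
      obtain ⟨i, hi, rfl⟩ := mem_image.mp hv
      obtain ⟨_, l, _, hli, hbl⟩ := mem_filter.mp hi
      exact mem_image_of_mem b (mem_filter.mpr ⟨mem_univ _, l, mem_univ _, hli, hbl⟩)
    · have := pairImg_card h2
      show (pairImg Q b).card = p
      omega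
  have hinj : Set.InjOn (fun Q => (attJ Q b, pairImg Q b))
      (((univ : Finset (Finset I)).filter
        (fun Q => Q.card = t + 2 * p ∧ Adm Q b ∧ (attJ Q b).card = t)) : Set (Finset I)) := by
    intro Q hQ Q' hQ' hEq
    have hQ1 := (mem_filter.mp (Finset.mem_coe.mp hQ)).2
    have hQ2 := (mem_filter.mp (Finset.mem_coe.mp hQ')).2
    simp only [Prod.mk.injEq] at hEq
    exact Finset.Subset.antisymm (Q_subset_of_same hb hQ1.2.1 hEq.1 hEq.2)
      (Q_subset_of_same hb hQ2.2.1 hEq.1.symm hEq.2.symm)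
  have hc := Finset.card_le_card_of_injOn _ hmap hinj
  rw [Finset.card_product, Finset.card_powersetCard, Finset.card_powersetCard,
    dblSet_card' b hb, ← dblCount_univ b hb] at hc
  exact_mod_cast hc

end countQ

end Vale.Agent.P162O
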