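/-
P162 O(d), Part I: the core estimates on the signed sums: the formula for C_Q, Lemma R, Lemma D.
-/
import Vale.Agent.P162O.FourierN

open scoped InnerProductSpace BigOperators
open Finset

namespace Vale.Agent.P162O
open Vale.Agent.P162

variable {I Y : Type} [Fintype I] [DecidableEq I] [Fintype Y] [DecidableEq Y]

/-- Validity on `Qᶜ` depends only on the values off `Q`. -/
private theorem fourier_valOn_congr {Q : Finset I} {b y : I → Y} (h : ∀ i, i ∉ Q → b i = y i)
    (e : I → Bool) : ValOn Qᶜ b e ↔ ValOn Qᶜ y e := by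
  unfold ValOn
  constructor
  · intro H i hi j hj hij hy
    have hi' : i ∉ Q := by simpa using hi
    have hj' : j ∉ Q := by simpa using hj
    exact H i hi j hj hij (by rw [h i hi', h j hj']; exact hy)
  · intro H i hi j hj hij hy
    have hi' : i ∉ Q := by simpa using hi
    have hj' : j ∉ Q := by simpa using hj
    exact H i hi j hj hij (by rw [← h i hi', ← h j hj']; exact hy)

/-- Expansion of `CQ` through the constants of Lemma K. -/
private theorem fourier_CQ_expand (Q : Finset I) (g : (I → Y) → ℝ) (y : I → Y) (e : I → Bool)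
    (c : (I → Y) → ℝ)
    (hc : ∀ (b : I → Y) (e : I → Bool),
      ∑ ε ∈ piF Q e, (∏ i ∈ Q, sgn (ε i)) * (if ValOn univ b ε then (1 : ℝ) else 0) =
        c b * (if ValOn Qᶜ b e then (1 : ℝ) else 0) * chi (attJ Q b) e) :
    CQ Q g y e = ∑ b ∈ piF Q y,
      g b * (c b * (if ValOn Qᶜ y e then (1 : ℝ) else 0) * chi (attJ Q b) e) := by
  unfold CQ
  refine Finset.sum_congr rfl fun b hb => ?_
  have hby : ∀ i, i ∉ Q → b i = y i := (mem_piF Q y b).1 hb
  have hval : (if ValOn Qᶜ y e then (1 : ℝ) else 0) = (if ValOn Qᶜ b e then (1 : ℝ) else 0) := by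
    by_cases hV : ValOn Qᶜ y e
    · have : ValOn Qᶜ b e := (fourier_valOn_congr hby e).2 hV
      simp [hV, this]
    · have : ¬ ValOn Qᶜ b e := fun h => hV ((fourier_valOn_congr hby e).1 h)
      simp [hV, this]
  rw [hval, ← hc b e, Finset.mul_sum]
  refine Finset.sum_congr rfl fun ε _ => ?_
  unfold uFun
  split_ifs <;> ring

/-- The formula for `C_Q`. -/
theorem CQ_formula (Q : Finset I) (g : (I → Y) → ℝ) (y : I → Y) :
    ∃ (𝒥 : Finset (Finset I)) (a : Finset I → ℝ),
      (∀ J ∈ 𝒥, J.card ≤ Q.card ∧ ∀ j ∈ J, SingleOn Qᶜ y j) ∧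
      (∀ e, CQ Q g y e = (if ValOn Qᶜ y e then (1 : ℝ) else 0) * polyF 𝒥 a e) ∧
      (∑ J ∈ 𝒥, a J ^ 2 ≤ ∑ b ∈ (piF Q y).filter (fun b => Adm Q b),
        Ncount (Fintype.card Y) (attJ Q b).card (pairsP Q b) * (4 : ℝ) ^ pairsP Q b * g b ^ 2) := by
  classical
  choose c hc1 hc2 hc3 using lemmaK (I := I) (Y := Y) Q
  set S := (piF Q y).filter (fun b => Adm Q b) with hS
  refine ⟨S.image (attJ Q), fun J => ∑ b ∈ S.filter (fun b => attJ Q b = J), c b * g b, ?_, ?_, ?_⟩
  · intro J hJ
    obtain ⟨b, hb, rfl⟩ := Finset.mem_image.1 hJ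
    have hbS := Finset.mem_filter.1 hb
    have hby : ∀ i, i ∉ Q → b i = y i := (mem_piF Q y b).1 hbS.1
    refine ⟨?_, ?_⟩
    · have := adm_card hbS.2
      omega
    · intro j hj
      have hs := adm_attJ_single hbS.2 j hj
      refine ⟨hs.1, fun l hl hly => ?_⟩
      have hl' : l ∉ Q := by simpa using hl
      have hj' : j ∉ Q := by simpa using hs.1
      exact hs.2 l hl (by rw [hby l hl', hby j hj']; exact hly)
  · intro e
    rw [fourier_CQ_expand Q g y e c hc3]
    have hfilter : ∑ b ∈ piF Q y, g b * (c b * (if ValOn Qᶜ y e then (1 : ℝ) else 0) * chi (attJ Q b) e)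
        = ∑ b ∈ S, g b * (c b * (if ValOn Qᶜ y e then (1 : ℝ) else 0) * chi (attJ Q b) e) := by
      rw [hS, Finset.sum_filter]
      refine Finset.sum_congr rfl fun b _ => ?_
      by_cases hA : Adm Q b
      · simp [hA]
      · have : c b = 0 := by
          by_contra h
          exact hA (hc2 b h)
        simp [hA, this]
    rw [hfilter]
    unfold polyF
    have hfib := Finset.sum_fiberwise_of_maps_to (s := S) (t := S.image (attJ Q)) (g := attJ Q)
      (fun b hb => Finset.mem_image_of_mem _ hb)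
      (fun b => g b * (c b * (if ValOn Qᶜ y e then (1 : ℝ) else 0) * chi (attJ Q b) e))
    rw [← hfib, Finset.mul_sum]
    refine Finset.sum_congr rfl fun J _ => ?_
    rw [Finset.sum_mul, Finset.mul_sum]
    refine Finset.sum_congr rfl fun b hb => ?_
    have hJ : attJ Q b = J := (Finset.mem_filter.1 hb).2
    rw [hJ]
    ring
  · have hfib := Finset.sum_fiberwise_of_maps_to (s := S) (t := S.image (attJ Q)) (g := attJ Q)
      (fun b hb => Finset.mem_image_of_mem _ hb)
      (fun b => Ncount (Fintype.card Y) (attJ Q b).card (pairsP Q b) * (4 : ℝ) ^ pairsP Q b * g b ^ 2)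
    rw [← hfib]
    refine Finset.sum_le_sum fun J hJ => ?_
    obtain ⟨b₀, hb₀, rfl⟩ := Finset.mem_image.1 hJ
    have hb₀S := Finset.mem_filter.1 hb₀
    set J := attJ Q b₀ with hJdef
    set p := pairsP Q b₀ with hpdef
    have hcard : Q.card = J.card + 2 * p := adm_card hb₀S.2
    have hN0 : 0 ≤ Ncount (Fintype.card Y : ℝ) J.card p := by
      unfold Ncount; positivity
    -- the fibre
    have hfibcard : ((S.filter (fun b => attJ Q b = J)).card : ℝ) ≤ Ncount (Fintype.card Y) J.card p := by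
      have hsub : S.filter (fun b => attJ Q b = J) ⊆ (piF Q y).filter (fun b => attJ Q b = J ∧ Adm Q b) := by
        intro b hb
        have h1 := Finset.mem_filter.1 hb
        have h2 := Finset.mem_filter.1 h1.1
        exact Finset.mem_filter.2 ⟨h2.1, h1.2, h2.2⟩
      have h1 : ((S.filter (fun b => attJ Q b = J)).card : ℝ) ≤
          (((piF Q y).filter (fun b => attJ Q b = J ∧ Adm Q b)).card : ℝ) := by
        exact_mod_cast Finset.card_le_card hsub
      exact h1.trans (count_b Q y J p hcard)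
    have hpb : ∀ b ∈ S.filter (fun b => attJ Q b = J), pairsP Q b = p := by
      intro b hb
      have hJb : attJ Q b = J := (Finset.mem_filter.1 hb).2
      unfold pairsP at hpdef ⊢
      rw [hJb, hpdef]
    calc (∑ b ∈ S.filter (fun b => attJ Q b = J), c b * g b) ^ 2
        ≤ ((S.filter (fun b => attJ Q b = J)).card : ℝ) *
            ∑ b ∈ S.filter (fun b => attJ Q b = J), (c b * g b) ^ 2 := sq_sum_le_card_mul_sum_sq
      _ ≤ Ncount (Fintype.card Y) J.card p *
            ∑ b ∈ S.filter (fun b => attJ Q b = J), (4 : ℝ) ^ p * g b ^ 2 := by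
          refine mul_le_mul hfibcard ?_ (Finset.sum_nonneg fun _ _ => sq_nonneg _) hN0
          refine Finset.sum_le_sum fun b hb => ?_
          rw [mul_pow]
          refine mul_le_mul_of_nonneg_right ?_ (sq_nonneg _)
          have hc1b := hc1 b
          rw [hpb b hb] at hc1b
          have h4 : ((2 : ℝ) ^ p) ^ 2 = (4 : ℝ) ^ p := by
            rw [← pow_mul, mul_comm, pow_mul]; norm_num
          rw [← h4, ← sq_abs (c b)]
          exact pow_le_pow_left₀ (abs_nonneg _) hc1b 2
      _ = ∑ b ∈ S.filter (fun b => attJ Q b = J),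
            Ncount (Fintype.card Y) (attJ Q b).card (pairsP Q b) * (4 : ℝ) ^ pairsP Q b * g b ^ 2 := by
          rw [Finset.mul_sum]
          refine Finset.sum_congr rfl fun b hb => ?_
          rw [hpb b hb, (Finset.mem_filter.1 hb).2]
          ring

/-- A sum over a finite type through the uniform average. -/
private theorem fourier_sum_eq_Eu {α : Type*} [Fintype α] [Nonempty α] (f : α → ℝ) :
    ∑ a, f a = (Fintype.card α : ℝ) * Eu f := by
  have h : (Fintype.card α : ℝ) ≠ 0 := by exact_mod_cast Fintype.card_ne_zero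
  unfold Eu
  field_simp

/-- LEMMA R: the weighted sum, all `Q`. `w` of the number of false sides off `Q`. -/
theorem core_RQ (Q : Finset I) (g : (I → Y) → ℝ) (φ : ℕ → ℝ) (hφ0 : ∀ s, 0 ≤ φ s)
    (hφ : ∀ s, s + 2 ≤ (Qᶜ).card → 2 * φ (s + 1) ≤ φ s + φ (s + 2))
    (w : ℕ → ℝ) (hw0 : ∀ s, 0 ≤ w s) (hw : ∀ s, s ≤ (Qᶜ).card → w s ^ 2 ≤ φ s) :
    ∑ y : I → Y, ∑ e : I → Bool, w (falseCount Qᶜ e) * CQ Q g y e ^ 2 ≤
      3 ^ Q.card * Real.sqrt (Ebin (Qᶜ).card φ) * ∑ y : I → Y, ∑ e : I → Bool, CQ Q g y e ^ 2 := by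
  rw [Finset.mul_sum]
  refine Finset.sum_le_sum fun y _ => ?_
  obtain ⟨𝒥, a, h1, h2, -⟩ := CQ_formula Q g y
  have hwb := wb_doubles Qᶜ y Q.card 𝒥 a h1 φ hφ0 hφ w hw0 hw
  have hK : (0 : ℝ) < (Fintype.card (I → Bool) : ℝ) := by
    exact_mod_cast Fintype.card_pos
  have hL : ∑ e : I → Bool, w (falseCount Qᶜ e) * CQ Q g y e ^ 2 =
      (Fintype.card (I → Bool) : ℝ) *
        Eu (fun e : I → Bool => if ValOn Qᶜ y e then w (falseCount Qᶜ e) * polyF 𝒥 a e ^ 2 else 0) := by
    rw [← fourier_sum_eq_Eu]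
    refine Finset.sum_congr rfl fun e _ => ?_
    rw [h2 e]
    split_ifs <;> ring
  have hR : ∑ e : I → Bool, CQ Q g y e ^ 2 =
      (Fintype.card (I → Bool) : ℝ) *
        Eu (fun e : I → Bool => if ValOn Qᶜ y e then polyF 𝒥 a e ^ 2 else 0) := by
    rw [← fourier_sum_eq_Eu]
    refine Finset.sum_congr rfl fun e _ => ?_
    rw [h2 e]
    split_ifs <;> ring
  rw [hL, hR]
  calc _ ≤ (Fintype.card (I → Bool) : ℝ) *
        (3 ^ Q.card * Real.sqrt (Ebin (Qᶜ).card φ) *
          Eu (fun e : I → Bool => if ValOn Qᶜ y e then polyF 𝒥 a e ^ 2 else 0)) :=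
        mul_le_mul_of_nonneg_left hwb hK.le
    _ = _ := by ring

/-- The probability of validity on `Qᶜ`. -/
private noncomputable def fourierP (T : Finset I) (y : I → Y) : ℝ :=
  Eu (fun e : I → Bool => if ValOn T y e then (1 : ℝ) else 0)

private theorem fourierP_nonneg (T : Finset I) (y : I → Y) : 0 ≤ fourierP T y :=
  Eu_nonneg fun e => by split_ifs <;> norm_num

/-- The size of `piF`. -/
private theorem fourier_card_piF (Q : Finset I) (x : I → Y) :
    (piF Q x).card = Fintype.card Y ^ Q.card := by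
  unfold piF
  rw [Fintype.card_piFinset]
  have : ∀ i, ((if i ∈ Q then (univ : Finset Y) else {x i}).card) =
      if i ∈ Q then Fintype.card Y else 1 := by
    intro i
    split_ifs <;> simp
  simp only [this]
  rw [Finset.prod_ite]
  simp only [Finset.prod_const_one, mul_one, Finset.prod_const]
  congr 2
  ext i; simp

/-- Bound on the doubled count. -/
private theorem fourier_dbl_le_card (b : I → Y) (hb : NoTriple univ b) :
    dblCount univ b ≤ Fintype.card Y := by
  unfold dblCount
  set D := (univ : Finset I).filter (fun i => ∃ j ∈ (univ : Finset I), j ≠ i ∧ b j = b i) with hD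
  have h1 : D.card ≤ 2 * (D.image b).card := by
    apply Finset.card_le_mul_card_image
    intro a ha
    obtain ⟨i, hi, rfl⟩ := Finset.mem_image.1 ha
    have h2 := hb i (Finset.mem_univ i)
    refine le_trans (Finset.card_le_card ?_) h2
    intro l hl
    have := (Finset.mem_filter.1 hl).2
    exact Finset.mem_filter.2 ⟨Finset.mem_univ _, this⟩
  have h3 : (D.image b).card ≤ Fintype.card Y := Finset.card_le_univ _
  exact Nat.div_le_of_le_mul (by omega)

private theorem fourier_two_dbl_le (b : I → Y) : 2 * dblCount univ b ≤ Fintype.card I := by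
  unfold dblCount
  have h1 := Nat.mul_div_le ((univ : Finset I).filter (fun i => ∃ j ∈ (univ : Finset I), j ≠ i ∧ b j = b i)).card 2
  have h2 : ((univ : Finset I).filter (fun i => ∃ j ∈ (univ : Finset I), j ≠ i ∧ b j = b i)).card ≤ Fintype.card I :=
    Finset.card_le_univ _
  omega

/-- With `Adm`, a triple of `b` avoids `Q`. -/
private theorem fourier_noTriple_of {Q : Finset I} {b : I → Y} (hA : Adm Q b)
    (hN : NoTriple Qᶜ b) : NoTriple univ b := by
  intro i _
  by_cases hex : ∃ l ∈ Q, b l = b i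
  · obtain ⟨l, hl, hli⟩ := hex
    have h2 := hA l hl
    rw [hli] at h2
    exact h2.le
  · have hi' : i ∈ Qᶜ := by
      rw [Finset.mem_compl]
      intro hiQ
      exact hex ⟨i, hiQ, rfl⟩
    refine le_trans (Finset.card_le_card ?_) (hN i hi')
    intro l hl
    have hl' := (Finset.mem_filter.1 hl).2
    refine Finset.mem_filter.2 ⟨?_, hl'⟩
    rw [Finset.mem_compl]
    intro hlQ
    exact hex ⟨l, hlQ, hl'⟩

private theorem fourierP_adm {Q : Finset I} {b : I → Y} (hA : Adm Q b) :
    fourierP Qᶜ b = fourierP univ b * 2 ^ ((attJ Q b).card + pairsP Q b) := by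
  by_cases hN : NoTriple univ b
  · have hN' : NoTriple Qᶜ b := fun i _ =>
      le_trans (Finset.card_le_card (Finset.filter_subset_filter _ (Finset.subset_univ _)))
        (hN i (Finset.mem_univ i))
    unfold fourierP
    rw [prob_val Qᶜ b hN', prob_val univ b hN, adm_dbl hA hN]
    have h2 : (2 : ℝ)⁻¹ ^ ((attJ Q b).card + pairsP Q b) * 2 ^ ((attJ Q b).card + pairsP Q b) = 1 := by
      rw [← mul_pow]; norm_num
    calc (2 : ℝ)⁻¹ ^ dblCount Qᶜ b
        = (2 : ℝ)⁻¹ ^ dblCount Qᶜ b *
            ((2 : ℝ)⁻¹ ^ ((attJ Q b).card + pairsP Q b) * 2 ^ ((attJ Q b).card + pairsP Q b)) := by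
          rw [h2, mul_one]
      _ = _ := by
          rw [add_assoc, pow_add (2 : ℝ)⁻¹ (dblCount Qᶜ b)]
          ring
  · have hN' : ¬ NoTriple Qᶜ b := fun h => hN (fourier_noTriple_of hA h)
    unfold fourierP
    rw [prob_val_zero Qᶜ b hN', prob_val_zero univ b hN]
    simp

/-- Fixed `Q`, `y`. -/
private theorem fourier_sum_e (Q : Finset I) (g : (I → Y) → ℝ) (y : I → Y) :
    ∑ e : I → Bool, CQ Q g y e ^ 2 ≤ (Fintype.card (I → Bool) : ℝ) * fourierP Qᶜ y *
      ∑ b ∈ (piF Q y).filter (fun b => Adm Q b),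
        (Ncount (Fintype.card Y) (attJ Q b).card (pairsP Q b) * (4 : ℝ) ^ pairsP Q b * g b ^ 2) := by
  obtain ⟨𝒥, a, h1, h2, h3⟩ := CQ_formula Q g y
  have hpar := parseval_val Qᶜ y 𝒥 a (fun J hJ => (h1 J hJ).2)
  have hR : ∑ e : I → Bool, CQ Q g y e ^ 2 =
      (Fintype.card (I → Bool) : ℝ) *
        Eu (fun e : I → Bool => if ValOn Qᶜ y e then polyF 𝒥 a e ^ 2 else 0) := by
    rw [← fourier_sum_eq_Eu]
    refine Finset.sum_congr rfl fun e _ => ?_
    rw [h2 e]
    split_ifs <;> ring
  rw [hR, hpar, ← mul_assoc]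
  refine mul_le_mul_of_nonneg_left h3 ?_
  exact mul_nonneg (by positivity) (fourierP_nonneg _ _)

/-- Fixed `Q`: sum over `y`. -/
private theorem fourier_sum_y (Q : Finset I) (g : (I → Y) → ℝ) :
    ∑ y : I → Y, ∑ e : I → Bool, CQ Q g y e ^ 2 ≤ ∑ b : I → Y, if Adm Q b then
      ((Fintype.card (I → Bool) : ℝ) * fourierP univ b * g b ^ 2) *
        ((Fintype.card Y : ℝ) ^ Q.card * 2 ^ ((attJ Q b).card + pairsP Q b) *
          (Ncount (Fintype.card Y) (attJ Q b).card (pairsP Q b) * (4 : ℝ) ^ pairsP Q b)) else 0 := by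
  set T : (I → Y) → ℝ := fun b =>
    (Ncount (Fintype.card Y) (attJ Q b).card (pairsP Q b) * (4 : ℝ) ^ pairsP Q b * g b ^ 2) with hT
  set K : ℝ := (Fintype.card (I → Bool) : ℝ) with hK
  have h1 : ∑ y : I → Y, ∑ e : I → Bool, CQ Q g y e ^ 2 ≤
      ∑ y : I → Y, ∑ b ∈ (piF Q y).filter (fun b => Adm Q b), K * fourierP Qᶜ b * T b := by
    refine Finset.sum_le_sum fun y _ => ?_
    refine (fourier_sum_e Q g y).trans (le_of_eq ?_)
    rw [Finset.mul_sum]
    refine Finset.sum_congr rfl fun b hb => ?_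
    have hby : ∀ i, i ∉ Q → b i = y i := (mem_piF Q y b).1 (Finset.mem_filter.1 hb).1
    have hP : fourierP Qᶜ y = fourierP Qᶜ b := by
      unfold fourierP
      congr 1
      funext e
      by_cases hV : ValOn Qᶜ y e
      · have : ValOn Qᶜ b e := (fourier_valOn_congr hby e).2 hV
        simp [hV, this]
      · have : ¬ ValOn Qᶜ b e := fun h => hV ((fourier_valOn_congr hby e).1 h)
        simp [hV, this]
    rw [hP]
  refine h1.trans (le_of_eq ?_)
  set H : (I → Y) → ℝ := fun b => if Adm Q b then K * fourierP Qᶜ b * T b else 0 with hH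
  have hsumite : ∀ (s : Finset (I → Y)) (h : (I → Y) → ℝ),
      ∑ b ∈ s, h b = ∑ b : I → Y, if b ∈ s then h b else 0 := by
    intro s h
    rw [Finset.sum_ite_mem, Finset.univ_inter]
  have h2 : ∀ y : I → Y, ∑ b ∈ (piF Q y).filter (fun b => Adm Q b), K * fourierP Qᶜ b * T b =
      ∑ b : I → Y, if b ∈ piF Q y then H b else 0 := by
    intro y
    rw [Finset.sum_filter, hsumite]
  simp only [h2]
  rw [Finset.sum_comm]
  refine Finset.sum_congr rfl fun b _ => ?_
  have hsymm : ∀ y : I → Y, b ∈ piF Q y ↔ y ∈ piF Q b := by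
    intro y
    rw [mem_piF, mem_piF]
    exact ⟨fun h i hi => (h i hi).symm, fun h i hi => (h i hi).symm⟩
  simp only [hsymm]
  rw [Finset.sum_ite_mem, Finset.univ_inter, Finset.sum_const, fourier_card_piF, nsmul_eq_mul]
  by_cases hA : Adm Q b
  · simp only [hH, hT, if_pos hA]
    rw [fourierP_adm hA]
    push_cast
    ring
  · simp [hH, hA]

/-- Algebra of the weights. -/
private theorem fourier_alg (m N : ℝ) (t p : ℕ) :
    m ^ (t + 2 * p) * 2 ^ (t + p) * (N * 4 ^ p) = (2 * m) ^ (t + 2 * p) * (2 ^ p * N) := by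
  have h4 : (4 : ℝ) ^ p = 2 ^ (2 * p) := by
    rw [pow_mul]; norm_num
  rw [h4, mul_pow]
  ring

/-- The sum over `Q` for a fixed `b` without triples. -/
private theorem fourier_G_bound (b : I → Y) (hb : NoTriple univ b) (q : ℕ) (hm : 0 < Fintype.card Y) :
    ∑ Q ∈ powersetCard q (univ : Finset I), (if Adm Q b then
      ((Fintype.card Y : ℝ) ^ q * 2 ^ ((attJ Q b).card + pairsP Q b) *
        (Ncount (Fintype.card Y) (attJ Q b).card (pairsP Q b) * (4 : ℝ) ^ pairsP Q b)) else 0) ≤
    ((2 * (Fintype.card Y : ℝ)) ^ q) ^ 2 *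
      Real.sqrt (8 * (Fintype.card I : ℝ) / Fintype.card Y) ^ q := by
  classical
  set m : ℝ := (Fintype.card Y : ℝ) with hmdef
  have hm1 : 1 ≤ m := by
    rw [hmdef]
    exact_mod_cast hm
  have hm0 : 0 < m := by linarith
  set d := dblCount univ b with hd
  have hclos := count_closure m hm1 (Fintype.card I) d q (fourier_two_dbl_le b)
    (by rw [hmdef]; exact_mod_cast fourier_dbl_le_card b hb)
  set P : ℝ := (2 * m) ^ q with hP
  have hP0 : 0 < P := by positivity
  have hN0 : ∀ t p : ℕ, 0 ≤ Ncount m t p := by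
    intro t p
    unfold Ncount
    positivity
  set S := (powersetCard q (univ : Finset I)).filter (fun Q => Adm Q b) with hS
  have hterm : ∀ Q ∈ S, (attJ Q b).card ≤ q ∧ (q - (attJ Q b).card) % 2 = 0 ∧
      pairsP Q b = (q - (attJ Q b).card) / 2 ∧ q = (attJ Q b).card + 2 * pairsP Q b := by
    intro Q hQ
    have hQ' := Finset.mem_filter.1 hQ
    have hcard : Q.card = q := (Finset.mem_powersetCard.1 hQ'.1).2
    have h1 := adm_card hQ'.2
    refine ⟨by omega, by omega, by omega, by omega⟩
  rw [← Finset.sum_filter]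
  have hmaps : ∀ Q ∈ S, (attJ Q b).card ∈ range (q + 1) := by
    intro Q hQ
    have := (hterm Q hQ).1
    exact Finset.mem_range.2 (by omega)
  rw [← Finset.sum_fiberwise_of_maps_to hmaps]
  calc _ ≤ ∑ t ∈ range (q + 1), P ^ 2 * (if (q - t) % 2 = 0 then
          ((2 * d).choose t : ℝ) * (d.choose ((q - t) / 2) : ℝ) * P⁻¹ *
            (2 ^ ((q - t) / 2) * Ncount m t ((q - t) / 2)) else 0) := by
        refine Finset.sum_le_sum fun t _ => ?_
        by_cases hpar : (q - t) % 2 = 0
        · rw [if_pos hpar]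
          set p := (q - t) / 2 with hp
          -- the value of the term
          have hval : ∀ Q ∈ S.filter (fun Q => (attJ Q b).card = t),
              ((m ^ q * 2 ^ ((attJ Q b).card + pairsP Q b) *
                (Ncount m (attJ Q b).card (pairsP Q b) * (4 : ℝ) ^ pairsP Q b))) =
              P * (2 ^ p * Ncount m t p) := by
            intro Q hQ
            have hQ' := Finset.mem_filter.1 hQ
            obtain ⟨h1, h2, h3, h4⟩ := hterm Q hQ'.1
            have hpQ : pairsP Q b = p := by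
              rw [h3, hQ'.2]
            rw [hQ'.2, hpQ]
            rw [hQ'.2, hpQ] at h4
            rw [hP, h4]
            exact fourier_alg m _ t p
          rw [Finset.sum_congr rfl hval, Finset.sum_const, nsmul_eq_mul]
          have hcardle : ((S.filter (fun Q => (attJ Q b).card = t)).card : ℝ) ≤
              ((2 * d).choose t : ℝ) * (d.choose p : ℝ) := by
            refine le_trans ?_ (count_Q b hb t p)
            have hsub : S.filter (fun Q => (attJ Q b).card = t) ⊆
                (univ : Finset (Finset I)).filter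
                  (fun Q => Q.card = t + 2 * p ∧ Adm Q b ∧ (attJ Q b).card = t) := by
              intro Q hQ
              have hQ' := Finset.mem_filter.1 hQ
              obtain ⟨h1, h2, h3, h4⟩ := hterm Q hQ'.1
              have hQ'' := Finset.mem_filter.1 hQ'.1
              have hcard : Q.card = q := (Finset.mem_powersetCard.1 hQ''.1).2
              refine Finset.mem_filter.2 ⟨Finset.mem_univ _, ?_, hQ''.2, hQ'.2⟩
              have hQt := hQ'.2
              rw [hQt] at h1 h2 h3 h4
              omega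
            exact_mod_cast Finset.card_le_card hsub
          have hX : 0 ≤ 2 ^ p * Ncount m t p := mul_nonneg (by positivity) (hN0 t p)
          calc ((S.filter (fun Q => (attJ Q b).card = t)).card : ℝ) * (P * (2 ^ p * Ncount m t p))
              ≤ (((2 * d).choose t : ℝ) * (d.choose p : ℝ)) * (P * (2 ^ p * Ncount m t p)) :=
                mul_le_mul_of_nonneg_right hcardle (mul_nonneg hP0.le hX)
            _ = P ^ 2 * (((2 * d).choose t : ℝ) * (d.choose p : ℝ) * P⁻¹ * (2 ^ p * Ncount m t p)) := by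
                field_simp
        · rw [if_neg hpar, mul_zero]
          refine le_of_eq ?_
          refine Finset.sum_eq_zero fun Q hQ => ?_
          exfalso
          have hQ' := Finset.mem_filter.1 hQ
          have := (hterm Q hQ'.1).2.1
          rw [hQ'.2] at this
          exact hpar this
    _ = P ^ 2 * ∑ t ∈ range (q + 1), (if (q - t) % 2 = 0 then
          ((2 * d).choose t : ℝ) * (d.choose ((q - t) / 2) : ℝ) * P⁻¹ *
            (2 ^ ((q - t) / 2) * Ncount m t ((q - t) / 2)) else 0) := by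
        rw [Finset.mul_sum]
    _ ≤ P ^ 2 * Real.sqrt (8 * (Fintype.card I : ℝ) / m) ^ q :=
        mul_le_mul_of_nonneg_left hclos (by positivity)

/-- The right side through the validity probability. -/
private theorem fourier_uFun_sum (g : (I → Y) → ℝ) (y : I → Y) :
    ∑ e : I → Bool, uFun g y e ^ 2 = (Fintype.card (I → Bool) : ℝ) * fourierP univ y * g y ^ 2 := by
  have h : ∑ e : I → Bool, uFun g y e ^ 2 =
      ∑ e : I → Bool, (if ValOn univ y e then (1 : ℝ) else 0) * g y ^ 2 := by
    refine Finset.sum_congr rfl fun e _ => ?_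
    unfold uFun
    split_ifs <;> simp
  rw [h, ← Finset.sum_mul, fourier_sum_eq_Eu]
  rfl

/-- LEMMA D. -/
theorem core_D (g : (I → Y) → ℝ) (q : ℕ) (hm : 0 < Fintype.card Y) :
    ∑ Q ∈ powersetCard q (univ : Finset I), ∑ y : I → Y, ∑ e : I → Bool, CQ Q g y e ^ 2 ≤
      ((2 * (Fintype.card Y : ℝ)) ^ q) ^ 2 * Real.sqrt (8 * (Fintype.card I : ℝ) / Fintype.card Y) ^ q *
        ∑ y : I → Y, ∑ e : I → Bool, uFun g y e ^ 2 := by
  classical
  set B : ℝ := ((2 * (Fintype.card Y : ℝ)) ^ q) ^ 2 *
    Real.sqrt (8 * (Fintype.card I : ℝ) / Fintype.card Y) ^ q with hB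
  set C : (I → Y) → ℝ := fun b => (Fintype.card (I → Bool) : ℝ) * fourierP univ b * g b ^ 2 with hC
  have hC0 : ∀ b, 0 ≤ C b := fun b =>
    mul_nonneg (mul_nonneg (by positivity) (fourierP_nonneg _ _)) (sq_nonneg _)
  have h1 : ∑ Q ∈ powersetCard q (univ : Finset I), ∑ y : I → Y, ∑ e : I → Bool, CQ Q g y e ^ 2 ≤
      ∑ Q ∈ powersetCard q (univ : Finset I), ∑ b : I → Y, C b * (if Adm Q b then
        ((Fintype.card Y : ℝ) ^ q * 2 ^ ((attJ Q b).card + pairsP Q b) *
          (Ncount (Fintype.card Y) (attJ Q b).card (pairsP Q b) * (4 : ℝ) ^ pairsP Q b)) else 0) := by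
    refine Finset.sum_le_sum fun Q hQ => ?_
    have hcard : Q.card = q := (Finset.mem_powersetCard.1 hQ).2
    refine (fourier_sum_y Q g).trans (le_of_eq ?_)
    refine Finset.sum_congr rfl fun b _ => ?_
    by_cases hA : Adm Q b
    · simp only [if_pos hA, hcard, hC]
    · simp only [if_neg hA, mul_zero]
  refine h1.trans ?_
  rw [Finset.sum_comm]
  have h2 : ∀ b : I → Y, ∑ Q ∈ powersetCard q (univ : Finset I), C b * (if Adm Q b then
        ((Fintype.card Y : ℝ) ^ q * 2 ^ ((attJ Q b).card + pairsP Q b) *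
          (Ncount (Fintype.card Y) (attJ Q b).card (pairsP Q b) * (4 : ℝ) ^ pairsP Q b)) else 0) ≤
      B * (C b) := by
    intro b
    rw [← Finset.mul_sum, mul_comm B]
    by_cases hN : NoTriple univ b
    · exact mul_le_mul_of_nonneg_left (fourier_G_bound b hN q hm) (hC0 b)
    · have : C b = 0 := by
        simp only [hC, fourierP]
        rw [prob_val_zero univ b hN]
        simp
      rw [this]
      simp
  refine (Finset.sum_le_sum fun b _ => h2 b).trans (le_of_eq ?_)
  rw [← Finset.mul_sum]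
  congr 1
  refine Finset.sum_congr rfl fun y _ => ?_
  rw [fourier_uFun_sum]

end Vale.Agent.P162O
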