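/-
P162 O(d), Part I: the scalar closure inequality. See notes/P162_Od_helper2.md (SCALAR CLOSURE).
-/
import Vale.Agent.P162O.Scalar

open Finset

namespace Vale.Agent.P162O

/-! ### Factorial comparison -/

theorem succ_pow_le_three_mul (k p : ℕ) (hp : p ≤ k) : ((k : ℝ) + 1) ^ p ≤ 3 * (k : ℝ) ^ p := by
  rcases Nat.eq_zero_or_pos k with rfl | hk
  · have : p = 0 := by omega
    subst this
    norm_num
  · have hk' : (0:ℝ) < k := by exact_mod_cast hk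
    have e : ((k : ℝ) + 1) ^ p = (k : ℝ) ^ p * (1 + 1 / (k : ℝ)) ^ p := by
      rw [← mul_pow]; congr 1; field_simp
    rw [e, mul_comm 3]
    apply mul_le_mul_of_nonneg_left _ (by positivity)
    have h1 : 1 + 1 / (k : ℝ) ≤ Real.exp (1 / (k : ℝ)) := by
      have := Real.add_one_le_exp (1 / (k : ℝ))
      linarith
    have h2 : (1 + 1 / (k : ℝ)) ^ p ≤ Real.exp (1 / (k : ℝ)) ^ p :=
      pow_le_pow_left₀ (by positivity) h1 p
    have h3 : Real.exp (1 / (k : ℝ)) ^ p = Real.exp ((p : ℝ) * (1 / (k : ℝ))) := by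
      rw [← Real.exp_nat_mul]
    have h4 : (p : ℝ) * (1 / (k : ℝ)) ≤ 1 := by
      have : (p : ℝ) ≤ k := by exact_mod_cast hp
      rw [mul_one_div, div_le_one hk']
      exact this
    have h5 : Real.exp ((p : ℝ) * (1 / (k : ℝ))) ≤ Real.exp 1 := Real.exp_le_exp.mpr h4
    have h6 := Real.exp_one_lt_d9
    rw [h3] at h2
    linarith

/-- `(k-q)! k^q ≤ 3^q k!` -/
theorem factorial_descent (k : ℕ) :
    ∀ q, q ≤ k → ((k - q).factorial : ℝ) * (k : ℝ) ^ q ≤ 3 ^ q * (k.factorial : ℝ) := by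
  induction k with
  | zero =>
    intro q hq
    have : q = 0 := by omega
    subst this
    norm_num
  | succ k ih =>
    intro q hq
    cases q with
    | zero => simp
    | succ p =>
      have hp : p ≤ k := by omega
      have e : k + 1 - (p + 1) = k - p := by omega
      rw [e]
      have h1 := ih p hp
      have h2 := succ_pow_le_three_mul k p hp
      have hf : (0:ℝ) ≤ ((k - p).factorial : ℝ) := by positivity
      have hk1 : (0:ℝ) ≤ (k:ℝ) + 1 := by positivity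
      push_cast
      rw [Nat.factorial_succ]
      push_cast
      calc ((k - p).factorial : ℝ) * ((k:ℝ) + 1) ^ (p + 1)
          = ((k:ℝ) + 1) * (((k - p).factorial : ℝ) * ((k:ℝ) + 1) ^ p) := by ring
        _ ≤ ((k:ℝ) + 1) * (((k - p).factorial : ℝ) * (3 * (k:ℝ) ^ p)) := by
            apply mul_le_mul_of_nonneg_left _ hk1
            exact mul_le_mul_of_nonneg_left h2 hf
        _ = 3 * ((k:ℝ) + 1) * (((k - p).factorial : ℝ) * (k:ℝ) ^ p) := by ring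
        _ ≤ 3 * ((k:ℝ) + 1) * (3 ^ p * (k.factorial : ℝ)) := by
            apply mul_le_mul_of_nonneg_left h1 (by positivity)
        _ = _ := by ring

/-- `(q+1)² ≤ 4^q` -/
theorem succ_sq_le_four_pow (q : ℕ) : ((q : ℝ) + 1) ^ 2 ≤ 4 ^ q := by
  induction q with
  | zero => norm_num
  | succ q ih =>
    rw [pow_succ (4:ℝ)]
    push_cast
    have : (0:ℝ) ≤ (q:ℝ) := by positivity
    nlinarith

/-- constant -/
noncomputable def kapC : ℝ := 16 * 72 ^ 4 / 10 ^ 24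

/-- `τ = 17/1000` -/
noncomputable def tauC : ℝ := 17 / 1000

theorem tauC_pos : 0 < tauC := by unfold tauC; norm_num

theorem core_count (k q : ℕ) (hq : q ≤ k) :
    (kapC * (k : ℝ)) ^ q * ((k - q).factorial : ℝ) * ((k : ℝ) + 1) ^ 2 ≤
      (tauC ^ 8) ^ q * (k.factorial : ℝ) * (((k - q : ℕ) : ℝ) + 1) ^ 2 := by
  have h1 := factorial_descent k q hq
  have h2 := succ_sq_le_four_pow q
  have hkap : 0 ≤ kapC := by unfold kapC; positivity
  have e : ((k - q : ℕ) : ℝ) = (k : ℝ) - q := by rw [Nat.cast_sub hq]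
  have hqk : (q : ℝ) ≤ k := by exact_mod_cast hq
  have h3 : ((k : ℝ) + 1) ≤ ((q : ℝ) + 1) * (((k - q : ℕ) : ℝ) + 1) := by
    rw [e]
    have h0 : (0:ℝ) ≤ q := by positivity
    nlinarith
  have h4 : ((k : ℝ) + 1) ^ 2 ≤ 4 ^ q * (((k - q : ℕ) : ℝ) + 1) ^ 2 := by
    have h5 : ((k : ℝ) + 1) ^ 2 ≤ (((q : ℝ) + 1) * (((k - q : ℕ) : ℝ) + 1)) ^ 2 :=
      pow_le_pow_left₀ (by positivity) h3 2
    rw [mul_pow] at h5
    refine h5.trans ?_
    exact mul_le_mul_of_nonneg_right h2 (by positivity)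
  have h12 : (12 * kapC) ^ q ≤ (tauC ^ 8) ^ q := by
    apply pow_le_pow_left₀ (by positivity)
    unfold kapC tauC
    norm_num
  calc (kapC * (k : ℝ)) ^ q * ((k - q).factorial : ℝ) * ((k : ℝ) + 1) ^ 2
      = kapC ^ q * (((k - q).factorial : ℝ) * (k:ℝ) ^ q) * ((k : ℝ) + 1) ^ 2 := by
        rw [mul_pow]; ring
    _ ≤ kapC ^ q * (3 ^ q * (k.factorial : ℝ)) * (4 ^ q * (((k - q : ℕ) : ℝ) + 1) ^ 2) := by
        apply mul_le_mul _ h4 (by positivity) (by positivity)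
        exact mul_le_mul_of_nonneg_left h1 (by positivity)
    _ = (12 * kapC) ^ q * ((k.factorial : ℝ) * (((k - q : ℕ) : ℝ) + 1) ^ 2) := by
        rw [show (12 : ℝ) * kapC = 3 * 4 * kapC by ring, mul_pow, mul_pow]; ring
    _ ≤ (tauC ^ 8) ^ q * ((k.factorial : ℝ) * (((k - q : ℕ) : ℝ) + 1) ^ 2) :=
        mul_le_mul_of_nonneg_right h12 (by positivity)
    _ = _ := by ring

/-- The geometric step: `(3 S)^8 ≤ κ k Z^8` with `S² = 8k/2^d`, `Z = ζ_{d+1}`, using `k ≤ 2^(d+1)`. -/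
theorem step_eighth (d k : ℕ) (hkm : k ≤ 2 ^ (d + 1)) :
    (3 * Real.sqrt (8 * (k : ℝ) / 2 ^ d)) ^ 8 ≤ kapC * (k : ℝ) * zetaD (d + 1) ^ 8 := by
  have hm : (0:ℝ) < 2 ^ d := by positivity
  have hS : Real.sqrt (8 * (k : ℝ) / 2 ^ d) ^ 2 = 8 * (k : ℝ) / 2 ^ d :=
    Real.sq_sqrt (by positivity)
  have e1 : (3 * Real.sqrt (8 * (k : ℝ) / 2 ^ d)) ^ 8 =
      3 ^ 8 * (8 * (k : ℝ) / 2 ^ d) ^ 4 := by
    calc (3 * Real.sqrt (8 * (k : ℝ) / 2 ^ d)) ^ 8
        = 3 ^ 8 * (Real.sqrt (8 * (k : ℝ) / 2 ^ d) ^ 2) ^ 4 := by ring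
      _ = _ := by rw [hS]
  have e2 : zetaD (d + 1) ^ 8 = 10 ^ 24 * (1 / 2 * (2 ^ d)⁻¹) := by
    unfold zetaD zeta0
    rw [mul_pow, ← pow_mul, mul_comm (d + 1) 8, pow_mul, betaC_pow_eight, pow_succ]
    rw [one_div, inv_pow]
    norm_num
    ring
  rw [e1, e2]
  set x : ℝ := (k : ℝ) / 2 ^ d with hx
  have hx0 : 0 ≤ x := by positivity
  have hx2 : x ≤ 2 := by
    rw [hx, div_le_iff₀ hm]
    have : (k : ℝ) ≤ 2 ^ (d + 1) := by exact_mod_cast hkm
    rw [pow_succ] at this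
    linarith
  have e3 : 8 * (k : ℝ) / 2 ^ d = 8 * x := by rw [hx]; ring
  have e4 : kapC * (k : ℝ) * (10 ^ 24 * (1 / 2 * ((2:ℝ) ^ d)⁻¹)) = 8 * 72 ^ 4 * x := by
    rw [hx]; unfold kapC; field_simp; ring
  rw [e3, e4]
  have h3 : x ^ 3 ≤ 8 := by
    have := pow_le_pow_left₀ hx0 hx2 3
    norm_num at this
    linarith
  have : x ^ 4 ≤ 8 * x := by nlinarith
  nlinarith

theorem pow_sqrt_Msq_eight (s : ℕ) : Real.sqrt (Msq s) ^ 8 = Msq s ^ 4 := by
  have h : Real.sqrt (Msq s) ^ 2 = Msq s := Real.sq_sqrt (Msq_pos s).le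
  rw [← h]
  rw [Real.sqrt_sq (Real.sqrt_nonneg _)]
  ring

/-- star: the middle terms -/
theorem star_mid (d k q : ℕ) (hkm : k ≤ 2 ^ (d + 1)) (hq : q < k) :
    (3 * Real.sqrt (8 * (k : ℝ) / 2 ^ d)) ^ q * Real.sqrt (Msq (k - q)) ≤
      zetaD (d + 1) ^ q * tauC ^ q * Real.sqrt (Msq k) := by
  have hZ := zetaD_pos (d + 1)
  have hτ := tauC_pos
  have hr : k - q ≠ 0 := by omega
  have hk : k ≠ 0 := by omega
  have hstep := step_eighth d k hkm
  have hS0 : 0 ≤ 3 * Real.sqrt (8 * (k : ℝ) / 2 ^ d) := by positivity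
  generalize 3 * Real.sqrt (8 * (k : ℝ) / 2 ^ d) = S at hstep hS0 ⊢
  apply le_of_pow_le_pow_left₀ (by norm_num : (8:ℕ) ≠ 0) (by positivity)
  have hA : (S ^ 8) ^ q ≤ (kapC * (k : ℝ) * zetaD (d + 1) ^ 8) ^ q :=
    pow_le_pow_left₀ (by positivity) hstep q
  have hcore := core_count k q hq.le
  rw [mul_pow, mul_pow, mul_pow, pow_sqrt_Msq_eight, pow_sqrt_Msq_eight,
    Msq_pow_four hr, Msq_pow_four hk]
  have hw : (0:ℝ) < wC ^ 8 := by unfold wC; positivity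
  have hk1 : (0:ℝ) < (k:ℝ) + 1 := by positivity
  have hr1 : (0:ℝ) < ((k - q : ℕ):ℝ) + 1 := by positivity
  have hkap : 0 ≤ kapC := by unfold kapC; positivity
  have hB : 0 ≤ (zetaD (d + 1) ^ 8) ^ q := by positivity
  have e1 : (S ^ q) ^ 8 = (S ^ 8) ^ q := by rw [← pow_mul, ← pow_mul, mul_comm]
  have e2 : (zetaD (d + 1) ^ q) ^ 8 = (zetaD (d + 1) ^ 8) ^ q := by
    rw [← pow_mul, ← pow_mul, mul_comm]
  have e3 : (tauC ^ q) ^ 8 = (tauC ^ 8) ^ q := by rw [← pow_mul, ← pow_mul, mul_comm]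
  rw [e1, e2, e3]
  have hmain : (kapC * (k : ℝ)) ^ q * (((k - q).factorial : ℝ) / (((k - q : ℕ):ℝ) + 1) ^ 2) ≤
      (tauC ^ 8) ^ q * ((k.factorial : ℝ) / ((k:ℝ) + 1) ^ 2) := by
    rw [← mul_div_assoc, ← mul_div_assoc, div_le_div_iff₀ (by positivity) (by positivity)]
    exact hcore
  calc (S ^ 8) ^ q * (wC ^ 8 * ((k - q).factorial : ℝ) / (((k - q : ℕ):ℝ) + 1) ^ 2)
      ≤ (kapC * (k : ℝ) * zetaD (d + 1) ^ 8) ^ q *
          (wC ^ 8 * ((k - q).factorial : ℝ) / (((k - q : ℕ):ℝ) + 1) ^ 2) :=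
        mul_le_mul_of_nonneg_right hA (by positivity)
    _ = wC ^ 8 * (zetaD (d + 1) ^ 8) ^ q *
          ((kapC * (k : ℝ)) ^ q * (((k - q).factorial : ℝ) / (((k - q : ℕ):ℝ) + 1) ^ 2)) := by
        rw [mul_pow (kapC * (k:ℝ))]; ring
    _ ≤ wC ^ 8 * (zetaD (d + 1) ^ 8) ^ q *
          ((tauC ^ 8) ^ q * ((k.factorial : ℝ) / ((k:ℝ) + 1) ^ 2)) :=
        mul_le_mul_of_nonneg_left hmain (by positivity)
    _ = _ := by ring

/-- star: the top term -/
theorem star_top (d k : ℕ) (hkm : k ≤ 2 ^ (d + 1)) (hk0 : k ≠ 0) :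
    (3 * Real.sqrt (8 * (k : ℝ) / 2 ^ d)) ^ k ≤
      10 * (zetaD (d + 1) ^ k * tauC ^ k * Real.sqrt (Msq k)) := by
  have hZ := zetaD_pos (d + 1)
  have hτ := tauC_pos
  have hstep := step_eighth d k hkm
  have hS0 : 0 ≤ 3 * Real.sqrt (8 * (k : ℝ) / 2 ^ d) := by positivity
  generalize 3 * Real.sqrt (8 * (k : ℝ) / 2 ^ d) = S at hstep hS0 ⊢
  apply le_of_pow_le_pow_left₀ (by norm_num : (8:ℕ) ≠ 0) (by positivity)
  have hA : (S ^ 8) ^ k ≤ (kapC * (k : ℝ) * zetaD (d + 1) ^ 8) ^ k :=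
    pow_le_pow_left₀ (by positivity) hstep k
  have hcore := core_count k k le_rfl
  simp only [Nat.sub_self, Nat.factorial_zero, Nat.cast_one, Nat.cast_zero, zero_add, one_pow,
    mul_one] at hcore
  rw [mul_pow, mul_pow, mul_pow, pow_sqrt_Msq_eight, Msq_pow_four hk0]
  have hk1 : (0:ℝ) < (k:ℝ) + 1 := by positivity
  have hkap : 0 ≤ kapC := by unfold kapC; positivity
  have e1 : (S ^ k) ^ 8 = (S ^ 8) ^ k := by rw [← pow_mul, ← pow_mul, mul_comm]
  have e2 : (zetaD (d + 1) ^ k) ^ 8 = (zetaD (d + 1) ^ 8) ^ k := by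
    rw [← pow_mul, ← pow_mul, mul_comm]
  have e3 : (tauC ^ k) ^ 8 = (tauC ^ 8) ^ k := by rw [← pow_mul, ← pow_mul, mul_comm]
  rw [e1, e2, e3]
  have hmain : (kapC * (k : ℝ)) ^ k ≤ (tauC ^ 8) ^ k * ((k.factorial : ℝ) / ((k:ℝ) + 1) ^ 2) := by
    rw [← mul_div_assoc, le_div_iff₀ (by positivity)]
    exact hcore
  have e10 : (10:ℝ) ^ 8 * wC ^ 8 = 1 := by unfold wC; norm_num
  calc (S ^ 8) ^ k ≤ (kapC * (k : ℝ) * zetaD (d + 1) ^ 8) ^ k := hA
    _ = (zetaD (d + 1) ^ 8) ^ k * (kapC * (k : ℝ)) ^ k := by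
        rw [mul_pow (kapC * (k:ℝ))]; ring
    _ ≤ (zetaD (d + 1) ^ 8) ^ k * ((tauC ^ 8) ^ k * ((k.factorial : ℝ) / ((k:ℝ) + 1) ^ 2)) :=
        mul_le_mul_of_nonneg_left hmain (by positivity)
    _ = ((10:ℝ) ^ 8 * wC ^ 8) * ((zetaD (d + 1) ^ 8) ^ k * ((tauC ^ 8) ^ k *
          ((k.factorial : ℝ) / ((k:ℝ) + 1) ^ 2))) := by rw [e10, one_mul]
    _ = _ := by ring

theorem geom_tau (n : ℕ) : ∑ i ∈ range n, tauC ^ (i + 1) ≤ 17 / 983 := by
  have hτ := tauC_pos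
  have key : ∀ m : ℕ, ∑ i ∈ range m, tauC ^ (i + 1) + 17 / 983 * tauC ^ m = 17 / 983 := by
    intro m
    induction m with
    | zero => simp
    | succ m ih =>
      rw [Finset.sum_range_succ]
      have e : 17 / 983 * tauC ^ (m + 1) + tauC ^ (m + 1) = 17 / 983 * tauC ^ m := by
        unfold tauC; rw [pow_succ]; ring
      linarith
  have := key n
  have h0 : 0 ≤ 17 / 983 * tauC ^ n := by positivity
  linarith

/-- THE SCALAR CLOSURE. For `2 ≤ k ≤ 2 m`, with `m = 2^d`: with `τ ≤ 17/ζ₀`,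
q = 0: `≤ 17/20`; `1 ≤ q < k`: `≤ (11/10) τ^q`; `q = k`: `≤ τ^k / w`, in units of `Gf (d+1) k`. -/
theorem scalar_closure (d k : ℕ) (hk : 2 ≤ k) (hkm : k ≤ 2 ^ (d + 1)) :
    ∑ q ∈ range (k + 1), (3 : ℝ) ^ q * (zetaD d ^ (k - q) * bq (k - q)) *
        Real.sqrt (8 * (k : ℝ) / 2 ^ d) ^ q ≤ Gf (d + 1) k := by
  obtain ⟨n, rfl⟩ : ∃ n, k = n + 2 := ⟨k - 2, by omega⟩
  set k := n + 2 with hk_def
  have hGf : Gf (d + 1) k = Real.sqrt (Msq k) * zetaD (d + 1) ^ k := rfl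
  rw [hGf]
  set R := Real.sqrt (Msq k) * zetaD (d + 1) ^ k with hR
  have hMk := Msq_pos k
  have hRpos : 0 < R := by have := zetaD_pos (d + 1); positivity
  have hb := betaC_pos
  have hz := zetaD_pos d
  have hZ := zetaD_pos (d + 1)
  have hτ := tauC_pos
  have eZ : zetaD (d + 1) = zetaD d * betaC := by
    unfold zetaD; rw [pow_succ]; ring
  set S := Real.sqrt (8 * (k : ℝ) / 2 ^ d) with hS
  have hS0 : 0 ≤ S := Real.sqrt_nonneg _
  -- the three kinds of terms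
  have hT0 : (3 : ℝ) ^ 0 * (zetaD d ^ (k - 0) * bq (k - 0)) * S ^ 0 ≤ 17 / 20 * R := by
    have := bq_le_two k hk
    simp only [pow_zero, one_mul, mul_one, Nat.sub_zero]
    rw [hR, eZ, mul_pow]
    calc zetaD d ^ k * bq k ≤ zetaD d ^ k * (17 / 20 * Real.sqrt (Msq k) * betaC ^ k) :=
          mul_le_mul_of_nonneg_left this (by positivity)
      _ = _ := by ring
  have hTmid : ∀ q, 1 ≤ q → q < k →
      (3 : ℝ) ^ q * (zetaD d ^ (k - q) * bq (k - q)) * S ^ q ≤ 11 / 10 * tauC ^ q * R := by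
    intro q hq1 hqk
    have hr : 1 ≤ k - q := by omega
    have h1 := bq_le_one (k - q) hr
    have h2 := star_mid d k q hkm hqk
    rw [← hS] at h2
    have e : zetaD (d + 1) ^ k = zetaD (d + 1) ^ (k - q) * zetaD (d + 1) ^ q := by
      rw [← pow_add]; congr 1; omega
    have hZr : 0 < zetaD (d + 1) ^ (k - q) := by positivity
    calc (3 : ℝ) ^ q * (zetaD d ^ (k - q) * bq (k - q)) * S ^ q
        ≤ (3 : ℝ) ^ q * (zetaD d ^ (k - q) * (11 / 10 * Real.sqrt (Msq (k - q)) * betaC ^ (k - q))) * S ^ q := by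
          apply mul_le_mul_of_nonneg_right _ (by positivity)
          apply mul_le_mul_of_nonneg_left _ (by positivity)
          exact mul_le_mul_of_nonneg_left h1 (by positivity)
      _ = 11 / 10 * zetaD (d + 1) ^ (k - q) * ((3 * S) ^ q * Real.sqrt (Msq (k - q))) := by
          rw [eZ, mul_pow, mul_pow]; ring
      _ ≤ 11 / 10 * zetaD (d + 1) ^ (k - q) *
            (zetaD (d + 1) ^ q * tauC ^ q * Real.sqrt (Msq k)) :=
          mul_le_mul_of_nonneg_left h2 (by positivity)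
      _ = _ := by rw [hR, e]; ring
  have hTtop : (3 : ℝ) ^ k * (zetaD d ^ (k - k) * bq (k - k)) * S ^ k ≤ 10 * tauC ^ k * R := by
    have h2 := star_top d k hkm (by omega)
    rw [← hS] at h2
    simp only [Nat.sub_self, pow_zero, bq_zero, mul_one]
    rw [← mul_pow]
    refine h2.trans (le_of_eq ?_)
    rw [hR]; ring
  rw [Finset.sum_range_succ, Finset.sum_range_succ']
  have hmid : ∑ i ∈ range (n + 1),
      (3 : ℝ) ^ (i + 1) * (zetaD d ^ (k - (i + 1)) * bq (k - (i + 1))) * S ^ (i + 1) ≤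
        11 / 10 * (17 / 983) * R := by
    calc _ ≤ ∑ i ∈ range (n + 1), 11 / 10 * tauC ^ (i + 1) * R := by
          apply Finset.sum_le_sum
          intro i hi
          apply hTmid (i + 1) (by omega)
          have : i < n + 1 := by simpa using hi
          omega
      _ = 11 / 10 * (∑ i ∈ range (n + 1), tauC ^ (i + 1)) * R := by
          rw [Finset.mul_sum, Finset.sum_mul]
      _ ≤ _ := by
          apply mul_le_mul_of_nonneg_right _ hRpos.le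
          exact mul_le_mul_of_nonneg_left (geom_tau _) (by norm_num)
  have htop2 : tauC ^ k ≤ (17 / 1000) ^ 2 := by
    have : tauC ^ k ≤ tauC ^ 2 :=
      pow_le_pow_of_le_one hτ.le (by unfold tauC; norm_num) (by omega)
    simpa [tauC] using this
  have htop3 : 10 * tauC ^ k * R ≤ 10 * (17 / 1000) ^ 2 * R := by
    apply mul_le_mul_of_nonneg_right _ hRpos.le
    linarith
  have hnum : (11 / 10 * (17 / 983) : ℝ) + 17 / 20 + 10 * (17 / 1000) ^ 2 ≤ 1 := by norm_num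
  calc _ ≤ 11 / 10 * (17 / 983) * R + 17 / 20 * R + 10 * (17 / 1000) ^ 2 * R :=
        add_le_add (add_le_add hmid hT0) (hTtop.trans htop3)
    _ = ((11 / 10 * (17 / 983) : ℝ) + 17 / 20 + 10 * (17 / 1000) ^ 2) * R := by ring
    _ ≤ 1 * R := mul_le_mul_of_nonneg_right hnum hRpos.le
    _ = R := one_mul R

end Vale.Agent.P162O
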