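/-
P162 O(d), Part I: the level inequality by induction on d.
Positions Cube (d+1), y = Fin.init x : Cube d, e = x (Fin.last d) (helper10: lastE, fiberHom, net_succ).
-/
import Vale.Agent.P162O.Fourier
import Vale.Agent.P162O.ScalarC

open scoped InnerProductSpace BigOperators
open Finset

namespace Vale.Agent.P162O
open Vale.Agent.P162

variable {I : Type} [Fintype I] [DecidableEq I]

/-- Glue `y : I → Cube d`, `e : I → Bool` to a tuple in `Cube (d+1)`. -/
def glueT {d : ℕ} (y : I → Cube d) (e : I → Bool) : I → Cube (d + 1) :=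
  fun i => Fin.snoc (y i) (e i)

/-- The bijection (tuples on Cube (d+1)) ≃ (tuples on Cube d) × sides. -/
def splitT {d : ℕ} : (I → Cube (d + 1)) ≃ (I → Cube d) × (I → Bool) where
  toFun x := (fun i => Fin.init (x i), fun i => x i (Fin.last d))
  invFun p := glueT p.1 p.2
  left_inv x := by
    funext i
    simp [glueT]
  right_inv p := by
    ext i
    · simp [glueT]
    · simp [glueT]

/-- The sector restriction. -/
noncomputable def secR {d : ℕ} (e : I → Bool) : TV I (Cube (d + 1)) →L[ℝ] TV I (Cube d) :=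
  LinearMap.toContinuousLinearMap
    { toFun := fun h => WithLp.toLp 2 (fun y => h (glueT y e))
      map_add' := by
        intro a b
        ext y
        simp
      map_smul' := by
        intro c a
        ext y
        simp }

@[simp] theorem secR_apply {d : ℕ} (e : I → Bool) (h : TV I (Cube (d + 1))) (y : I → Cube d) :
    secR e h y = h (glueT y e) := rfl

theorem norm_sq_sum_secR {d : ℕ} (h : TV I (Cube (d + 1))) :
    ‖h‖ ^ 2 = ∑ e : I → Bool, ‖secR e h‖ ^ 2 := by
  simp only [EuclideanSpace.real_norm_sq_eq, secR_apply]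
  calc ∑ x, h x ^ 2 = ∑ p : (I → Cube d) × (I → Bool), h (glueT p.1 p.2) ^ 2 :=
        (splitT.symm.sum_comp (fun x => h x ^ 2)).symm
    _ = ∑ y : I → Cube d, ∑ e : I → Bool, h (glueT y e) ^ 2 := Fintype.sum_prod_type _
    _ = ∑ e : I → Bool, ∑ y : I → Cube d, h (glueT y e) ^ 2 := Finset.sum_comm

/-- `secR` intertwines the action on the fiber `b` with the action on the coordinates of side `b`. -/
theorem secR_intertwine {d : ℕ} (S : Finset I) (e : I → Bool) (b : Bool) (g : Equiv.Perm (Cube d))
    (f : TV I (Cube (d + 1))) :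
    secR e ((tupRep S).comp (fiberHom d b) g f) = tupRep (S.filter (fun i => e i = b)) g (secR e f) := by
  ext y
  simp only [secR_apply, MonoidHom.comp_apply, tupRep_apply]
  have key : (actOn S ((fiberHom d b) g)).symm (glueT y e) =
      glueT ((actOn (S.filter (fun i => e i = b)) g).symm y) e := by
    have hinv : ∀ z, ((fiberHom d b) g)⁻¹ z = (fiberHom d b g⁻¹) z := by
      intro z
      rw [map_inv]
    funext i
    simp only [actOn_symm_apply, glueT, Finset.mem_filter]
    by_cases hi : i ∈ S
    · by_cases hb : e i = b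
      · simp only [hi, hb, and_self, if_true, hinv, fiberHom_snoc]
      · simp only [hi, hb, and_false, if_true, if_false, hinv, fiberHom_snoc]
    · simp [hi]
  rw [key]

/-- The signed average over `Q`: `B_Q u x = |X|^{-q} ∑_{w ∈ F_Q x} ∏_{i ∈ Q} σ(last bit of w i) u(w)`. -/
noncomputable def sgnAvg {d : ℕ} (Q : Finset I) (u : TV I (Cube (d + 1))) (x : I → Cube (d + 1)) : ℝ :=
  ((Fintype.card (Cube (d + 1)) : ℝ) ^ Q.card)⁻¹ *
    ∑ w ∈ piF Q x, (∏ i ∈ Q, sgn (w i (Fin.last d))) * u w

/-- The weight of a sector on `U`. -/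
noncomputable def sectW {d : ℕ} (U : Finset I) (x : I → Cube (d + 1)) : ℝ :=
  Gf d (U.filter (fun i => x i (Fin.last d) = false)).card *
    Gf d (U.filter (fun i => x i (Fin.last d) = true)).card

/-- `Ξ_T(u)`. -/
noncomputable def XiW {d : ℕ} (T : Finset I) (u : TV I (Cube (d + 1))) : ℝ :=
  ∑ Q ∈ T.powerset, ∑ x : I → Cube (d + 1), sectW (d := d) (T \ Q) x * sgnAvg Q u x ^ 2

/-- The level inequality at `d`. -/
def LevelIneq (d : ℕ) : Prop :=
  ∀ (I : Type) [Fintype I] [DecidableEq I] (S : Finset I) (f : TV I (Cube d)), InjOnS S f →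
    ‖net (tupRep S) f‖ ^ 2 ≤ ∑ Q ∈ S.powerset, Gf d (S.card - Q.card) * ‖avgC Q f‖ ^ 2

end Vale.Agent.P162O
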