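/-
P162 O(d), Part I: level_zero, the expansion step, properties of the averaged function.
-/
import Vale.Agent.P162O.LevelDefs

open scoped InnerProductSpace BigOperators
open Finset

namespace Vale.Agent.P162O
open Vale.Agent.P162

variable {I : Type} [Fintype I] [DecidableEq I]

/-! ### Invariant subspaces -/

section invariant
variable {D : ℕ} {V : Type*} [NormedAddCommGroup V] [InnerProductSpace ℝ V]

theorem stepX_avgOn_mem (π : Equiv.Perm (Cube D) →* (V →L[ℝ] V))
    (H : Subgroup (Equiv.Perm (Cube D))) (W : Submodule ℝ V) (hW : ∀ g, ∀ v ∈ W, π g v ∈ W)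
    {v : V} (hv : v ∈ W) : avgOn π H v ∈ W := by
  unfold avgOn
  rw [smul_apply, _root_.sum_apply]
  exact W.smul_mem _ (W.sum_mem fun g _ => hW g v hv)

theorem stepX_net_mem (π : Equiv.Perm (Cube D) →* (V →L[ℝ] V))
    (W : Submodule ℝ V) (hW : ∀ g, ∀ v ∈ W, π g v ∈ W) {v : V} (hv : v ∈ W) : net π v ∈ W := by
  have key : ∀ k (v : V), v ∈ W → netP π k v ∈ W := by
    intro k
    induction k with
    | zero =>
      intro v hv
      exact hv
    | succ k ih =>
      intro v hv
      exact ih _ (stepX_avgOn_mem π (Hk D k) W hW hv)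
  exact key D v hv

end invariant

/-- The functions vanishing on the tuples not injective on `T`. -/
def stepX_injSub {X : Type} [Fintype X] [DecidableEq X] (T : Finset I) : Submodule ℝ (TV I X) where
  carrier := {f | InjOnS T f}
  add_mem' := by
    intro a b ha hb x hx
    simp [ha x hx, hb x hx]
  zero_mem' := by
    intro x _
    simp
  smul_mem' := by
    intro c a ha x hx
    simp [ha x hx]

theorem stepX_inj_net {D : ℕ} {T S' : Finset I} {f : TV I (Cube D)} (hf : InjOnS T f)
    (h : T ⊆ S' ∨ Disjoint T S') : InjOnS T (net (tupRep S') f) :=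
  stepX_net_mem (tupRep S') (stepX_injSub T) (fun g _ hv => InjOnS.tupRep hv g h) hf

theorem stepX_inj_Qk {D : ℕ} {S : Finset I} {f : TV I (Cube D)} (hf : InjOnS S f) (k : ℕ) :
    InjOnS S (Qk (tupRep S) k f) :=
  stepX_avgOn_mem (tupRep S) (Hk D k) (stepX_injSub S)
    (fun g _ hv => InjOnS.tupRep hv g (Or.inl (Finset.Subset.refl S))) hf

/-! ### Level zero -/

theorem level_zero : LevelIneq 0 := by
  intro I _ _ S f _
  have hnet : net (tupRep S) f = f := rfl
  have havg : avgC S f = f := by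
    ext x
    rw [avgC_apply]
    unfold avgFun
    have hpi : piF S x = {x} := by
      apply Finset.eq_singleton_iff_unique_mem.mpr
      refine ⟨(mem_piF _ _ _).mpr fun _ _ => rfl, fun w _ => ?_⟩
      exact Subsingleton.elim _ _
    simp [hpi]
  have hterm := Finset.single_le_sum
    (f := fun Q => Gf 0 (S.card - Q.card) * ‖avgC Q f‖ ^ 2)
    (fun Q _ => mul_nonneg (Gf_nonneg _ _) (by positivity)) (Finset.mem_powerset_self S)
  have h0 : Gf 0 (S.card - S.card) = 1 := by
    rw [Nat.sub_self]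
    rfl
  simp only [h0, one_mul, havg] at hterm
  rw [hnet]
  exact hterm

/-! ### Fubini on `piF` -/

theorem stepX_sum_piF {α : Type} [Fintype α] [DecidableEq α] (Q Q' : Finset I) (hd : Disjoint Q Q')
    (x : I → α) (G : (I → α) → ℝ) :
    ∑ w ∈ piF Q x, ∑ w' ∈ piF Q' w, G w' = ∑ w' ∈ piF (Q ∪ Q') x, G w' := by
  rw [Finset.sum_sigma']
  refine Finset.sum_bij' (fun p _ => p.2)
    (fun w' _ => ⟨fun i => if i ∈ Q then w' i else x i, w'⟩) ?_ ?_ ?_ ?_ ?_
  · rintro ⟨w, w'⟩ hp
    simp only [Finset.mem_sigma, mem_piF] at hp ⊢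
    intro i hi
    simp only [Finset.mem_union, not_or] at hi
    rw [hp.2 i hi.2, hp.1 i hi.1]
  · intro w' hw'
    simp only [Finset.mem_sigma, mem_piF] at hw' ⊢
    refine ⟨fun i hi => by simp [hi], fun i hi => ?_⟩
    by_cases hiQ : i ∈ Q
    · simp [hiQ]
    · simp only [hiQ, if_false]
      exact hw' i (by simp [hiQ, hi])
  · rintro ⟨w, w'⟩ hp
    simp only [Finset.mem_sigma, mem_piF] at hp
    simp only [Sigma.mk.injEq, heq_eq_eq, and_true]
    funext i
    by_cases hiQ : i ∈ Q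
    · simp only [hiQ, if_true]
      exact hp.2 i (Finset.disjoint_left.mp hd hiQ)
    · simp only [hiQ, if_false]
      exact (hp.1 i hiQ).symm
  · intro w' _
    rfl
  · rintro ⟨w, w'⟩ _
    rfl

/-- The signed average of an average. -/
theorem stepX_sgnAvg_avgC {d : ℕ} (A Q' : Finset I) (hd : Disjoint A Q') (h : TV I (Cube (d + 1)))
    (x : I → Cube (d + 1)) :
    sgnAvg A (avgC Q' h) x = ((Fintype.card (Cube (d + 1)) : ℝ) ^ (A.card + Q'.card))⁻¹ *
      ∑ w ∈ piF (A ∪ Q') x, (∏ i ∈ A, sgn (w i (Fin.last d))) * h w := by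
  unfold sgnAvg
  rw [← stepX_sum_piF A Q' hd x, pow_add, mul_inv, mul_assoc]
  congr 1
  rw [Finset.mul_sum]
  refine Finset.sum_congr rfl fun w _ => ?_
  rw [avgC_apply]
  unfold avgFun
  rw [mul_left_comm, Finset.mul_sum]
  congr 1
  refine Finset.sum_congr rfl fun w' hw' => ?_
  have : ∏ i ∈ A, sgn (w' i (Fin.last d)) = ∏ i ∈ A, sgn (w i (Fin.last d)) :=
    Finset.prod_congr rfl fun i hi => by
      rw [(mem_piF _ _ _).mp hw' i (Finset.disjoint_left.mp hd hi)]
  rw [this]

theorem stepX_piF_congr {α : Type} [Fintype α] [DecidableEq α] (Q : Finset I) {x x' : I → α}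
    (h : ∀ i, i ∉ Q → x i = x' i) : piF Q x = piF Q x' := by
  ext w
  simp only [mem_piF]
  constructor
  · intro hw i hi
    rw [hw i hi, h i hi]
  · intro hw i hi
    rw [hw i hi, h i hi]

theorem stepX_sgn_mul_sgn (a b : Bool) : 1 + sgn a * sgn b = if b = a then 2 else 0 := by
  cases a <;> cases b <;> norm_num [sgn]

theorem stepX_card_succ (d : ℕ) :
    (Fintype.card (Cube (d + 1)) : ℝ) = 2 * (Fintype.card (Cube d) : ℝ) := by
  simp [Cube, pow_succ]
  ring

/-- The expansion of the sector average in signed averages. -/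
theorem stepX_expansion {d : ℕ} (Q : Finset I) (h : TV I (Cube (d + 1))) (y : I → Cube d)
    (e : I → Bool) :
    avgC Q (secR e h) y = ∑ A ∈ Q.powerset, chi A e * sgnAvg A (avgC (Q \ A) h) (glueT y e) := by
  have hform : ∀ A ∈ Q.powerset, chi A e * sgnAvg A (avgC (Q \ A) h) (glueT y e) =
      ((Fintype.card (Cube (d + 1)) : ℝ) ^ Q.card)⁻¹ *
        ∑ w ∈ piF Q (glueT y e), (chi A e * ∏ i ∈ A, sgn (w i (Fin.last d))) * h w := by
    intro A hA
    have hAQ : A ⊆ Q := Finset.mem_powerset.mp hA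
    have hd : Disjoint A (Q \ A) := Finset.disjoint_sdiff
    have hu : A ∪ (Q \ A) = Q := Finset.union_sdiff_of_subset hAQ
    have hc : A.card + (Q \ A).card = Q.card := by
      rw [← Finset.card_union_of_disjoint hd, hu]
    rw [stepX_sgnAvg_avgC A (Q \ A) hd, hu, hc, mul_left_comm, Finset.mul_sum]
    congr 1
    refine Finset.sum_congr rfl fun w _ => ?_
    ring
  rw [Finset.sum_congr rfl hform, ← Finset.mul_sum, Finset.sum_comm]
  have hprod : ∀ w ∈ piF Q (glueT y e),
      ∑ A ∈ Q.powerset, (chi A e * ∏ i ∈ A, sgn (w i (Fin.last d))) * h w =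
        (if ∀ i ∈ Q, w i (Fin.last d) = e i then (2 : ℝ) ^ Q.card * h w else 0) := by
    intro w _
    rw [← Finset.sum_mul]
    have h1 : ∑ A ∈ Q.powerset, (chi A e * ∏ i ∈ A, sgn (w i (Fin.last d))) =
        ∏ i ∈ Q, (1 + sgn (e i) * sgn (w i (Fin.last d))) := by
      rw [Finset.prod_one_add]
      refine Finset.sum_congr rfl fun A _ => ?_
      unfold chi
      rw [Finset.prod_mul_distrib]
    rw [h1]
    simp only [stepX_sgn_mul_sgn]
    rw [Finset.prod_ite_zero]
    by_cases hall : ∀ i ∈ Q, w i (Fin.last d) = e i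
    · simp [hall]
    · simp [hall]
  rw [Finset.sum_congr rfl hprod, ← Finset.sum_filter, ← Finset.mul_sum, ← mul_assoc,
    stepX_card_succ, mul_pow, mul_inv]
  have hm : (2 : ℝ) ^ Q.card ≠ 0 := by positivity
  have hmul : ((2 : ℝ) ^ Q.card)⁻¹ * ((Fintype.card (Cube d) : ℝ) ^ Q.card)⁻¹ * (2 : ℝ) ^ Q.card =
      ((Fintype.card (Cube d) : ℝ) ^ Q.card)⁻¹ := by
    field_simp
  rw [hmul, avgC_apply]
  unfold avgFun
  congr 1
  refine Finset.sum_bij' (fun b _ => glueT b e) (fun w _ i => Fin.init (w i)) ?_ ?_ ?_ ?_ ?_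
  · intro b hb
    simp only [Finset.mem_filter, mem_piF] at hb ⊢
    refine ⟨fun i hi => ?_, fun i _ => ?_⟩
    · simp only [glueT, hb i hi]
    · simp [glueT]
  · intro w hw
    simp only [Finset.mem_filter, mem_piF] at hw ⊢
    intro i hi
    rw [hw.1 i hi]
    simp [glueT]
  · intro b _
    funext i
    simp [glueT]
  · intro w hw
    simp only [Finset.mem_filter, mem_piF] at hw
    funext i
    have hlast : w i (Fin.last d) = e i := by
      by_cases hi : i ∈ Q
      · exact hw.2 i hi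
      · rw [hw.1 i hi]
        simp [glueT]
    simp only [glueT, ← hlast]
    exact Fin.snoc_init_self (w i)
  · intro b _
    rfl

/-- The signed average of an average does not see the coordinates in `A ∪ Q'`. -/
theorem stepX_sgnAvg_congr {d : ℕ} (A Q' : Finset I) (hd : Disjoint A Q') (h : TV I (Cube (d + 1)))
    {x x' : I → Cube (d + 1)} (hx : ∀ i, i ∉ A ∪ Q' → x i = x' i) :
    sgnAvg A (avgC Q' h) x = sgnAvg A (avgC Q' h) x' := by
  rw [stepX_sgnAvg_avgC A Q' hd, stepX_sgnAvg_avgC A Q' hd, stepX_piF_congr _ hx]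

/-! ### Parseval off `Q` -/

theorem stepX_sgn_not (b : Bool) : sgn (!b) = - sgn b := by
  cases b <;> norm_num [sgn]

theorem stepX_sgn_sq (b : Bool) : sgn b * sgn b = 1 := by
  cases b <;> norm_num [sgn]

theorem stepX_chi_sq (A : Finset I) (e : I → Bool) : chi A e * chi A e = 1 := by
  unfold chi
  rw [← Finset.prod_mul_distrib]
  exact Finset.prod_eq_one fun i _ => stepX_sgn_sq _

theorem stepX_chi_flip (A : Finset I) (i : I) (e : I → Bool) :
    chi A (Function.update e i (!e i)) = if i ∈ A then - chi A e else chi A e := by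
  unfold chi
  by_cases hi : i ∈ A
  · simp only [hi, if_true]
    rw [← Finset.mul_prod_erase A _ hi, ← Finset.mul_prod_erase A (fun j => sgn (e j)) hi]
    have : ∏ x ∈ A.erase i, sgn (Function.update e i (!e i) x) = ∏ x ∈ A.erase i, sgn (e x) :=
      Finset.prod_congr rfl fun j hj => by
        rw [Function.update_of_ne (Finset.ne_of_mem_erase hj)]
    rw [this, Function.update_self, stepX_sgn_not]
    ring
  · simp only [hi, if_false]
    exact Finset.prod_congr rfl fun j hj => by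
      have hne : j ≠ i := fun h => hi (by rw [← h]; exact hj)
      rw [Function.update_of_ne hne]

theorem stepX_parseval_off (Q : Finset I) (W : (I → Bool) → ℝ) (a : Finset I → (I → Bool) → ℝ)
    (hW : ∀ e e' : I → Bool, (∀ i, i ∉ Q → e i = e' i) → W e = W e')
    (ha : ∀ A ∈ Q.powerset, ∀ e e' : I → Bool, (∀ i, i ∉ Q → e i = e' i) → a A e = a A e') :
    ∑ e, W e * (∑ A ∈ Q.powerset, chi A e * a A e) ^ 2 =
      ∑ A ∈ Q.powerset, ∑ e, W e * a A e ^ 2 := by
  have hexp : ∀ e, W e * (∑ A ∈ Q.powerset, chi A e * a A e) ^ 2 =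
      ∑ A ∈ Q.powerset, ∑ B ∈ Q.powerset, W e * ((chi A e * a A e) * (chi B e * a B e)) := by
    intro e
    rw [sq, Finset.sum_mul_sum, Finset.mul_sum]
    refine Finset.sum_congr rfl fun A _ => ?_
    rw [Finset.mul_sum]
  simp only [hexp]
  rw [Finset.sum_comm]
  refine Finset.sum_congr rfl fun A hA => ?_
  rw [Finset.sum_comm]
  rw [Finset.sum_eq_single_of_mem A hA]
  · refine Finset.sum_congr rfl fun e _ => ?_
    have := stepX_chi_sq A e
    calc W e * ((chi A e * a A e) * (chi A e * a A e))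
        = W e * ((chi A e * chi A e) * a A e ^ 2) := by ring
      _ = W e * a A e ^ 2 := by rw [this, one_mul]
  · intro B hB hne
    -- a coordinate in the symmetric difference
    obtain ⟨i, hi⟩ : ∃ i, ¬ (i ∈ B ↔ i ∈ A) := by
      by_contra hcon
      exact hne (Finset.ext fun j => by
        by_contra hj
        exact hcon ⟨j, hj⟩)
    have hiQ : i ∈ Q := by
      by_contra hiQ
      have hA' : i ∉ A := fun h => hiQ (Finset.mem_powerset.mp hA h)
      have hB' : i ∉ B := fun h => hiQ (Finset.mem_powerset.mp hB h)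
      exact hi (by simp [hA', hB'])
    have hinv : Function.Involutive (fun e : I → Bool => Function.update e i (!e i)) := by
      intro e
      funext j
      by_cases hj : j = i
      · subst hj
        simp
      · simp [Function.update_of_ne hj]
    have hoff : ∀ e : I → Bool, ∀ j, j ∉ Q → Function.update e i (!e i) j = e j := by
      intro e j hj
      have hne : j ≠ i := fun h => hj (by rw [h]; exact hiQ)
      rw [Function.update_of_ne hne]
    set G : (I → Bool) → ℝ := fun e => W e * ((chi A e * a A e) * (chi B e * a B e)) with hG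
    have hflip : ∀ e, G (Function.update e i (!e i)) = - G e := by
      intro e
      simp only [hG]
      rw [hW _ e (hoff e), ha A hA _ e (hoff e), ha B hB _ e (hoff e), stepX_chi_flip, stepX_chi_flip]
      by_cases h1 : i ∈ A
      · have h2 : i ∉ B := fun h => hi (by simp [h, h1])
        simp only [h1, h2, if_true, if_false]
        ring
      · have h2 : i ∈ B := by
          by_contra h2
          exact hi (by simp [h1, h2])
        simp only [h1, h2, if_true, if_false]
        ring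
    have hsum : ∑ e, G e = - ∑ e, G e := by
      calc ∑ e, G e = ∑ e, G (Function.update e i (!e i)) :=
            (Equiv.sum_comp (Function.Involutive.toPerm _ hinv) G).symm
        _ = ∑ e, - G e := Finset.sum_congr rfl fun e _ => hflip e
        _ = - ∑ e, G e := Finset.sum_neg_distrib _
    show ∑ e, G e = 0
    linarith

/-! ### The sector weights -/

/-- The weight of a sector, in terms of the sides. -/
noncomputable def stepX_secE (d : ℕ) (U : Finset I) (e : I → Bool) : ℝ :=
  Gf d (U.filter (fun i => e i = false)).card * Gf d (U.filter (fun i => e i = true)).card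

theorem stepX_secE_nonneg (d : ℕ) (U : Finset I) (e : I → Bool) : 0 ≤ stepX_secE d U e :=
  mul_nonneg (Gf_nonneg _ _) (Gf_nonneg _ _)

theorem stepX_sectW_glue {d : ℕ} (U : Finset I) (y : I → Cube d) (e : I → Bool) :
    sectW (d := d) U (glueT y e) = stepX_secE d U e := by
  simp [sectW, stepX_secE, glueT]

theorem stepX_secE_congr {d : ℕ} (U Q : Finset I) (hU : Disjoint U Q) (e e' : I → Bool)
    (h : ∀ i, i ∉ Q → e i = e' i) : stepX_secE d U e = stepX_secE d U e' := by
  unfold stepX_secE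
  have h1 : ∀ b : Bool, U.filter (fun i => e i = b) = U.filter (fun i => e' i = b) := by
    intro b
    refine Finset.filter_congr fun i hi => ?_
    rw [h i (Finset.disjoint_left.mp hU hi)]
  rw [h1, h1]

theorem stepX_sector_sum {d : ℕ} (U Q : Finset I) (hU : Disjoint U Q) (h : TV I (Cube (d + 1))) :
    ∑ e : I → Bool, stepX_secE d U e * ‖avgC Q (secR e h)‖ ^ 2 =
      ∑ A ∈ Q.powerset, ∑ x : I → Cube (d + 1),
        sectW (d := d) U x * sgnAvg A (avgC (Q \ A) h) x ^ 2 := by
  have h1 : ∀ A ∈ Q.powerset, ∑ x : I → Cube (d + 1),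
      sectW (d := d) U x * sgnAvg A (avgC (Q \ A) h) x ^ 2 =
      ∑ y : I → Cube d, ∑ e : I → Bool,
        stepX_secE d U e * sgnAvg A (avgC (Q \ A) h) (glueT y e) ^ 2 := by
    intro A _
    calc ∑ x : I → Cube (d + 1), sectW (d := d) U x * sgnAvg A (avgC (Q \ A) h) x ^ 2
        = ∑ p : (I → Cube d) × (I → Bool),
            sectW (d := d) U (glueT p.1 p.2) * sgnAvg A (avgC (Q \ A) h) (glueT p.1 p.2) ^ 2 :=
          (splitT.symm.sum_comp
            (fun x => sectW (d := d) U x * sgnAvg A (avgC (Q \ A) h) x ^ 2)).symm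
      _ = ∑ y : I → Cube d, ∑ e : I → Bool,
            sectW (d := d) U (glueT y e) * sgnAvg A (avgC (Q \ A) h) (glueT y e) ^ 2 :=
          Fintype.sum_prod_type _
      _ = _ := by simp only [stepX_sectW_glue]
  rw [Finset.sum_congr rfl h1, Finset.sum_comm]
  have h2 : ∀ e : I → Bool, stepX_secE d U e * ‖avgC Q (secR e h)‖ ^ 2 =
      ∑ y : I → Cube d, stepX_secE d U e *
        (∑ A ∈ Q.powerset, chi A e * sgnAvg A (avgC (Q \ A) h) (glueT y e)) ^ 2 := by
    intro e
    rw [EuclideanSpace.real_norm_sq_eq, Finset.mul_sum]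
    refine Finset.sum_congr rfl fun y _ => ?_
    rw [stepX_expansion]
  simp only [h2]
  rw [Finset.sum_comm]
  refine Finset.sum_congr rfl fun y _ => ?_
  refine stepX_parseval_off Q (stepX_secE d U)
    (fun A e => sgnAvg A (avgC (Q \ A) h) (glueT y e))
    (fun e e' he => stepX_secE_congr U Q hU e e' he) ?_
  intro A hA e e' he
  have hAQ : A ⊆ Q := Finset.mem_powerset.mp hA
  refine stepX_sgnAvg_congr A (Q \ A) Finset.disjoint_sdiff h ?_
  intro i hi
  rw [Finset.union_sdiff_of_subset hAQ] at hi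
  simp only [glueT, he i hi]

/-! ### Sector estimate from the induction hypothesis -/

theorem stepX_sum_split (S₀ S₁ : Finset I) (hd : Disjoint S₀ S₁) (F : Finset I → Finset I → ℝ)
    (Φ : Finset I → ℝ) (hF : ∀ Q₀ ∈ S₀.powerset, ∀ Q₁ ∈ S₁.powerset, F Q₀ Q₁ = Φ (Q₀ ∪ Q₁)) :
    ∑ Q₀ ∈ S₀.powerset, ∑ Q₁ ∈ S₁.powerset, F Q₀ Q₁ = ∑ Q ∈ (S₀ ∪ S₁).powerset, Φ Q := by
  rw [← Finset.sum_product']
  refine Finset.sum_bij' (fun p _ => p.1 ∪ p.2) (fun Q _ => (Q ∩ S₀, Q ∩ S₁)) ?_ ?_ ?_ ?_ ?_
  · rintro ⟨Q₀, Q₁⟩ hp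
    simp only [Finset.mem_product, Finset.mem_powerset] at hp ⊢
    exact Finset.union_subset_union hp.1 hp.2
  · intro Q hQ
    simp only [Finset.mem_product, Finset.mem_powerset]
    exact ⟨Finset.inter_subset_right, Finset.inter_subset_right⟩
  · rintro ⟨Q₀, Q₁⟩ hp
    simp only [Finset.mem_product, Finset.mem_powerset] at hp
    simp only [Prod.mk.injEq]
    constructor
    · ext i
      simp only [Finset.mem_inter, Finset.mem_union]
      constructor
      · rintro ⟨h1 | h1, h2⟩
        · exact h1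
        · exact absurd h2 (Finset.disjoint_right.mp hd (hp.2 h1))
      · intro h1
        exact ⟨Or.inl h1, hp.1 h1⟩
    · ext i
      simp only [Finset.mem_inter, Finset.mem_union]
      constructor
      · rintro ⟨h1 | h1, h2⟩
        · exact absurd h2 (Finset.disjoint_left.mp hd (hp.1 h1))
        · exact h1
      · intro h1
        exact ⟨Or.inr h1, hp.2 h1⟩
  · intro Q hQ
    have hQ' : Q ⊆ S₀ ∪ S₁ := Finset.mem_powerset.mp hQ
    ext i
    simp only [Finset.mem_union, Finset.mem_inter]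
    constructor
    · rintro (h1 | h1) <;> exact h1.1
    · intro h1
      rcases Finset.mem_union.mp (hQ' h1) with h2 | h2
      · exact Or.inl ⟨h1, h2⟩
      · exact Or.inr ⟨h1, h2⟩
  · rintro ⟨Q₀, Q₁⟩ hp
    simp only [Finset.mem_product] at hp
    exact hF Q₀ hp.1 Q₁ hp.2

theorem stepX_secR_inj {d : ℕ} {S : Finset I} {h : TV I (Cube (d + 1))} (hh : InjOnS S h)
    (e : I → Bool) (b : Bool) : InjOnS (S.filter (fun i => e i = b)) (secR e h) := by
  intro y hy
  rw [secR_apply]
  apply hh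
  intro hinj
  apply hy
  intro i hi j hj hij
  have hi' := Finset.mem_filter.mp (Finset.mem_coe.mp hi)
  have hj' := Finset.mem_filter.mp (Finset.mem_coe.mp hj)
  apply hinj (Finset.mem_coe.mpr hi'.1) (Finset.mem_coe.mpr hj'.1)
  simp only [glueT, hij, hi'.2, hj'.2]

theorem stepX_sector_le {d : ℕ} (ih : LevelIneq d) (S : Finset I) (e : I → Bool)
    (h : TV I (Cube (d + 1))) (hh : InjOnS S h) :
    ‖net (tupRep (S.filter (fun i => e i = false)))
        (net (tupRep (S.filter (fun i => e i = true))) (secR e h))‖ ^ 2 ≤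
      ∑ Q ∈ S.powerset, stepX_secE d (S \ Q) e * ‖avgC Q (secR e h)‖ ^ 2 := by
  set S₀ := S.filter (fun i => e i = false) with hS₀
  set S₁ := S.filter (fun i => e i = true) with hS₁
  set F := secR e h with hF
  have hd : Disjoint S₀ S₁ := by
    rw [Finset.disjoint_left]
    intro i hi hi'
    have h1 := (Finset.mem_filter.mp hi).2
    have h2 := (Finset.mem_filter.mp hi').2
    rw [h1] at h2
    exact Bool.noConfusion h2
  have hu : S₀ ∪ S₁ = S := by
    ext i
    simp only [hS₀, hS₁, Finset.mem_union, Finset.mem_filter]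
    cases e i <;> simp
  have hF0 : InjOnS S₀ F := stepX_secR_inj hh e false
  have hF1 : InjOnS S₁ F := stepX_secR_inj hh e true
  have hfirst := ih I S₀ (net (tupRep S₁) F) (stepX_inj_net hF0 (Or.inr hd))
  have hsecond : ∀ Q₀ ∈ S₀.powerset, ‖avgC Q₀ (net (tupRep S₁) F)‖ ^ 2 ≤
      ∑ Q₁ ∈ S₁.powerset, Gf d (S₁.card - Q₁.card) * ‖avgC (Q₀ ∪ Q₁) F‖ ^ 2 := by
    intro Q₀ hQ₀
    have hQ₀' : Q₀ ⊆ S₀ := Finset.mem_powerset.mp hQ₀
    have hcomm : avgC Q₀ (net (tupRep S₁) F) = net (tupRep S₁) (avgC Q₀ F) :=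
      net_intertwine (tupRep S₁) (tupRep S₁) (avgC Q₀) (fun g f => avgC_tupRep Q₀ S₁ g f) F
    have hinj : InjOnS S₁ (avgC Q₀ F) := by
      have := InjOnS.avgC (Q := Q₀) hF1
      have hs : S₁ \ Q₀ = S₁ := Finset.sdiff_eq_self_of_disjoint
        (Finset.disjoint_of_subset_left hQ₀' hd).symm
      rwa [hs] at this
    rw [hcomm]
    refine (ih I S₁ (avgC Q₀ F) hinj).trans (le_of_eq ?_)
    refine Finset.sum_congr rfl fun Q₁ hQ₁ => ?_
    have hQ₁' : Q₁ ⊆ S₁ := Finset.mem_powerset.mp hQ₁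
    have hdq : Disjoint Q₁ Q₀ :=
      (Finset.disjoint_of_subset_left hQ₀' (Finset.disjoint_of_subset_right hQ₁' hd)).symm
    rw [avgC_avgC Q₁ Q₀ hdq, Finset.union_comm]
  refine hfirst.trans ?_
  calc ∑ Q₀ ∈ S₀.powerset, Gf d (S₀.card - Q₀.card) * ‖avgC Q₀ (net (tupRep S₁) F)‖ ^ 2
      ≤ ∑ Q₀ ∈ S₀.powerset, Gf d (S₀.card - Q₀.card) *
          ∑ Q₁ ∈ S₁.powerset, Gf d (S₁.card - Q₁.card) * ‖avgC (Q₀ ∪ Q₁) F‖ ^ 2 :=
        Finset.sum_le_sum fun Q₀ hQ₀ =>
          mul_le_mul_of_nonneg_left (hsecond Q₀ hQ₀) (Gf_nonneg _ _)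
    _ = ∑ Q₀ ∈ S₀.powerset, ∑ Q₁ ∈ S₁.powerset,
          (Gf d (S₀.card - Q₀.card) * Gf d (S₁.card - Q₁.card)) * ‖avgC (Q₀ ∪ Q₁) F‖ ^ 2 := by
        refine Finset.sum_congr rfl fun Q₀ _ => ?_
        rw [Finset.mul_sum]
        refine Finset.sum_congr rfl fun Q₁ _ => ?_
        ring
    _ = ∑ Q ∈ (S₀ ∪ S₁).powerset, stepX_secE d (S \ Q) e * ‖avgC Q F‖ ^ 2 := by
        refine stepX_sum_split S₀ S₁ hd _ _ ?_
        intro Q₀ hQ₀ Q₁ hQ₁
        have hQ₀' : Q₀ ⊆ S₀ := Finset.mem_powerset.mp hQ₀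
        have hQ₁' : Q₁ ⊆ S₁ := Finset.mem_powerset.mp hQ₁
        have e0 : ∀ i ∈ Q₀, e i = false := fun i hi => (Finset.mem_filter.mp (hQ₀' hi)).2
        have e1 : ∀ i ∈ Q₁, e i = true := fun i hi => (Finset.mem_filter.mp (hQ₁' hi)).2
        have c0 : ((S \ (Q₀ ∪ Q₁)).filter (fun i => e i = false)).card = S₀.card - Q₀.card := by
          rw [← Finset.card_sdiff_of_subset hQ₀']
          congr 1
          ext i
          simp only [hS₀, Finset.mem_filter, Finset.mem_sdiff, Finset.mem_union, not_or]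
          constructor
          · rintro ⟨⟨h1, h2, _⟩, h4⟩
            exact ⟨⟨h1, h4⟩, h2⟩
          · rintro ⟨⟨h1, h4⟩, h2⟩
            refine ⟨⟨h1, h2, fun h5 => ?_⟩, h4⟩
            rw [e1 i h5] at h4
            exact Bool.noConfusion h4
        have c1 : ((S \ (Q₀ ∪ Q₁)).filter (fun i => e i = true)).card = S₁.card - Q₁.card := by
          rw [← Finset.card_sdiff_of_subset hQ₁']
          congr 1
          ext i
          simp only [hS₁, Finset.mem_filter, Finset.mem_sdiff, Finset.mem_union, not_or]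
          constructor
          · rintro ⟨⟨h1, _, h3⟩, h4⟩
            exact ⟨⟨h1, h4⟩, h3⟩
          · rintro ⟨⟨h1, h4⟩, h3⟩
            refine ⟨⟨h1, fun h5 => ?_, h3⟩, h4⟩
            rw [e0 i h5] at h4
            exact Bool.noConfusion h4
        simp only [stepX_secE, c0, c1]
    _ = _ := by rw [hu]

/-! ### The expansion step -/

theorem stepX_reindex {d : ℕ} (S : Finset I) (h : TV I (Cube (d + 1))) :
    ∑ Q ∈ S.powerset, ∑ A ∈ Q.powerset, ∑ x : I → Cube (d + 1),
        sectW (d := d) (S \ Q) x * sgnAvg A (avgC (Q \ A) h) x ^ 2 =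
      ∑ Q ∈ S.powerset, XiW (d := d) (S \ Q) (avgC Q h) := by
  unfold XiW
  refine (Finset.sum_sigma' _ (fun Q => Q.powerset) (fun Q A => ∑ x : I → Cube (d + 1),
    sectW (d := d) (S \ Q) x * sgnAvg A (avgC (Q \ A) h) x ^ 2)).trans ?_
  refine Eq.trans ?_ (Finset.sum_sigma' _ (fun Q => (S \ Q).powerset) (fun Q A => ∑ x : I → Cube (d + 1),
    sectW (d := d) ((S \ Q) \ A) x * sgnAvg A (avgC Q h) x ^ 2)).symm
  refine Finset.sum_bij' (fun p _ => ⟨p.1 \ p.2, p.2⟩) (fun p _ => ⟨p.1 ∪ p.2, p.2⟩) ?_ ?_ ?_ ?_ ?_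
  · rintro ⟨Q, A⟩ hp
    simp only [Finset.mem_sigma, Finset.mem_powerset] at hp ⊢
    refine ⟨Finset.sdiff_subset.trans hp.1, fun i hi => ?_⟩
    simp only [Finset.mem_sdiff, not_and, not_not]
    exact ⟨hp.1 (hp.2 hi), fun _ => hi⟩
  · rintro ⟨Q', A⟩ hp
    simp only [Finset.mem_sigma, Finset.mem_powerset] at hp ⊢
    refine ⟨Finset.union_subset hp.1 (hp.2.trans Finset.sdiff_subset), Finset.subset_union_right⟩
  · rintro ⟨Q, A⟩ hp
    simp only [Finset.mem_sigma, Finset.mem_powerset] at hp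
    simp only [Sigma.mk.injEq, heq_eq_eq, and_true]
    exact Finset.sdiff_union_of_subset hp.2
  · rintro ⟨Q', A⟩ hp
    simp only [Finset.mem_sigma, Finset.mem_powerset] at hp
    simp only [Sigma.mk.injEq, heq_eq_eq, and_true]
    ext i
    simp only [Finset.mem_sdiff, Finset.mem_union]
    constructor
    · rintro ⟨h1 | h1, h2⟩
      · exact h1
      · exact absurd h1 h2
    · intro h1
      exact ⟨Or.inl h1, fun h2 => (Finset.mem_sdiff.mp (hp.2 h2)).2 h1⟩
  · rintro ⟨Q, A⟩ hp
    simp only [Finset.mem_sigma, Finset.mem_powerset] at hp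
    have hset : (S \ (Q \ A)) \ A = S \ Q := by
      ext i
      simp only [Finset.mem_sdiff, not_and, not_not]
      constructor
      · rintro ⟨⟨h1, h2⟩, h3⟩
        exact ⟨h1, fun h4 => h3 (h2 h4)⟩
      · rintro ⟨h1, h2⟩
        exact ⟨⟨h1, fun h4 => absurd h4 h2⟩, fun h4 => h2 (hp.2 h4)⟩
    simp only [hset]

/-- Expansion step: from the level inequality at `d`. -/
theorem step_expand {d : ℕ} (ih : LevelIneq d) (S : Finset I) (f : TV I (Cube (d + 1))) (hf : InjOnS S f) :
    ‖net (tupRep S) f‖ ^ 2 ≤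
      ∑ Q ∈ S.powerset, XiW (d := d) (S \ Q) (avgC Q (Qk (tupRep S) d f)) := by
  set h := Qk (tupRep S) d f with hh
  have hinj : InjOnS S h := stepX_inj_Qk hf d
  rw [← stepX_reindex, norm_sq_sum_secR]
  have hsec : ∀ e : I → Bool, secR e (net (tupRep S) f) =
      net (tupRep (S.filter (fun i => e i = false)))
        (net (tupRep (S.filter (fun i => e i = true))) (secR e h)) := by
    intro e
    rw [net_succ]
    show secR e (net ((tupRep S).comp (fiberHom d false)) (net ((tupRep S).comp (fiberHom d true))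
      (Qk (tupRep S) d f))) = _
    rw [net_intertwine ((tupRep S).comp (fiberHom d false)) (tupRep (S.filter (fun i => e i = false)))
      (secR e) (fun g f => secR_intertwine S e false g f),
      net_intertwine ((tupRep S).comp (fiberHom d true)) (tupRep (S.filter (fun i => e i = true)))
      (secR e) (fun g f => secR_intertwine S e true g f)]
  calc ∑ e : I → Bool, ‖secR e (net (tupRep S) f)‖ ^ 2
      ≤ ∑ e : I → Bool, ∑ Q ∈ S.powerset, stepX_secE d (S \ Q) e * ‖avgC Q (secR e h)‖ ^ 2 :=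
        Finset.sum_le_sum fun e _ => by
          rw [hsec]
          exact stepX_sector_le ih S e h hinj
    _ = ∑ Q ∈ S.powerset, ∑ e : I → Bool, stepX_secE d (S \ Q) e * ‖avgC Q (secR e h)‖ ^ 2 :=
        Finset.sum_comm
    _ = _ := Finset.sum_congr rfl fun Q _ => stepX_sector_sum (S \ Q) Q Finset.sdiff_disjoint h

/-- Invariance of `A_Q P f`. -/
theorem avg_inv {d : ℕ} (S Q : Finset I) (f : TV I (Cube (d + 1))) :
    ∀ g ∈ Hk (d + 1) d, tupRep (S \ Q) g (avgC Q (Qk (tupRep S) d f)) = avgC Q (Qk (tupRep S) d f) := by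
  intro g hg
  rw [tupRep_avgC_sdiff, ← avgC_tupRep]
  congr 1
  exact avgOn_map_apply (tupRep S) (Hk (d + 1) d) hg f

theorem avg_inj {d : ℕ} (S Q : Finset I) (f : TV I (Cube (d + 1))) (hf : InjOnS S f) :
    InjOnS (S \ Q) (avgC Q (Qk (tupRep S) d f)) :=
  InjOnS.avgC (stepX_inj_Qk hf d)

theorem avg_norm {d : ℕ} (S Q : Finset I) (f : TV I (Cube (d + 1))) :
    ‖avgC Q (Qk (tupRep S) d f)‖ ≤ ‖avgC Q f‖ := by
  have hcomm : Commute (avgC Q : TV I (Cube (d + 1)) →L[ℝ] TV I (Cube (d + 1))) (Qk (tupRep S) d) := by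
    apply avgOn_commute
    intro g _
    ext1 u
    exact avgC_tupRep Q S g u
  have h1 : avgC Q (Qk (tupRep S) d f) = Qk (tupRep S) d (avgC Q f) := by
    have := congrArg (fun A : TV I (Cube (d + 1)) →L[ℝ] TV I (Cube (d + 1)) => A f) hcomm.eq
    simpa using this
  rw [h1]
  exact avgOn_norm_le (Hk (d + 1) d) (tupRep_orth S) _

end Vale.Agent.P162O
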