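/-
P162 O(d), Part I: the Xi bound (core estimates + scalar closure).
-/
import Vale.Agent.P162O.LevelDefs

open scoped InnerProductSpace BigOperators
open Finset

namespace Vale.Agent.P162O
open Vale.Agent.P162

set_option linter.unusedSectionVars false
set_option linter.unusedSimpArgs false

variable {I : Type} [Fintype I] [DecidableEq I]

/-! ### Glue facts -/

@[simp] theorem XiB_glue_last {d : ℕ} (y : I → Cube d) (e : I → Bool) (i : I) :
    glueT y e i (Fin.last d) = e i := by
  simp [glueT]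

@[simp] theorem XiB_glue_init {d : ℕ} (y : I → Cube d) (e : I → Bool) (i : I) :
    Fin.init (glueT y e i) = y i := by
  simp [glueT]

theorem XiB_init_bitClear {d : ℕ} (x : Cube (d + 1)) : Fin.init (bitClear d x) = Fin.init x := by
  funext j
  have : (j : ℕ) ≠ d := j.2.ne
  simp [Fin.init, bitClear, this]

theorem XiB_bitFlip_snoc {d : ℕ} (s : Cube d) (a : Bool) :
    bitFlip d (Fin.snoc s a : Cube (d + 1)) = (Fin.snoc s (!a) : Cube (d + 1)) := by
  funext j
  refine Fin.lastCases ?_ (fun j => ?_) j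
  · simp [bitFlip]
  · have : (j : ℕ) ≠ d := j.2.ne
    simp [bitFlip, this]

/-- Two valid side vectors are linked by a layer. -/
theorem XiB_val_eq {d : ℕ} (u : TV I (Cube (d + 1))) (hinv : ∀ g ∈ Hk (d + 1) d, tupRep univ g u = u)
    (y : I → Cube d) (e e₀ : I → Bool) (he : ValOn univ y e) (he₀ : ValOn univ y e₀) :
    u (glueT y e) = u (glueT y e₀) := by
  classical
  let c : Cube (d + 1) → Bool := fun p => decide (∃ i, y i = Fin.init p ∧ e i ≠ e₀ i)
  have hc : ∀ i, lay d c (glueT y e i) = glueT y e₀ i := by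
    intro i
    have h1 : Fin.init (bitClear d (glueT y e i)) = y i := by
      rw [XiB_init_bitClear, XiB_glue_init]
    simp only [lay_apply, layFun]
    by_cases hi : e i = e₀ i
    · have h2 : c (bitClear d (glueT y e i)) = false := by
        simp only [c, decide_eq_false_iff_not]
        rintro ⟨i', h3, h4⟩
        rw [h1] at h3
        have hne : i ≠ i' := by
          rintro rfl
          exact h4 hi
        have h5 := he i (mem_univ _) i' (mem_univ _) hne h3.symm
        have h6 := he₀ i (mem_univ _) i' (mem_univ _) hne h3.symm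
        rw [hi] at h5
        revert h4 h5 h6
        cases e₀ i <;> cases e₀ i' <;> cases e i' <;> simp
      rw [if_neg (by simp [h2])]
      simp only [glueT, hi]
    · have h2 : c (bitClear d (glueT y e i)) = true := by
        simp only [c, decide_eq_true_eq]
        exact ⟨i, h1.symm, hi⟩
      rw [if_pos h2]
      show bitFlip d (Fin.snoc (y i) (e i)) = Fin.snoc (y i) (e₀ i)
      rw [XiB_bitFlip_snoc]
      have : (!e i) = e₀ i := by
        revert hi
        cases e i <;> cases e₀ i <;> simp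
      rw [this]
  have h := hinv (lay d c) (lay_mem_Hk d c)
  have h2 := congrArg (fun f : TV I (Cube (d + 1)) => f (glueT y e)) h
  simp only [tupRep_apply] at h2
  have h3 : (actOn univ (lay d c)).symm (glueT y e) = glueT y e₀ := by
    funext i
    simp only [actOn_symm_apply, mem_univ, if_true]
    rw [lay_inv]
    exact hc i
  rw [h3] at h2
  exact h2.symm

/-- The form of an invariant function. -/
theorem XiB_exists_g {d : ℕ} (u : TV I (Cube (d + 1))) (hinj : InjOnS univ u)
    (hinv : ∀ g ∈ Hk (d + 1) d, tupRep univ g u = u) :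
    ∃ g : (I → Cube d) → ℝ, ∀ y e, u (glueT y e) = uFun g y e := by
  classical
  refine ⟨fun y => if h : ∃ e, ValOn univ y e then u (glueT y h.choose) else 0, fun y e => ?_⟩
  unfold uFun
  by_cases hv : ValOn univ y e
  · rw [if_pos hv]
    have h : ∃ e, ValOn univ y e := ⟨e, hv⟩
    simp only [dif_pos h]
    exact XiB_val_eq u hinv y e _ hv h.choose_spec
  · rw [if_neg hv]
    apply hinj
    intro hI
    apply hv
    intro i _ j _ hij hy he
    apply hij
    apply hI (by simp) (by simp)
    simp only [glueT, hy, he]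

/-- Sums over `F_Q (glue y e)` split. -/
theorem XiB_sum_piF_glue {d : ℕ} (Q : Finset I) (y : I → Cube d) (e : I → Bool) (f : (I → Cube (d + 1)) → ℝ) :
    ∑ w ∈ piF Q (glueT y e), f w = ∑ b ∈ piF Q y, ∑ ε ∈ piF Q e, f (glueT b ε) := by
  rw [← Finset.sum_product']
  refine Finset.sum_nbij' (fun w => ((fun i => Fin.init (w i)), (fun i => w i (Fin.last d))))
    (fun p => glueT p.1 p.2) ?_ ?_ ?_ ?_ ?_
  · intro w hw
    rw [mem_piF] at hw
    simp only [mem_product, mem_piF]
    constructor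
    · intro i hi
      simp [hw i hi]
    · intro i hi
      simp [hw i hi]
  · intro p hp
    simp only [mem_product, mem_piF] at hp
    rw [mem_piF]
    intro i hi
    simp [glueT, hp.1 i hi, hp.2 i hi]
  · intro w _
    funext i
    simp [glueT]
  · intro p _
    ext i
    · simp
    · simp
  · intro w _
    congr 1
    funext i
    simp [glueT]

theorem XiB_card_cube (d : ℕ) : (Fintype.card (Cube d) : ℝ) = 2 ^ d := by
  simp

/-- `B_Q u = (2m)^{-q} C_Q u`. -/
theorem XiB_sgnAvg_eq {d : ℕ} (u : TV I (Cube (d + 1))) (g : (I → Cube d) → ℝ)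
    (hg : ∀ y e, u (glueT y e) = uFun g y e) (Q : Finset I) (y : I → Cube d) (e : I → Bool) :
    sgnAvg Q u (glueT y e) = ((2 * (Fintype.card (Cube d) : ℝ)) ^ Q.card)⁻¹ * CQ Q g y e := by
  unfold sgnAvg CQ
  rw [XiB_sum_piF_glue Q y e (fun w => (∏ i ∈ Q, sgn (w i (Fin.last d))) * u w), XiB_card_cube, XiB_card_cube,
    pow_succ, mul_comm (2 : ℝ) (2 ^ d)]
  congr 1
  refine Finset.sum_congr rfl fun b _ => Finset.sum_congr rfl fun ε _ => ?_
  rw [hg]
  simp only [XiB_glue_last]

/-! ### The core case `T = univ` -/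

theorem XiB_sum_glue {d : ℕ} (F : (I → Cube (d + 1)) → ℝ) :
    ∑ x, F x = ∑ y : I → Cube d, ∑ e : I → Bool, F (glueT y e) := by
  rw [← Equiv.sum_comp (splitT (I := I) (d := d)).symm F, Fintype.sum_prod_type]
  rfl

theorem XiB_norm_sq {d : ℕ} (u : TV I (Cube (d + 1))) (g : (I → Cube d) → ℝ)
    (hg : ∀ y e, u (glueT y e) = uFun g y e) :
    ‖u‖ ^ 2 = ∑ y : I → Cube d, ∑ e : I → Bool, uFun g y e ^ 2 := by
  rw [EuclideanSpace.real_norm_sq_eq, XiB_sum_glue]
  simp only [hg]

theorem XiB_true_card (U : Finset I) (e : I → Bool) :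
    (U.filter (fun i => e i = true)).card = U.card - falseCount U e := by
  have h := Finset.card_filter_add_card_filter_not (s := U) (fun i => e i = false)
  have h2 : U.filter (fun i => ¬ e i = false) = U.filter (fun i => e i = true) :=
    Finset.filter_congr fun i _ => by simp
  rw [h2] at h
  unfold falseCount
  omega

theorem XiB_sectW_glue {d : ℕ} (U : Finset I) (y : I → Cube d) (e : I → Bool) :
    sectW (d := d) U (glueT y e) = Gf d (falseCount U e) * Gf d (U.card - falseCount U e) := by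
  unfold sectW
  simp only [XiB_glue_last]
  rw [XiB_true_card]
  rfl

theorem XiB_falseCount_le (U : Finset I) (e : I → Bool) : falseCount U e ≤ U.card :=
  Finset.card_filter_le _ _

/-- The weight of a sector is at most `ζ^r √φ_r`. -/
theorem XiB_sect_le {d r s : ℕ} (hs : s ≤ r) :
    Gf d s * Gf d (r - s) ≤ zetaD d ^ r * Real.sqrt (phiR r s) := by
  have h1 := Gf_mul_sq_le d r s hs
  have h2 : 0 ≤ zetaD d ^ r * Real.sqrt (phiR r s) :=
    mul_nonneg (pow_nonneg (zetaD_pos d).le _) (Real.sqrt_nonneg _)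
  have h3 : (zetaD d ^ r * Real.sqrt (phiR r s)) ^ 2 = (zetaD d ^ r) ^ 2 * phiR r s := by
    rw [mul_pow, Real.sq_sqrt (phiR_nonneg r s)]
  rw [← h3] at h1
  exact (pow_le_pow_iff_left₀ (mul_nonneg (Gf_nonneg _ _) (Gf_nonneg _ _)) h2 two_ne_zero).mp h1

/-- The bound for one `Q`. -/
theorem XiB_term {d : ℕ} (u : TV I (Cube (d + 1))) (g : (I → Cube d) → ℝ)
    (hg : ∀ y e, u (glueT y e) = uFun g y e) (Q : Finset I) :
    ∑ x : I → Cube (d + 1), sectW (d := d) (univ \ Q) x * sgnAvg Q u x ^ 2 ≤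
      zetaD d ^ (Fintype.card I - Q.card) * (3 ^ Q.card * bq (Fintype.card I - Q.card)) *
        (((2 * (Fintype.card (Cube d) : ℝ)) ^ Q.card)⁻¹) ^ 2 *
          ∑ y : I → Cube d, ∑ e : I → Bool, CQ Q g y e ^ 2 := by
  set r := Fintype.card I - Q.card with hr
  set M := ((2 * (Fintype.card (Cube d) : ℝ)) ^ Q.card)⁻¹ with hM
  have hcard : (Qᶜ).card = r := by rw [Finset.card_compl]
  have hU : (univ \ Q : Finset I) = Qᶜ := (Finset.compl_eq_univ_sdiff Q).symm
  have hζ : 0 ≤ zetaD d ^ r := pow_nonneg (zetaD_pos d).le _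
  have hcore := core_RQ (Y := Cube d) Q g (phiR r) (fun s => phiR_nonneg r s)
    (fun s hs => phiR_convex r s (by rwa [hcard] at hs))
    (fun s => Real.sqrt (phiR r s)) (fun s => Real.sqrt_nonneg _)
    (fun s _ => by rw [Real.sq_sqrt (phiR_nonneg r s)])
  rw [hcard] at hcore
  change _ ≤ _ * (3 ^ Q.card * bq r) * M ^ 2 * _
  calc ∑ x : I → Cube (d + 1), sectW (d := d) (univ \ Q) x * sgnAvg Q u x ^ 2
      = ∑ y : I → Cube d, ∑ e : I → Bool, sectW (d := d) (univ \ Q) (glueT y e) * (M * CQ Q g y e) ^ 2 := by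
        rw [XiB_sum_glue]
        refine Finset.sum_congr rfl fun y _ => Finset.sum_congr rfl fun e _ => ?_
        rw [XiB_sgnAvg_eq u g hg]
    _ ≤ ∑ y : I → Cube d, ∑ e : I → Bool, zetaD d ^ r * M ^ 2 *
          (Real.sqrt (phiR r (falseCount Qᶜ e)) * CQ Q g y e ^ 2) := by
        refine Finset.sum_le_sum fun y _ => Finset.sum_le_sum fun e _ => ?_
        rw [XiB_sectW_glue, hU, hcard]
        have h1 : falseCount Qᶜ e ≤ r := hcard ▸ XiB_falseCount_le _ _
        have h2 := XiB_sect_le (d := d) h1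
        have h3 : 0 ≤ (M * CQ Q g y e) ^ 2 := sq_nonneg _
        calc _ ≤ zetaD d ^ r * Real.sqrt (phiR r (falseCount Qᶜ e)) * (M * CQ Q g y e) ^ 2 :=
              mul_le_mul_of_nonneg_right h2 h3
          _ = _ := by ring
    _ = zetaD d ^ r * M ^ 2 * ∑ y : I → Cube d, ∑ e : I → Bool,
          Real.sqrt (phiR r (falseCount Qᶜ e)) * CQ Q g y e ^ 2 := by
        simp only [Finset.mul_sum]
    _ ≤ zetaD d ^ r * M ^ 2 * (3 ^ Q.card * Real.sqrt (Ebin r (phiR r)) *
          ∑ y : I → Cube d, ∑ e : I → Bool, CQ Q g y e ^ 2) :=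
        mul_le_mul_of_nonneg_left hcore (mul_nonneg hζ (sq_nonneg _))
    _ = _ := by
        unfold bq
        ring

/-- The sum over `Q` splits according to the size of `Q`. -/
theorem XiB_sum_powerset (f : Finset I → ℝ) :
    ∑ Q ∈ (univ : Finset I).powerset, f Q =
      ∑ q ∈ range (Fintype.card I + 1), ∑ Q ∈ powersetCard q (univ : Finset I), f Q := by
  have h : ∀ Q ∈ (univ : Finset I).powerset, Q.card ∈ range (Fintype.card I + 1) := by
    intro Q _
    rw [Finset.mem_range]
    exact Nat.lt_succ_of_le (Finset.card_le_univ Q)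
  rw [← Finset.sum_fiberwise_of_maps_to h]
  refine Finset.sum_congr rfl fun q _ => ?_
  rw [Finset.powersetCard_eq_filter]

/-- The main case. -/
theorem XiB_core_main {d : ℕ} (u : TV I (Cube (d + 1))) (hinj : InjOnS univ u)
    (hinv : ∀ g ∈ Hk (d + 1) d, tupRep univ g u = u) (hk : 2 ≤ Fintype.card I)
    (hkm : Fintype.card I ≤ 2 ^ (d + 1)) :
    XiW (d := d) univ u ≤ Gf (d + 1) (Fintype.card I) * ‖u‖ ^ 2 := by
  obtain ⟨g, hg⟩ := XiB_exists_g u hinj hinv
  set k := Fintype.card I with hkdef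
  have hm : 0 < Fintype.card (Cube d) := Fintype.card_pos
  have hN : 0 ≤ ‖u‖ ^ 2 := sq_nonneg _
  have hsc := scalar_closure d k hk hkm
  have hq : ∀ q ∈ range (k + 1), ∑ Q ∈ powersetCard q (univ : Finset I),
      ∑ x : I → Cube (d + 1), sectW (d := d) (univ \ Q) x * sgnAvg Q u x ^ 2 ≤
      (3 : ℝ) ^ q * (zetaD d ^ (k - q) * bq (k - q)) * Real.sqrt (8 * (k : ℝ) / 2 ^ d) ^ q * ‖u‖ ^ 2 := by
    intro q _
    set M := (2 * (Fintype.card (Cube d) : ℝ)) ^ q with hM
    have hMpos : 0 < M := by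
      rw [hM]
      positivity
    have hcoef : 0 ≤ zetaD d ^ (k - q) * (3 ^ q * bq (k - q)) * (M⁻¹) ^ 2 := by
      have := zetaD_pos d
      have : 0 ≤ bq (k - q) := Real.sqrt_nonneg _
      positivity
    calc ∑ Q ∈ powersetCard q (univ : Finset I),
        ∑ x : I → Cube (d + 1), sectW (d := d) (univ \ Q) x * sgnAvg Q u x ^ 2
        ≤ ∑ Q ∈ powersetCard q (univ : Finset I), zetaD d ^ (k - q) * (3 ^ q * bq (k - q)) * (M⁻¹) ^ 2 *
          ∑ y : I → Cube d, ∑ e : I → Bool, CQ Q g y e ^ 2 := by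
          refine Finset.sum_le_sum fun Q hQ => ?_
          have hc : Q.card = q := (Finset.mem_powersetCard.mp hQ).2
          have := XiB_term u g hg Q
          rw [hc] at this
          exact this
      _ = zetaD d ^ (k - q) * (3 ^ q * bq (k - q)) * (M⁻¹) ^ 2 * ∑ Q ∈ powersetCard q (univ : Finset I),
          ∑ y : I → Cube d, ∑ e : I → Bool, CQ Q g y e ^ 2 := by
          rw [Finset.mul_sum]
      _ ≤ zetaD d ^ (k - q) * (3 ^ q * bq (k - q)) * (M⁻¹) ^ 2 * (M ^ 2 *
          Real.sqrt (8 * (k : ℝ) / Fintype.card (Cube d)) ^ q *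
            ∑ y : I → Cube d, ∑ e : I → Bool, uFun g y e ^ 2) :=
          mul_le_mul_of_nonneg_left (core_D g q hm) hcoef
      _ = _ := by
          rw [XiB_norm_sq u g hg, XiB_card_cube]
          field_simp
  unfold XiW
  rw [XiB_sum_powerset]
  calc _ ≤ ∑ q ∈ range (k + 1), (3 : ℝ) ^ q * (zetaD d ^ (k - q) * bq (k - q)) *
        Real.sqrt (8 * (k : ℝ) / 2 ^ d) ^ q * ‖u‖ ^ 2 := Finset.sum_le_sum hq
    _ = (∑ q ∈ range (k + 1), (3 : ℝ) ^ q * (zetaD d ^ (k - q) * bq (k - q)) *
        Real.sqrt (8 * (k : ℝ) / 2 ^ d) ^ q) * ‖u‖ ^ 2 := by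
        rw [Finset.sum_mul]
    _ ≤ _ := mul_le_mul_of_nonneg_right hsc hN

/-! ### The small and large cases -/

theorem XiB_Gf_zero (d : ℕ) : Gf d 0 = 1 := rfl

theorem XiB_Gf_one (d : ℕ) : Gf d 1 = 0 := rfl

theorem XiB_piF_empty {α : Type} [Fintype α] [DecidableEq α] (x : I → α) : piF ∅ x = {x} := by
  ext w
  rw [mem_piF, mem_singleton]
  constructor
  · intro h
    funext i
    exact h i (by simp)
  · rintro rfl i _
    rfl

theorem XiB_sgnAvg_empty {d : ℕ} (u : TV I (Cube (d + 1))) (x : I → Cube (d + 1)) :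
    sgnAvg ∅ u x = u x := by
  unfold sgnAvg
  rw [XiB_piF_empty]
  simp

theorem XiB_sgn_not (a : Bool) : sgn (!a) = - sgn a := by
  cases a <;> simp [sgn]

/-- The flip of the last bit. -/
theorem XiB_flip_last {d : ℕ} (p : Cube (d + 1)) :
    (lay d (fun _ => true) p) (Fin.last d) = !(p (Fin.last d)) := by
  simp [layFun, bitFlip]

/-- The signed sum vanishes for one coordinate by invariance. -/
theorem XiB_sgnAvg_single {d : ℕ} (u : TV I (Cube (d + 1)))
    (hinv : ∀ g ∈ Hk (d + 1) d, tupRep univ g u = u) (i₀ : I) (hi : ∀ i, i = i₀) (x : I → Cube (d + 1)) :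
    sgnAvg {i₀} u x = 0 := by
  unfold sgnAvg
  have hF : piF ({i₀} : Finset I) x = univ := by
    ext w
    simp only [mem_piF, mem_univ, iff_true]
    intro i hi2
    exact absurd (mem_singleton.mpr (hi i)) hi2
  rw [hF]
  simp only [prod_singleton]
  set τ : Equiv.Perm (Cube (d + 1)) := lay d (fun _ => true) with hτ
  set e := (actOn (univ : Finset I) τ).symm with he
  have h1 : ∀ w, u (e w) = u w := by
    intro w
    have h := hinv τ (lay_mem_Hk d _)
    have h2 := congrArg (fun f : TV I (Cube (d + 1)) => f w) h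
    simpa only [tupRep_apply] using h2
  have h2 : ∀ w : I → Cube (d + 1), (e w) i₀ (Fin.last d) = !(w i₀ (Fin.last d)) := by
    intro w
    simp only [he, actOn_symm_apply, mem_univ, if_true]
    rw [hτ, lay_inv]
    exact XiB_flip_last _
  have h3 : ∑ w, sgn (w i₀ (Fin.last d)) * u w = 0 := by
    have h4 := Equiv.sum_comp e (fun w => sgn (w i₀ (Fin.last d)) * u w)
    simp only [h1, h2, XiB_sgn_not] at h4
    have h5 : ∑ w, -sgn (w i₀ (Fin.last d)) * u w = - ∑ w, sgn (w i₀ (Fin.last d)) * u w := by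
      rw [← Finset.sum_neg_distrib]
      exact Finset.sum_congr rfl fun w _ => by ring
    rw [h5] at h4
    linarith
  rw [h3, mul_zero]

/-- All cases for `T = univ`. -/
theorem XiB_core {d : ℕ} (u : TV I (Cube (d + 1))) (hinj : InjOnS univ u)
    (hinv : ∀ g ∈ Hk (d + 1) d, tupRep univ g u = u) :
    XiW (d := d) univ u ≤ Gf (d + 1) (Fintype.card I) * ‖u‖ ^ 2 := by
  by_cases hlarge : Fintype.card I ≤ 2 ^ (d + 1)
  · rcases Nat.lt_or_ge (Fintype.card I) 2 with h2 | h2
    · interval_cases hk : Fintype.card I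
      · -- no coordinates
        have hE : IsEmpty I := Fintype.card_eq_zero_iff.mp hk
        have hU : (univ : Finset I) = ∅ := Finset.univ_eq_empty
        unfold XiW
        rw [hU]
        simp only [powerset_empty, sum_singleton, sdiff_self, XiB_sgnAvg_empty]
        rw [XiB_Gf_zero, EuclideanSpace.real_norm_sq_eq, one_mul]
        refine le_of_eq (Finset.sum_congr rfl fun x _ => ?_)
        simp [sectW, XiB_Gf_zero]
      · -- one coordinate
        obtain ⟨i₀, hi₀⟩ := Fintype.card_eq_one_iff.mp hk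
        have hU : (univ : Finset I) = {i₀} := by
          ext i
          simp [hi₀ i]
        rw [XiB_Gf_one, zero_mul]
        refine le_of_eq (Finset.sum_eq_zero fun Q hQ => Finset.sum_eq_zero fun x _ => ?_)
        rw [Finset.mem_powerset, hU, Finset.subset_singleton_iff] at hQ
        rcases hQ with rfl | rfl
        · have : sectW (d := d) (univ \ ∅) x = 0 := by
            unfold sectW
            rw [hU]
            by_cases hx : x i₀ (Fin.last d) = false
            · simp [hx, filter_singleton, XiB_Gf_one]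
            · simp [hx, filter_singleton, XiB_Gf_one]
          rw [this, zero_mul]
        · rw [XiB_sgnAvg_single u hinv i₀ hi₀ x]
          simp
    · exact XiB_core_main u hinj hinv h2 hlarge
  · -- no injective tuple
    have h0 : ∀ w, u w = 0 := by
      intro w
      apply hinj
      intro hI
      have hw : Function.Injective w := fun a b hab => hI (by simp) (by simp) hab
      have := Fintype.card_le_of_injective w hw
      apply hlarge
      simpa using this
    have h1 : XiW (d := d) univ u = 0 := by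
      refine Finset.sum_eq_zero fun Q _ => Finset.sum_eq_zero fun x _ => ?_
      unfold sgnAvg
      simp [h0]
    rw [h1]
    exact mul_nonneg (Gf_nonneg _ _) (sq_nonneg _)

/-! ### Transport to general `T` -/

section transport
variable {X : Type} [Fintype X] [DecidableEq X] (T : Finset I)

/-- Merge a tuple on `T` and a tuple off `T`. -/
def XiB_merge (z : {i // i ∉ T} → X) (x' : T → X) : I → X :=
  fun i => if h : i ∈ T then x' ⟨i, h⟩ else z ⟨i, h⟩

theorem XiB_merge_coe (z : {i // i ∉ T} → X) (x' : T → X) (i : T) : XiB_merge T z x' i = x' i := by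
  simp [XiB_merge]

/-- The embedding. -/
def XiB_emb : T ↪ I := Function.Embedding.subtype (fun i => i ∈ T)

@[simp] theorem XiB_emb_apply (i : T) : XiB_emb T i = i := rfl

theorem XiB_sum_merge (F : (I → X) → ℝ) :
    ∑ x, F x = ∑ z : {i // i ∉ T} → X, ∑ x' : T → X, F (XiB_merge T z x') := by
  rw [← Equiv.sum_comp (Equiv.piEquivPiSubtypeProd (fun i => i ∈ T) (fun _ => X)).symm F,
    Fintype.sum_prod_type_right]
  rfl

/-- The slice of `u`. -/
noncomputable def XiB_slice (u : TV I X) (z : {i // i ∉ T} → X) : TV T X :=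
  WithLp.toLp 2 (fun x' => u (XiB_merge T z x'))

@[simp] theorem XiB_slice_apply (u : TV I X) (z : {i // i ∉ T} → X) (x' : T → X) :
    XiB_slice T u z x' = u (XiB_merge T z x') := rfl

theorem XiB_norm_slice (u : TV I X) : ‖u‖ ^ 2 = ∑ z, ‖XiB_slice T u z‖ ^ 2 := by
  simp only [EuclideanSpace.real_norm_sq_eq]
  rw [XiB_sum_merge T]
  rfl

theorem XiB_slice_inj {u : TV I X} (hinj : InjOnS T u) (z : {i // i ∉ T} → X) :
    InjOnS univ (XiB_slice T u z) := by
  intro x' hx'
  rw [XiB_slice_apply]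
  apply hinj
  intro hI
  apply hx'
  intro a _ b _ hab
  have h1 : XiB_merge T z x' a = XiB_merge T z x' b := by
    rw [XiB_merge_coe, XiB_merge_coe]
    exact hab
  exact Subtype.ext (hI (by simp) (by simp) h1)

theorem XiB_slice_inv {u : TV I X} {g : Equiv.Perm X} (hinv : tupRep T g u = u) (z : {i // i ∉ T} → X) :
    tupRep univ g (XiB_slice T u z) = XiB_slice T u z := by
  ext x'
  rw [tupRep_apply, XiB_slice_apply, XiB_slice_apply]
  conv_rhs => rw [← hinv]
  rw [tupRep_apply]
  have h3 : XiB_merge T z ((actOn univ g).symm x') = (actOn T g).symm (XiB_merge T z x') := by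
    funext i
    by_cases h : i ∈ T <;> simp [XiB_merge, h]
  rw [h3]

end transport

theorem XiB_filter_card {d : ℕ} (T : Finset I) (Q' : Finset T) (z : {i // i ∉ T} → Cube (d + 1))
    (x' : T → Cube (d + 1)) (b : Bool) :
    ((T \ Q'.map (XiB_emb T)).filter (fun i => XiB_merge T z x' i (Fin.last d) = b)).card =
      (((univ : Finset T) \ Q').filter (fun i => x' i (Fin.last d) = b)).card := by
  rw [← Finset.card_map (XiB_emb T)]
  congr 1
  ext i
  simp only [mem_filter, mem_sdiff, mem_map, mem_univ, true_and]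
  constructor
  · rintro ⟨⟨h1, h2⟩, h3⟩
    refine ⟨⟨i, h1⟩, ⟨fun h4 => h2 ⟨⟨i, h1⟩, h4, rfl⟩, ?_⟩, rfl⟩
    rw [XiB_merge] at h3
    simpa [h1] using h3
  · rintro ⟨a, ⟨h1, h2⟩, rfl⟩
    refine ⟨⟨a.2, ?_⟩, ?_⟩
    · rintro ⟨c, h3, h4⟩
      have : c = a := Subtype.ext h4
      exact h1 (this ▸ h3)
    · rw [XiB_emb_apply, XiB_merge_coe]
      exact h2

theorem XiB_sect_transport {d : ℕ} (T : Finset I) (Q' : Finset T) (z : {i // i ∉ T} → Cube (d + 1))
    (x' : T → Cube (d + 1)) :
    sectW (d := d) (T \ Q'.map (XiB_emb T)) (XiB_merge T z x') = sectW (d := d) ((univ : Finset T) \ Q') x' := by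
  unfold sectW
  rw [XiB_filter_card, XiB_filter_card]

theorem XiB_sgn_transport {d : ℕ} (T : Finset I) (u : TV I (Cube (d + 1))) (Q' : Finset T)
    (z : {i // i ∉ T} → Cube (d + 1)) (x' : T → Cube (d + 1)) :
    sgnAvg (Q'.map (XiB_emb T)) u (XiB_merge T z x') = sgnAvg Q' (XiB_slice T u z) x' := by
  have hmerge : ∀ w ∈ piF (Q'.map (XiB_emb T)) (XiB_merge T z x'), XiB_merge T z (fun i : T => w i) = w := by
    intro w hw
    rw [mem_piF] at hw
    funext i
    by_cases h : i ∈ T
    · simp [XiB_merge, h]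
    · have h1 : i ∉ Q'.map (XiB_emb T) := fun h2 => h (by
        obtain ⟨c, _, h4⟩ := Finset.mem_map.mp h2
        rw [← h4]
        exact c.2)
      rw [hw i h1]
      simp [XiB_merge, h]
  unfold sgnAvg
  rw [Finset.card_map]
  congr 1
  refine Finset.sum_nbij' (fun w (i : T) => w i) (fun w' => XiB_merge T z w') ?_ ?_ ?_ ?_ ?_
  · intro w hw
    rw [mem_piF] at hw ⊢
    intro i hi
    rw [hw (i : I), XiB_merge_coe]
    intro h
    obtain ⟨c, h3, h4⟩ := Finset.mem_map.mp h
    have : c = i := Subtype.ext h4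
    exact hi (this ▸ h3)
  · intro w' hw'
    rw [mem_piF] at hw' ⊢
    intro i hi
    by_cases h : i ∈ T
    · have h1 : (⟨i, h⟩ : T) ∉ Q' := fun h2 => hi (Finset.mem_map.mpr ⟨⟨i, h⟩, h2, rfl⟩)
      simp [XiB_merge, h, hw' ⟨i, h⟩ h1]
    · simp [XiB_merge, h]
  · intro w hw
    exact hmerge w hw
  · intro w' _
    funext i
    rw [XiB_merge_coe]
  · intro w hw
    rw [Finset.prod_map]
    simp only [XiB_emb_apply, XiB_slice_apply]
    rw [hmerge w hw]

theorem XiB_Xi_transport {d : ℕ} (T : Finset I) (u : TV I (Cube (d + 1))) :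
    XiW (d := d) T u = ∑ z : {i // i ∉ T} → Cube (d + 1), XiW (d := d) (univ : Finset T) (XiB_slice T u z) := by
  unfold XiW
  have h1 : ∑ z : {i // i ∉ T} → Cube (d + 1), ∑ Q' ∈ (univ : Finset T).powerset, ∑ x' : T → Cube (d + 1),
      sectW (d := d) ((univ : Finset T) \ Q') x' * sgnAvg Q' (XiB_slice T u z) x' ^ 2 =
      ∑ Q' ∈ (univ : Finset T).powerset, ∑ z : {i // i ∉ T} → Cube (d + 1), ∑ x' : T → Cube (d + 1),
      sectW (d := d) ((univ : Finset T) \ Q') x' * sgnAvg Q' (XiB_slice T u z) x' ^ 2 := Finset.sum_comm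
  rw [h1]
  refine Finset.sum_nbij' (fun Q => Q.subtype (· ∈ T)) (fun Q' => Q'.map (XiB_emb T)) ?_ ?_ ?_ ?_ ?_
  · intro Q _
    rw [Finset.mem_powerset]
    exact Finset.subset_univ _
  · intro Q' _
    rw [Finset.mem_powerset]
    intro i hi
    obtain ⟨c, _, h4⟩ := Finset.mem_map.mp hi
    rw [← h4]
    exact c.2
  · intro Q hQ
    exact Finset.subtype_map_of_mem (fun x hx => Finset.mem_powerset.mp hQ hx)
  · intro Q' _
    ext i
    simp only [mem_subtype, mem_map]
    constructor
    · rintro ⟨c, h3, h4⟩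
      have : c = i := Subtype.ext h4
      exact this ▸ h3
    · intro h
      exact ⟨i, h, rfl⟩
  · intro Q hQ
    have hm : (Q.subtype (· ∈ T)).map (XiB_emb T) = Q :=
      Finset.subtype_map_of_mem (fun x hx => Finset.mem_powerset.mp hQ hx)
    rw [XiB_sum_merge T]
    refine Finset.sum_congr rfl fun z _ => Finset.sum_congr rfl fun x' _ => ?_
    rw [← XiB_sect_transport T _ z x', ← XiB_sgn_transport T u _ z x', hm]

/-- XI-BOUND. -/
theorem xi_bound {d : ℕ} (T : Finset I) (u : TV I (Cube (d + 1))) (hinj : InjOnS T u)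
    (hinv : ∀ g ∈ Hk (d + 1) d, tupRep T g u = u) :
    XiW (d := d) T u ≤ Gf (d + 1) T.card * ‖u‖ ^ 2 := by
  rw [XiB_Xi_transport, XiB_norm_slice T u, Finset.mul_sum]
  refine Finset.sum_le_sum fun z _ => ?_
  have h := XiB_core (XiB_slice T u z) (XiB_slice_inj T hinj z) (fun g hg => XiB_slice_inv T (hinv g hg) z)
  rwa [Fintype.card_coe] at h

end Vale.Agent.P162O
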