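/-
P162 O(d), Part I: the level inequality by induction on d.
-/
import Vale.Agent.P162O.XiBound
import Vale.Agent.P162O.StepExpand

open scoped InnerProductSpace BigOperators
open Finset

namespace Vale.Agent.P162O
open Vale.Agent.P162

variable {I : Type} [Fintype I] [DecidableEq I]

theorem level_succ {d : ℕ} (ih : LevelIneq d) : LevelIneq (d + 1) := by
  intro I _ _ S f hf
  refine (step_expand ih S f hf).trans ?_
  refine Finset.sum_le_sum fun Q hQ => ?_
  have hQS : Q ⊆ S := Finset.mem_powerset.mp hQ
  have h1 := xi_bound (d := d) (S \ Q) _ (avg_inj S Q f hf) (avg_inv S Q f)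
  have h2 : (S \ Q).card = S.card - Q.card := Finset.card_sdiff_of_subset hQS
  rw [h2] at h1
  refine h1.trans ?_
  refine mul_le_mul_of_nonneg_left ?_ (Gf_nonneg _ _)
  exact pow_le_pow_left₀ (norm_nonneg _) (avg_norm S Q f) 2

/-- THE LEVEL INEQUALITY. -/
theorem level_ineq (d : ℕ) : LevelIneq d := by
  induction d with
  | zero => exact level_zero
  | succ d ih => exact level_succ ih

end Vale.Agent.P162O
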