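/-
P162 O(d), Part III: right stabilisers, the level spaces.
-/
import Vale.Agent.P162O.LevelStep

open scoped InnerProductSpace BigOperators
open Finset

namespace Vale.Agent.P162O
open Vale.Agent.P162

section frame
variable {V : Type*} [NormedAddCommGroup V] [InnerProductSpace ℝ V] [FiniteDimensional ℝ V]

/-- A positive eigenvalue of a sum of commuting-with-the-sum symmetric idempotents is `≥ 1`. -/
theorem frame_eig_ge_one {ι : Type*} [Fintype ι] (P : ι → V →L[ℝ] V)
    (hi : ∀ k, P k * P k = P k) (hc : ∀ k, Commute (∑ k', P k') (P k)) {ρ : ℝ} (hρ : 0 < ρ)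
    {x : V} (hx0 : x ≠ 0) (hx : (∑ k, P k) x = ρ • x) : 1 ≤ ρ := by
  classical
  let A : V →ₗ[ℝ] V := ((∑ k, P k : V →L[ℝ] V) : V →ₗ[ℝ] V)
  let X : Submodule ℝ V := Module.End.eigenspace A ρ
  have hmem : ∀ y, y ∈ X ↔ (∑ k, P k) y = ρ • y := by
    intro y
    exact Module.End.mem_eigenspace_iff
  have inv : ∀ k, ∀ y ∈ X, (P k : V →ₗ[ℝ] V) y ∈ X := by
    intro k y hy
    rw [hmem] at hy ⊢
    have h1 := congrArg (fun B : V →L[ℝ] V => B y) (hc k).eq
    simp only [ContinuousLinearMap.mul_apply] at h1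
    show (∑ k, P k) (P k y) = ρ • P k y
    rw [h1, hy, map_smul]
  let Q : ι → (X →ₗ[ℝ] X) := fun k => (P k : V →ₗ[ℝ] V).restrict (inv k)
  have hQapp : ∀ k (y : X), ((Q k y : X) : V) = P k y := fun k y => rfl
  have hQidem : ∀ k, IsIdempotentElem (Q k) := by
    intro k
    apply LinearMap.ext
    intro y
    apply Subtype.ext
    show P k (P k y) = P k y
    have := congrArg (fun B : V →L[ℝ] V => B (y : V)) (hi k)
    simpa using this
  have hsum : ∑ k, Q k = ρ • (LinearMap.id : X →ₗ[ℝ] X) := by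
    apply LinearMap.ext
    intro y
    apply Subtype.ext
    have h1 := (hmem _).1 y.2
    simp only [LinearMap.sum_apply, Submodule.coe_sum, hQapp, LinearMap.smul_apply,
      LinearMap.id_apply, Submodule.coe_smul]
    rw [← h1]
    simp
  have htr : ∀ k, LinearMap.trace ℝ X (Q k) = (Module.finrank ℝ (LinearMap.range (Q k)) : ℝ) :=
    fun k => ((LinearMap.isProj_range_iff_isIdempotentElem (Q k)).2 (hQidem k)).trace
  have hsumtr : ∑ k, (Module.finrank ℝ (LinearMap.range (Q k)) : ℝ)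
      = ρ * (Module.finrank ℝ X : ℝ) := by
    simp_rw [← htr]
    rw [← map_sum, hsum, map_smul, LinearMap.trace_id]
    simp
  -- `X` is spanned by the ranges
  let S : (∀ k, LinearMap.range (Q k)) →ₗ[ℝ] X :=
    ∑ k, (LinearMap.range (Q k)).subtype ∘ₗ LinearMap.proj k
  have hS : Function.Surjective S := by
    intro y
    refine ⟨fun k => ⟨Q k (ρ⁻¹ • y), LinearMap.mem_range_self _ _⟩, ?_⟩
    simp only [S, LinearMap.sum_apply, LinearMap.comp_apply, Submodule.subtype_apply,
      LinearMap.proj_apply]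
    have h2 := congrArg (fun B : X →ₗ[ℝ] X => B (ρ⁻¹ • y)) hsum
    simp only [LinearMap.sum_apply, LinearMap.smul_apply, LinearMap.id_apply] at h2
    rw [h2, smul_smul, mul_inv_cancel₀ hρ.ne', one_smul]
  have hdim : Module.finrank ℝ X ≤ ∑ k, Module.finrank ℝ (LinearMap.range (Q k)) := by
    have := LinearMap.finrank_le_finrank_of_surjective hS
    rwa [Module.finrank_pi_fintype] at this
  have hpos : 0 < Module.finrank ℝ X := by
    rw [Module.finrank_pos_iff_exists_ne_zero]
    exact ⟨⟨x, (hmem x).2 hx⟩, fun h => hx0 (congrArg Subtype.val h)⟩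
  have h3 : (Module.finrank ℝ X : ℝ) ≤ ρ * (Module.finrank ℝ X : ℝ) := by
    rw [← hsumtr]
    exact_mod_cast hdim
  have h4 : (0 : ℝ) < Module.finrank ℝ X := by exact_mod_cast hpos
  nlinarith

/-- FRAME BOUND (abstract): eigenvalues of `A = ∑ P_k` on `∑ range P_k` are `≥ 1`. -/
theorem frame_abstract {ι : Type*} [Fintype ι] (P : ι → V →L[ℝ] V) (hs : ∀ k, Symm (P k))
    (hi : ∀ k, P k * P k = P k) (hc : ∀ k, Commute (∑ k', P k') (P k)) (v u : V)
    (hu : u ∈ ⨆ k, LinearMap.range (P k : V →ₗ[ℝ] V)) :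
    ⟪v, u⟫_ℝ ^ 2 ≤ (∑ k, ‖P k v‖ ^ 2) * ‖u‖ ^ 2 := by
  classical
  set A : V →L[ℝ] V := ∑ k, P k with hA
  have hquad : ∀ w, ⟪A w, w⟫_ℝ = ∑ k, ‖P k w‖ ^ 2 := by
    intro w
    rw [hA, ContinuousLinearMap.sum_apply, sum_inner]
    apply Finset.sum_congr rfl
    intro k _
    have h1 : P k (P k w) = P k w := by
      have := congrArg (fun B : V →L[ℝ] V => B w) (hi k)
      simpa using this
    calc ⟪P k w, w⟫_ℝ = ⟪P k (P k w), w⟫_ℝ := by rw [h1]
      _ = ⟪P k w, P k w⟫_ℝ := hs k _ _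
      _ = ‖P k w‖ ^ 2 := real_inner_self_eq_norm_sq _
  have hAs : Symm A := by
    intro a b
    rw [hA]
    simp only [ContinuousLinearMap.sum_apply, sum_inner, inner_sum]
    exact Finset.sum_congr rfl fun k _ => hs k a b
  obtain ⟨b, a, hb⟩ := exists_eigen A hAs
  -- the eigenvalues are nonnegative, the positive ones are `≥ 1`
  have ha0 : ∀ i, 0 ≤ a i := by
    intro i
    have h1 := hquad (b i)
    rw [hb i, real_inner_smul_left, real_inner_self_eq_norm_sq, b.norm_eq_one] at h1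
    have h2 : 0 ≤ ∑ k, ‖P k (b i)‖ ^ 2 := Finset.sum_nonneg fun k _ => by positivity
    nlinarith
  have ha1 : ∀ i, 0 < a i → 1 ≤ a i := by
    intro i hi'
    exact frame_eig_ge_one P hi hc hi' (b.orthonormal.ne_zero i) (hb i)
  -- `u` has no component in the kernel of `A`
  have hu0 : ∀ i, a i = 0 → ⟪b i, u⟫_ℝ = 0 := by
    intro i hai
    have hP : ∀ k, P k (b i) = 0 := by
      intro k
      have h1 := hquad (b i)
      rw [hb i, hai, zero_smul, inner_zero_left] at h1
      have h2 : ‖P k (b i)‖ ^ 2 = 0 := by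
        have := (Finset.sum_eq_zero_iff_of_nonneg (fun k _ => by positivity)).1 h1.symm
        exact this k (Finset.mem_univ k)
      simpa using h2
    have hle : (⨆ k, LinearMap.range (P k : V →ₗ[ℝ] V)) ≤
        LinearMap.ker (innerₛₗ ℝ (b i)) := by
      apply iSup_le
      rintro k w ⟨y, rfl⟩
      show ⟪b i, P k y⟫_ℝ = 0
      rw [← hs k, hP k, inner_zero_left]
    exact hle hu
  have hexp : ⟪v, u⟫_ℝ = ∑ i, ⟪v, b i⟫_ℝ * ⟪b i, u⟫_ℝ := by
    rw [b.sum_inner_mul_inner]
  have hAv : ⟪A v, v⟫_ℝ = ∑ i, a i * ⟪v, b i⟫_ℝ ^ 2 := by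
    rw [inner_apply_eq_sum b hb v v]
    exact Finset.sum_congr rfl fun i _ => by ring
  have hun : ‖u‖ ^ 2 = ∑ i, ⟪b i, u⟫_ℝ ^ 2 := by
    rw [norm_sq_eq_sum b u]
    exact Finset.sum_congr rfl fun i _ => by rw [real_inner_comm]
  rw [← hquad v, hAv, hun, hexp]
  -- Cauchy-Schwarz
  set c : Fin (Module.finrank ℝ V) → ℝ := fun i => if a i = 0 then 0 else ⟪v, b i⟫_ℝ with hcdef
  have hCS := Finset.sum_mul_sq_le_sq_mul_sq (univ) c (fun i => ⟪b i, u⟫_ℝ)
  have e1 : ∑ i, ⟪v, b i⟫_ℝ * ⟪b i, u⟫_ℝ = ∑ i, c i * ⟪b i, u⟫_ℝ := by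
    apply Finset.sum_congr rfl
    intro i _
    by_cases hai : a i = 0
    · rw [hu0 i hai]; simp
    · simp [hcdef, hai]
  have e2 : ∑ i, c i ^ 2 ≤ ∑ i, a i * ⟪v, b i⟫_ℝ ^ 2 := by
    apply Finset.sum_le_sum
    intro i _
    by_cases hai : a i = 0
    · simp [hcdef, hai]
    · have h1 : 1 ≤ a i := ha1 i (lt_of_le_of_ne (ha0 i) (Ne.symm hai))
      simp only [hcdef, if_neg hai]
      nlinarith [sq_nonneg ⟪v, b i⟫_ℝ]
  rw [e1]
  exact hCS.trans (mul_le_mul_of_nonneg_right e2 (Finset.sum_nonneg fun i _ => by positivity))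

end frame

variable {X : Type} [Fintype X] [DecidableEq X]

/-- The right regular representation as a homomorphism: `(rightHom h f) g = f (g h)`. -/
noncomputable def rightHom (X : Type) [Fintype X] [DecidableEq X] :
    Equiv.Perm X →* (RegV X →L[ℝ] RegV X) where
  toFun h := rightRep X h⁻¹
  map_one' := by
    ext f g
    rw [rightRep_apply]
    simp
  map_mul' := by
    intro a b
    ext f g
    show rightRep X (a * b)⁻¹ f g = rightRep X a⁻¹ (rightRep X b⁻¹ f) g
    simp only [rightRep_apply, inv_inv, mul_assoc]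

@[simp] theorem rightHom_apply (h : Equiv.Perm X) (f : RegV X) (g : Equiv.Perm X) :
    rightHom X h f g = f (g * h) := by
  show rightRep X h⁻¹ f g = _
  rw [rightRep_apply, inv_inv]

theorem rightHom_orth : IsOrth (rightHom X) := by
  intro g u v
  exact rightRep_inner g⁻¹ u v

/-- The right average over the pointwise stabiliser of `F`: `(Pr F f) g = avg_{k ∈ fix F} f (g k)`. -/
noncomputable abbrev Pr (F : Finset X) : RegV X →L[ℝ] RegV X := fixAvg (rightHom X) F

/-- Left operators commute with right averages. -/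
theorem Pr_commute_left (F : Finset X) (h : Equiv.Perm X) : Commute (Pr F) (regRep X h) := by
  apply Commute.symm
  apply avgOn_commute
  intro g _
  ext f x
  simp [mul_assoc]

/-- Conjugation as an embedding. -/
def conjEmb (h : Equiv.Perm X) : Equiv.Perm X ↪ Equiv.Perm X :=
  ⟨fun k => h * k * h⁻¹, fun a b hab => by
    have hab' : h * a * h⁻¹ = h * b * h⁻¹ := hab
    simpa using hab'⟩

theorem Pr_map_inv_map (h : Equiv.Perm X) (F : Finset X) :
    (F.map h⁻¹.toEmbedding).map h.toEmbedding = F := by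
  ext x
  simp only [Finset.mem_map, Equiv.coe_toEmbedding]
  constructor
  · rintro ⟨y, ⟨z, hz, rfl⟩, rfl⟩
    simpa using hz
  · intro hx
    exact ⟨h⁻¹ x, ⟨x, hx, rfl⟩, by simp⟩

/-- Conjugating a stabiliser average. -/
theorem fixAvg_conj {V : Type*} [NormedAddCommGroup V] [InnerProductSpace ℝ V]
    (π : Equiv.Perm X →* (V →L[ℝ] V)) (h : Equiv.Perm X) (F : Finset X) :
    π h * fixAvg π F * π h⁻¹ = fixAvg π (F.map h.toEmbedding) := by
  have hmap : mems (fixG (F.map h.toEmbedding)) = (mems (fixG F)).map (conjEmb h) := by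
    ext k
    simp only [mem_mems, mem_fixG, Finset.mem_map, Equiv.coe_toEmbedding]
    constructor
    · intro hk
      refine ⟨h⁻¹ * k * h, ?_, ?_⟩
      · intro x hx
        have h1 := hk (h x) ⟨x, hx, rfl⟩
        simp [h1]
      · show h * (h⁻¹ * k * h) * h⁻¹ = k
        group
    · rintro ⟨k', hk', rfl⟩ y ⟨x, hx, rfl⟩
      show (h * k' * h⁻¹) (h x) = h x
      simp [hk' x hx]
  show π h * avgOn π (fixG F) * π h⁻¹ = avgOn π (fixG (F.map h.toEmbedding))
  unfold avgOn
  rw [hmap, Finset.card_map, Finset.sum_map, mul_smul_comm, smul_mul_assoc, Finset.mul_sum,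
    Finset.sum_mul]
  congr 1
  apply Finset.sum_congr rfl
  intro k _
  show _ = π (h * k * h⁻¹)
  simp only [map_mul]

theorem fixAvg_map_mul {V : Type*} [NormedAddCommGroup V] [InnerProductSpace ℝ V]
    (π : Equiv.Perm X →* (V →L[ℝ] V)) (h : Equiv.Perm X) (F : Finset X) :
    π h * fixAvg π F = fixAvg π (F.map h.toEmbedding) * π h := by
  rw [← fixAvg_conj π h F, mul_assoc (π h * fixAvg π F), ← map_mul]
  simp

theorem Pr_rightHom (h : Equiv.Perm X) (F : Finset X) (f : RegV X) :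
    rightHom X h (Pr F f) = Pr (F.map h.toEmbedding) (rightHom X h f) := by
  have := congrArg (fun A : RegV X →L[ℝ] RegV X => A f) (fixAvg_map_mul (rightHom X) h F)
  simpa using this

/-- The two Laplacians agree. -/
theorem lap_right_eq_left : lap (rightHom X) = lap (regRep X) := by
  have key : ∀ (f : RegV X) (g : Equiv.Perm X),
      ∑ x : X, ∑ y : X, f (g * Equiv.swap x y) = ∑ x : X, ∑ y : X, f (Equiv.swap x y * g) := by
    intro f g
    have h1 : ∀ x y, g * Equiv.swap x y = Equiv.swap (g x) (g y) * g :=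
      fun x y => Equiv.mul_swap_eq_swap_mul g x y
    simp_rw [h1]
    calc ∑ x : X, ∑ y : X, f (Equiv.swap (g x) (g y) * g)
        = ∑ x : X, ∑ y : X, f (Equiv.swap (g x) y * g) :=
          Finset.sum_congr rfl fun x _ => Equiv.sum_comp g (fun y => f (Equiv.swap (g x) y * g))
      _ = ∑ x : X, ∑ y : X, f (Equiv.swap x y * g) :=
          Equiv.sum_comp g (fun x => ∑ y : X, f (Equiv.swap x y * g))
  unfold lap lapOn
  ext f g
  simp [Finset.sum_sub_distrib, key f g]

/-- Functions of level at most `j`. -/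
noncomputable def Lj (X : Type) [Fintype X] [DecidableEq X] (j : ℕ) : Submodule ℝ (RegV X) :=
  ⨆ F : {F : Finset X // F.card = j}, LinearMap.range (Pr F.1 : RegV X →ₗ[ℝ] RegV X)

/-- Functions orthogonal to lower levels. -/
noncomputable abbrev Vj (X : Type) [Fintype X] [DecidableEq X] (j : ℕ) : Submodule ℝ (RegV X) :=
  lowFix (rightHom X) (univ : Finset X) j

theorem mem_Vj {j : ℕ} {f : RegV X} : f ∈ Vj X j ↔ ∀ R : Finset X, R.card < j → Pr R f = 0 := by
  rw [mem_lowFix]
  simp only [compl_univ, union_empty]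
  exact ⟨fun h R hR => h R (Finset.subset_univ R) hR, fun h R _ hR => h R hR⟩

/-- Exact level `j`. -/
noncomputable def Ej (X : Type) [Fintype X] [DecidableEq X] (j : ℕ) : Submodule ℝ (RegV X) :=
  Lj X j ⊓ Vj X j

/-- The sum of the `Pr F` over the `j`-subsets commutes with right translations. -/
theorem sum_Pr_commute_right (j : ℕ) (h : Equiv.Perm X) :
    Commute (∑ F ∈ powersetCard j (univ : Finset X), Pr F) (rightHom X h) := by
  apply Commute.symm
  show rightHom X h * _ = _ * rightHom X h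
  rw [Finset.mul_sum, Finset.sum_mul]
  simp_rw [fixAvg_map_mul (rightHom X) h]
  refine Finset.sum_bij (fun F _ => F.map h.toEmbedding) ?_ ?_ ?_ ?_
  · intro F hF
    simp only [mem_powersetCard] at hF ⊢
    exact ⟨Finset.subset_univ _, by rw [Finset.card_map]; exact hF.2⟩
  · intro a _ b _ hab
    exact Finset.map_injective _ hab
  · intro F hF
    refine ⟨F.map h⁻¹.toEmbedding, ?_, Pr_map_inv_map h F⟩
    simp only [mem_powersetCard] at hF ⊢
    exact ⟨Finset.subset_univ _, by rw [Finset.card_map]; exact hF.2⟩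
  · intro F _
    rfl

/-- FRAME for the `P_F`. -/
theorem frame_Pr (j : ℕ) (v u : RegV X) (hu : u ∈ Lj X j) :
    ⟪v, u⟫_ℝ ^ 2 ≤ (∑ F ∈ powersetCard j (univ : Finset X), ‖Pr F v‖ ^ 2) * ‖u‖ ^ 2 := by
  let ι := {F : Finset X // F ∈ powersetCard j (univ : Finset X)}
  let P : ι → RegV X →L[ℝ] RegV X := fun F => Pr F.1
  have hsum : ∑ F : ι, P F = ∑ F ∈ powersetCard j (univ : Finset X), Pr F :=
    Finset.sum_coe_sort _ (fun F => Pr F)
  have hmain := frame_abstract P (fun F => avgOn_symm _ rightHom_orth)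
    (fun F => avgOn_idem _ _) (fun F => by
      rw [hsum]
      exact avgOn_commute _ _ (fun g _ => sum_Pr_commute_right j g)) v u (by
      have hle : Lj X j ≤ ⨆ k, LinearMap.range (P k : RegV X →ₗ[ℝ] RegV X) := by
        apply iSup_le
        rintro ⟨F, hF⟩
        exact le_iSup (fun k : ι => LinearMap.range (P k : RegV X →ₗ[ℝ] RegV X))
          ⟨F, mem_powersetCard.2 ⟨Finset.subset_univ _, hF⟩⟩
      exact hle hu)
  have hsum2 : ∑ k : ι, ‖P k v‖ ^ 2 = ∑ F ∈ powersetCard j (univ : Finset X), ‖Pr F v‖ ^ 2 :=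
    Finset.sum_coe_sort _ (fun F => ‖Pr F v‖ ^ 2)
  rwa [hsum2] at hmain

/-- Left invariance. -/
theorem Lj_left (j : ℕ) (h : Equiv.Perm X) {f : RegV X} (hf : f ∈ Lj X j) : regRep X h f ∈ Lj X j := by
  have hle : Lj X j ≤ (Lj X j).comap ((regRep X h : RegV X →L[ℝ] RegV X) : RegV X →ₗ[ℝ] RegV X) := by
    apply iSup_le
    rintro F w ⟨y, rfl⟩
    show regRep X h (Pr F.1 y) ∈ Lj X j
    have h1 := congrArg (fun A : RegV X →L[ℝ] RegV X => A y) (Pr_commute_left F.1 h).eq
    simp only [ContinuousLinearMap.mul_apply] at h1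
    rw [← h1]
    exact (le_iSup (fun F : {F : Finset X // F.card = j} =>
      LinearMap.range (Pr F.1 : RegV X →ₗ[ℝ] RegV X)) F) (LinearMap.mem_range_self _ _)
  exact hle hf

theorem Vj_left (j : ℕ) (h : Equiv.Perm X) {f : RegV X} (hf : f ∈ Vj X j) : regRep X h f ∈ Vj X j := by
  rw [mem_Vj] at hf ⊢
  intro R hR
  have h1 := congrArg (fun A : RegV X →L[ℝ] RegV X => A f) (Pr_commute_left R h).eq
  simp only [ContinuousLinearMap.mul_apply] at h1
  rw [h1, hf R hR, map_zero]

/-- Right invariance (needed for Hilbert-Schmidt computations). -/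
theorem Lj_right (j : ℕ) (h : Equiv.Perm X) {f : RegV X} (hf : f ∈ Lj X j) : rightHom X h f ∈ Lj X j := by
  have hle : Lj X j ≤ (Lj X j).comap ((rightHom X h : RegV X →L[ℝ] RegV X) : RegV X →ₗ[ℝ] RegV X) := by
    apply iSup_le
    rintro F w ⟨y, rfl⟩
    show rightHom X h (Pr F.1 y) ∈ Lj X j
    rw [Pr_rightHom]
    exact (le_iSup (fun F : {F : Finset X // F.card = j} =>
      LinearMap.range (Pr F.1 : RegV X →ₗ[ℝ] RegV X))
      ⟨F.1.map h.toEmbedding, by rw [Finset.card_map]; exact F.2⟩) (LinearMap.mem_range_self _ _)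
  exact hle hf

theorem Vj_right (j : ℕ) (h : Equiv.Perm X) {f : RegV X} (hf : f ∈ Vj X j) : rightHom X h f ∈ Vj X j := by
  rw [mem_Vj] at hf ⊢
  intro R hR
  have h1 := Pr_rightHom h (R.map h⁻¹.toEmbedding) f
  have h2 : (R.map h⁻¹.toEmbedding).map h.toEmbedding = R := Pr_map_inv_map h R
  rw [h2, hf _ (by rw [Finset.card_map]; exact hR), map_zero] at h1
  exact h1.symm

/-- Flag: `Vj` is antitone, `Vj (j+1) = Vj j ⊓ (Lj j)ᗮ`, `Lj j ⊔ Vj (j+1) ...`: the orthogonal decomposition
`Vj j = Ej j ⊕ Vj (j+1)` for `j ≤ n`, with `Vj (n+1) = 0`. -/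
theorem Vj_eq_orth (j : ℕ) (hj : j ≤ Fintype.card X) : Vj X (j + 1) = (Lj X j)ᗮ := by
  ext f
  rw [mem_Vj, Submodule.mem_orthogonal]
  have hPr : ∀ F : Finset X, (Pr F f = 0 ↔ ∀ y, ⟪Pr F y, f⟫_ℝ = 0) := by
    intro F
    constructor
    · intro h y
      rw [avgOn_symm _ rightHom_orth, h, inner_zero_right]
    · intro h
      have h3 : ⟪Pr F (Pr F f), f⟫_ℝ = 0 := h (Pr F f)
      rw [avgOn_symm _ rightHom_orth] at h3
      exact inner_self_eq_zero.1 h3
  constructor
  · intro h u hu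
    have hle : Lj X j ≤ (ℝ ∙ f)ᗮ := by
      apply iSup_le
      rintro ⟨F, hF⟩ w ⟨y, rfl⟩
      rw [Submodule.mem_orthogonal_singleton_iff_inner_left]
      exact (hPr F).1 (h F (by omega)) y
    have h1 := hle hu
    rwa [Submodule.mem_orthogonal_singleton_iff_inner_left] at h1
  · intro h R hR
    have hRle : R.card ≤ j := by omega
    obtain ⟨F, hRF, _, hF⟩ := Finset.exists_subsuperset_card_eq (Finset.subset_univ R) hRle
      (by simpa using hj)
    have h0 : Pr F f = 0 := by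
      rw [hPr]
      intro y
      apply h
      exact (le_iSup (fun F : {F : Finset X // F.card = j} =>
        LinearMap.range (Pr F.1 : RegV X →ₗ[ℝ] RegV X)) ⟨F, hF⟩) (LinearMap.mem_range_self _ _)
    have h4 : Pr R * Pr F = Pr R := avgOn_mul_of_le _ _ _ (fixG_anti hRF)
    have h5 := congrArg (fun A : RegV X →L[ℝ] RegV X => A f) h4
    simp only [ContinuousLinearMap.mul_apply] at h5
    rw [h0, map_zero] at h5
    exact h5.symm

theorem Pr_univ (f : RegV X) : Pr (univ : Finset X) f = f := by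
  apply avgOn_apply_of_fixed
  intro g hg
  have : g = 1 := by
    ext x
    simpa using hg x (Finset.mem_univ x)
  rw [this, map_one]
  rfl

theorem Lj_top : Lj X (Fintype.card X) = ⊤ := by
  rw [eq_top_iff]
  intro f _
  have h1 : f ∈ LinearMap.range (Pr (univ : Finset X) : RegV X →ₗ[ℝ] RegV X) := ⟨f, Pr_univ f⟩
  exact (le_iSup (fun F : {F : Finset X // F.card = Fintype.card X} =>
    LinearMap.range (Pr F.1 : RegV X →ₗ[ℝ] RegV X)) ⟨univ, Finset.card_univ⟩) h1

theorem Lj_mono (j : ℕ) (hj : j < Fintype.card X) : Lj X j ≤ Lj X (j + 1) := by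
  apply iSup_le
  rintro ⟨F, hF⟩ w ⟨y, rfl⟩
  obtain ⟨F', hFF', _, hF'⟩ := Finset.exists_subsuperset_card_eq (Finset.subset_univ F)
    (show F.card ≤ j + 1 by omega) (by simpa using hj)
  have h4 : Pr F' * Pr F = Pr F := avgOn_mul_of_le' _ _ _ (fixG_anti hFF')
  have h5 := congrArg (fun A : RegV X →L[ℝ] RegV X => A y) h4
  simp only [ContinuousLinearMap.mul_apply] at h5
  show Pr F y ∈ _
  rw [← h5]
  exact (le_iSup (fun F : {F : Finset X // F.card = j + 1} =>
    LinearMap.range (Pr F.1 : RegV X →ₗ[ℝ] RegV X)) ⟨F', hF'⟩) (LinearMap.mem_range_self _ _)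

/-- `Pr ∅` is the average over the whole group. -/
theorem Pr_empty_apply (f : RegV X) (g : Equiv.Perm X) :
    Pr (∅ : Finset X) f g = (Fintype.card (Equiv.Perm X) : ℝ)⁻¹ * ∑ h, f h := by
  have hm : mems (fixG (∅ : Finset X)) = univ := by
    ext k
    simp
  show avgOn (rightHom X) (fixG (∅ : Finset X)) f g = _
  unfold avgOn
  rw [hm]
  simp only [ContinuousLinearMap.smul_apply, ContinuousLinearMap.sum_apply, PiLp.smul_apply,
    smul_eq_mul, Finset.card_univ]
  congr 1
  have h1 : (∑ k : Equiv.Perm X, rightHom X k f) g = ∑ k : Equiv.Perm X, (rightHom X k f) g := by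
    simp
  rw [h1]
  simp only [rightHom_apply]
  exact Equiv.sum_comp (Equiv.mulLeft g) (fun h => f h)

/-- `Vj 1` is the orthogonal complement of the constants. -/
theorem Vj_one_iff (f : RegV X) : f ∈ Vj X 1 ↔ ∑ g, f g = 0 := by
  rw [mem_Vj]
  have hcard : (Fintype.card (Equiv.Perm X) : ℝ) ≠ 0 := by
    exact_mod_cast Fintype.card_ne_zero
  constructor
  · intro h
    have h1 := h ∅ (by simp)
    have h2 := Pr_empty_apply f 1
    rw [h1] at h2
    simp only [PiLp.zero_apply] at h2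
    have h3 := mul_eq_zero.1 h2.symm
    rcases h3 with h3 | h3
    · exact absurd h3 (inv_ne_zero hcard)
    · exact h3
  · intro h R hR
    have hR0 : R = ∅ := by
      rw [← Finset.card_eq_zero]
      omega
    subst hR0
    ext g
    rw [Pr_empty_apply, h]
    simp

end Vale.Agent.P162O
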