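/-
P162 O(d), Part III: the law of the network, connection with the tuple chain.
-/
import Vale.Agent.P162O.Renyi
import Vale.Agent.P162O.Right

open scoped InnerProductSpace BigOperators
open Finset

namespace Vale.Agent.P162O
open Vale.Agent.P162

variable {D : ℕ}

/-- The law of `Π_i`: `Π_{i+1} = lay i c' * Π_i * lay i c`. -/
noncomputable def lawN : ℕ → Equiv.Perm (Cube D) → ℝ
  | 0, g => if g = 1 then 1 else 0
  | i + 1, g => Eu fun c : Cube D → Bool => Eu fun c' : Cube D → Bool =>
      lawN i (lay i c' * g * lay i c)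

theorem lawN_nonneg (i : ℕ) (g : Equiv.Perm (Cube D)) : 0 ≤ lawN i g := by
  induction i generalizing g with
  | zero =>
    simp only [lawN]
    split_ifs <;> norm_num
  | succ i ih =>
    simp only [lawN]
    exact Eu_nonneg fun c => Eu_nonneg fun c' => ih _

/-- The layer conjugation as a bijection of the group. -/
def layConj (i : ℕ) (c c' : Cube D → Bool) : Equiv.Perm (Cube D) ≃ Equiv.Perm (Cube D) where
  toFun g := lay i c' * g * lay i c
  invFun g := lay i c' * g * lay i c
  left_inv g := by
    have h1 : lay i c' * lay i c' = (1 : Equiv.Perm (Cube D)) := by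
      ext1 x
      exact lay_lay i c' x
    have h2 : lay i c * lay i c = (1 : Equiv.Perm (Cube D)) := by
      ext1 x
      exact lay_lay i c x
    show lay i c' * (lay i c' * g * lay i c) * lay i c = g
    calc lay i c' * (lay i c' * g * lay i c) * lay i c
        = (lay i c' * lay i c') * g * (lay i c * lay i c) := by group
      _ = g := by rw [h1, h2]; group
  right_inv g := by
    have h1 : lay i c' * lay i c' = (1 : Equiv.Perm (Cube D)) := by
      ext1 x
      exact lay_lay i c' x
    have h2 : lay i c * lay i c = (1 : Equiv.Perm (Cube D)) := by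
      ext1 x
      exact lay_lay i c x
    show lay i c' * (lay i c' * g * lay i c) * lay i c = g
    calc lay i c' * (lay i c' * g * lay i c) * lay i c
        = (lay i c' * lay i c') * g * (lay i c * lay i c) := by group
      _ = g := by rw [h1, h2]; group

theorem sum_Eu_one {α γ : Type*} [Fintype α] [Fintype γ] (f : γ → α → ℝ) :
    ∑ g, Eu (fun a => f g a) = Eu (fun a => ∑ g, f g a) := by
  simp only [Eu, ← Finset.mul_sum]
  rw [Finset.sum_comm]

theorem sum_Eu_swap {α β γ : Type*} [Fintype α] [Fintype β] [Fintype γ] (f : γ → α → β → ℝ) :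
    ∑ g, Eu (fun a => Eu fun b => f g a b) = Eu (fun a => Eu fun b => ∑ g, f g a b) := by
  rw [sum_Eu_one]
  congr 1
  funext a
  rw [sum_Eu_one]

theorem lawN_sum (i : ℕ) : ∑ g : Equiv.Perm (Cube D), lawN i g = 1 := by
  induction i with
  | zero =>
    simp [lawN]
  | succ i ih =>
    simp only [lawN]
    rw [sum_Eu_swap]
    have h1 : ∀ c c' : Cube D → Bool,
        ∑ g : Equiv.Perm (Cube D), lawN i (lay i c' * g * lay i c) = 1 := by
      intro c c'
      rw [← ih]
      exact Equiv.sum_comp (layConj i c c') (lawN i)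
    simp only [h1]
    rw [Eu_const, Eu_const]

/-- The tuple probabilities are marginals of the law. -/
theorem Pn_eq_lawN {I : Type} [Fintype I] [DecidableEq I] (i : ℕ) (x y : I → Cube D) :
    Pn i x y = ∑ g : Equiv.Perm (Cube D), if (fun a => g (x a)) = y then lawN i g else 0 := by
  induction i generalizing x y with
  | zero =>
    simp only [Pn, lawN]
    rw [Finset.sum_eq_single (1 : Equiv.Perm (Cube D))]
    · simp
    · intro g _ hg
      simp [hg]
    · simp
  | succ i ih =>
    simp only [Pn, lawN]
    have h0 : ∀ g : Equiv.Perm (Cube D), (if (fun a => g (x a)) = y then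
        Eu (fun c : Cube D → Bool => Eu fun c' : Cube D → Bool => lawN i (lay i c' * g * lay i c)) else 0)
        = Eu (fun c : Cube D → Bool => Eu fun c' : Cube D → Bool =>
          if (fun a => g (x a)) = y then lawN i (lay i c' * g * lay i c) else 0) := by
      intro g
      split_ifs
      · rfl
      · simp [Eu]
    simp only [h0]
    rw [sum_Eu_swap]
    congr 1
    funext c
    congr 1
    funext c'
    rw [ih]
    rw [← Equiv.sum_comp (layConj i c c')
      (fun g => if (fun a => g (x a)) = y then lawN i (lay i c' * g * lay i c) else 0)]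
    apply Finset.sum_congr rfl
    intro g _
    have h1 : lay i c' * (layConj i c c' g) * lay i c = g := (layConj i c c').left_inv g
    have hcond : ((fun a => (layConj i c c' g) (x a)) = y) ↔
        ((fun a => g (stpT i c x a)) = stpT i c' y) := by
      constructor
      · intro h
        funext a
        have h2 := congrFun h a
        show g (lay i c (x a)) = lay i c' (y a)
        rw [← h2]
        show _ = lay i c' (lay i c' (g (lay i c (x a))))
        rw [lay_lay]
      · intro h
        funext a
        have h2 : g (lay i c (x a)) = lay i c' (y a) := congrFun h a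
        show lay i c' (g (lay i c (x a))) = y a
        rw [h2, lay_lay]
    rw [h1]
    exact (if_congr hcond rfl rfl).symm

section opLaw

/-- One step of the law on the bilinear form of `opOf`. -/
theorem inner_opOf_lawN_succ (i : ℕ) (u v : RegV (Cube D)) :
    ⟪opOf (lawN (D := D) (i + 1)) u, v⟫_ℝ =
      Eu fun c : Cube D → Bool => Eu fun c' : Cube D → Bool =>
        ⟪opOf (lawN (D := D) i) (regRep (Cube D) (lay i c) u), regRep (Cube D) (lay i c') v⟫_ℝ := by
  have hop : ∀ (μ : Equiv.Perm (Cube D) → ℝ) (a b : RegV (Cube D)),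
      ⟪opOf μ a, b⟫_ℝ = ∑ h, μ h * ⟪regRep (Cube D) h a, b⟫_ℝ := by
    intro μ a b
    simp only [opOf, ContinuousLinearMap.sum_apply, ContinuousLinearMap.smul_apply, sum_inner,
      real_inner_smul_left]
  rw [hop]
  simp only [lawN]
  have h0 : ∀ h : Equiv.Perm (Cube D),
      Eu (fun c : Cube D → Bool => Eu fun c' : Cube D → Bool => lawN i (lay i c' * h * lay i c)) *
        ⟪regRep (Cube D) h u, v⟫_ℝ =
      Eu (fun c : Cube D → Bool => Eu fun c' : Cube D → Bool =>
        lawN i (lay i c' * h * lay i c) * ⟪regRep (Cube D) h u, v⟫_ℝ) := by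
    intro h
    simp only [Eu, Finset.sum_mul, Finset.mul_sum, mul_assoc]
  simp only [h0]
  rw [sum_Eu_swap]
  congr 1
  funext c
  congr 1
  funext c'
  rw [hop, ← Equiv.sum_comp (layConj i c c')
    (fun h => lawN i (lay i c' * h * lay i c) * ⟪regRep (Cube D) h u, v⟫_ℝ)]
  apply Finset.sum_congr rfl
  intro g _
  have h1 : lay i c' * (layConj i c c' g) * lay i c = g := (layConj i c c').left_inv g
  rw [h1]
  congr 1
  have h2 : layConj i c c' g = lay i c' * g * lay i c := rfl
  rw [h2, map_mul, map_mul]
  simp only [ContinuousLinearMap.mul_apply]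
  rw [regRep_orth.inner_left, lay_inv]

/-- The bilinear form of `opOf (lawN i)`. -/
theorem inner_opOf_lawN (i : ℕ) (u v : RegV (Cube D)) :
    ⟪opOf (lawN (D := D) i) u, v⟫_ℝ =
      ⟪netP (regRep (Cube D)) i u, netP (regRep (Cube D)) i v⟫_ℝ := by
  induction i generalizing u v with
  | zero =>
    have h1 : opOf (lawN (D := D) 0) = 1 := by
      unfold opOf
      rw [Finset.sum_eq_single (1 : Equiv.Perm (Cube D))]
      · simp [lawN]
      · intro g _ hg
        simp only [lawN, if_neg hg]
        exact zero_smul ℝ (regRep (Cube D) g)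
      · simp
    rw [h1]
    simp [netP]
  | succ i ih =>
    rw [inner_opOf_lawN_succ]
    set A := opOf (lawN (D := D) i) with hA
    have hsymm : ∀ a b, ⟪A a, b⟫_ℝ = ⟪a, A b⟫_ℝ := by
      intro a b
      rw [ih, real_inner_comm, ← ih, real_inner_comm]
    have h1 : ∀ c : Cube D → Bool, Eu (fun c' : Cube D → Bool =>
        ⟪A (regRep (Cube D) (lay i c) u), regRep (Cube D) (lay i c') v⟫_ℝ)
        = ⟪regRep (Cube D) (lay i c) u, A (Qk (regRep (Cube D)) i v)⟫_ℝ := by
      intro c
      set w := regRep (Cube D) (lay i c) u with hw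
      have h2 := Qk_apply_eq_Eu (regRep (Cube D)) i v (A w)
      calc Eu (fun c' : Cube D → Bool => ⟪A w, regRep (Cube D) (lay i c') v⟫_ℝ)
          = Eu (fun c' : Cube D → Bool => ⟪regRep (Cube D) (lay i c') v, A w⟫_ℝ) := by
            congr 1
            funext c'
            exact real_inner_comm _ _
        _ = ⟪Qk (regRep (Cube D)) i v, A w⟫_ℝ := h2.symm
        _ = ⟪A (Qk (regRep (Cube D)) i v), w⟫_ℝ := (hsymm _ _).symm
        _ = ⟪w, A (Qk (regRep (Cube D)) i v)⟫_ℝ := real_inner_comm _ _
    simp only [h1]
    have h3 := Qk_apply_eq_Eu (regRep (Cube D)) i u (A (Qk (regRep (Cube D)) i v))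
    rw [← h3]
    have h4 : ∀ w, netP (regRep (Cube D)) (i + 1) w =
        netP (regRep (Cube D)) i (Qk (regRep (Cube D)) i w) := fun w => rfl
    rw [h4, h4, ← ih, real_inner_comm, hsymm]
    exact real_inner_comm _ _

end opLaw

/-- The operator of the law is `B^* B`, in quadratic form. -/
theorem opOf_lawN (f : RegV (Cube D)) :
    ⟪opOf (lawN (D := D) D) f, f⟫_ℝ = ‖net (regRep (Cube D)) f‖ ^ 2 := by
  rw [inner_opOf_lawN]
  exact real_inner_self_eq_norm_sq _

end Vale.Agent.P162O
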