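/-
P162 O(d), Part III: eigenvalue counts on the exact level from the Rényi bound.
-/
import Vale.Agent.P162O.Law

open scoped InnerProductSpace BigOperators
open Finset

namespace Vale.Agent.P162O
open Vale.Agent.P162

variable {X : Type} [Fintype X] [DecidableEq X]

/-- Marginal of `μ` on the subset `F`. -/
noncomputable def margF (μ : Equiv.Perm X → ℝ) (F : Finset X) (τ : F → X) : ℝ :=
  ∑ g : Equiv.Perm X, if (fun a : F => g a) = τ then μ g else 0

/-- The Rényi sum at level `j`. -/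
noncomputable def renyiSum (μ : Equiv.Perm X → ℝ) (j : ℕ) : ℝ :=
  ∑ F ∈ powersetCard j (univ : Finset X), ∑ τ : F → X,
    margF μ F τ * (((Fintype.card X : ℝ) ^ j) * margF μ F τ) ^ ((1 : ℝ) / 20)

theorem Count_margF_nonneg {μ : Equiv.Perm X → ℝ} (hμ : ∀ g, 0 ≤ μ g) (F : Finset X) (τ : F → X) :
    0 ≤ margF μ F τ := by
  unfold margF
  refine Finset.sum_nonneg fun g _ => ?_
  split_ifs
  · exact hμ g
  · exact le_rfl

/-- The vector `k ↦ μ (g' k⁻¹)`. -/
noncomputable def Count_vv (μ : Equiv.Perm X → ℝ) (g' : Equiv.Perm X) : RegV X :=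
  WithLp.toLp 2 (fun k => μ (g' * k⁻¹))

@[simp] theorem Count_vv_apply (μ : Equiv.Perm X → ℝ) (g' k : Equiv.Perm X) :
    Count_vv μ g' k = μ (g' * k⁻¹) := rfl

theorem Count_inner_eq (u v : RegV X) : ⟪u, v⟫_ℝ = ∑ k, u k * v k := by
  simp only [PiLp.inner_apply, RCLike.inner_apply, conj_trivial]
  exact Finset.sum_congr rfl fun k _ => by ring

theorem Count_op_apply (μ : Equiv.Perm X → ℝ) (b : RegV X) (g' : Equiv.Perm X) :
    opOf μ b g' = ⟪b, Count_vv μ g'⟫_ℝ := by
  rw [opOf_apply, Count_inner_eq]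
  let e : Equiv.Perm X ≃ Equiv.Perm X := (Equiv.inv _).trans (Equiv.mulRight g')
  have he : ∀ h, e h = h⁻¹ * g' := fun h => rfl
  rw [← Equiv.sum_comp e (fun k => b k * Count_vv μ g' k)]
  refine Finset.sum_congr rfl fun h _ => ?_
  rw [he, Count_vv_apply]
  have : g' * (h⁻¹ * g')⁻¹ = h := by group
  rw [this]
  ring

/-- Bessel from a frame inequality. -/
theorem Count_bessel {V : Type*} [NormedAddCommGroup V] [InnerProductSpace ℝ V] {ι : Type*} [Fintype ι]
    (L : Submodule ℝ V) (b : ι → V) (hb : Orthonormal ℝ b) (hbL : ∀ i, b i ∈ L) (v : V) (Z : ℝ) (hZ : 0 ≤ Z)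
    (hf : ∀ u ∈ L, ⟪v, u⟫_ℝ ^ 2 ≤ Z * ‖u‖ ^ 2) :
    ∑ i, ⟪b i, v⟫_ℝ ^ 2 ≤ Z := by
  set S := ∑ i, ⟪b i, v⟫_ℝ ^ 2 with hS
  set u : V := ∑ i, ⟪b i, v⟫_ℝ • b i with hu
  have huL : u ∈ L := Submodule.sum_mem _ fun i _ => Submodule.smul_mem _ _ (hbL i)
  have h1 : ⟪v, u⟫_ℝ = S := by
    rw [hu, inner_sum, hS]
    refine Finset.sum_congr rfl fun i _ => ?_
    rw [real_inner_smul_right, real_inner_comm]
    ring
  have h2 : ‖u‖ ^ 2 = S := by
    rw [← real_inner_self_eq_norm_sq, hu, hb.inner_sum, hS]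
    simp only [conj_trivial]
    exact Finset.sum_congr rfl fun i _ => by ring
  have h3 := hf u huL
  rw [h1, h2] at h3
  have hS0 : 0 ≤ S := Finset.sum_nonneg fun i _ => sq_nonneg _
  rcases hS0.eq_or_lt with h | h
  · rw [← h]
    exact hZ
  · have : S * S ≤ Z * S := by nlinarith
    exact le_of_mul_le_mul_right this h

/-- The right average on a point. -/
theorem Count_Pr_apply (F : Finset X) (v : RegV X) (k : Equiv.Perm X) :
    Pr F v k = ((mems (fixG F)).card : ℝ)⁻¹ * ∑ s ∈ mems (fixG F), v (k * s) := by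
  show avgOn (rightHom X) (fixG F) v k = _
  unfold avgOn
  simp

theorem Count_norm_Pr (F : Finset X) (v : RegV X) : ‖Pr F v‖ ^ 2 = ⟪Pr F v, v⟫_ℝ := by
  rw [← real_inner_self_eq_norm_sq]
  have hs := avgOn_symm (π := rightHom X) (fixG F) (rightHom_orth (X := X))
  have h1 := hs (Pr F v) v
  have hi := avgOn_idem (rightHom X) (fixG F)
  have h2 : Pr F (Pr F v) = Pr F v := by
    have := congrArg (fun A : RegV X →L[ℝ] RegV X => A v) hi
    simpa using this
  show ⟪Pr F v, Pr F v⟫_ℝ = _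
  have h3 : ⟪avgOn (rightHom X) (fixG F) (Pr F v), v⟫_ℝ = ⟪Pr F v, Pr F v⟫_ℝ := h1
  have h4 : avgOn (rightHom X) (fixG F) (Pr F v) = Pr F v := h2
  rw [← h3, h4]


/-- The conjugated sum over the stabiliser is a marginal. -/
theorem Count_sum_conj (μ : Equiv.Perm X → ℝ) (F : Finset X) (a k : Equiv.Perm X) :
    ∑ s ∈ mems (fixG F), μ (a * k * s⁻¹ * k⁻¹) =
      margF μ (F.map k.toEmbedding) (fun y => a y) := by
  classical
  unfold margF
  rw [← Finset.sum_filter]
  refine Finset.sum_bij' (fun s _ => a * k * s⁻¹ * k⁻¹) (fun h _ => k⁻¹ * h⁻¹ * a * k) ?_ ?_ ?_ ?_ ?_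
  · intro s hs
    have hs' : ∀ x ∈ F, s x = x := (mem_mems _ _).mp hs
    simp only [mem_filter, mem_univ, true_and]
    funext y
    obtain ⟨y, hy⟩ := y
    obtain ⟨f, hf, rfl⟩ := Finset.mem_map.mp hy
    have h1 : s⁻¹ f = f := by
      rw [Equiv.Perm.inv_eq_iff_eq]
      exact (hs' f hf).symm
    simp [Equiv.Perm.mul_apply, h1]
  · intro h hh
    simp only [mem_filter, mem_univ, true_and] at hh
    rw [mem_mems, mem_fixG]
    intro x hx
    have h1 := congrFun hh ⟨k x, Finset.mem_map.mpr ⟨x, hx, rfl⟩⟩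
    simp only at h1
    have h2 : h⁻¹ (a (k x)) = k x := by
      rw [Equiv.Perm.inv_eq_iff_eq]
      exact h1.symm
    simp [Equiv.Perm.mul_apply, h2]
  · intro s _
    group
  · intro h _
    group
  · intro s _
    rfl

/-- Orbit-stabiliser, as an inequality. -/
theorem Count_card_le (F : Finset X) :
    Fintype.card (Equiv.Perm X) ≤ Fintype.card X ^ F.card * (mems (fixG F)).card := by
  classical
  let f : Equiv.Perm X → (F → X) := fun g a => g a
  have h1 := Finset.card_le_mul_card_image (s := (univ : Finset (Equiv.Perm X))) (f := f)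
    (mems (fixG F)).card ?_
  · rw [Finset.card_univ] at h1
    refine h1.trans ?_
    rw [mul_comm]
    refine Nat.mul_le_mul_right _ ?_
    have h2 : ((univ : Finset (Equiv.Perm X)).image f).card ≤ Fintype.card (F → X) :=
      Finset.card_le_univ _
    have h3 : Fintype.card (F → X) = Fintype.card X ^ F.card := by
      simp
    omega
  · intro τ hτ
    obtain ⟨g0, -, rfl⟩ := Finset.mem_image.mp hτ
    refine Finset.card_le_card_of_injOn (fun h => g0⁻¹ * h) ?_ ?_
    · intro h hh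
      have hh' : f h = f g0 := by simpa using hh
      simp only [mem_coe, mem_mems, mem_fixG]
      intro x hx
      have h2 := congrFun hh' ⟨x, hx⟩
      simp only [f] at h2
      simp [Equiv.Perm.mul_apply, h2]
    · intro a _ b _ hab
      exact mul_left_cancel hab

/-- Sum over the `j`-subsets invariant under a permutation. -/
theorem Count_sum_map (j : ℕ) (k : Equiv.Perm X) (φ : Finset X → ℝ) :
    ∑ F ∈ powersetCard j (univ : Finset X), φ (F.map k.toEmbedding) =
      ∑ G ∈ powersetCard j (univ : Finset X), φ G := by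
  refine Finset.sum_bij' (fun F _ => F.map k.toEmbedding) (fun G _ => G.map k.symm.toEmbedding) ?_ ?_ ?_ ?_ ?_
  · intro F hF
    simp only [mem_powersetCard, subset_univ, true_and, card_map] at hF ⊢
    exact hF
  · intro F hF
    simp only [mem_powersetCard, subset_univ, true_and, card_map] at hF ⊢
    exact hF
  · intro F _
    ext x
    simp
  · intro F _
    ext x
    simp
  · intro F _
    rfl


theorem Count_sum_Pr (μ : Equiv.Perm X → ℝ) (F : Finset X) :
    ∑ g' : Equiv.Perm X, ‖Pr F (Count_vv μ g')‖ ^ 2 =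
      ∑ a : Equiv.Perm X, μ a * (((mems (fixG F)).card : ℝ)⁻¹ *
        ∑ k : Equiv.Perm X, margF μ (F.map k.toEmbedding) (fun y => a y)) := by
  have h1 : ∀ g' : Equiv.Perm X, ‖Pr F (Count_vv μ g')‖ ^ 2 =
      ∑ k : Equiv.Perm X, (((mems (fixG F)).card : ℝ)⁻¹ *
        ∑ s ∈ mems (fixG F), μ (g' * (k * s)⁻¹)) * μ (g' * k⁻¹) := by
    intro g'
    rw [Count_norm_Pr, Count_inner_eq]
    refine Finset.sum_congr rfl fun k _ => ?_
    rw [Count_Pr_apply]
    simp only [Count_vv_apply]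
  simp only [h1]
  rw [Finset.sum_comm]
  have h2 : ∀ k : Equiv.Perm X, ∑ g' : Equiv.Perm X, (((mems (fixG F)).card : ℝ)⁻¹ *
        ∑ s ∈ mems (fixG F), μ (g' * (k * s)⁻¹)) * μ (g' * k⁻¹) =
      ∑ a : Equiv.Perm X, μ a * (((mems (fixG F)).card : ℝ)⁻¹ *
        margF μ (F.map k.toEmbedding) (fun y => a y)) := by
    intro k
    rw [← Equiv.sum_comp (Equiv.mulRight k)]
    refine Finset.sum_congr rfl fun a _ => ?_
    simp only [Equiv.coe_mulRight]
    rw [← Count_sum_conj]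
    have e1 : a * k * k⁻¹ = a := by group
    have e2 : ∀ s : Equiv.Perm X, a * k * (k * s)⁻¹ = a * k * s⁻¹ * k⁻¹ := fun s => by group
    simp only [e1, e2]
    ring
  simp only [h2]
  rw [Finset.sum_comm]
  refine Finset.sum_congr rfl fun a _ => ?_
  rw [← Finset.mul_sum, ← Finset.mul_sum]

theorem Count_total (μ : Equiv.Perm X → ℝ) (hμ0 : ∀ g, 0 ≤ μ g) (hμ1 : ∑ g, μ g ≤ 1) (j : ℕ) (x : ℝ) (hx0 : 0 ≤ x)
    (hx : ∀ g, μ g ≠ 0 → ∑ F ∈ powersetCard j (univ : Finset X),
      (Fintype.card X : ℝ) ^ j * margF μ F (fun a => g a) ≤ x) :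
    ∑ g' : Equiv.Perm X, ∑ F ∈ powersetCard j (univ : Finset X), ‖Pr F (Count_vv μ g')‖ ^ 2 ≤ x := by
  rw [Finset.sum_comm]
  simp only [Count_sum_Pr]
  rw [Finset.sum_comm]
  simp only [← Finset.mul_sum]
  have hN : (0 : ℝ) < (Fintype.card (Equiv.Perm X) : ℝ) := by
    exact_mod_cast Fintype.card_pos
  have hmain : ∀ a : Equiv.Perm X, ∑ F ∈ powersetCard j (univ : Finset X),
      ((mems (fixG F)).card : ℝ)⁻¹ * ∑ k : Equiv.Perm X, margF μ (F.map k.toEmbedding) (fun y => a y) ≤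
      ∑ G ∈ powersetCard j (univ : Finset X), (Fintype.card X : ℝ) ^ j * margF μ G (fun y => a y) := by
    intro a
    have h1 : ∀ F ∈ powersetCard j (univ : Finset X),
        ((mems (fixG F)).card : ℝ)⁻¹ * ∑ k : Equiv.Perm X, margF μ (F.map k.toEmbedding) (fun y => a y) ≤
        ((Fintype.card X : ℝ) ^ j / (Fintype.card (Equiv.Perm X) : ℝ)) *
          ∑ k : Equiv.Perm X, margF μ (F.map k.toEmbedding) (fun y => a y) := by
      intro F hF
      have hFc : F.card = j := (mem_powersetCard.mp hF).2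
      refine mul_le_mul_of_nonneg_right ?_ (Finset.sum_nonneg fun k _ => Count_margF_nonneg hμ0 _ _)
      have h2 := Count_card_le F
      have hc := mems_card_pos (fixG F)
      rw [hFc] at h2
      have h3 : (Fintype.card (Equiv.Perm X) : ℝ) ≤ (Fintype.card X : ℝ) ^ j * ((mems (fixG F)).card : ℝ) := by
        exact_mod_cast h2
      rw [inv_eq_one_div, div_le_div_iff₀ hc hN]
      linarith
    refine (Finset.sum_le_sum h1).trans (le_of_eq ?_)
    rw [← Finset.mul_sum, Finset.sum_comm]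
    have h4 : ∀ k : Equiv.Perm X, ∑ F ∈ powersetCard j (univ : Finset X),
        margF μ (F.map k.toEmbedding) (fun y => a y) =
        ∑ G ∈ powersetCard j (univ : Finset X), margF μ G (fun y => a y) := fun k =>
      Count_sum_map j k (fun G => margF μ G (fun y => a y))
    simp only [h4]
    rw [Finset.sum_const, Finset.card_univ, nsmul_eq_mul, ← Finset.mul_sum]
    field_simp
  calc ∑ a : Equiv.Perm X, μ a * ∑ F ∈ powersetCard j (univ : Finset X),
        ((mems (fixG F)).card : ℝ)⁻¹ * ∑ k : Equiv.Perm X, margF μ (F.map k.toEmbedding) (fun y => a y)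
      ≤ ∑ a : Equiv.Perm X, μ a * x := by
        refine Finset.sum_le_sum fun a _ => ?_
        by_cases ha : μ a = 0
        · simp [ha]
        · exact mul_le_mul_of_nonneg_left ((hmain a).trans (hx a ha)) (hμ0 a)
    _ = (∑ a : Equiv.Perm X, μ a) * x := by rw [Finset.sum_mul]
    _ ≤ 1 * x := mul_le_mul_of_nonneg_right hμ1 hx0
    _ = x := one_mul x

/-- Hilbert-Schmidt norm on an exact level by translating to the identity and the frame bound. -/
theorem hs_level (μ : Equiv.Perm X → ℝ) (hμ0 : ∀ g, 0 ≤ μ g) (hμ1 : ∑ g, μ g ≤ 1) (j : ℕ) (x : ℝ) (hx0 : 0 ≤ x)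
    (hx : ∀ g, μ g ≠ 0 → ∑ F ∈ powersetCard j (univ : Finset X),
      (Fintype.card X : ℝ) ^ j * margF μ F (fun a => g a) ≤ x)
    {ι : Type*} [Fintype ι] (b : ι → RegV X) (hb : Orthonormal ℝ b) (hbZ : ∀ i, b i ∈ Ej X j) :
    ∑ i, ‖opOf μ (b i)‖ ^ 2 ≤ x := by
  have h1 : ∀ i, ‖opOf μ (b i)‖ ^ 2 = ∑ g' : Equiv.Perm X, ⟪b i, Count_vv μ g'⟫_ℝ ^ 2 := by
    intro i
    rw [← real_inner_self_eq_norm_sq, Count_inner_eq]
    refine Finset.sum_congr rfl fun g' _ => ?_
    rw [Count_op_apply]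
    ring
  simp only [h1]
  rw [Finset.sum_comm]
  refine le_trans (Finset.sum_le_sum fun g' _ => ?_) (Count_total μ hμ0 hμ1 j x hx0 hx)
  refine Count_bessel (Lj X j) b hb (fun i => (hbZ i).1) _ _ ?_ (fun u hu => frame_Pr j _ u hu)
  exact Finset.sum_nonneg fun F _ => sq_nonneg _


/-- Subadditivity of a small power over finite sums. -/
theorem Count_sum_rpow_le {ι : Type*} (s : Finset ι) (f : ι → ℝ) (hf : ∀ i ∈ s, 0 ≤ f i) {p : ℝ} (hp0 : 0 < p)
    (hp1 : p ≤ 1) : (∑ i ∈ s, f i) ^ p ≤ ∑ i ∈ s, f i ^ p := by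
  classical
  induction s using Finset.induction_on with
  | empty =>
    simp [Real.zero_rpow hp0.ne']
  | insert a s ha ih =>
    rw [Finset.sum_insert ha, Finset.sum_insert ha]
    have h1 : 0 ≤ f a := hf a (Finset.mem_insert_self _ _)
    have h2 : ∀ i ∈ s, 0 ≤ f i := fun i hi => hf i (Finset.mem_insert_of_mem hi)
    have h3 : 0 ≤ ∑ i ∈ s, f i := Finset.sum_nonneg h2
    exact (Real.rpow_add_le_add_rpow h1 h3 hp0.le hp1).trans (add_le_add_right (ih h2) _)

/-- The sum of `μ g` times a function of the restriction to `F`. -/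
theorem Count_fiber (μ : Equiv.Perm X → ℝ) (F : Finset X) (h : (F → X) → ℝ) :
    ∑ g : Equiv.Perm X, μ g * h (fun a : F => g a) = ∑ τ : F → X, margF μ F τ * h τ := by
  classical
  unfold margF
  simp only [Finset.sum_mul]
  rw [Finset.sum_comm]
  refine Finset.sum_congr rfl fun g _ => ?_
  rw [Finset.sum_eq_single (fun a : F => g a)]
  · simp
  · intro τ _ hτ
    rw [if_neg (fun e => hτ e.symm), zero_mul]
  · intro h'
    exact absurd (Finset.mem_univ _) h'

/-- The Markov inequality for the sum of the densities. -/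
theorem Count_markov (μ : Equiv.Perm X → ℝ) (hμ0 : ∀ g, 0 ≤ μ g) (j : ℕ) (x : ℝ) (hx : 0 < x) :
    x ^ ((1 : ℝ) / 20) * ∑ g : Equiv.Perm X, (if ∑ F ∈ powersetCard j (univ : Finset X),
        (Fintype.card X : ℝ) ^ j * margF μ F (fun a => g a) ≤ x then 0 else μ g) ≤ renyiSum μ j := by
  have hn : (0 : ℝ) ≤ (Fintype.card X : ℝ) ^ j := by positivity
  have hp : (0 : ℝ) < (1 : ℝ) / 20 := by norm_num
  have hp1 : (1 : ℝ) / 20 ≤ 1 := by norm_num
  have key : ∀ g : Equiv.Perm X, x ^ ((1 : ℝ) / 20) * (if ∑ F ∈ powersetCard j (univ : Finset X),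
        (Fintype.card X : ℝ) ^ j * margF μ F (fun a => g a) ≤ x then 0 else μ g) ≤
      ∑ F ∈ powersetCard j (univ : Finset X),
        μ g * ((Fintype.card X : ℝ) ^ j * margF μ F (fun a => g a)) ^ ((1 : ℝ) / 20) := by
    intro g
    split_ifs with h
    · rw [mul_zero]
      exact Finset.sum_nonneg fun F _ => mul_nonneg (hμ0 g) (Real.rpow_nonneg (mul_nonneg hn (Count_margF_nonneg hμ0 _ _)) _)
    · rw [← Finset.mul_sum, mul_comm]
      refine mul_le_mul_of_nonneg_left ?_ (hμ0 g)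
      push Not at h
      refine (Real.rpow_le_rpow hx.le h.le hp.le).trans ?_
      exact Count_sum_rpow_le _ _ (fun F _ => mul_nonneg hn (Count_margF_nonneg hμ0 _ _)) hp hp1
  rw [Finset.mul_sum]
  refine (Finset.sum_le_sum fun g _ => key g).trans (le_of_eq ?_)
  rw [Finset.sum_comm]
  unfold renyiSum
  refine Finset.sum_congr rfl fun F _ => ?_
  exact Count_fiber μ F (fun τ => ((Fintype.card X : ℝ) ^ j * margF μ F τ) ^ ((1 : ℝ) / 20))

/-- A positive measure acts as a contraction in quadratic form. -/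
theorem Count_op_inner_le (ν : Equiv.Perm X → ℝ) (hν : ∀ g, 0 ≤ ν g) (w : RegV X) :
    ⟪opOf ν w, w⟫_ℝ ≤ (∑ g, ν g) * ‖w‖ ^ 2 := by
  unfold opOf
  rw [_root_.sum_apply, sum_inner, Finset.sum_mul]
  refine Finset.sum_le_sum fun h _ => ?_
  rw [smul_apply, real_inner_smul_left]
  refine mul_le_mul_of_nonneg_left ?_ (hν h)
  have h1 := real_inner_le_norm (regRep X h w) w
  rw [(regRep_orth (X := X)).norm_map] at h1
  nlinarith

theorem Count_op_add (μ ν : Equiv.Perm X → ℝ) : opOf (fun g => μ g + ν g) = opOf μ + opOf ν := by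
  ext f g
  rw [add_apply, PiLp.add_apply, opOf_apply, opOf_apply, opOf_apply, ← Finset.sum_add_distrib]
  exact Finset.sum_congr rfl fun h _ => by ring

/-- COUNT. `μ` a probability, `W ≤ Ej j`, with `⟨op μ w, w⟩ ≥ t ‖w‖²` on `W`, and a bound on the Rényi sum. -/
theorem count_bound (μ : Equiv.Perm X → ℝ) (hμ0 : ∀ g, 0 ≤ μ g) (hμ1 : ∑ g, μ g = 1) (j : ℕ)
    (Y : ℝ) (hY0 : 0 < Y) (hY : renyiSum μ j ≤ Y) (W : Submodule ℝ (RegV X)) (hW : W ≤ Ej X j) (t : ℝ) (ht : 0 < t)
    (hWt : ∀ w ∈ W, t * ‖w‖ ^ 2 ≤ ⟪opOf μ w, w⟫_ℝ) :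
    (Module.finrank ℝ W : ℝ) ≤ 4 * (2 * Y) ^ 20 / t ^ 22 := by
  set S : Equiv.Perm X → ℝ := fun g => ∑ F ∈ powersetCard j (univ : Finset X),
    (Fintype.card X : ℝ) ^ j * margF μ F (fun a => g a) with hS
  set x : ℝ := (2 * Y / t) ^ 20 with hxd
  have hx0 : 0 < x := by positivity
  set μ₁ : Equiv.Perm X → ℝ := fun g => if S g ≤ x then μ g else 0 with hμ₁
  set μ₂ : Equiv.Perm X → ℝ := fun g => if S g ≤ x then 0 else μ g with hμ₂
  have hsum : ∀ g, μ g = μ₁ g + μ₂ g := by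
    intro g
    simp only [hμ₁, hμ₂]
    split_ifs <;> simp
  have hμ₁0 : ∀ g, 0 ≤ μ₁ g := by
    intro g
    simp only [hμ₁]
    split_ifs
    · exact hμ0 g
    · exact le_rfl
  have hμ₂0 : ∀ g, 0 ≤ μ₂ g := by
    intro g
    simp only [hμ₂]
    split_ifs
    · exact le_rfl
    · exact hμ0 g
  have hμ₁le : ∀ g, μ₁ g ≤ μ g := by
    intro g
    have := hμ₂0 g
    have := hsum g
    linarith
  have hroot : x ^ ((1 : ℝ) / 20) = 2 * Y / t := by
    rw [hxd, ← Real.rpow_natCast, ← Real.rpow_mul (by positivity)]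
    norm_num
  have hsum2 : ∑ g, μ₂ g ≤ t / 2 := by
    have h1 := Count_markov μ hμ0 j x hx0
    rw [hroot] at h1
    have h2 : 2 * Y / t * ∑ g, μ₂ g ≤ Y := h1.trans hY
    have h3 : 2 * Y * ∑ g, μ₂ g ≤ Y * t := by
      rw [div_mul_eq_mul_div, div_le_iff₀ ht] at h2
      exact h2
    have h4 : Y * (2 * ∑ g, μ₂ g) ≤ Y * t := by linarith
    have h5 := le_of_mul_le_mul_left h4 hY0
    linarith
  have hsum1 : ∑ g, μ₁ g ≤ 1 := by
    rw [← hμ1]
    exact Finset.sum_le_sum fun g _ => hμ₁le g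
  have hmarg : ∀ (F : Finset X) (τ : F → X), margF μ₁ F τ ≤ margF μ F τ := by
    intro F τ
    unfold margF
    refine Finset.sum_le_sum fun g _ => ?_
    split_ifs
    · exact hμ₁le g
    · exact le_rfl
  have hhs : ∀ {ι : Type} [Fintype ι] (b : ι → RegV X), Orthonormal ℝ b → (∀ i, b i ∈ Ej X j) →
      ∑ i, ‖opOf μ₁ (b i)‖ ^ 2 ≤ x := by
    intro ι _ b hb hbZ
    refine hs_level μ₁ hμ₁0 hsum1 j x hx0.le ?_ b hb hbZ
    intro g hg
    have hgS : S g ≤ x := by
      by_contra hc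
      exact hg (by simp only [hμ₁]; rw [if_neg hc])
    refine le_trans (Finset.sum_le_sum fun F _ => ?_) hgS
    exact mul_le_mul_of_nonneg_left (hmarg F _) (by positivity)
  have hop : opOf μ = opOf μ₁ + opOf μ₂ := by
    rw [← Count_op_add]
    congr 1
    funext g
    exact hsum g
  set N := Module.finrank ℝ W with hN
  let b := stdOrthonormalBasis ℝ W
  let w : Fin N → RegV X := fun i => ((b i : W) : RegV X)
  have hw : Orthonormal ℝ w := b.orthonormal.comp_linearIsometry W.subtypeₗᵢ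
  have hwW : ∀ i, w i ∈ W := fun i => (b i).2
  have hwn : ∀ i, ‖w i‖ = 1 := fun i => hw.1 i
  have hi : ∀ i, t / 2 ≤ ‖opOf μ₁ (w i)‖ := by
    intro i
    have h1 := hWt (w i) (hwW i)
    rw [hwn i, hop] at h1
    simp only [add_apply, inner_add_left] at h1
    have h2 := Count_op_inner_le μ₂ hμ₂0 (w i)
    rw [hwn i] at h2
    have h3 := real_inner_le_norm (opOf μ₁ (w i)) (w i)
    rw [hwn i] at h3
    nlinarith
  have h5 : ((N : ℝ) * (t / 2)) ^ 2 ≤ (N : ℝ) * x := by
    have h6 : (N : ℝ) * (t / 2) ≤ ∑ i, ‖opOf μ₁ (w i)‖ := by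
      have := Finset.sum_le_sum (s := (univ : Finset (Fin N))) fun i _ => hi i
      simpa using this
    have h7 := sq_sum_le_card_mul_sum_sq (s := (univ : Finset (Fin N))) (f := fun i => ‖opOf μ₁ (w i)‖)
    have h8 := hhs w hw (fun i => hW (hwW i))
    simp only [Finset.card_univ, Fintype.card_fin] at h7
    have h9 : (N : ℝ) * ∑ i, ‖opOf μ₁ (w i)‖ ^ 2 ≤ (N : ℝ) * x :=
      mul_le_mul_of_nonneg_left h8 (Nat.cast_nonneg _)
    have h10 : ((N : ℝ) * (t / 2)) ^ 2 ≤ (∑ i, ‖opOf μ₁ (w i)‖) ^ 2 :=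
      pow_le_pow_left₀ (by positivity) h6 2
    linarith
  have hNt : (N : ℝ) * t ^ 2 ≤ 4 * x := by
    rcases Nat.eq_zero_or_pos N with h0 | h0
    · rw [h0]
      simp
      positivity
    · have hNp : (0 : ℝ) < N := by exact_mod_cast h0
      have h6 : (N : ℝ) * ((N : ℝ) * t ^ 2) ≤ (N : ℝ) * (4 * x) := by nlinarith
      exact le_of_mul_le_mul_left h6 hNp
  rw [le_div_iff₀ (by positivity)]
  have e : (4 : ℝ) * x = 4 * (2 * Y) ^ 20 / t ^ 20 := by
    rw [hxd, div_pow]
    ring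
  rw [e, le_div_iff₀ (by positivity)] at hNt
  calc (N : ℝ) * t ^ 22 = (N : ℝ) * t ^ 2 * t ^ 20 := by ring
    _ ≤ 4 * (2 * Y) ^ 20 := hNt

/-- The Rényi sum of the network. -/
theorem renyiSum_law (D j : ℕ) :
    renyiSum (lawN (D := D) D) j ≤ ((2 ^ D).choose j : ℝ) * Real.exp (Cren * j) := by
  unfold renyiSum
  have hcard : Fintype.card (Cube D) = 2 ^ D := by
    simp [Cube]
  have h1 : ∀ F ∈ powersetCard j (univ : Finset (Cube D)),
      ∑ τ : F → Cube D, margF (lawN (D := D) D) F τ *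
        (((Fintype.card (Cube D) : ℝ) ^ j) * margF (lawN (D := D) D) F τ) ^ ((1 : ℝ) / 20) ≤
      Real.exp (Cren * j) := by
    intro F hF
    have hFc : F.card = j := (mem_powersetCard.mp hF).2
    have hx : Function.Injective (fun a : F => (a : Cube D)) := Subtype.val_injective
    have h2 := renyi (D := D) (I := F) (fun a : F => (a : Cube D)) hx
    have hcF : Fintype.card F = j := by
      rw [Fintype.card_coe, hFc]
    rw [hcF] at h2
    refine le_trans (le_of_eq ?_) h2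
    refine Finset.sum_congr rfl fun τ _ => ?_
    have e1 : margF (lawN (D := D) D) F τ = Pn D (fun a : F => (a : Cube D)) τ := by
      rw [Pn_eq_lawN]
      rfl
    rw [e1, hcard]
    push_cast
    rw [pow_mul]
  refine (Finset.sum_le_sum h1).trans (le_of_eq ?_)
  rw [Finset.sum_const, nsmul_eq_mul, Finset.card_powersetCard, Finset.card_univ, hcard]

end Vale.Agent.P162O
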