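/-
P162 O(d), Part III: the scalar final sum.
-/
import Vale.Agent.P162O.Renyi
import Vale.Agent.P162O.Scalar

open scoped InnerProductSpace BigOperators
open Finset

namespace Vale.Agent.P162O
open Vale.Agent.P162

/-- The sup bound on level `j`. -/
noncomputable def aSup (D j : ℕ) : ℝ :=
  min (Gf D j) (Real.exp (-(3 / 6400 : ℝ) * (min j (2 ^ D / 2) : ℕ)))

/-- The bound on level `j`. -/
noncomputable def termJ (D K j : ℕ) : ℝ :=
  2 ^ 23 * (K : ℝ) * (4 * (2 * (((2 ^ D).choose j : ℝ) * Real.exp (Cren * j))) ^ 20) * aSup D j ^ (K - 22)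

/-! Auxiliary scalar lemmas for `final_sum`. -/

theorem Msq_pow_four_le (j : ℕ) (hj : j ≠ 0) : Msq j ^ 4 ≤ (j.factorial : ℝ) := by
  have hf : (0 : ℝ) ≤ (j.factorial : ℝ) := by positivity
  have h1 : (0:ℝ) ≤ (j.factorial : ℝ) ^ ((1 : ℝ) / 4) := by positivity
  have h2 : (0:ℝ) ≤ ((j : ℝ) + 1) ^ (-(1 : ℝ) / 2) := by positivity
  have h3 : ((j : ℝ) + 1) ^ (-(1 : ℝ) / 2) ≤ 1 := by
    apply Real.rpow_le_one_of_one_le_of_nonpos
    · have : (0:ℝ) ≤ j := by positivity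
      linarith
    · norm_num
  have hM : Msq j ≤ (j.factorial : ℝ) ^ ((1 : ℝ) / 4) := by
    unfold Msq wC
    rw [if_neg hj]
    have : ((j.factorial : ℝ) ^ ((1 : ℝ) / 4) * ((j : ℝ) + 1) ^ (-(1 : ℝ) / 2)) ≤
        (j.factorial : ℝ) ^ ((1 : ℝ) / 4) := by
      calc _ ≤ (j.factorial : ℝ) ^ ((1 : ℝ) / 4) * 1 := by gcongr
        _ = _ := by ring
    have h4 : 0 ≤ ((j.factorial : ℝ) ^ ((1 : ℝ) / 4) * ((j : ℝ) + 1) ^ (-(1 : ℝ) / 2)) := by positivity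
    nlinarith
  have hM0 : 0 ≤ Msq j := by
    unfold Msq wC
    rw [if_neg hj]
    positivity
  calc Msq j ^ 4 ≤ ((j.factorial : ℝ) ^ ((1 : ℝ) / 4)) ^ 4 := by gcongr
    _ = (j.factorial : ℝ) := by
      rw [← Real.rpow_natCast, ← Real.rpow_mul hf]
      norm_num

theorem Gf_pow_eight_le (D j : ℕ) (hj : 2 ≤ j) :
    Gf D j ^ 8 * (2 : ℝ) ^ (D * j) ≤ ((10 : ℝ) ^ 24 * j) ^ j := by
  obtain ⟨k, rfl⟩ : ∃ k, j = k + 2 := ⟨j - 2, by omega⟩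
  have hM0 : 0 ≤ Msq (k + 2) := by
    unfold Msq wC
    rw [if_neg (by omega)]
    positivity
  have hG : Gf D (k + 2) = Real.sqrt (Msq (k + 2)) * zetaD D ^ (k + 2) := rfl
  have hs : Real.sqrt (Msq (k + 2)) ^ 8 = Msq (k + 2) ^ 4 := by
    have : Real.sqrt (Msq (k + 2)) ^ 2 = Msq (k + 2) := Real.sq_sqrt hM0
    calc _ = (Real.sqrt (Msq (k + 2)) ^ 2) ^ 4 := by ring
      _ = _ := by rw [this]
  have hz : (zetaD D ^ (k + 2)) ^ 8 * (2 : ℝ) ^ (D * (k + 2)) = ((10 : ℝ) ^ 24) ^ (k + 2) := by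
    unfold zetaD zeta0
    have hb : (betaC ^ D) ^ 8 * 2 ^ D = 1 := by
      calc (betaC ^ D) ^ 8 * 2 ^ D = (betaC ^ 8) ^ D * 2 ^ D := by ring
        _ = 1 := by
          rw [betaC_pow_eight, ← mul_pow]
          norm_num
    have hgen : ∀ T : ℝ, ((T * betaC ^ D) ^ (k + 2)) ^ 8 * (2 : ℝ) ^ (D * (k + 2))
        = (T ^ 8) ^ (k + 2) * ((betaC ^ D) ^ 8 * 2 ^ D) ^ (k + 2) := by
      intro T
      rw [pow_mul (2:ℝ) D (k + 2)]
      ring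
    rw [hgen, hb, one_pow, mul_one]
    congr 1
    norm_num
  have hf : ((k + 2).factorial : ℝ) ≤ ((k + 2 : ℕ) : ℝ) ^ (k + 2) := by
    exact_mod_cast Nat.factorial_le_pow (k + 2)
  have hM4 := Msq_pow_four_le (k + 2) (by omega)
  have hM40 : 0 ≤ Msq (k + 2) ^ 4 := by positivity
  calc Gf D (k + 2) ^ 8 * (2 : ℝ) ^ (D * (k + 2))
      = Msq (k + 2) ^ 4 * ((zetaD D ^ (k + 2)) ^ 8 * (2 : ℝ) ^ (D * (k + 2))) := by
        rw [hG, mul_pow, hs]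
        ring
    _ = Msq (k + 2) ^ 4 * ((10 : ℝ) ^ 24) ^ (k + 2) := by rw [hz]
    _ ≤ ((k + 2 : ℕ) : ℝ) ^ (k + 2) * ((10 : ℝ) ^ 24) ^ (k + 2) := by
        gcongr
        exact hM4.trans hf
    _ = _ := by rw [mul_pow]; ring

theorem aSup_nonneg (D j : ℕ) : 0 ≤ aSup D j :=
  le_min (Gf_nonneg D j) (Real.exp_pos _).le

theorem aSup_le_exp (D j : ℕ) :
    aSup D j ≤ Real.exp (-(3 / 6400 : ℝ) * (min j (2 ^ D / 2) : ℕ)) := min_le_right _ _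

theorem aSup_le_Gf (D j : ℕ) : aSup D j ≤ Gf D j := min_le_left _ _

theorem aSup_le_one (D j : ℕ) : aSup D j ≤ 1 := by
  refine (aSup_le_exp D j).trans ?_
  rw [Real.exp_le_one_iff]
  have : (0:ℝ) ≤ ((min j (2 ^ D / 2) : ℕ) : ℝ) := by positivity
  nlinarith

theorem aSup_pow_eight_le (D j : ℕ) (hj : 2 ≤ j) :
    aSup D j ^ 8 ≤ ((10 : ℝ) ^ 24 * j / 2 ^ D) ^ j := by
  have h1 := Gf_pow_eight_le D j hj
  have h2 : aSup D j ^ 8 ≤ Gf D j ^ 8 := by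
    have := aSup_nonneg D j
    have := aSup_le_Gf D j
    gcongr
  have hp : (0:ℝ) < (2 : ℝ) ^ (D * j) := by positivity
  calc aSup D j ^ 8 ≤ Gf D j ^ 8 := h2
    _ = (Gf D j ^ 8 * (2 : ℝ) ^ (D * j)) / (2 : ℝ) ^ (D * j) := by
      field_simp
    _ ≤ ((10 : ℝ) ^ 24 * j) ^ j / (2 : ℝ) ^ (D * j) := by gcongr
    _ = _ := by
      rw [div_pow, ← pow_mul]

theorem choose_le_exp_div (n j : ℕ) (hj : 1 ≤ j) :
    (n.choose j : ℝ) ≤ (Real.exp 1 * n / j) ^ j := by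
  have hj0 : (0:ℝ) < j := by exact_mod_cast hj
  have h1 : (n.choose j : ℝ) ≤ (n : ℝ) ^ j / (j.factorial : ℝ) := Nat.choose_le_pow_div j n
  have h2 : (j : ℝ) ^ j / (j.factorial : ℝ) ≤ Real.exp j := Real.pow_div_factorial_le_exp _ hj0.le j
  have h3 : Real.exp (j : ℝ) = Real.exp 1 ^ j := by
    rw [← Real.exp_nat_mul]
    simp
  have hf : (0:ℝ) < (j.factorial : ℝ) := by positivity
  have h4 : (n : ℝ) ^ j / (j.factorial : ℝ) = ((n : ℝ) / j) ^ j * ((j : ℝ) ^ j / (j.factorial : ℝ)) := by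
    rw [div_pow]
    field_simp
  calc (n.choose j : ℝ) ≤ (n : ℝ) ^ j / (j.factorial : ℝ) := h1
    _ = ((n : ℝ) / j) ^ j * ((j : ℝ) ^ j / (j.factorial : ℝ)) := h4
    _ ≤ ((n : ℝ) / j) ^ j * Real.exp 1 ^ j := by
      rw [← h3]
      gcongr
    _ = _ := by
      rw [← mul_pow]
      congr 1
      ring

theorem term_alg (K c e a : ℝ) :
    2 ^ 23 * K * (4 * (2 * (c * e)) ^ 20) * a = 2 ^ 45 * K * (c ^ 20 * e ^ 20 * a) := by
  ring

theorem term_alg' (K c e a : ℝ) :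
    2 ^ 23 * K * (4 * (2 * (c * e)) ^ 20) * a = 2 ^ 45 * K * ((c * e) ^ 20 * a) := by
  ring

theorem base_alg (E n j T T10 : ℝ) (hn : n ≠ 0) (hj : j ≠ 0) :
    (E * n / j) ^ 20 * T * (T10 * j / n) ^ 21 = E ^ 20 * T * T10 ^ 21 * j / n := by
  field_simp

/-- the main constant -/
noncomputable def Abar : ℝ := Real.exp 320 * ((10 : ℝ) ^ 24) ^ 21

theorem Abar_ge : 1 ≤ Abar := by
  unfold Abar
  have h1 : 1 ≤ Real.exp 320 := by
    rw [Real.one_le_exp_iff]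
    norm_num
  have h2 : (1:ℝ) ≤ ((10 : ℝ) ^ 24) ^ 21 := by norm_num
  nlinarith

theorem termJ_small_aux (n j K : ℝ) (m : ℕ) (c e a A : ℝ) (hn : 0 < n) (hj : 0 < j)
    (hK : 0 ≤ K) (hc0 : 0 ≤ c) (ha0 : 0 ≤ a)
    (hc : c ≤ (Real.exp 1 * n / j) ^ m) (he2 : e ^ 20 = Real.exp 300 ^ m)
    (ha : a ≤ ((10 ^ 24 * j / n) ^ m) ^ 21)
    (hA : A = Real.exp 1 ^ 20 * Real.exp 300 * ((10 : ℝ) ^ 24) ^ 21) :
    2 ^ 45 * K * (c ^ 20 * e ^ 20 * a) ≤ 2 ^ 45 * K * (A * j / n) ^ m := by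
  have hbase : ((Real.exp 1 * n / j) ^ 20 * Real.exp 300 * (((10 : ℝ) ^ 24) * j / n) ^ 21)
      = A * j / n := by
    rw [hA]
    exact base_alg _ _ _ _ _ hn.ne' hj.ne'
  have h1 : c ^ 20 ≤ ((Real.exp 1 * n / j) ^ m) ^ 20 := by gcongr
  have h3 : (0:ℝ) ≤ Real.exp 300 ^ m := by positivity
  have hkey : c ^ 20 * e ^ 20 * a ≤ (A * j / n) ^ m := by
    rw [← hbase, he2, mul_pow, mul_pow]
    have hgen : ∀ T : ℝ, ((Real.exp 1 * n / j) ^ m) ^ 20 * Real.exp 300 ^ m * ((T * j / n) ^ m) ^ 21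
        = ((Real.exp 1 * n / j) ^ 20) ^ m * Real.exp 300 ^ m * ((T * j / n) ^ 21) ^ m := by
      intro T
      ring
    rw [← hgen]
    calc c ^ 20 * Real.exp 300 ^ m * a
        ≤ ((Real.exp 1 * n / j) ^ m) ^ 20 * Real.exp 300 ^ m * (((10 : ℝ) ^ 24 * j / n) ^ m) ^ 21 := by
          gcongr
      _ = _ := rfl
  have h2 : (0:ℝ) ≤ 2 ^ 45 * K := by positivity
  exact mul_le_mul_of_nonneg_left hkey h2

theorem termJ_small (D K j : ℕ) (hK : 168 ≤ K - 22) (hj : 2 ≤ j) :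
    termJ D K j ≤ 2 ^ 45 * (K : ℝ) * (Abar * j / 2 ^ D) ^ j := by
  have hj0 : (0:ℝ) < j := by
    have : 0 < j := by omega
    exact_mod_cast this
  have hn0 : (0:ℝ) < 2 ^ D := by positivity
  have ha0 := aSup_nonneg D j
  have ha1 := aSup_le_one D j
  have hc := choose_le_exp_div (2 ^ D) j (by omega)
  rw [Nat.cast_pow, Nat.cast_ofNat] at hc
  have hpow : aSup D j ^ (K - 22) ≤ aSup D j ^ 168 :=
    pow_le_pow_of_le_one ha0 ha1 hK
  have ha8 := aSup_pow_eight_le D j hj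
  have ha80 : 0 ≤ aSup D j ^ 8 := pow_nonneg ha0 8
  have ha168 : aSup D j ^ 168 ≤ (((10 : ℝ) ^ 24 * j / 2 ^ D) ^ j) ^ 21 := by
    calc aSup D j ^ 168 = (aSup D j ^ 8) ^ 21 := by rw [← pow_mul]
      _ ≤ _ := pow_le_pow_left₀ ha80 ha8 21
  have hexp : Real.exp (Cren * j) ^ 20 = (Real.exp 300) ^ j := by
    unfold Cren
    rw [← Real.exp_nat_mul, ← Real.exp_nat_mul]
    congr 1
    push_cast
    ring
  unfold termJ
  rw [term_alg]
  refine termJ_small_aux (2 ^ D) j K j _ _ _ Abar hn0 hj0 (Nat.cast_nonneg K) (Nat.cast_nonneg _)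
    (pow_nonneg ha0 _) hc hexp (hpow.trans ha168) ?_
  unfold Abar
  rw [← Real.exp_nat_mul, ← Real.exp_add]
  norm_num

/-- the decay rate -/
noncomputable def deltaC : ℝ := (3 / 6400) / (2 * Abar)

theorem deltaC_pos : 0 < deltaC := by
  unfold deltaC
  have := Abar_ge
  positivity

theorem termJ_large (D K j : ℕ) (hD : 1 ≤ D) (hK : 322 ≤ deltaC * ((K - 22 : ℕ) : ℝ))
    (hjn : j ≤ 2 ^ D) (hlarge : (2 : ℝ) ^ D ≤ 2 * Abar * j) :
    termJ D K j ≤ 2 ^ 45 * (K : ℝ) * Real.exp (-(2 * (2 : ℝ) ^ D)) := by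
  have hn0 : (0:ℝ) < 2 ^ D := by positivity
  have hA := Abar_ge
  have hmin : deltaC * (2:ℝ) ^ D ≤ (3 / 6400 : ℝ) * ((min j (2 ^ D / 2) : ℕ) : ℝ) := by
    have hhalf : ((2 ^ D / 2 : ℕ) : ℝ) = (2:ℝ) ^ D / 2 := by
      obtain ⟨d, rfl⟩ : ∃ d, D = d + 1 := ⟨D - 1, by omega⟩
      have : (2 ^ (d + 1) / 2 : ℕ) = 2 ^ d := by
        rw [pow_succ]
        simp
      rw [this]
      push_cast
      rw [pow_succ]
      ring
    have h1 : (2:ℝ) ^ D / (2 * Abar) ≤ ((min j (2 ^ D / 2) : ℕ) : ℝ) := by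
      rw [div_le_iff₀ (by positivity)]
      rcases le_total j (2 ^ D / 2) with h | h
      · rw [min_eq_left h]
        linarith
      · rw [min_eq_right h, hhalf]
        nlinarith
    unfold deltaC
    calc (3 / 6400 : ℝ) / (2 * Abar) * (2:ℝ) ^ D = (3 / 6400 : ℝ) * ((2:ℝ) ^ D / (2 * Abar)) := by ring
      _ ≤ _ := by gcongr
  have ha : aSup D j ≤ Real.exp (-(deltaC * (2:ℝ) ^ D)) := by
    refine (aSup_le_exp D j).trans ?_
    rw [Real.exp_le_exp]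
    linarith
  have ha0 := aSup_nonneg D j
  have hpow : aSup D j ^ (K - 22) ≤ Real.exp (-(deltaC * (2:ℝ) ^ D)) ^ (K - 22) := by gcongr
  have hc : (((2 ^ D : ℕ)).choose j : ℝ) ≤ Real.exp ((2:ℝ) ^ D) := by
    have h1 : (((2 ^ D : ℕ)).choose j : ℝ) ≤ ((2 : ℝ) ^ (2 ^ D : ℕ)) := by
      exact_mod_cast Nat.choose_le_two_pow _ _
    refine h1.trans ?_
    have h2 : (2:ℝ) ≤ Real.exp 1 := by
      have := Real.add_one_le_exp (1:ℝ)
      linarith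
    calc (2:ℝ) ^ (2 ^ D : ℕ) ≤ Real.exp 1 ^ (2 ^ D : ℕ) := by gcongr
      _ = _ := by
        rw [← Real.exp_nat_mul]
        push_cast
        ring_nf
  have hjr : (j:ℝ) ≤ (2:ℝ) ^ D := by exact_mod_cast hjn
  have hexp : Real.exp (Cren * j) ≤ Real.exp (15 * (2:ℝ) ^ D) := by
    unfold Cren
    rw [Real.exp_le_exp]
    linarith
  have hc2 : (((2 ^ D : ℕ)).choose j : ℝ) * Real.exp (Cren * j) ≤ Real.exp (16 * (2:ℝ) ^ D) := by
    have : Real.exp (16 * (2:ℝ) ^ D) = Real.exp ((2:ℝ) ^ D) * Real.exp (15 * (2:ℝ) ^ D) := by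
      rw [← Real.exp_add]
      congr 1
      ring
    rw [this]
    gcongr
  have hc3 : ((((2 ^ D : ℕ)).choose j : ℝ) * Real.exp (Cren * j)) ^ 20 ≤ Real.exp (320 * (2:ℝ) ^ D) := by
    calc _ ≤ Real.exp (16 * (2:ℝ) ^ D) ^ 20 := by gcongr
      _ = _ := by
        rw [← Real.exp_nat_mul]
        congr 1
        push_cast
        ring
  have hfin : Real.exp (320 * (2:ℝ) ^ D) * Real.exp (-(deltaC * (2:ℝ) ^ D)) ^ (K - 22)
      ≤ Real.exp (-(2 * (2 : ℝ) ^ D)) := by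
    rw [← Real.exp_nat_mul, ← Real.exp_add, Real.exp_le_exp]
    nlinarith
  unfold termJ
  rw [term_alg']
  have hK0 : (0:ℝ) ≤ (2:ℝ) ^ 45 * K := by positivity
  refine mul_le_mul_of_nonneg_left ?_ hK0
  have hE0 : 0 ≤ Real.exp (-(deltaC * (2:ℝ) ^ D)) ^ (K - 22) := by positivity
  have hc4 : 0 ≤ (((2 ^ D : ℕ)).choose j : ℝ) * Real.exp (Cren * j) := by positivity
  calc ((((2 ^ D : ℕ)).choose j : ℝ) * Real.exp (Cren * j)) ^ 20 * aSup D j ^ (K - 22)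
      ≤ Real.exp (320 * (2:ℝ) ^ D) * Real.exp (-(deltaC * (2:ℝ) ^ D)) ^ (K - 22) :=
        mul_le_mul hc3 hpow (pow_nonneg ha0 _) (Real.exp_pos _).le
    _ ≤ _ := hfin

theorem sum_geom_le (m : ℕ) :
    ∑ j ∈ Finset.Icc 1 m, (j : ℝ) * (1 / 2 : ℝ) ^ (j - 1) = 4 - ((m : ℝ) + 2) * (1 / 2 : ℝ) ^ m * 2 := by
  induction m with
  | zero => norm_num
  | succ m ih =>
    rw [Finset.sum_Icc_succ_top (by omega), ih]
    simp only [Nat.add_sub_cancel]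
    push_cast
    rw [pow_succ]
    ring

theorem exp_neg_two_le (n : ℝ) (hn : 0 < n) : Real.exp (-(2 * n)) ≤ 1 / n ^ 2 := by
  have h1 : n ≤ Real.exp n := by
    have := Real.add_one_le_exp n
    linarith
  have h2 : Real.exp (-(2 * n)) = 1 / Real.exp n ^ 2 := by
    rw [← Real.exp_nat_mul, Real.exp_neg, one_div]
    congr 2
  rw [h2]
  gcongr

theorem termJ_pointwise (D K j : ℕ) (hD : 1 ≤ D) (hK : 168 ≤ K - 22)
    (hK2 : 322 ≤ deltaC * ((K - 22 : ℕ) : ℝ)) (hj : 1 ≤ j) (hjn : j ≤ 2 ^ D) :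
    termJ D K j ≤ 2 ^ 45 * (K : ℝ) *
      ((Abar / 2 ^ D) * ((j : ℝ) * (1 / 2 : ℝ) ^ (j - 1)) + 1 / ((2 : ℝ) ^ D) ^ 2) := by
  have hn0 : (0:ℝ) < 2 ^ D := by positivity
  have hA := Abar_ge
  have hK0 : (0:ℝ) ≤ K := by positivity
  have hrest : (0:ℝ) ≤ 2 ^ 45 * (K : ℝ) := by positivity
  have hj0 : (0:ℝ) < j := by exact_mod_cast hj
  by_cases h1 : j = 1
  · subst h1
    have : termJ D K 1 = 0 := by
      unfold termJ
      have h0 : aSup D 1 = 0 := by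
        apply le_antisymm _ (aSup_nonneg D 1)
        exact aSup_le_Gf D 1
      rw [h0, zero_pow (by omega)]
      ring
    rw [this]
    positivity
  · have hj2 : 2 ≤ j := by omega
    by_cases hl : (2 : ℝ) ^ D ≤ 2 * Abar * j
    · refine (termJ_large D K j hD hK2 hjn hl).trans ?_
      have h2 := exp_neg_two_le ((2:ℝ) ^ D) hn0
      have h3 : 0 ≤ (Abar / 2 ^ D) * ((j : ℝ) * (1 / 2 : ℝ) ^ (j - 1)) := by positivity
      gcongr
      linarith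
    · push Not at hl
      refine (termJ_small D K j hK hj2).trans ?_
      set x : ℝ := Abar * j / 2 ^ D with hx
      have hx0 : 0 ≤ x := by positivity
      have hx1 : x ≤ 1 / 2 := by
        rw [hx, div_le_iff₀ hn0]
        linarith
      have hxj : x ^ j ≤ x * (1 / 2 : ℝ) ^ (j - 1) := by
        obtain ⟨i, rfl⟩ : ∃ i, j = i + 1 := ⟨j - 1, by omega⟩
        rw [pow_succ', Nat.add_sub_cancel]
        gcongr
      have hrw : x * (1 / 2 : ℝ) ^ (j - 1) = (Abar / 2 ^ D) * ((j : ℝ) * (1 / 2 : ℝ) ^ (j - 1)) := by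
        rw [hx]
        ring
      have h3 : (0:ℝ) ≤ 1 / ((2 : ℝ) ^ D) ^ 2 := by positivity
      gcongr
      rw [← hrw]
      linarith

/-- The scalar estimate: a fixed number of passes. -/
theorem final_sum : ∃ K : ℕ, 23 ≤ K ∧ ∃ D₀ : ℕ, ∀ D, D₀ ≤ D →
    ∑ j ∈ Finset.Icc 1 (2 ^ D), termJ D K j ≤ 1 / 4 := by
  have hδ := deltaC_pos
  have hA := Abar_ge
  set K0 : ℕ := max 168 ⌈322 / deltaC⌉₊ with hK0
  refine ⟨K0 + 22, by omega, ⌈2 ^ 47 * (((K0 + 22 : ℕ) : ℝ)) * (4 * Abar + 1)⌉₊ + 1, ?_⟩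
  intro D hD
  have hD1 : 1 ≤ D := by omega
  have hK1 : 168 ≤ K0 + 22 - 22 := by
    have : 168 ≤ K0 := le_max_left _ _
    omega
  have hK2 : 322 ≤ deltaC * ((K0 + 22 - 22 : ℕ) : ℝ) := by
    have h1 : ⌈322 / deltaC⌉₊ ≤ K0 := le_max_right _ _
    have h2 : 322 / deltaC ≤ (K0 : ℝ) := (Nat.le_ceil _).trans (by exact_mod_cast h1)
    rw [Nat.add_sub_cancel]
    rw [div_le_iff₀ hδ] at h2
    linarith
  set K : ℕ := K0 + 22 with hK
  have hn0 : (0:ℝ) < 2 ^ D := by positivity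
  have hKr : (0:ℝ) ≤ K := by positivity
  have hbig : 2 ^ 47 * (K : ℝ) * (4 * Abar + 1) ≤ (2:ℝ) ^ D := by
    have h1 : D < 2 ^ D := Nat.lt_two_pow_self
    have h2 : ⌈2 ^ 47 * ((K : ℕ) : ℝ) * (4 * Abar + 1)⌉₊ ≤ 2 ^ D := by omega
    have h3 := Nat.le_ceil (2 ^ 47 * ((K : ℕ) : ℝ) * (4 * Abar + 1))
    refine h3.trans ?_
    exact_mod_cast h2
  calc ∑ j ∈ Finset.Icc 1 (2 ^ D), termJ D K j
      ≤ ∑ j ∈ Finset.Icc (1:ℕ) (2 ^ D), 2 ^ 45 * (K : ℝ) *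
          ((Abar / 2 ^ D) * ((j : ℝ) * (1 / 2 : ℝ) ^ (j - 1)) + 1 / ((2 : ℝ) ^ D) ^ 2) := by
        apply Finset.sum_le_sum
        intro j hj
        rw [Finset.mem_Icc] at hj
        exact termJ_pointwise D K j hD1 hK1 hK2 hj.1 hj.2
    _ = 2 ^ 45 * (K : ℝ) * ((Abar / 2 ^ D) * (∑ j ∈ Finset.Icc (1:ℕ) (2 ^ D), (j : ℝ) * (1 / 2 : ℝ) ^ (j - 1))
          + (2 ^ D : ℕ) * (1 / ((2 : ℝ) ^ D) ^ 2)) := by
        rw [← Finset.mul_sum, Finset.sum_add_distrib, ← Finset.mul_sum]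
        congr 2
        simp
    _ ≤ 2 ^ 45 * (K : ℝ) * ((Abar / 2 ^ D) * 4 + (2 ^ D : ℕ) * (1 / ((2 : ℝ) ^ D) ^ 2)) := by
        rw [sum_geom_le]
        have : 0 ≤ (((2 ^ D : ℕ) : ℝ) + 2) * (1 / 2 : ℝ) ^ (2 ^ D) * 2 := by positivity
        gcongr
        linarith
    _ = 2 ^ 45 * (K : ℝ) * (4 * Abar + 1) / 2 ^ D := by
        push_cast
        field_simp
    _ ≤ 1 / 4 := by
        rw [div_le_iff₀ hn0]
        linarith

end Vale.Agent.P162O
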