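/-
P162 O(d), Part III: Hilbert-Schmidt bound for powers from eigenvalue counts.
-/
import Vale.Agent.P162O.Common

open scoped InnerProductSpace BigOperators
open Finset

namespace Vale.Agent.P162O
open Vale.Agent.P162

section TraceCore
variable {E : Type*} [NormedAddCommGroup E] [InnerProductSpace ℝ E] [FiniteDimensional ℝ E]

/-- Singular value decomposition in quadratic form. -/
theorem traceC_spec (D : E →ₗ[ℝ] E) :
    ∃ (n : ℕ) (e : OrthonormalBasis (Fin n) ℝ E) (s : Fin n → ℝ), (∀ l, 0 ≤ s l) ∧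
      ∀ w, ‖D w‖ ^ 2 = ∑ l, s l * ⟪e l, w⟫_ℝ ^ 2 := by
  have hS : (LinearMap.adjoint D * D).IsSymmetric := LinearMap.isSymmetric_adjoint_mul_self D
  set e := hS.eigenvectorBasis (rfl : Module.finrank ℝ E = Module.finrank ℝ E) with he
  set s := hS.eigenvalues (rfl : Module.finrank ℝ E = Module.finrank ℝ E) with hs
  have hSe : ∀ l, (LinearMap.adjoint D * D) (e l) = s l • e l := by
    intro l
    have := hS.apply_eigenvectorBasis (rfl : Module.finrank ℝ E = Module.finrank ℝ E) l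
    rw [RCLike.ofReal_real_eq_id] at this
    exact this
  have hq : ∀ w, ‖D w‖ ^ 2 = ⟪(LinearMap.adjoint D * D) w, w⟫_ℝ := by
    intro w
    rw [Module.End.mul_apply, LinearMap.adjoint_inner_left, real_inner_self_eq_norm_sq]
  have hmain : ∀ w, ‖D w‖ ^ 2 = ∑ l, s l * ⟪e l, w⟫_ℝ ^ 2 := by
    intro w
    rw [hq w, ← e.sum_inner_mul_inner]
    refine Finset.sum_congr rfl fun l _ => ?_
    have : ⟪(LinearMap.adjoint D * D) w, e l⟫_ℝ = s l * ⟪e l, w⟫_ℝ := by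
      rw [hS w (e l), hSe, inner_smul_right, real_inner_comm]
    rw [this]; ring
  refine ⟨_, e, s, ?_, hmain⟩
  intro l
  have h := hmain (e l)
  have : ∑ m, s m * ⟪e m, e l⟫_ℝ ^ 2 = s l := by
    rw [Finset.sum_eq_single l]
    · simp
    · intro m _ hm
      rw [e.inner_eq_zero hm]; simp
    · simp
  rw [this] at h
  rw [← h]; positivity

/-- Coefficients and the norm. -/
theorem traceC_norm {n : ℕ} (e : OrthonormalBasis (Fin n) ℝ E) (w : E) :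
    ‖w‖ ^ 2 = ∑ l, ⟪e l, w⟫_ℝ ^ 2 := by
  rw [← e.sum_sq_inner_right]

/-- The spectral cut. -/
theorem traceC_cut (C : E →ₗ[ℝ] E) (t : ℝ) :
    ∃ W : Submodule ℝ E, (∀ w ∈ W, t * ‖w‖ ^ 2 ≤ ‖C w‖ ^ 2) ∧
      (∀ w ∈ Wᗮ, ‖C w‖ ^ 2 ≤ t * ‖w‖ ^ 2) := by
  obtain ⟨n, e, s, hs, h⟩ := traceC_spec C
  set W : Submodule ℝ E := Submodule.span ℝ (e '' {l | t ≤ s l}) with hW
  have hmem : ∀ l, t ≤ s l → e l ∈ W := fun l hl => Submodule.subset_span ⟨l, hl, rfl⟩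
  have hperp : ∀ l, s l < t → ∀ w ∈ W, ⟪e l, w⟫_ℝ = 0 := by
    intro l hl w hw
    have hle : W ≤ (Submodule.span ℝ {e l})ᗮ := by
      rw [hW, Submodule.span_le]
      rintro _ ⟨m, hm, rfl⟩
      have hne : l ≠ m := by
        rintro rfl
        exact absurd hm (not_le.mpr hl)
      simp only [SetLike.mem_coe, Submodule.mem_orthogonal_singleton_iff_inner_right]
      exact e.inner_eq_zero hne
    exact (Submodule.mem_orthogonal_singleton_iff_inner_right.mp (hle hw))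
  refine ⟨W, ?_, ?_⟩
  · intro w hw
    rw [h w, traceC_norm e w, Finset.mul_sum]
    refine Finset.sum_le_sum fun l _ => ?_
    by_cases hl : t ≤ s l
    · exact mul_le_mul_of_nonneg_right hl (by positivity)
    · rw [hperp l (not_le.mp hl) w hw]; simp
  · intro w hw
    rw [h w, traceC_norm e w, Finset.mul_sum]
    refine Finset.sum_le_sum fun l _ => ?_
    by_cases hl : t ≤ s l
    · have : ⟪e l, w⟫_ℝ = 0 := (Submodule.mem_orthogonal W w).mp hw _ (hmem l hl)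
      rw [this]; simp
    · exact mul_le_mul_of_nonneg_right (not_le.mp hl).le (by positivity)

/-- The pull back of an orthogonal complement loses at most `finrank W` dimensions. -/
theorem traceC_codim (A W : Submodule ℝ E) (L : E →ₗ[ℝ] E) :
    Module.finrank ℝ A ≤ Module.finrank ℝ ↥(A ⊓ (Wᗮ).comap L) + Module.finrank ℝ W := by
  let φ : A →ₗ[ℝ] W := (W.orthogonalProjectionOnto : E →L[ℝ] W).toLinearMap ∘ₗ L ∘ₗ A.subtype
  have h1 := LinearMap.finrank_range_add_finrank_ker φ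
  have h2 : Module.finrank ℝ (LinearMap.range φ) ≤ Module.finrank ℝ W := Submodule.finrank_le _
  have h3 : Module.finrank ℝ (LinearMap.ker φ) ≤ Module.finrank ℝ ↥(A ⊓ (Wᗮ).comap L) := by
    rw [← Submodule.finrank_map_subtype_eq A (LinearMap.ker φ)]
    apply Submodule.finrank_mono
    rintro _ ⟨x, hx, rfl⟩
    refine ⟨x.2, ?_⟩
    have hx' : W.orthogonalProjectionOnto (L x) = 0 := hx
    exact (Submodule.orthogonalProjectionOnto_eq_zero_iff).mp hx'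
  omega

/-- The chain of subspaces. -/
theorem traceC_chain (C : E →ₗ[ℝ] E) (t : ℝ) (ht : 0 ≤ t) (W : Submodule ℝ E)
    (hW : ∀ w ∈ Wᗮ, ‖C w‖ ^ 2 ≤ t * ‖w‖ ^ 2) (n : ℕ) :
    ∃ A : Submodule ℝ E, Module.finrank ℝ E ≤ Module.finrank ℝ A + n * Module.finrank ℝ W ∧
      ∀ w ∈ A, ‖(C ^ n) w‖ ^ 2 ≤ t ^ n * ‖w‖ ^ 2 := by
  induction n with
  | zero => exact ⟨⊤, by simp [finrank_top], by simp⟩
  | succ n ih =>
    obtain ⟨A, hA, hAw⟩ := ih
    refine ⟨A ⊓ (Wᗮ).comap (C ^ n), ?_, ?_⟩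
    · have h := traceC_codim A W (C ^ n)
      have e : (n + 1) * Module.finrank ℝ W = n * Module.finrank ℝ W + Module.finrank ℝ W := by
        ring
      omega
    · rintro w ⟨hwA, hwW⟩
      have h1 := hW _ hwW
      have h2 := hAw w hwA
      rw [pow_succ' C n, Module.End.mul_apply]
      calc ‖C ((C ^ n) w)‖ ^ 2 ≤ t * ‖(C ^ n) w‖ ^ 2 := h1
        _ ≤ t * (t ^ n * ‖w‖ ^ 2) := by gcongr
        _ = t ^ (n + 1) * ‖w‖ ^ 2 := by ring

/-- The number of large singular values of a power. -/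
theorem traceC_count (C : E →ₗ[ℝ] E) (𝔹 : ℝ)
    (hcount : ∀ W : Submodule ℝ E, ∀ t : ℝ, 0 < t → (∀ w ∈ W, t * ‖w‖ ^ 2 ≤ ‖C w‖ ^ 2) →
      (Module.finrank ℝ W : ℝ) ≤ 𝔹 / t ^ 22)
    (K : ℕ) (t : ℝ) (ht : 0 < t) (Y : Submodule ℝ E)
    (hY : ∀ y ∈ Y, y ≠ 0 → t ^ K * ‖y‖ ^ 2 < ‖(C ^ K) y‖ ^ 2) :
    (Module.finrank ℝ Y : ℝ) ≤ K * (𝔹 / t ^ 22) := by
  obtain ⟨W, hW1, hW2⟩ := traceC_cut C t
  obtain ⟨A, hA, hAw⟩ := traceC_chain C t ht.le W hW2 K
  have hdisj : Disjoint Y A := by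
    rw [Submodule.disjoint_def]
    intro y hy hyA
    by_contra h0
    exact absurd (hAw y hyA) (not_le.mpr (hY y hy h0))
  have h := Submodule.finrank_add_finrank_le_of_disjoint hdisj
  have h' : (Module.finrank ℝ Y : ℝ) + Module.finrank ℝ A ≤
      Module.finrank ℝ A + K * Module.finrank ℝ W := by
    exact_mod_cast h.trans hA
  have h'' := hcount W t ht hW1
  have hK0 : (0 : ℝ) ≤ K := Nat.cast_nonneg K
  have : (K : ℝ) * Module.finrank ℝ W ≤ K * (𝔹 / t ^ 22) :=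
    mul_le_mul_of_nonneg_left h'' hK0
  linarith

/-- Iterating the sup bound. -/
theorem traceC_pow_sup (C : E →ₗ[ℝ] E) (a : ℝ) (ha : 0 ≤ a)
    (hsup : ∀ w, ‖C w‖ ^ 2 ≤ a * ‖w‖ ^ 2) (n : ℕ) (w : E) :
    ‖(C ^ n) w‖ ^ 2 ≤ a ^ n * ‖w‖ ^ 2 := by
  induction n with
  | zero => simp
  | succ n ih =>
    rw [pow_succ' C n, Module.End.mul_apply]
    calc ‖C ((C ^ n) w)‖ ^ 2 ≤ a * ‖(C ^ n) w‖ ^ 2 := hsup _
      _ ≤ a * (a ^ n * ‖w‖ ^ 2) := by gcongr
      _ = a ^ (n + 1) * ‖w‖ ^ 2 := by ring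

/-- Counting singular values above a threshold `t ^ K`. -/
theorem traceC_card (C : E →ₗ[ℝ] E) (𝔹 : ℝ)
    (hcount : ∀ W : Submodule ℝ E, ∀ t : ℝ, 0 < t → (∀ w ∈ W, t * ‖w‖ ^ 2 ≤ ‖C w‖ ^ 2) →
      (Module.finrank ℝ W : ℝ) ≤ 𝔹 / t ^ 22)
    (K n : ℕ) (e : OrthonormalBasis (Fin n) ℝ E) (s : Fin n → ℝ)
    (h : ∀ w, ‖(C ^ K) w‖ ^ 2 = ∑ l, s l * ⟪e l, w⟫_ℝ ^ 2)
    (t : ℝ) (ht : 0 < t) :
    (((univ : Finset (Fin n)).filter (fun l => t ^ K < s l)).card : ℝ) ≤ K * (𝔹 / t ^ 22) := by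
  classical
  set S := (univ : Finset (Fin n)).filter (fun l => t ^ K < s l) with hS
  let v : S → E := fun l => e l
  have hv : LinearIndependent ℝ v :=
    e.orthonormal.linearIndependent.comp _ Subtype.val_injective
  have hfin : Module.finrank ℝ (Submodule.span ℝ (Set.range v)) = Fintype.card S :=
    finrank_span_eq_card hv
  have hcoef : ∀ l, l ∉ S → ∀ y ∈ Submodule.span ℝ (Set.range v), ⟪e l, y⟫_ℝ = 0 := by
    intro l hl y hy
    have hle : Submodule.span ℝ (Set.range v) ≤ (Submodule.span ℝ {e l})ᗮ := by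
      rw [Submodule.span_le]
      rintro _ ⟨m, rfl⟩
      have hne : l ≠ m.1 := by
        rintro rfl
        exact hl m.2
      simp only [SetLike.mem_coe, Submodule.mem_orthogonal_singleton_iff_inner_right]
      exact e.inner_eq_zero hne
    exact (Submodule.mem_orthogonal_singleton_iff_inner_right.mp (hle hy))
  have := traceC_count C 𝔹 hcount K t ht (Submodule.span ℝ (Set.range v)) (by
    intro y hy hy0
    rw [h y, traceC_norm e y, Finset.mul_sum, ← sub_pos, ← Finset.sum_sub_distrib]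
    have hnn : ∀ l ∈ (univ : Finset (Fin n)),
        0 ≤ s l * ⟪e l, y⟫_ℝ ^ 2 - t ^ K * ⟪e l, y⟫_ℝ ^ 2 := by
      intro l _
      by_cases hl : l ∈ S
      · have hl' : t ^ K < s l := (Finset.mem_filter.mp hl).2
        have : 0 ≤ (s l - t ^ K) * ⟪e l, y⟫_ℝ ^ 2 :=
          mul_nonneg (by linarith) (by positivity)
        linarith
      · rw [hcoef l hl y hy]; simp
    have hy2 : ∑ l, ⟪e l, y⟫_ℝ ^ 2 ≠ 0 := by
      rw [← traceC_norm e y]
      have : ‖y‖ ≠ 0 := norm_ne_zero_iff.mpr hy0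
      positivity
    obtain ⟨l, -, hl⟩ := Finset.exists_ne_zero_of_sum_ne_zero hy2
    have hc : ⟪e l, y⟫_ℝ ≠ 0 := fun h0 => hl (by rw [h0]; simp)
    refine Finset.sum_pos' hnn ⟨l, Finset.mem_univ _, ?_⟩
    by_cases hlS : l ∈ S
    · have hl' : t ^ K < s l := (Finset.mem_filter.mp hlS).2
      have h3 : 0 < ⟪e l, y⟫_ℝ ^ 2 := by positivity
      have : 0 < (s l - t ^ K) * ⟪e l, y⟫_ℝ ^ 2 := mul_pos (by linarith) h3
      linarith
    · exact absurd (hcoef l hlS y hy) hc)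
  rw [hfin] at this
  simpa using this

/-- The elementary dyadic inequality. -/
theorem traceC_dyadic (τ : ℕ → ℝ) (hτ : ∀ r, 0 ≤ τ r) (x : ℝ) (hx : x ≤ τ 0) (R : ℕ) :
    x ≤ τ R + ∑ r ∈ range R, (if τ (r + 1) < x then τ r else 0) := by
  induction R with
  | zero => simpa using hx
  | succ R ih =>
    rw [Finset.sum_range_succ]
    by_cases h : τ (R + 1) < x
    · rw [if_pos h]
      have := hτ (R + 1)
      linarith
    · rw [if_neg h]
      have : 0 ≤ ∑ r ∈ range R, (if τ (r + 1) < x then τ r else 0) :=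
        Finset.sum_nonneg fun r _ => by
          split_ifs
          · exact hτ r
          · exact le_rfl
      linarith [not_lt.mp h]

/-- The core trace bound on a whole space. -/
theorem traceC_core (C : E →ₗ[ℝ] E) (a 𝔹 : ℝ) (ha : 0 ≤ a) (h𝔹 : 0 ≤ 𝔹)
    (hsup : ∀ w, ‖C w‖ ^ 2 ≤ a * ‖w‖ ^ 2)
    (hcount : ∀ W : Submodule ℝ E, ∀ t : ℝ, 0 < t → (∀ w ∈ W, t * ‖w‖ ^ 2 ≤ ‖C w‖ ^ 2) →
      (Module.finrank ℝ W : ℝ) ≤ 𝔹 / t ^ 22)
    (K : ℕ) (hK : 23 ≤ K) {ι : Type*} [Fintype ι] (b : ι → E) (hb : Orthonormal ℝ b) :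
    ∑ i, ‖(C ^ K) (b i)‖ ^ 2 ≤ 2 ^ 23 * (K : ℝ) * 𝔹 * a ^ (K - 22) := by
  obtain ⟨n, e, s, hs, h⟩ := traceC_spec (C ^ K)
  -- Bessel
  have hBessel : ∑ i, ‖(C ^ K) (b i)‖ ^ 2 ≤ ∑ l, s l := by
    calc ∑ i, ‖(C ^ K) (b i)‖ ^ 2 = ∑ i, ∑ l, s l * ⟪e l, b i⟫_ℝ ^ 2 :=
          Finset.sum_congr rfl fun i _ => h (b i)
      _ = ∑ l, s l * ∑ i, ⟪e l, b i⟫_ℝ ^ 2 := by
          rw [Finset.sum_comm]
          exact Finset.sum_congr rfl fun l _ => (Finset.mul_sum _ _ _).symm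
      _ ≤ ∑ l, s l * 1 := by
          refine Finset.sum_le_sum fun l _ => mul_le_mul_of_nonneg_left ?_ (hs l)
          have := hb.sum_inner_products_le (x := e l) (s := univ)
          simp only [Real.norm_eq_abs, sq_abs, e.norm_eq_one, one_pow] at this
          refine le_trans (le_of_eq ?_) this
          exact Finset.sum_congr rfl fun i _ => by rw [real_inner_comm]
      _ = ∑ l, s l := by simp
  -- top bound
  have hse : ∀ l, s l = ‖(C ^ K) (e l)‖ ^ 2 := by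
    intro l
    rw [h (e l), Finset.sum_eq_single l]
    · simp
    · intro m _ hm
      rw [e.inner_eq_zero hm]; simp
    · simp
  have htop : ∀ l, s l ≤ a ^ K := by
    intro l
    rw [hse l]
    have := traceC_pow_sup C a ha hsup K (e l)
    simpa using this
  obtain ⟨j, rfl⟩ : ∃ j, K = j + 23 := ⟨K - 23, by omega⟩
  have hsub : j + 23 - 22 = j + 1 := by omega
  rw [hsub]
  have hB0 : 0 ≤ 2 ^ 23 * ((j + 23 : ℕ) : ℝ) * 𝔹 * a ^ (j + 1) := by positivity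
  rcases ha.eq_or_lt with rfl | hapos
  · refine hBessel.trans (le_trans ?_ hB0)
    refine Finset.sum_nonpos fun l _ => ?_
    have := htop l
    simpa using this
  refine hBessel.trans ?_
  -- dyadic scales
  let t : ℕ → ℝ := fun r => a / 2 ^ r
  have ht : ∀ r, 0 < t r := fun r => by positivity
  let τ : ℕ → ℝ := fun r => t r ^ (j + 23)
  have hτ : ∀ r, 0 ≤ τ r := fun r => (pow_pos (ht r) _).le
  have hτ0 : τ 0 = a ^ (j + 23) := by simp [τ, t]
  have hpt : ∀ R l, s l ≤ τ R + ∑ r ∈ range R, (if τ (r + 1) < s l then τ r else 0) :=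
    fun R l => traceC_dyadic τ hτ (s l) (by rw [hτ0]; exact htop l) R
  have hterm : ∀ r, τ r * (((j + 23 : ℕ) : ℝ) * (𝔹 / t (r + 1) ^ 22)) ≤
      ((j + 23 : ℕ) : ℝ) * 𝔹 * a ^ (j + 1) * 2 ^ 22 * (1 / 2) ^ r := by
    intro r
    have hr : τ r = t r ^ (j + 1) * t r ^ 22 := by
      simp only [τ]; rw [← pow_add]
    have hratio : t r ^ 22 / t (r + 1) ^ 22 = 2 ^ 22 := by
      rw [← div_pow]; congr 1
      simp only [t, pow_succ]
      field_simp
    have hpow : t r ^ (j + 1) ≤ a ^ (j + 1) * (1 / 2) ^ r := by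
      have h1 : t r = a * (1 / 2) ^ r := by
        simp only [t]; rw [one_div, inv_pow]; rfl
      rw [h1, mul_pow]
      refine mul_le_mul_of_nonneg_left ?_ (by positivity)
      rw [← pow_mul]
      refine pow_le_pow_of_le_one (by norm_num) (by norm_num) ?_
      nlinarith
    have hK0 : (0 : ℝ) ≤ ((j + 23 : ℕ) : ℝ) := Nat.cast_nonneg _
    have hh : (t r ^ 22 / t (r + 1) ^ 22) * 𝔹 = 2 ^ 22 * 𝔹 := by rw [hratio]
    calc τ r * (((j + 23 : ℕ) : ℝ) * (𝔹 / t (r + 1) ^ 22))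
        = ((j + 23 : ℕ) : ℝ) * t r ^ (j + 1) * ((t r ^ 22 / t (r + 1) ^ 22) * 𝔹) := by
          rw [hr]; ring
      _ = ((j + 23 : ℕ) : ℝ) * t r ^ (j + 1) * (2 ^ 22 * 𝔹) := by rw [hh]
      _ ≤ ((j + 23 : ℕ) : ℝ) * (a ^ (j + 1) * (1 / 2) ^ r) * (2 ^ 22 * 𝔹) := by gcongr
      _ = ((j + 23 : ℕ) : ℝ) * 𝔹 * a ^ (j + 1) * 2 ^ 22 * (1 / 2) ^ r := by ring
  have hsumR : ∀ R, ∑ l, s l ≤ (n : ℝ) * τ R + 2 ^ 23 * ((j + 23 : ℕ) : ℝ) * 𝔹 * a ^ (j + 1) := by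
    intro R
    have hcard : ∀ r, ∑ l, (if τ (r + 1) < s l then τ r else 0) ≤
        τ r * (((j + 23 : ℕ) : ℝ) * (𝔹 / t (r + 1) ^ 22)) := by
      intro r
      have hc := traceC_card C 𝔹 hcount (j + 23) n e s h (t (r + 1)) (ht _)
      have : ∑ l, (if τ (r + 1) < s l then τ r else 0) =
          τ r * (((univ : Finset (Fin n)).filter (fun l => t (r + 1) ^ (j + 23) < s l)).card : ℝ) := by
        rw [← Finset.sum_filter, Finset.sum_const, nsmul_eq_mul, mul_comm]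
      rw [this]
      exact mul_le_mul_of_nonneg_left hc (hτ r)
    calc ∑ l, s l ≤ ∑ l, (τ R + ∑ r ∈ range R, (if τ (r + 1) < s l then τ r else 0)) :=
          Finset.sum_le_sum fun l _ => hpt R l
      _ = (n : ℝ) * τ R + ∑ r ∈ range R, ∑ l, (if τ (r + 1) < s l then τ r else 0) := by
          rw [Finset.sum_add_distrib, Finset.sum_comm]
          simp
      _ ≤ (n : ℝ) * τ R + ∑ r ∈ range R, (((j + 23 : ℕ) : ℝ) * 𝔹 * a ^ (j + 1) * 2 ^ 22 * (1 / 2) ^ r) := by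
          gcongr with r _
          exact (hcard r).trans (hterm r)
      _ = (n : ℝ) * τ R + ((j + 23 : ℕ) : ℝ) * 𝔹 * a ^ (j + 1) * 2 ^ 22 * ∑ r ∈ range R, (1 / 2 : ℝ) ^ r := by
          rw [Finset.mul_sum]
      _ ≤ (n : ℝ) * τ R + ((j + 23 : ℕ) : ℝ) * 𝔹 * a ^ (j + 1) * 2 ^ 22 * 2 := by
          gcongr
          exact sum_geometric_two_le R
      _ = (n : ℝ) * τ R + 2 ^ 23 * ((j + 23 : ℕ) : ℝ) * 𝔹 * a ^ (j + 1) := by ring
  -- limit
  have hlim : Filter.Tendsto (fun R => (n : ℝ) * τ R + 2 ^ 23 * ((j + 23 : ℕ) : ℝ) * 𝔹 * a ^ (j + 1))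
      Filter.atTop (nhds (2 ^ 23 * ((j + 23 : ℕ) : ℝ) * 𝔹 * a ^ (j + 1))) := by
    have h1 : Filter.Tendsto (fun R : ℕ => τ R) Filter.atTop (nhds 0) := by
      have h2 : ∀ R : ℕ, τ R = a ^ (j + 23) * ((1 / 2 : ℝ) ^ (j + 23)) ^ R := by
        intro R
        simp only [τ, t]
        rw [div_pow, ← pow_mul, div_eq_mul_inv, ← inv_pow, ← pow_mul, mul_comm R]
        simp
      simp_rw [h2]
      have h3 : Filter.Tendsto (fun R : ℕ => ((1 / 2 : ℝ) ^ (j + 23)) ^ R) Filter.atTop (nhds 0) :=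
        tendsto_pow_atTop_nhds_zero_of_lt_one (by positivity)
          (pow_lt_one₀ (by norm_num) (by norm_num) (by omega))
      simpa using h3.const_mul (a ^ (j + 23))
    simpa using (h1.const_mul (n : ℝ)).add_const (2 ^ 23 * ((j + 23 : ℕ) : ℝ) * 𝔹 * a ^ (j + 1))
  exact ge_of_tendsto' hlim hsumR

end TraceCore

variable {V : Type*} [NormedAddCommGroup V] [InnerProductSpace ℝ V] [FiniteDimensional ℝ V]

/-- TRACE C. `Z` invariant under `B`, `‖B‖² ≤ a` on `Z`, and every subspace of `Z` on which `‖B w‖² ≥ t ‖w‖²` has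
dimension `≤ 𝔹 / t^22`. Then `∑ ‖B^K b_i‖² ≤ 2^23 K 𝔹 a^(K-22)` for orthonormal `b_i ∈ Z`. -/
theorem trace_abstract {Z : Submodule ℝ V} (B : V →L[ℝ] V) (hZ : ∀ z ∈ Z, B z ∈ Z) (a 𝔹 : ℝ) (ha : 0 ≤ a) (h𝔹 : 0 ≤ 𝔹)
    (hsup : ∀ w ∈ Z, ‖B w‖ ^ 2 ≤ a * ‖w‖ ^ 2)
    (hcount : ∀ W : Submodule ℝ V, W ≤ Z → ∀ t : ℝ, 0 < t → (∀ w ∈ W, t * ‖w‖ ^ 2 ≤ ‖B w‖ ^ 2) →
      (Module.finrank ℝ W : ℝ) ≤ 𝔹 / t ^ 22)
    (K : ℕ) (hK : 23 ≤ K) {ι : Type*} [Fintype ι] (b : ι → V) (hb : Orthonormal ℝ b) (hbZ : ∀ i, b i ∈ Z) :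
    ∑ i, ‖(B ^ K) (b i)‖ ^ 2 ≤ 2 ^ 23 * (K : ℝ) * 𝔹 * a ^ (K - 22) := by
  let C : Z →ₗ[ℝ] Z := (B : V →ₗ[ℝ] V).restrict hZ
  have hC : ∀ z : Z, ((C z : Z) : V) = B z := fun z => rfl
  have hCpow : ∀ (n : ℕ) (z : Z), (((C ^ n) z : Z) : V) = (B ^ n) z := by
    intro n z
    induction n with
    | zero => simp
    | succ n ih =>
      rw [pow_succ', Module.End.mul_apply, hC, ih, pow_succ']
      rfl
  let b' : ι → Z := fun i => ⟨b i, hbZ i⟩
  have hb' : Orthonormal ℝ b' := by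
    refine ⟨fun i => ?_, fun i j hij => ?_⟩
    · simpa [b'] using hb.1 i
    · simpa [b'] using hb.2 hij
  have key := traceC_core C a 𝔹 ha h𝔹
    (fun w => by
      have := hsup w w.2
      simpa [Submodule.coe_norm, hC] using this)
    (fun W t ht hW => by
      have h := hcount (W.map Z.subtype) (by
        rintro _ ⟨x, -, rfl⟩
        exact x.2) t ht (by
        rintro _ ⟨x, hx, rfl⟩
        have := hW x hx
        simpa [Submodule.coe_norm, hC] using this)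
      rwa [Submodule.finrank_map_subtype_eq] at h)
    K hK b' hb'
  refine le_trans (le_of_eq ?_) key
  refine Finset.sum_congr rfl fun i _ => ?_
  rw [Submodule.coe_norm, hCpow]

end Vale.Agent.P162O
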