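/-
P162 O(d), Part III: sup bounds on the exact level: from the level inequality and from the heat bound.
-/
import Vale.Agent.P162O.Law

open scoped InnerProductSpace BigOperators
open Finset

namespace Vale.Agent.P162O
open Vale.Agent.P162

variable {D : ℕ}

/-- The network operator on the group. -/
noncomputable abbrev Bnet (D : ℕ) : RegV (Cube D) →L[ℝ] RegV (Cube D) := net (regRep (Cube D))

/-- Tuples to functions on the group. -/
noncomputable def liftT {X : Type} [Fintype X] [DecidableEq X] {I : Type} [Fintype I] [DecidableEq I] (r : I → X) :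
    TV I X →L[ℝ] RegV X :=
  LinearMap.toContinuousLinearMap
    { toFun := fun φ => WithLp.toLp 2 (fun g => φ (fun i => g (r i)))
      map_add' := by
        intro a b
        ext g
        simp
      map_smul' := by
        intro c a
        ext g
        simp }

@[simp] theorem liftT_apply {X : Type} [Fintype X] [DecidableEq X] {I : Type} [Fintype I] [DecidableEq I]
    (r : I → X) (φ : TV I X) (g : Equiv.Perm X) : liftT r φ g = φ (fun i => g (r i)) := rfl

/-- The lift intertwines the tuple and the regular representation. -/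
theorem liftT_intertwine {X : Type} [Fintype X] [DecidableEq X] {I : Type} [Fintype I] [DecidableEq I] (r : I → X)
    (h : Equiv.Perm X) (φ : TV I X) :
    liftT r (tupRep univ h φ) = regRep X h (liftT r φ) := by
  ext g
  rw [regRep_apply, liftT_apply, liftT_apply, tupRep_apply]
  have : (actOn univ h).symm (fun i => g (r i)) = fun i => (h⁻¹ * g) (r i) := by
    funext i
    simp
  rw [this]

section inv
variable {V : Type*} [NormedAddCommGroup V] [InnerProductSpace ℝ V]

theorem Transfer_avgOn_mem {X : Type*} [Fintype X] [DecidableEq X] (π : Equiv.Perm X →* (V →L[ℝ] V))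
    (H : Subgroup (Equiv.Perm X)) (W : Submodule ℝ V) (hW : ∀ g, ∀ f ∈ W, π g f ∈ W) {f : V}
    (hf : f ∈ W) : avgOn π H f ∈ W := by
  unfold avgOn
  rw [smul_apply, _root_.sum_apply]
  exact W.smul_mem _ (W.sum_mem fun g _ => hW g f hf)

theorem Transfer_netP_mem (π : Equiv.Perm (Cube D) →* (V →L[ℝ] V)) (W : Submodule ℝ V)
    (hW : ∀ g, ∀ f ∈ W, π g f ∈ W) (k : ℕ) : ∀ f ∈ W, netP π k f ∈ W := by
  induction k with
  | zero =>
    intro f hf
    simpa [netP] using hf
  | succ k ih =>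
    intro f hf
    show netP π k (Qk π k f) ∈ W
    exact ih _ (Transfer_avgOn_mem π _ W hW hf)

theorem Transfer_net_mem (π : Equiv.Perm (Cube D) →* (V →L[ℝ] V)) (W : Submodule ℝ V)
    (hW : ∀ g, ∀ f ∈ W, π g f ∈ W) {f : V} (hf : f ∈ W) : net π f ∈ W :=
  Transfer_netP_mem π W hW D f hf

end inv

/-- `Bnet` preserves the levels. -/
theorem Bnet_Ej (j : ℕ) (w : RegV (Cube D)) (hw : w ∈ Ej (Cube D) j) : Bnet D w ∈ Ej (Cube D) j := by
  refine Transfer_net_mem _ _ ?_ hw
  intro g f hf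
  exact ⟨Lj_left j g hf.1, Vj_left j g hf.2⟩

theorem Bnet_Vj (j : ℕ) (w : RegV (Cube D)) (hw : w ∈ Vj (Cube D) j) : Bnet D w ∈ Vj (Cube D) j :=
  Transfer_net_mem _ _ (fun g _ hf => Vj_left j g hf) hw

section heatbound
variable {X : Type} [Fintype X] [DecidableEq X]
variable {V : Type*} [NormedAddCommGroup V] [InnerProductSpace ℝ V] [FiniteDimensional ℝ V]
  [CompleteSpace V]

/-- The heat kernel on an invariant subspace where the Laplacian is bounded below. -/
theorem Transfer_heat_le_of_lap {π : Equiv.Perm X →* (V →L[ℝ] V)} (hπ : IsOrth π) (W : Submodule ℝ V)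
    (hW : ∀ f ∈ W, lap π f ∈ W) (κ : ℝ) (h : ∀ f ∈ W, κ * ‖f‖ ^ 2 ≤ ⟪lap π f, f⟫_ℝ)
    {c : ℝ} (hc : 0 ≤ c) {f : V} (hf : f ∈ W) :
    ⟪heat π c f, f⟫_ℝ ≤ Real.exp (-(c / Fintype.card X) * κ) * ‖f‖ ^ 2 := by
  let A' : W →L[ℝ] W := ((lap π : V →ₗ[ℝ] V).restrict hW).toContinuousLinearMap
  have hA' : Symm A' := by
    intro u v
    exact lapOn_symm hπ univ (u : V) (v : V)
  obtain ⟨b, a, hb⟩ := exists_eigen A' hA'
  have hbA : ∀ i, lap π (b i : V) = a i • (b i : V) := by
    intro i
    exact congrArg (Subtype.val) (hb i)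
  have ha : ∀ i, κ ≤ a i := by
    intro i
    have h1 := h (b i : V) (b i).2
    rw [hbA i, real_inner_smul_left, real_inner_self_eq_norm_sq] at h1
    have h2 : ‖(b i : V)‖ = 1 := b.norm_eq_one i
    rw [h2] at h1
    simpa using h1
  have hheat : ∀ i, heat π c (b i : V) = Real.exp (-(c / Fintype.card X) * a i) • (b i : V) := by
    intro i
    unfold heat
    apply exp_apply_of_eigen
    rw [smul_apply, hbA i, smul_smul]
  let f' : W := ⟨f, hf⟩
  have hexp : f = ∑ i, ⟪b i, f'⟫_ℝ • (b i : V) := by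
    calc f = ((f' : W) : V) := rfl
      _ = ((∑ i, ⟪b i, f'⟫_ℝ • b i : W) : V) := by rw [b.sum_repr' f']
      _ = ∑ i, ⟪b i, f'⟫_ℝ • (b i : V) := by
          simp only [Submodule.coe_sum, Submodule.coe_smul]
  have h3 : heat π c f = ∑ i, ⟪b i, f'⟫_ℝ • (Real.exp (-(c / Fintype.card X) * a i) • (b i : V)) := by
    conv_lhs => rw [hexp]
    rw [map_sum]
    refine Finset.sum_congr rfl fun i _ => ?_
    rw [map_smul, hheat]
  have hcoef : ∀ i, ⟪(b i : V), f⟫_ℝ = ⟪b i, f'⟫_ℝ := fun i => rfl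
  have h4 : ⟪heat π c f, f⟫_ℝ = ∑ i, Real.exp (-(c / Fintype.card X) * a i) * ⟪b i, f'⟫_ℝ ^ 2 := by
    rw [h3, sum_inner]
    refine Finset.sum_congr rfl fun i _ => ?_
    rw [real_inner_smul_left, real_inner_smul_left, hcoef]
    ring
  have h5 : ‖f‖ ^ 2 = ∑ i, ⟪b i, f'⟫_ℝ ^ 2 := by
    have h6 := norm_sq_eq_sum b f'
    have h7 : ‖f'‖ = ‖f‖ := rfl
    rw [← h7, h6]
    refine Finset.sum_congr rfl fun i _ => ?_
    rw [real_inner_comm]
  rw [h4, h5, Finset.mul_sum]
  refine Finset.sum_le_sum fun i _ => ?_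
  refine mul_le_mul_of_nonneg_right ?_ (sq_nonneg _)
  apply Real.exp_le_exp.mpr
  have h8 : 0 ≤ c / (Fintype.card X : ℝ) := div_nonneg hc (Nat.cast_nonneg _)
  have := ha i
  nlinarith

end heatbound

/-- Heat bound on the flag. -/
theorem sup_heat (hD : 1 ≤ D) (j : ℕ) (hj1 : 1 ≤ j) (w : RegV (Cube D)) (hw : w ∈ Vj (Cube D) j) :
    ‖Bnet D w‖ ^ 2 ≤ Real.exp (-(3 / 6400 : ℝ) * (min j (2 ^ D / 2) : ℕ)) * ‖w‖ ^ 2 := by
  have hcard : Fintype.card (Cube D) = 2 ^ D := by simp [Cube]
  have hEven : Even (Fintype.card (Cube D)) := by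
    rw [hcard]
    exact (Nat.even_pow' (by omega)).mpr even_two
  have hnpos : (0 : ℝ) < (Fintype.card (Cube D) : ℝ) := by
    rw [hcard]
    positivity
  set k := min j (2 ^ D / 2) with hk
  have hk1 : 1 ≤ k := by
    have h2 : 2 ≤ 2 ^ D := by
      calc 2 = 2 ^ 1 := by norm_num
        _ ≤ 2 ^ D := Nat.pow_le_pow_right (by norm_num) hD
    have h3 : 1 ≤ 2 ^ D / 2 := by omega
    exact le_min hj1 h3
  have hkj : k ≤ j := min_le_left _ _
  have hk2 : k ≤ Fintype.card (Cube D) / 2 := by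
    rw [hcard]
    exact min_le_right _ _
  have hmem : w ∈ lowFix (rightHom (Cube D)) univ k := by
    intro R hR hRk
    exact hw R hR (by omega)
  have hlap : ∀ f ∈ lowFix (rightHom (Cube D)) (univ : Finset (Cube D)) k,
      (3 * (Fintype.card (Cube D) : ℝ) / 8) * k * ‖f‖ ^ 2 ≤ ⟪lap (regRep (Cube D)) f, f⟫_ℝ := by
    intro f hf
    rw [← lap_right_eq_left]
    exact lap_lower (rightHom (Cube D)) rightHom_orth hEven hk1 hk2 hf
  have hinv : ∀ f ∈ lowFix (rightHom (Cube D)) (univ : Finset (Cube D)) k,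
      lap (regRep (Cube D)) f ∈ lowFix (rightHom (Cube D)) (univ : Finset (Cube D)) k := by
    intro f hf
    rw [← lap_right_eq_left]
    exact lowFix_invariant (rightHom (Cube D)) univ k hf
  have h1 := net_domination' D (regRep (Cube D)) regRep_orth w
  have h2 := Transfer_heat_le_of_lap (π := regRep (Cube D)) regRep_orth _ hinv _ hlap
    (c := 1 / 800) (by norm_num) hmem
  refine h1.trans (h2.trans (le_of_eq ?_))
  congr 2
  field_simp
  ring

section sup
variable {X : Type} [Fintype X] [DecidableEq X]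

/-- The coordinate tuple of a permutation on `F`. -/
def tupOf (F : Finset X) (g : Equiv.Perm X) : ↥F → X := fun i => g (i : X)

theorem tupOf_eq_iff (F : Finset X) (g g' : Equiv.Perm X) :
    tupOf F g = tupOf F g' ↔ g⁻¹ * g' ∈ fixG F := by
  constructor
  · intro h x hx
    have h1 := congrFun h ⟨x, hx⟩
    simp only [tupOf] at h1
    show g⁻¹ (g' x) = x
    rw [← h1]
    simp
  · intro h
    funext i
    have h1 := h (i : X) i.2
    simp only [Equiv.Perm.coe_mul, Function.comp_apply] at h1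
    simp only [tupOf]
    rw [Equiv.Perm.inv_eq_iff_eq] at h1
    exact h1.symm

/-- Fibers of the restriction map. -/
theorem Transfer_fiber_card (F : Finset X) (g0 : Equiv.Perm X) :
    (univ.filter (fun g : Equiv.Perm X => tupOf F g = tupOf F g0)).card = (mems (fixG F)).card := by
  classical
  refine Finset.card_bij' (fun g _ => g0⁻¹ * g) (fun k _ => g0 * k) ?_ ?_ ?_ ?_
  · intro g hg
    have := (Finset.mem_filter.mp hg).2
    have h2 := (tupOf_eq_iff F g0 g).mp this.symm
    simpa using h2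
  · intro k hk
    have h1 : k ∈ fixG F := by simpa using hk
    refine Finset.mem_filter.mpr ⟨Finset.mem_univ _, ?_⟩
    apply (tupOf_eq_iff F (g0 * k) g0).mpr
    have : (g0 * k)⁻¹ * g0 = k⁻¹ := by group
    rw [this]
    exact (fixG F).inv_mem h1
  · intro g _
    simp
  · intro k _
    simp

/-- Sum over the group, in terms of tuples. -/
theorem Transfer_sum_tupOf (F : Finset X) (ψ : (↥F → X) → ℝ) :
    ∑ g : Equiv.Perm X, ψ (tupOf F g) =
      ∑ τ : ↥F → X, ((univ.filter (fun g : Equiv.Perm X => tupOf F g = τ)).card : ℝ) * ψ τ := by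
  classical
  rw [← Finset.sum_fiberwise (s := (univ : Finset (Equiv.Perm X))) (g := tupOf F)]
  refine Finset.sum_congr rfl fun τ _ => ?_
  have h : ∀ g ∈ univ.filter (fun g : Equiv.Perm X => tupOf F g = τ), ψ (tupOf F g) = ψ τ := by
    intro g hg
    rw [(Finset.mem_filter.mp hg).2]
  rw [Finset.sum_congr rfl h, Finset.sum_const, nsmul_eq_mul]

/-- Norm of a lift. -/
theorem norm_liftT_le (F : Finset X) (ψ : TV ↥F X) :
    ‖liftT (fun i : ↥F => (i : X)) ψ‖ ^ 2 ≤ ((mems (fixG F)).card : ℝ) * ‖ψ‖ ^ 2 := by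
  classical
  rw [EuclideanSpace.real_norm_sq_eq, EuclideanSpace.real_norm_sq_eq]
  have h1 : ∑ g : Equiv.Perm X, (liftT (fun i : ↥F => (i : X)) ψ g) ^ 2
      = ∑ g : Equiv.Perm X, (fun τ : ↥F → X => ψ τ ^ 2) (tupOf F g) := by
    refine Finset.sum_congr rfl fun g _ => ?_
    rfl
  rw [h1, Transfer_sum_tupOf F (fun τ => ψ τ ^ 2), Finset.mul_sum]
  refine Finset.sum_le_sum fun τ _ => ?_
  refine mul_le_mul_of_nonneg_right ?_ (sq_nonneg _)
  by_cases hτ : ∃ g0 : Equiv.Perm X, tupOf F g0 = τ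
  · obtain ⟨g0, rfl⟩ := hτ
    rw [Transfer_fiber_card]
  · have : (univ.filter (fun g : Equiv.Perm X => tupOf F g = τ)) = ∅ := by
      apply Finset.filter_eq_empty_iff.mpr
      intro g _ hg
      exact hτ ⟨g, hg⟩
    rw [this]
    simp

theorem norm_liftT_eq (F : Finset X) (ψ : TV ↥F X) (hψ : ∀ τ, (¬ ∃ g0 : Equiv.Perm X, tupOf F g0 = τ) → ψ τ = 0) :
    ‖liftT (fun i : ↥F => (i : X)) ψ‖ ^ 2 = ((mems (fixG F)).card : ℝ) * ‖ψ‖ ^ 2 := by
  classical
  rw [EuclideanSpace.real_norm_sq_eq, EuclideanSpace.real_norm_sq_eq]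
  have h1 : ∑ g : Equiv.Perm X, (liftT (fun i : ↥F => (i : X)) ψ g) ^ 2
      = ∑ g : Equiv.Perm X, (fun τ : ↥F → X => ψ τ ^ 2) (tupOf F g) := by
    refine Finset.sum_congr rfl fun g _ => ?_
    rfl
  rw [h1, Transfer_sum_tupOf F (fun τ => ψ τ ^ 2), Finset.mul_sum]
  refine Finset.sum_congr rfl fun τ _ => ?_
  by_cases hτ : ∃ g0 : Equiv.Perm X, tupOf F g0 = τ
  · obtain ⟨g0, rfl⟩ := hτ
    rw [Transfer_fiber_card]
  · rw [hψ τ hτ]
    simp

/-- The tuple function of a function that is right-invariant under `fixG F`. -/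
noncomputable def descend (F : Finset X) (v : RegV X) : TV ↥F X :=
  WithLp.toLp 2 (fun τ => by
    classical
    exact if h : ∃ g : Equiv.Perm X, tupOf F g = τ then v h.choose else 0)

theorem descend_of_not (F : Finset X) (v : RegV X) (τ : ↥F → X) (h : ¬ ∃ g : Equiv.Perm X, tupOf F g = τ) :
    descend F v τ = 0 := by
  simp [descend, h]

theorem descend_tupOf (F : Finset X) {v : RegV X} (hv : ∀ g, ∀ k ∈ fixG F, v (g * k) = v g)
    (g : Equiv.Perm X) : descend F v (tupOf F g) = v g := by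
  have h : ∃ g' : Equiv.Perm X, tupOf F g' = tupOf F g := ⟨g, rfl⟩
  have h1 : descend F v (tupOf F g) = v h.choose := by
    simp only [descend]
    show (if h : ∃ g' : Equiv.Perm X, tupOf F g' = tupOf F g then v h.choose else 0) = _
    rw [dif_pos h]
  rw [h1]
  have h2 := h.choose_spec
  have h3 := (tupOf_eq_iff F g h.choose).mp h2.symm
  have h4 := hv g _ h3
  rw [← h4]
  simp

theorem liftT_descend (F : Finset X) {v : RegV X} (hv : ∀ g, ∀ k ∈ fixG F, v (g * k) = v g) :
    liftT (fun i : ↥F => (i : X)) (descend F v) = v := by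
  ext g
  exact descend_tupOf F hv g

theorem tupOf_injective (F : Finset X) (g : Equiv.Perm X) : Function.Injective (tupOf F g) := by
  intro a b hab
  exact Subtype.ext (g.injective hab)

theorem descend_inj (F : Finset X) (v : RegV X) : InjOnS (univ : Finset ↥F) (descend F v) := by
  intro τ hτ
  apply descend_of_not
  rintro ⟨g, rfl⟩
  apply hτ
  intro a _ b _ hab
  exact tupOf_injective F g hab

/-- Vanishing of the coordinate averages. -/
theorem avgC_descend (F : Finset X) {v : RegV X} (hv : ∀ g, ∀ k ∈ fixG F, v (g * k) = v g)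
    (i : ↥F) (h0 : Pr (F.erase (i : X)) v = 0) : avgC ({i} : Finset ↥F) (descend F v) = 0 := by
  classical
  ext x
  rw [avgC_apply]
  simp only [PiLp.zero_apply, WithLp.ofLp_zero, Pi.zero_apply]
  unfold avgFun
  suffices hs : ∑ w ∈ piF ({i} : Finset ↥F) x, descend F v w = 0 by
    rw [hs, mul_zero]
  by_contra hne
  obtain ⟨w0, hw0, hw0ne⟩ := Finset.exists_ne_zero_of_sum_ne_zero hne
  have hex : ∃ g : Equiv.Perm X, tupOf F g = w0 := by
    by_contra hc
    exact hw0ne (descend_of_not F v w0 hc)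
  obtain ⟨g, rfl⟩ := hex
  set F' := F.erase (i : X) with hF'
  have hiF' : (i : X) ∉ F' := Finset.notMem_erase _ _
  have hins : insert (i : X) F' = F := Finset.insert_erase i.2
  have hw' : ∀ k ∈ fixG (insert (i : X) F'), rightHom X k v = v := by
    intro k hk
    rw [hins] at hk
    ext g'
    rw [rightHom_apply]
    exact hv g' k hk
  have hcoset := coset_formula (rightHom X) hiF' hw'
  rw [show fixAvg (rightHom X) F' v = 0 from h0, smul_zero] at hcoset
  have hcoset' : ∑ y ∈ F'ᶜ, v (g * Equiv.swap (i : X) y) = 0 := by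
    have h1 := congrArg (fun f : RegV X => f g) hcoset
    simp only [] at h1
    have h2 : (∑ y ∈ F'ᶜ, rightHom X (Equiv.swap (i : X) y) v) g
        = ∑ y ∈ F'ᶜ, (rightHom X (Equiv.swap (i : X) y) v) g := by
      simp
    rw [h2] at h1
    simp only [rightHom_apply] at h1
    simpa using h1
  -- the tuples
  have hx0 : ∀ j : ↥F, j ∉ ({i} : Finset ↥F) → tupOf F g j = x j :=
    (mem_piF _ _ _).mp hw0
  have hmap : ∀ y ∈ F'ᶜ, tupOf F (g * Equiv.swap (i : X) y) ∈ piF ({i} : Finset ↥F) x := by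
    intro y hy
    rw [mem_piF]
    intro j hj
    have hj' : j ≠ i := by simpa using hj
    have hj2 : (j : X) ≠ (i : X) := fun h => hj' (Subtype.ext h)
    have hjF' : (j : X) ∈ F' := Finset.mem_erase.mpr ⟨hj2, j.2⟩
    have hjy : (j : X) ≠ y := by
      rintro h
      rw [h] at hjF'
      exact (Finset.mem_compl.mp hy) hjF'
    rw [← hx0 j hj]
    simp only [tupOf, Equiv.Perm.coe_mul, Function.comp_apply]
    rw [Equiv.swap_apply_of_ne_of_ne hj2 hjy]
  have hinjmap : Set.InjOn (fun y => tupOf F (g * Equiv.swap (i : X) y)) (F'ᶜ : Finset X) := by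
    intro y _ y' _ hyy
    have h1 := congrFun hyy i
    simp only [tupOf, Equiv.Perm.coe_mul, Function.comp_apply, Equiv.swap_apply_left] at h1
    exact g.injective h1
  apply hne
  have himage : (F'ᶜ).image (fun y => tupOf F (g * Equiv.swap (i : X) y)) ⊆
      piF ({i} : Finset ↥F) x := by
    intro w hw
    obtain ⟨y, hy, rfl⟩ := Finset.mem_image.mp hw
    exact hmap y hy
  rw [← Finset.sum_subset himage]
  · rw [Finset.sum_image hinjmap]
    rw [← hcoset']
    refine Finset.sum_congr rfl fun y _ => ?_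
    exact descend_tupOf F hv _
  · intro w hw hwn
    -- `w` is not injective or not of this form
    apply descend_of_not
    rintro ⟨g', rfl⟩
    -- `g'` agrees with `g` off `i`
    have hwx := (mem_piF _ _ _).mp hw
    have hagree : ∀ j : ↥F, j ≠ i → g' (j : X) = g (j : X) := by
      intro j hj
      have h1 := hwx j (by simpa using hj)
      have h2 := hx0 j (by simpa using hj)
      simp only [tupOf] at h1 h2
      rw [h1, h2]
    set y := g⁻¹ (g' (i : X)) with hy
    have hyc : y ∈ F'ᶜ := by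
      rw [Finset.mem_compl]
      intro hyF
      have hyF2 : y ∈ F := Finset.mem_of_mem_erase hyF
      have hyi : y ≠ (i : X) := Finset.ne_of_mem_erase hyF
      have h1 := hagree ⟨y, hyF2⟩ (fun h => hyi (congrArg Subtype.val h))
      simp only at h1
      have h2 : g y = g' (i : X) := by simp [hy]
      have h3 : y = (i : X) := g'.injective (h1.trans h2)
      exact hyi h3
    apply hwn
    refine Finset.mem_image.mpr ⟨y, hyc, ?_⟩
    funext j
    by_cases hj : j = i
    · subst hj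
      simp [tupOf, hy]
    · have hj2 : (j : X) ≠ (i : X) := fun h => hj (Subtype.ext h)
      have hjF' : (j : X) ∈ F' := Finset.mem_erase.mpr ⟨hj2, j.2⟩
      have hjy : (j : X) ≠ y := by
        rintro h
        rw [h] at hjF'
        exact (Finset.mem_compl.mp hyc) hjF'
      simp only [tupOf, Equiv.Perm.coe_mul, Function.comp_apply]
      rw [Equiv.swap_apply_of_ne_of_ne hj2 hjy, hagree j hj]

end sup

/-- The Rayleigh operator of the network. -/
noncomputable def Mnet (D : ℕ) : RegV (Cube D) →L[ℝ] RegV (Cube D) :=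
  ContinuousLinearMap.adjoint (Bnet D) * Bnet D

theorem inner_Mnet (u v : RegV (Cube D)) : ⟪Mnet D u, v⟫_ℝ = ⟪Bnet D u, Bnet D v⟫_ℝ := by
  show ⟪ContinuousLinearMap.adjoint (Bnet D) (Bnet D u), v⟫_ℝ = _
  rw [ContinuousLinearMap.adjoint_inner_left]

theorem Mnet_symm : Symm (Mnet D) := by
  intro u v
  calc ⟪Mnet D u, v⟫_ℝ = ⟪Bnet D u, Bnet D v⟫_ℝ := inner_Mnet u v
    _ = ⟪Bnet D v, Bnet D u⟫_ℝ := real_inner_comm _ _
    _ = ⟪Mnet D v, u⟫_ℝ := (inner_Mnet v u).symm
    _ = ⟪u, Mnet D v⟫_ℝ := real_inner_comm _ _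

/-- The adjoint of the network preserves left-invariant subspaces. -/
theorem adjoint_Bnet_mem (W : Submodule ℝ (RegV (Cube D))) (hW : ∀ g, ∀ f ∈ W, regRep (Cube D) g f ∈ W)
    {f : RegV (Cube D)} (hf : f ∈ W) : ContinuousLinearMap.adjoint (Bnet D) f ∈ W := by
  have hperp : ∀ g, ∀ z ∈ Wᗮ, regRep (Cube D) g z ∈ Wᗮ := by
    intro g z hz
    rw [Submodule.mem_orthogonal] at hz ⊢
    intro u hu
    rw [real_inner_comm, IsOrth.inner_left regRep_orth, real_inner_comm]
    exact hz _ (hW _ _ hu)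
  have h1 : ContinuousLinearMap.adjoint (Bnet D) f ∈ Wᗮᗮ := by
    rw [Submodule.mem_orthogonal]
    intro z hz
    rw [ContinuousLinearMap.adjoint_inner_right]
    have h2 : Bnet D z ∈ Wᗮ := Transfer_net_mem _ _ hperp hz
    rw [Submodule.mem_orthogonal] at h2
    rw [real_inner_comm]
    exact h2 f hf
  rwa [Submodule.orthogonal_orthogonal] at h1

theorem Mnet_mem (W : Submodule ℝ (RegV (Cube D))) (hW : ∀ g, ∀ f ∈ W, regRep (Cube D) g f ∈ W)
    {f : RegV (Cube D)} (hf : f ∈ W) : Mnet D f ∈ W :=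
  adjoint_Bnet_mem W hW (Transfer_net_mem _ _ hW hf)

theorem Pr_commute_Mnet (F : Finset (Cube D)) : Commute (Pr F) (Mnet D) := by
  have h1 : Commute (Pr F) (Bnet D) := net_commute _ (fun g => Pr_commute_left F g)
  have hs : Symm (Pr F) := avgOn_symm (fixG F) rightHom_orth
  have h2 : Commute (Pr F) (ContinuousLinearMap.adjoint (Bnet D)) := by
    apply ContinuousLinearMap.ext
    intro u
    apply ext_inner_right ℝ
    intro z
    show ⟪Pr F (ContinuousLinearMap.adjoint (Bnet D) u), z⟫_ℝ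
      = ⟪ContinuousLinearMap.adjoint (Bnet D) (Pr F u), z⟫_ℝ
    rw [hs, ContinuousLinearMap.adjoint_inner_left, ContinuousLinearMap.adjoint_inner_left, hs]
    have h3 := congrArg (fun A : RegV (Cube D) →L[ℝ] RegV (Cube D) => A z) h1.eq
    simp only [mul_apply_eq_comp] at h3
    rw [h3]
  exact h2.mul_right h1

/-- Eigenvector bound. -/
theorem Transfer_eigen_le (j : ℕ) {f : RegV (Cube D)} (hf : f ∈ Ej (Cube D) j) (hf0 : f ≠ 0) {l : ℝ}
    (hl : Mnet D f = l • f) : l ≤ Gf D j := by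
  classical
  -- a nonzero component
  have hex : ∃ F ∈ powersetCard j (univ : Finset (Cube D)), Pr F f ≠ 0 := by
    by_contra hc
    push Not at hc
    have h1 := frame_Pr j f f hf.1
    have h2 : ∑ F ∈ powersetCard j (univ : Finset (Cube D)), ‖Pr F f‖ ^ 2 = 0 :=
      Finset.sum_eq_zero fun F hF => by rw [hc F hF, norm_zero]; norm_num
    rw [h2, zero_mul, real_inner_self_eq_norm_sq] at h1
    have h3 : ‖f‖ ^ 2 = 0 := by
      have := sq_nonneg (‖f‖ ^ 2)
      nlinarith
    exact hf0 (by simpa using h3)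
  obtain ⟨F, hF, hne⟩ := hex
  have hFc : F.card = j := (Finset.mem_powersetCard.mp hF).2
  set v := Pr F f with hv
  -- eigenvector
  have hMv : Mnet D v = l • v := by
    have h1 := congrArg (fun A : RegV (Cube D) →L[ℝ] RegV (Cube D) => A f) (Pr_commute_Mnet F).eq
    simp only [mul_apply_eq_comp] at h1
    rw [hv, ← h1, hl, map_smul]
  -- in `Vj`
  have hvV : v ∈ Vj (Cube D) j := Transfer_avgOn_mem (rightHom (Cube D)) _ _ (fun g _ h => Vj_right j g h) hf.2
  -- invariance
  have hinv : ∀ g, ∀ k ∈ fixG F, v (g * k) = v g := by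
    intro g k hk
    have h1 := avgOn_map_apply (rightHom (Cube D)) (fixG F) hk f
    have h2 := congrArg (fun u : RegV (Cube D) => u g) h1
    simp only [rightHom_apply] at h2
    exact h2
  set φ := descend F v with hφ
  have hlift : liftT (fun i : ↥F => (i : Cube D)) φ = v := liftT_descend F hinv
  have hzero : ∀ i : ↥F, avgC ({i} : Finset ↥F) φ = 0 := by
    intro i
    apply avgC_descend F hinv i
    refine (mem_Vj.mp hvV) _ ?_
    rw [Finset.card_erase_of_mem i.2, hFc]
    have hpos : 0 < F.card := Finset.card_pos.mpr ⟨i, i.2⟩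
    omega
  have hlevel := level_ineq D ↥F (univ : Finset ↥F) φ (descend_inj F v)
  have hQ : ∑ Q ∈ (univ : Finset ↥F).powerset, Gf D ((univ : Finset ↥F).card - Q.card) * ‖avgC Q φ‖ ^ 2
      = Gf D j * ‖φ‖ ^ 2 := by
    rw [Finset.sum_eq_single ∅]
    · have : (univ : Finset ↥F).card = j := by
        rw [Finset.card_univ, Fintype.card_coe, hFc]
      rw [this, Finset.card_empty, Nat.sub_zero, avgC_empty]
    · intro Q _ hQ
      obtain ⟨i, hi⟩ := Finset.nonempty_iff_ne_empty.mpr hQ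
      have h1 : avgC Q φ = 0 := by
        have h2 : Q = (Q.erase i) ∪ {i} := by
          rw [Finset.union_comm, ← Finset.insert_eq, Finset.insert_erase hi]
        rw [h2, ← avgC_avgC _ _ (by simp), hzero i, map_zero]
      rw [h1, norm_zero]
      ring
    · intro h
      exact absurd (Finset.empty_mem_powerset _) h
  rw [hQ] at hlevel
  have hT := net_intertwine (tupRep (X := Cube D) (univ : Finset ↥F)) (regRep (Cube D))
    (liftT (fun i : ↥F => (i : Cube D))) (fun g f => liftT_intertwine _ g f) φ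
  rw [hlift] at hT
  have hC : (0 : ℝ) ≤ ((mems (fixG F)).card : ℝ) := Nat.cast_nonneg _
  have h1 : ‖Bnet D v‖ ^ 2 ≤ Gf D j * ‖v‖ ^ 2 := by
    calc ‖Bnet D v‖ ^ 2 = ‖liftT (fun i : ↥F => (i : Cube D)) (net (tupRep (univ : Finset ↥F)) φ)‖ ^ 2 := by
          rw [hT]
      _ ≤ ((mems (fixG F)).card : ℝ) * ‖net (tupRep (univ : Finset ↥F)) φ‖ ^ 2 := norm_liftT_le F _
      _ ≤ ((mems (fixG F)).card : ℝ) * (Gf D j * ‖φ‖ ^ 2) := mul_le_mul_of_nonneg_left hlevel hC
      _ = Gf D j * (((mems (fixG F)).card : ℝ) * ‖φ‖ ^ 2) := by ring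
      _ = Gf D j * ‖v‖ ^ 2 := by
          rw [← norm_liftT_eq F φ (fun τ hτ => descend_of_not F v τ hτ), hlift]
  have h2 : l * ‖v‖ ^ 2 = ‖Bnet D v‖ ^ 2 := by
    have h3 := inner_Mnet (D := D) v v
    rw [hMv, real_inner_smul_left, real_inner_self_eq_norm_sq, real_inner_self_eq_norm_sq] at h3
    exact h3
  have hpos : 0 < ‖v‖ ^ 2 := by
    have := norm_pos_iff.mpr hne
    positivity
  rw [← h2] at h1
  exact le_of_mul_le_mul_right h1 hpos

/-- Level inequality on the exact level. -/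
theorem sup_level (j : ℕ) (w : RegV (Cube D)) (hw : w ∈ Ej (Cube D) j) :
    ‖Bnet D w‖ ^ 2 ≤ Gf D j * ‖w‖ ^ 2 := by
  set G := Gf D j with hG
  let A : RegV (Cube D) →L[ℝ] RegV (Cube D) := G • 1 - Mnet D
  have hA : Symm A := by
    intro u v
    simp only [A, sub_apply, smul_apply, one_apply_eq_self, inner_sub_left, inner_sub_right,
      real_inner_smul_left, real_inner_smul_right, Mnet_symm u v]
  have hinvE : ∀ g, ∀ f ∈ Ej (Cube D) j, regRep (Cube D) g f ∈ Ej (Cube D) j :=
    fun g f hf => ⟨Lj_left j g hf.1, Vj_left j g hf.2⟩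
  have hWinv : ∀ f ∈ Ej (Cube D) j, A f ∈ Ej (Cube D) j := by
    intro f hf
    simp only [A, sub_apply, smul_apply, one_apply_eq_self]
    exact Submodule.sub_mem _ (Submodule.smul_mem _ _ hf) (Mnet_mem _ hinvE hf)
  have h1 := le_inner_of_eigen hA (Ej (Cube D) j) hWinv 0 (by
    intro f hf hf0 δ hδ
    have h2 : Mnet D f = (G - δ) • f := by
      have h3 : G • f - Mnet D f = δ • f := hδ
      rw [sub_smul, ← h3]
      abel
    have h4 := Transfer_eigen_le j hf hf0 h2
    linarith) w hw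
  have h2 : ⟪A w, w⟫_ℝ = G * ‖w‖ ^ 2 - ‖Bnet D w‖ ^ 2 := by
    simp only [A, sub_apply, smul_apply, one_apply_eq_self, inner_sub_left, real_inner_smul_left,
      inner_Mnet, real_inner_self_eq_norm_sq]
  rw [h2] at h1
  linarith

end Vale.Agent.P162O
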