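/-
P162 O(d), Part III: final assembly.
-/
import Vale.Agent.P162O.Count
import Vale.Agent.P162O.Transfer
import Vale.Agent.P162O.TraceC
import Vale.Agent.P162O.FinalSum

open scoped InnerProductSpace BigOperators
open Finset

namespace Vale.Agent.P162O
open Vale.Agent.P162

/-- Hilbert-Schmidt on one exact level. -/
theorem level_trace (D K j : ℕ) (hD : 1 ≤ D) (hK : 23 ≤ K) (hj : 1 ≤ j) (hjn : j ≤ 2 ^ D) {ι : Type*} [Fintype ι]
    (b : ι → RegV (Cube D)) (hb : Orthonormal ℝ b) (hbZ : ∀ i, b i ∈ Ej (Cube D) j) :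
    ∑ i, ‖(Bnet D ^ K) (b i)‖ ^ 2 ≤ termJ D K j := by
  have hchoose : (0 : ℝ) < ((2 ^ D).choose j : ℝ) := by exact_mod_cast Nat.choose_pos hjn
  set Y : ℝ := ((2 ^ D).choose j : ℝ) * Real.exp (Cren * j) with hY
  have hY0 : 0 < Y := mul_pos hchoose (Real.exp_pos _)
  have ha : 0 ≤ aSup D j := le_min (Gf_nonneg _ _) (Real.exp_pos _).le
  have h := trace_abstract (V := RegV (Cube D)) (Z := Ej (Cube D) j) (Bnet D)
    (fun z hz => Bnet_Ej j z hz) (aSup D j) (4 * (2 * Y) ^ 20) ha (by positivity)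
    (by
      intro w hw
      unfold aSup
      rcases min_choice (Gf D j) (Real.exp (-(3 / 6400 : ℝ) * (min j (2 ^ D / 2) : ℕ))) with h | h
      · rw [h]
        exact sup_level j w hw
      · rw [h]
        exact sup_heat hD j hj w hw.2)
    (by
      intro W hW t ht hWt
      exact count_bound (lawN (D := D) D) (lawN_nonneg D) (lawN_sum D) j Y hY0 (renyiSum_law D j) W hW t ht
        (fun w hw => by
          rw [opOf_lawN]
          exact hWt w hw))
    K hK b hb hbZ
  exact h

section tv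
variable {X : Type} [Fintype X] [DecidableEq X]

theorem FinalO_Vj_anti {j j' : ℕ} (h : j' ≤ j) : Vj X j ≤ Vj X j' := by
  intro f hf
  rw [mem_Vj] at hf ⊢
  intro R hR
  exact hf R (by omega)

/-- Decomposition of `Vj 1` into the exact levels. -/
theorem FinalO_Vj_le_span (S : Submodule ℝ (RegV X))
    (hS : ∀ j, 1 ≤ j → j ≤ Fintype.card X → Ej X j ≤ S) :
    ∀ k, k ≤ Fintype.card X → Vj X (Fintype.card X + 1 - k) ≤ S := by
  intro k
  induction k with
  | zero =>
    intro _
    have h := Vj_eq_orth (X := X) (Fintype.card X) (le_refl _)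
    rw [Lj_top] at h
    simp only [Nat.sub_zero]
    rw [h, Submodule.top_orthogonal_eq_bot]
    exact bot_le
  | succ k ih =>
    intro hk
    set j := Fintype.card X + 1 - (k + 1) with hj
    have hj1 : 1 ≤ j := by omega
    have hjn : j ≤ Fintype.card X := by omega
    have hnext : Fintype.card X + 1 - k = j + 1 := by omega
    have ih' := ih (by omega)
    rw [hnext] at ih'
    intro x hx
    obtain ⟨y, hy, z, hz, hxyz⟩ := Submodule.exists_add_mem_mem_orthogonal (K := Lj X j) x
    have hzV : z ∈ Vj X (j + 1) := by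
      rw [Vj_eq_orth j hjn]
      exact hz
    have hzV' : z ∈ Vj X j := FinalO_Vj_anti (Nat.le_succ j) hzV
    have hyV : y ∈ Vj X j := by
      have : y = x - z := by
        rw [hxyz]
        abel
      rw [this]
      exact Submodule.sub_mem _ hx hzV'
    rw [hxyz]
    exact Submodule.add_mem _ (hS j hj1 hjn ⟨hy, hyV⟩) (ih' hzV)

/-- Expansion in an orthonormal family on its span. -/
theorem FinalO_expand_of_span {ι : Type*} [Fintype ι] {V : Type*} [NormedAddCommGroup V] [InnerProductSpace ℝ V]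
    {b : ι → V} (hb : Orthonormal ℝ b) {x : V} (hx : x ∈ Submodule.span ℝ (Set.range b)) :
    x = ∑ i, ⟪b i, x⟫_ℝ • b i := by
  classical
  induction hx using Submodule.span_induction with
  | mem y hy =>
    obtain ⟨i, rfl⟩ := hy
    rw [Finset.sum_eq_single i]
    · rw [real_inner_self_eq_norm_sq, hb.1 i]
      simp
    · intro k _ hk
      rw [hb.2 hk, zero_smul]
    · intro h
      exact absurd (Finset.mem_univ _) h
  | zero => simp
  | add a c _ _ ha hc =>
    simp only [inner_add_right, add_smul, Finset.sum_add_distrib]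
    rw [← ha, ← hc]
  | smul r a _ ha =>
    simp only [real_inner_smul_right, mul_smul]
    rw [← Finset.smul_sum, ← ha]

/-- Hilbert-Schmidt identity for orthonormal families in `ℓ²(G)`. -/
theorem FinalO_hs_identity {ι : Type*} [Fintype ι] {b : ι → RegV X} (hb : Orthonormal ℝ b) (T : RegV X →L[ℝ] RegV X) :
    ∑ g : Equiv.Perm X, ‖∑ i, (b i g) • T (b i)‖ ^ 2 = ∑ i, ‖T (b i)‖ ^ 2 := by
  classical
  have h1 : ∀ g : Equiv.Perm X, ‖∑ i, (b i g) • T (b i)‖ ^ 2
      = ∑ i, ∑ k, b i g * b k g * ⟪T (b i), T (b k)⟫_ℝ := by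
    intro g
    rw [← real_inner_self_eq_norm_sq, sum_inner]
    refine Finset.sum_congr rfl fun i _ => ?_
    rw [inner_sum]
    refine Finset.sum_congr rfl fun k _ => ?_
    rw [real_inner_smul_left, real_inner_smul_right]
    ring
  simp only [h1]
  rw [Finset.sum_comm]
  refine Finset.sum_congr rfl fun i _ => ?_
  rw [Finset.sum_comm]
  rw [Finset.sum_eq_single i]
  · have h2 : ∑ g : Equiv.Perm X, b i g * b i g = 1 := by
      have h3 := hb.1 i
      have h4 : ‖b i‖ ^ 2 = ∑ g, (b i g) ^ 2 := EuclideanSpace.real_norm_sq_eq _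
      rw [h3] at h4
      simp only [pow_two] at h4
      simpa using h4.symm
    rw [← Finset.sum_mul, h2, one_mul, real_inner_self_eq_norm_sq]
  · intro k _ hk
    have h2 : ∑ g : Equiv.Perm X, b i g * b k g = 0 := by
      have h3 : ⟪b i, b k⟫_ℝ = 0 := hb.2 (Ne.symm hk)
      rw [PiLp.inner_apply] at h3
      simpa [mul_comm] using h3
    rw [← Finset.sum_mul, h2, zero_mul]
  · intro h
    exact absurd (Finset.mem_univ _) h

end tv

/-- From the level traces to total variation on `Perm (Cube D)`. -/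
theorem tv_of_levels (D K : ℕ) (hD : 1 ≤ D) (hK : 23 ≤ K)
    (h : ∑ j ∈ Finset.Icc 1 (2 ^ D), termJ D K j ≤ 1 / 4) :
    tvUnif (fun g => ((Bnet D ^ K) (delta1 (Cube D))) g) ≤ 1 / 4 := by
  classical
  set X := Cube D with hX
  set n := Fintype.card X with hn
  have hcard : n = 2 ^ D := by simp [hn, hX, Cube]
  set N : ℝ := (Fintype.card (Equiv.Perm X) : ℝ) with hN
  have hN0 : 0 < N := by
    rw [hN]
    exact_mod_cast Fintype.card_pos
  set u : RegV X := unifV X with hu
  set B := Bnet D with hB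
  set T : RegV X →L[ℝ] RegV X := B ^ K with hT
  -- the family
  let J := Finset.Icc 1 (2 ^ D)
  let e : (j : ↥J) → OrthonormalBasis (Fin (Module.finrank ℝ (Ej X j))) ℝ (Ej X j) :=
    fun j => stdOrthonormalBasis ℝ (Ej X j)
  let κ := Σ j : ↥J, Fin (Module.finrank ℝ (Ej X j))
  let b : κ → RegV X := fun a => ((e a.1 a.2 : Ej X a.1) : RegV X)
  have hbE : ∀ a : κ, b a ∈ Ej X a.1 := fun a => (e a.1 a.2).2
  have hbV : ∀ a : κ, b a ∈ Vj X 1 := by
    intro a
    have h1 : 1 ≤ (a.1 : ℕ) := (Finset.mem_Icc.mp a.1.2).1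
    exact FinalO_Vj_anti h1 (hbE a).2
  -- orthogonality of different levels
  have hperp : ∀ (i j : ℕ), i < j → j ≤ n → ∀ x ∈ Ej X i, ∀ y ∈ Ej X j, ⟪x, y⟫_ℝ = 0 := by
    intro i j hij hjn x hx y hy
    have h1 : y ∈ Vj X (i + 1) := FinalO_Vj_anti hij hy.2
    rw [Vj_eq_orth i (by omega)] at h1
    exact (Submodule.mem_orthogonal _ _).mp h1 x hx.1
  have hb_on : Orthonormal ℝ b := by
    rw [orthonormal_iff_ite]
    rintro ⟨j, i⟩ ⟨j', i'⟩
    by_cases hjj : (j : ℕ) = (j' : ℕ)
    · have hjj' : j = j' := Subtype.ext hjj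
      subst hjj'
      have h1 := (orthonormal_iff_ite.mp (e j).orthonormal) i i'
      have h2 : ⟪b ⟨j, i⟩, b ⟨j, i'⟩⟫_ℝ = ⟪e j i, e j i'⟫_ℝ := rfl
      rw [h2, h1]
      by_cases hii : i = i'
      · subst hii
        simp
      · have hne : (⟨j, i⟩ : κ) ≠ ⟨j, i'⟩ := by
          intro h3
          exact hii (by simpa using h3)
        rw [if_neg hii, if_neg hne]
    · have hne : (⟨j, i⟩ : κ) ≠ ⟨j', i'⟩ := by
        intro h3
        apply hjj
        exact congrArg (fun a : κ => ((a.1 : ↥J) : ℕ)) h3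
      rw [if_neg hne]
      have hjJ := Finset.mem_Icc.mp j.2
      have hjJ' := Finset.mem_Icc.mp j'.2
      rcases lt_or_gt_of_ne hjj with hlt | hgt
      · exact hperp _ _ hlt (by omega) _ (hbE ⟨j, i⟩) _ (hbE ⟨j', i'⟩)
      · rw [real_inner_comm]
        exact hperp _ _ hgt (by omega) _ (hbE ⟨j', i'⟩) _ (hbE ⟨j, i⟩)
  -- spanning
  set S := Submodule.span ℝ (Set.range b) with hS
  have hES : ∀ j, 1 ≤ j → j ≤ n → Ej X j ≤ S := by
    intro j hj1 hjn x hx
    have hjJ : j ∈ J := Finset.mem_Icc.mpr ⟨hj1, by omega⟩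
    have h1 := (e ⟨j, hjJ⟩).sum_repr' ⟨x, hx⟩
    have h2 : x = ∑ i, ⟪e ⟨j, hjJ⟩ i, (⟨x, hx⟩ : Ej X j)⟫_ℝ • b ⟨⟨j, hjJ⟩, i⟩ := by
      have h3 := congrArg (Subtype.val) h1
      simp only [Submodule.coe_sum, Submodule.coe_smul] at h3
      exact h3.symm
    rw [h2]
    exact Submodule.sum_mem _ fun i _ => Submodule.smul_mem _ _ (Submodule.subset_span ⟨_, rfl⟩)
  have hV1 : Vj X 1 ≤ S := by
    have h1 := FinalO_Vj_le_span (X := X) S hES n
      (by rfl)
    have h2 : n + 1 - n = 1 := by omega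
    rwa [h2] at h1
  -- translates
  have hz : ∀ g : Equiv.Perm X, deltaAt X g - u = ∑ a, (b a g) • b a := by
    intro g
    have hzV : deltaAt X g - u ∈ Vj X 1 := by
      rw [Vj_one_iff]
      have h1 : ∑ x : Equiv.Perm X, (deltaAt X g - u) x = ∑ x : Equiv.Perm X, deltaAt X g x - ∑ x : Equiv.Perm X, u x := by
        rw [← Finset.sum_sub_distrib]
        rfl
      rw [h1]
      have h2 : ∑ x : Equiv.Perm X, deltaAt X g x = 1 := by
        rw [Finset.sum_eq_single g]
        · simp [deltaAt]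
        · intro x _ hx
          simp [deltaAt, PiLp.single_apply, hx]
        · simp
      have h3 : ∑ x : Equiv.Perm X, u x = 1 := by
        simp only [hu, unifV_apply, Finset.sum_const, Finset.card_univ, nsmul_eq_mul]
        rw [← hN]
        field_simp
      rw [h2, h3, sub_self]
    have h1 := FinalO_expand_of_span hb_on (hV1 hzV)
    rw [h1]
    refine Finset.sum_congr rfl fun a _ => ?_
    congr 1
    rw [inner_sub_right]
    have h2 : ⟪b a, deltaAt X g⟫_ℝ = b a g := by
      rw [real_inner_comm, inner_deltaAt]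
    have h3 : ⟪b a, u⟫_ℝ = 0 := by
      have h4 : ∑ x : Equiv.Perm X, b a x = 0 := (Vj_one_iff _).mp (hbV a)
      rw [PiLp.inner_apply]
      simp only [hu, unifV_apply, RCLike.inner_apply, conj_trivial]
      rw [← Finset.mul_sum, h4, mul_zero]
    rw [h2, h3, sub_zero]
  -- the right translation
  have hcommB : ∀ g : Equiv.Perm X, Commute (rightRep X g) T := by
    intro g
    exact (net_commute (regRep X) (fun g' => rightRep_commute g g')).pow_right K
  have hrightU : ∀ g : Equiv.Perm X, rightRep X g u = u := by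
    intro g
    ext x
    rw [rightRep_apply]
    rfl
  have hrightz : ∀ g : Equiv.Perm X, rightRep X g (delta1 X - u) = deltaAt X g - u := by
    intro g
    rw [map_sub, rightRep_delta1, hrightU]
  have hnormg : ∀ g : Equiv.Perm X, ‖T (deltaAt X g - u)‖ = ‖T (delta1 X - u)‖ := by
    intro g
    rw [← hrightz g]
    have h1 := congrArg (fun A : RegV X →L[ℝ] RegV X => A (delta1 X - u)) (hcommB g).eq
    simp only [mul_apply_eq_comp] at h1
    rw [← h1]
    have h2 := rightRep_inner g (T (delta1 X - u)) (T (delta1 X - u))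
    rw [real_inner_self_eq_norm_sq, real_inner_self_eq_norm_sq] at h2
    have h3 := norm_nonneg (rightRep X g (T (delta1 X - u)))
    have h4 := norm_nonneg (T (delta1 X - u))
    nlinarith [sq_nonneg (‖rightRep X g (T (delta1 X - u))‖ - ‖T (delta1 X - u)‖),
      sq_nonneg (‖rightRep X g (T (delta1 X - u))‖ + ‖T (delta1 X - u)‖)]
  set w : RegV X := T (delta1 X - u) with hw
  -- the trace
  have htrace : N * ‖w‖ ^ 2 ≤ 1 / 4 := by
    have h1 : ∑ g : Equiv.Perm X, ‖T (deltaAt X g - u)‖ ^ 2 = N * ‖w‖ ^ 2 := by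
      simp only [hnormg, Finset.sum_const, Finset.card_univ, nsmul_eq_mul]
      rfl
    have h2 : ∀ g : Equiv.Perm X, T (deltaAt X g - u) = ∑ a, (b a g) • T (b a) := by
      intro g
      rw [hz g, map_sum]
      refine Finset.sum_congr rfl fun a _ => ?_
      rw [map_smul]
    have h3 : ∑ g : Equiv.Perm X, ‖T (deltaAt X g - u)‖ ^ 2 = ∑ a, ‖T (b a)‖ ^ 2 := by
      simp only [h2]
      exact FinalO_hs_identity hb_on T
    rw [← h1, h3]
    have h4 : ∑ a, ‖T (b a)‖ ^ 2 = ∑ j : ↥J, ∑ i, ‖T (b ⟨j, i⟩)‖ ^ 2 :=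
      Fintype.sum_sigma _
    rw [h4]
    refine le_trans ?_ h
    rw [← Finset.sum_coe_sort (Finset.Icc 1 (2 ^ D))]
    refine Finset.sum_le_sum fun j _ => ?_
    have hjJ := Finset.mem_Icc.mp j.2
    refine level_trace D K j hD hK hjJ.1 hjJ.2 (fun i => ((e j i : Ej X j) : RegV X)) ?_ (fun i => (e j i).2)
    exact (e j).orthonormal.comp_linearIsometry (Ej X j).subtypeₗᵢ
  -- the uniform law is fixed
  have hBu : B u = u := net_apply_of_fixed _ (fun g => regRep_unif g)
  have hTu : T u = u := by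
    have : ∀ k : ℕ, (B ^ k) u = u := by
      intro k
      induction k with
      | zero => simp
      | succ k ih =>
        rw [pow_succ, mul_apply_eq_comp, hBu, ih]
    exact this K
  have hwg : ∀ g, w g = (T (delta1 X)) g - 1 / N := by
    intro g
    rw [hw, map_sub, hTu]
    simp [hu, hN]
  have hsq : (∑ g : Equiv.Perm X, |w g|) ^ 2 ≤ 1 / 4 := by
    have h1 := sq_sum_le_card_mul_sum_sq (s := (univ : Finset (Equiv.Perm X))) (f := fun g => |w g|)
    have h2 : ∑ g : Equiv.Perm X, |w g| ^ 2 = ‖w‖ ^ 2 := by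
      rw [EuclideanSpace.norm_sq_eq]
      simp
    rw [h2, Finset.card_univ] at h1
    exact h1.trans htrace
  have hsum_nonneg : 0 ≤ ∑ g : Equiv.Perm X, |w g| := Finset.sum_nonneg fun g _ => abs_nonneg _
  have hsum : ∑ g : Equiv.Perm X, |w g| ≤ 1 / 2 := by
    nlinarith
  unfold tvUnif
  have heq : ∑ g : Equiv.Perm X, |(T (delta1 X)) g - 1 / (Fintype.card (Equiv.Perm X) : ℝ)|
      = ∑ g : Equiv.Perm X, |w g| := by
    refine Finset.sum_congr rfl fun g _ => ?_
    rw [hwg]
  rw [heq]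
  linarith

section deck
variable (d : ℕ)

/-- Transport of functions along the conjugation. -/
noncomputable def Udeck : RegV (Cube (d + 1)) →L[ℝ] RegV (Fin (2 * 2 ^ d)) :=
  LinearMap.toContinuousLinearMap
    { toFun := fun f => WithLp.toLp 2 (fun g => f (conjHom (posE d).symm g))
      map_add' := by
        intro a b
        ext g
        simp
      map_smul' := by
        intro c a
        ext g
        simp }

@[simp] theorem Udeck_apply (f : RegV (Cube (d + 1))) (g : Equiv.Perm (Fin (2 * 2 ^ d))) :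
    Udeck d f g = f (conjHom (posE d).symm g) := rfl

theorem FinalO_conj_conj (h : Equiv.Perm (Cube (d + 1))) :
    conjHom (posE d).symm (conjHom (posE d) h) = h := by
  ext x i
  simp

theorem Udeck_intertwine (h : Equiv.Perm (Cube (d + 1))) (f : RegV (Cube (d + 1))) :
    Udeck d (regRep (Cube (d + 1)) h f) = deckRep d h (Udeck d f) := by
  ext g
  show (regRep (Cube (d + 1)) h f) (conjHom (posE d).symm g)
    = (regRep (Fin (2 * 2 ^ d)) (conjHom (posE d) h) (Udeck d f)) g
  rw [regRep_apply, regRep_apply, Udeck_apply, map_mul, map_inv, FinalO_conj_conj]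

theorem Udeck_delta : Udeck d (delta1 (Cube (d + 1))) = delta1 (Fin (2 * 2 ^ d)) := by
  ext g
  rw [Udeck_apply]
  simp only [delta1, PiLp.single_apply]
  have h : conjHom (posE d).symm g = 1 ↔ g = 1 := by
    constructor
    · intro h
      ext x
      have h1 := congrArg (fun k : Equiv.Perm (Cube (d + 1)) => k ((posE d).symm x)) h
      simp at h1
      rw [h1]
      simp
    · rintro rfl
      simp
  by_cases hg : g = 1
  · simp [hg]
  · have h2 : conjHom (posE d).symm g ≠ 1 := fun h3 => hg (h.mp h3)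
    simp [hg, h2]

/-- Transport to the deck. -/
theorem tv_deck (d K : ℕ) :
    tvUnif (convPow (thorpLaw (2 ^ d)) ((d + 1) * K)) =
      tvUnif (fun g => ((Bnet (d + 1) ^ K) (delta1 (Cube (d + 1)))) g) := by
  set X' := Fin (2 * 2 ^ d) with hX'
  set B' := net (deckRep d) with hB'
  have hopB : opOf (thorpLaw (2 ^ d)) ^ (d + 1) = B' := opOf_pow_eq_net d
  have hpow : opOf (thorpLaw (2 ^ d)) ^ ((d + 1) * K) = B' ^ K := by
    rw [← hopB, ← pow_mul]
  have hfun : (convPow (thorpLaw (2 ^ d)) ((d + 1) * K)) = fun g => ((B' ^ K) (delta1 X')) g := by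
    funext g
    rw [convPow_eq_opOf_pow, hpow]
  rw [hfun]
  have hnet : ∀ f, Udeck d (Bnet (d + 1) f) = B' (Udeck d f) := by
    intro f
    exact net_intertwine (regRep (Cube (d + 1))) (deckRep d) (Udeck d) (Udeck_intertwine d) f
  have hpowU : ∀ (k : ℕ) f, Udeck d ((Bnet (d + 1) ^ k) f) = (B' ^ k) (Udeck d f) := by
    intro k
    induction k with
    | zero =>
      intro f
      simp
    | succ k ih =>
      intro f
      rw [pow_succ, mul_apply_eq_comp, ih, hnet, pow_succ, mul_apply_eq_comp]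
  have h1 : (B' ^ K) (delta1 X') = Udeck d ((Bnet (d + 1) ^ K) (delta1 (Cube (d + 1)))) := by
    rw [hpowU, Udeck_delta]
  rw [h1]
  unfold tvUnif
  have hcard : (Fintype.card (Equiv.Perm X') : ℝ) = (Fintype.card (Equiv.Perm (Cube (d + 1))) : ℝ) := by
    rw [Fintype.card_perm, Fintype.card_perm]
    congr 2
    exact (Fintype.card_congr (posE d)).symm
  rw [hcard]
  congr 1
  let E : Equiv.Perm X' ≃ Equiv.Perm (Cube (d + 1)) :=
    { toFun := conjHom (posE d).symm
      invFun := conjHom (posE d)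
      left_inv := by
        intro g
        ext x
        simp
      right_inv := FinalO_conj_conj d }
  exact Equiv.sum_comp E (fun g => |((Bnet (d + 1) ^ K) (delta1 (Cube (d + 1)))) g -
    1 / (Fintype.card (Equiv.Perm (Cube (d + 1))) : ℝ)|)

end deck

/-- `t_mix(2^(d+1)) ≤ C (d+1)`. -/
theorem tmix_linear : ∃ C : ℕ, ∀ d : ℕ, tmix (2 ^ d) ≤ C * (d + 1) := by
  obtain ⟨K, hK, D₀, hD⟩ := final_sum
  refine ⟨K + 12800 * D₀, fun d => ?_⟩
  by_cases hd : D₀ ≤ d + 1
  · have h1 := tv_of_levels (d + 1) K (by omega) hK (hD (d + 1) hd)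
    have h2 : tvUnif (convPow (thorpLaw (2 ^ d)) ((d + 1) * K)) ≤ 1 / 4 := by
      rw [tv_deck]
      exact h1
    have h3 : tmix (2 ^ d) ≤ (d + 1) * K := Nat.sInf_le h2
    calc tmix (2 ^ d) ≤ (d + 1) * K := h3
      _ = K * (d + 1) := by ring
      _ ≤ (K + 12800 * D₀) * (d + 1) := Nat.mul_le_mul_right _ (by omega)
  · have h1 := tmix_le d
    have h2 : d + 1 ≤ D₀ := by omega
    calc tmix (2 ^ d) ≤ 12800 * (d + 1) ^ 2 := h1
      _ = 12800 * (d + 1) * (d + 1) := by ring
      _ ≤ 12800 * D₀ * (d + 1) := Nat.mul_le_mul_right _ (Nat.mul_le_mul_left _ h2)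
      _ ≤ (K + 12800 * D₀) * (d + 1) := Nat.mul_le_mul_right _ (by omega)

end Vale.Agent.P162O
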