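/-
P162 O(d): the elementary lower bound `d + 1 ≤ 2 * tmix (2 ^ d)` by counting the support of the law.
-/
import Vale.Agent.P162.Final

open scoped BigOperators
open Finset

namespace Vale.Agent.P162O
open Vale.Agent.P162

set_option linter.unusedSectionVars false
set_option linter.unusedSimpArgs false

section
variable {G : Type*} [Group G] [Fintype G] [DecidableEq G]

open Classical in
/-- The support of a function on the group. -/
noncomputable def Lower_supp (μ : G → ℝ) : Finset G := univ.filter (fun g => μ g ≠ 0)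

theorem Lower_card_conv (μ ν : G → ℝ) :
    (Lower_supp (conv μ ν)).card ≤ (Lower_supp μ).card * (Lower_supp ν).card := by
  classical
  rw [← Finset.card_product]
  refine le_trans (Finset.card_le_card ?_) (Finset.card_image_le (f := fun p : G × G => p.1 * p.2))
  intro g hg
  simp only [Lower_supp, mem_filter, mem_univ, true_and] at hg
  unfold conv at hg
  obtain ⟨h, _, hh⟩ := Finset.exists_ne_zero_of_sum_ne_zero hg
  have h1 : μ h ≠ 0 := left_ne_zero_of_mul hh
  have h2 : ν (h⁻¹ * g) ≠ 0 := right_ne_zero_of_mul hh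
  refine Finset.mem_image.mpr ⟨(h, h⁻¹ * g), ?_, by simp⟩
  simp [Lower_supp, h1, h2]

/-- TV from the support. -/
theorem Lower_tv_ge (μ : G → ℝ) :
    (1 / 2 : ℝ) * (1 - ((Lower_supp μ).card : ℝ) / Fintype.card G) ≤ tvUnif μ := by
  classical
  unfold tvUnif
  refine mul_le_mul_of_nonneg_left ?_ (by norm_num)
  have hN : (0 : ℝ) < Fintype.card G := by exact_mod_cast Fintype.card_pos
  have h1 : ∑ g : G, (if μ g ≠ 0 then (0 : ℝ) else 1 / (Fintype.card G : ℝ)) ≤
      ∑ g : G, |μ g - 1 / (Fintype.card G : ℝ)| := by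
    refine Finset.sum_le_sum fun g _ => ?_
    split_ifs with h
    · exact abs_nonneg _
    · have h0 : μ g = 0 := by simpa using h
      rw [h0, zero_sub, abs_neg, abs_of_pos (by positivity)]
  refine le_trans (le_of_eq ?_) h1
  have h2 : ∑ g : G, (if μ g ≠ 0 then (0 : ℝ) else 1 / (Fintype.card G : ℝ)) =
      ((Fintype.card G : ℝ) - (Lower_supp μ).card) * (1 / (Fintype.card G : ℝ)) := by
    rw [Finset.sum_ite, Finset.sum_const_zero, zero_add, Finset.sum_const, nsmul_eq_mul]
    congr 1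
    have h3 := Finset.card_filter_add_card_filter_not (s := (univ : Finset G)) (fun g => μ g ≠ 0)
    rw [Finset.card_univ] at h3
    have h4 : (Lower_supp μ).card = (univ.filter (fun g => μ g ≠ 0)).card := by
      unfold Lower_supp
      congr
    rw [h4, ← h3]
    push_cast
    ring
  rw [h2]
  field_simp

end

theorem Lower_card_thorp (m : ℕ) : (Lower_supp (thorpLaw m)).card ≤ 2 ^ m := by
  classical
  have h : ∀ g ∈ Lower_supp (thorpLaw m), ∃ c : Fin m → Bool, ∀ p, ((g p : Fin (2 * m)) : ℕ) = thorpPos m c p := by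
    intro g hg
    simp only [Lower_supp, mem_filter, mem_univ, true_and] at hg
    unfold thorpLaw at hg
    have h1 : (univ.filter (fun c : Fin m → Bool => ∀ p, ((g p : Fin (2 * m)) : ℕ) = thorpPos m c p)).card ≠ 0 := by
      intro h2
      apply hg
      rw [h2]
      simp
    obtain ⟨c, hc⟩ := Finset.card_ne_zero.mp h1
    exact ⟨c, (Finset.mem_filter.mp hc).2⟩
  choose! f hf using h
  have h2 : (Lower_supp (thorpLaw m)).card ≤ (univ : Finset (Fin m → Bool)).card := by
    refine Finset.card_le_card_of_injOn f (fun _ _ => mem_univ _) ?_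
    intro g hg g' hg' hgg
    ext p
    rw [hf g hg p, hf g' hg' p]
    show thorpPos m (f g) p = thorpPos m (f g') p
    rw [hgg]
  simpa using h2

theorem Lower_card_pow (m t : ℕ) : (Lower_supp (convPow (thorpLaw m) t)).card ≤ 2 ^ (m * t) := by
  classical
  induction t with
  | zero =>
    have : Lower_supp (convPow (thorpLaw m) 0) ⊆ {1} := by
      intro g hg
      simp only [Lower_supp, mem_filter, mem_univ, true_and, convPow] at hg
      rw [mem_singleton]
      by_contra h
      simp [h] at hg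
    simpa using Finset.card_le_card this
  | succ t ih =>
    show (Lower_supp (conv (thorpLaw m) (convPow (thorpLaw m) t))).card ≤ _
    refine (Lower_card_conv _ _).trans ?_
    calc _ ≤ 2 ^ m * 2 ^ (m * t) := Nat.mul_le_mul (Lower_card_thorp m) ih
      _ = 2 ^ (m * (t + 1)) := by
        rw [← pow_add]
        congr 1
        ring

/-- The law of no shuffle is far from uniform. -/
theorem Lower_tv_zero (m : ℕ) (hm : 1 ≤ m) : 1 / 4 < tvUnif (convPow (thorpLaw m) 0) := by
  classical
  have hN : (2 : ℝ) ≤ Fintype.card (Equiv.Perm (Fin (2 * m))) := by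
    have h1 : 2 ≤ Fintype.card (Equiv.Perm (Fin (2 * m))) := by
      rw [Fintype.card_perm, Fintype.card_fin]
      calc 2 = Nat.factorial 2 := rfl
        _ ≤ Nat.factorial (2 * m) := Nat.factorial_le (by omega)
    exact_mod_cast h1
  unfold tvUnif
  have h2 : (1 : ℝ) / Fintype.card (Equiv.Perm (Fin (2 * m))) ≤ 1 / 2 := by
    exact one_div_le_one_div_of_le (by norm_num) hN
  have h3 : convPow (thorpLaw m) 0 (1 : Equiv.Perm (Fin (2 * m))) = 1 := by
    simp [convPow]
  have h4 : (1 : ℝ) / 2 ≤ |1 - 1 / (Fintype.card (Equiv.Perm (Fin (2 * m))) : ℝ)| := by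
    rw [abs_of_nonneg (by linarith)]
    linarith
  have hab : (⟨0, by omega⟩ : Fin (2 * m)) ≠ ⟨1, by omega⟩ := by simp [Fin.ext_iff]
  set g₀ : Equiv.Perm (Fin (2 * m)) := Equiv.swap ⟨0, by omega⟩ ⟨1, by omega⟩ with hg₀
  have hg₀1 : g₀ ≠ 1 := by
    intro h
    have h9 := congrArg (fun g : Equiv.Perm (Fin (2 * m)) => g ⟨0, by omega⟩) h
    simp only [hg₀, Equiv.swap_apply_left, Equiv.Perm.coe_one, id_eq] at h9
    exact hab h9.symm
  have h6 : ∑ g ∈ ({1, g₀} : Finset (Equiv.Perm (Fin (2 * m)))),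
        |convPow (thorpLaw m) 0 g - 1 / (Fintype.card (Equiv.Perm (Fin (2 * m))) : ℝ)| ≤
      ∑ g : Equiv.Perm (Fin (2 * m)), |convPow (thorpLaw m) 0 g - 1 / (Fintype.card (Equiv.Perm (Fin (2 * m))) : ℝ)| :=
    Finset.sum_le_sum_of_subset_of_nonneg (Finset.subset_univ _) (fun g _ _ => abs_nonneg _)
  rw [Finset.sum_pair hg₀1.symm, h3] at h6
  have h7 : convPow (thorpLaw m) 0 g₀ = 0 := by
    simp [convPow, hg₀1]
  rw [h7, zero_sub, abs_neg] at h6
  have h8 : (0 : ℝ) < |1 / (Fintype.card (Equiv.Perm (Fin (2 * m))) : ℝ)| := by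
    rw [abs_pos]
    have : (0 : ℝ) < Fintype.card (Equiv.Perm (Fin (2 * m))) := by linarith
    positivity
  linarith

/-- The lower bound. -/
theorem tmix_lower (d : ℕ) : d + 1 ≤ 2 * tmix (2 ^ d) := by
  classical
  set m := 2 ^ d with hm
  have hm1 : 1 ≤ m := Nat.one_le_two_pow
  set t := tmix m with ht
  have hne : {t : ℕ | tvUnif (convPow (thorpLaw m) t) ≤ 1 / 4}.Nonempty := ⟨_, thorp_tv d⟩
  have hmem : tvUnif (convPow (thorpLaw m) t) ≤ 1 / 4 := Nat.sInf_mem hne
  have ht1 : 1 ≤ t := by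
    by_contra h
    have h0 : t = 0 := by omega
    rw [h0] at hmem
    exact absurd hmem (not_le.mpr (Lower_tv_zero m hm1))
  by_cases hd : d ≤ 1
  · omega
  have hd2 : 2 ≤ d := by omega
  by_contra hcon
  have h2t : 2 * t ≤ d := by omega
  have h1 := Lower_tv_ge (convPow (thorpLaw m) t)
  have h2 := Lower_card_pow m t
  have hN : (Fintype.card (Equiv.Perm (Fin (2 * m))) : ℝ) = ((2 * m).factorial : ℝ) := by
    rw [Fintype.card_perm, Fintype.card_fin]
  have hfac : (m + 1) ^ m ≤ (2 * m).factorial := by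
    have := Nat.factorial_mul_pow_le_factorial (m := m) (n := m)
    have h3 : 1 ≤ m.factorial := Nat.factorial_pos m
    rw [two_mul]
    calc (m + 1) ^ m ≤ m.factorial * (m + 1) ^ m := Nat.le_mul_of_pos_left _ h3
      _ ≤ _ := this
  have hpow : 2 ^ (d * m) ≤ (2 * m).factorial := by
    refine le_trans ?_ hfac
    rw [pow_mul, ← hm]
    exact Nat.pow_le_pow_left (by omega) m
  have hNpos : (0 : ℝ) < ((2 * m).factorial : ℝ) := by exact_mod_cast Nat.factorial_pos _
  have h3 : ((2 * m).factorial : ℝ) / 2 ≤ ((Lower_supp (convPow (thorpLaw m) t)).card : ℝ) := by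
    have h4 : (1 / 2 : ℝ) * (1 - ((Lower_supp (convPow (thorpLaw m) t)).card : ℝ) / ((2 * m).factorial : ℝ)) ≤ 1 / 4 := by
      rw [← hN]
      exact h1.trans hmem
    have h5 : (1 / 2 : ℝ) ≤ ((Lower_supp (convPow (thorpLaw m) t)).card : ℝ) / ((2 * m).factorial : ℝ) := by
      linarith
    rw [le_div_iff₀ hNpos] at h5
    linarith
  have h4 : (2 * m).factorial ≤ 2 ^ (m * t + 1) := by
    have h5 : ((2 * m).factorial : ℝ) ≤ ((2 ^ (m * t + 1) : ℕ) : ℝ) := by
      have h6 : ((Lower_supp (convPow (thorpLaw m) t)).card : ℝ) ≤ ((2 ^ (m * t) : ℕ) : ℝ) := by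
        exact_mod_cast h2
      push_cast at h6 ⊢
      rw [pow_succ]
      linarith
    exact_mod_cast h5
  have h5 : d * m ≤ m * t + 1 :=
    (Nat.pow_le_pow_iff_right (by norm_num)).mp (hpow.trans h4)
  have hm4 : 4 ≤ m := by
    rw [hm]
    calc 4 = 2 ^ 2 := by norm_num
      _ ≤ 2 ^ d := Nat.pow_le_pow_right (by norm_num) hd2
  nlinarith

end Vale.Agent.P162O
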